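import Crest.Agent.H9.KD4

/-! KS-E: the commutator estimate (S0165) from the uniform theorem. -/

set_option autoImplicit false
open scoped InnerProductSpace
open Crest.Agent.H2.KS Crest.Agent.H9.KD

namespace Crest.Agent.H9.KE

universe u

variable {K : Type u} [NormedAddCommGroup K] [InnerProductSpace ℂ K] [CompleteSpace K]

/-- `Z` placed in the matrix position `(k, l)`. -/
noncomputable def pos (k l : Fin 2) (Z : K →L[ℂ] K) :
    PiLp 2 (fun _ : Fin 2 => K) →L[ℂ] PiLp 2 (fun _ : Fin 2 => K) :=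
  (PiLp.continuousLinearEquiv 2 ℂ (fun _ : Fin 2 => K)).symm.toContinuousLinearMap ∘L
    ContinuousLinearMap.single ℂ (fun _ : Fin 2 => K) k ∘L Z ∘L
      PiLp.proj 2 (fun _ : Fin 2 => K) l

omit [CompleteSpace K] in
lemma pos_apply (k l : Fin 2) (Z : K →L[ℂ] K) (ζ : PiLp 2 (fun _ : Fin 2 => K)) :
    pos k l Z ζ = PiLp.single 2 k (Z (ζ l)) := rfl

omit [CompleteSpace K] in
lemma inner_single_left' (k : Fin 2) (x : K) (ζ : PiLp 2 (fun _ : Fin 2 => K)) :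
    ⟪(PiLp.single 2 k x : PiLp 2 (fun _ : Fin 2 => K)), ζ⟫_ℂ = ⟪x, ζ k⟫_ℂ := by
  rw [PiLp.inner_apply, Finset.sum_eq_single k]
  · simp
  · intro j _ hj; simp [hj]
  · simp

lemma star_pos (k l : Fin 2) (Z : K →L[ℂ] K) : star (pos k l Z) = pos l k (star Z) := by
  symm
  rw [ContinuousLinearMap.star_eq_adjoint, ContinuousLinearMap.star_eq_adjoint,
    ContinuousLinearMap.eq_adjoint_iff]
  intro x y
  rw [pos_apply, pos_apply, inner_single_left', ← inner_conj_symm x, inner_single_left',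
    inner_conj_symm, ContinuousLinearMap.adjoint_inner_left]

/-- The set whose commutant is the diagonal copy of `P`. -/
def Ct (P : VonNeumannAlgebra K) : Set (PiLp 2 (fun _ : Fin 2 => K) →L[ℂ]
    PiLp 2 (fun _ : Fin 2 => K)) :=
  {T | (∃ k l, T = pos k l 1) ∨ ∃ c ∈ P.commutant, T = amp (K := K) (Fin 2) c}

lemma Ct_star (P : VonNeumannAlgebra K) : ∀ c ∈ Ct P, star c ∈ Ct P := by
  rintro _ (⟨k, l, rfl⟩ | ⟨c, hc, rfl⟩)
  · exact Or.inl ⟨l, k, by rw [star_pos, star_one]⟩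
  · exact Or.inr ⟨star c, star_mem hc, (map_star _ _).symm⟩

lemma amp_mem (P : VonNeumannAlgebra K) (a : K →L[ℂ] K) (ha : a ∈ P) :
    amp (K := K) (Fin 2) a ∈ (Ct P).centralizer := by
  rintro _ (⟨k, l, rfl⟩ | ⟨c, hc, rfl⟩)
  · ext ζ i
    simp only [mul_apply_eq_comp, pos_apply, amp_apply, one_apply_eq_self, PiLp.single_apply]
    split_ifs <;> simp
  · rw [← map_mul, ← map_mul, VonNeumannAlgebra.mem_commutant_iff.mp hc a ha]

lemma exists_of_mem (P : VonNeumannAlgebra K) (T) (hT : T ∈ (Ct P).centralizer) :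
    ∃ a ∈ P, T = amp (K := K) (Fin 2) a ∧ ‖a‖ ≤ ‖T‖ := by
  let a : K →L[ℂ] K := PiLp.proj 2 (fun _ : Fin 2 => K) 0 ∘L T ∘L
    (PiLp.continuousLinearEquiv 2 ℂ (fun _ : Fin 2 => K)).symm.toContinuousLinearMap ∘L
      ContinuousLinearMap.single ℂ (fun _ : Fin 2 => K) 0
  have ha : ∀ x, a x = T (PiLp.single 2 0 x) 0 := fun x => rfl
  have hTa : T = amp (K := K) (Fin 2) a := by
    ext ζ k
    have := congrArg (fun R : PiLp 2 (fun _ : Fin 2 => K) →L[ℂ]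
      PiLp 2 (fun _ : Fin 2 => K) => R ζ 0)
      (hT _ (Or.inl ⟨0, k, rfl⟩))
    simpa [pos_apply, ha] using this
  refine ⟨a, ?_, hTa, ?_⟩
  · rw [← P.commutant_commutant, VonNeumannAlgebra.mem_commutant_iff]
    intro c hc
    have := hT _ (Or.inr ⟨c, hc, rfl⟩)
    rw [hTa, ← map_mul, ← map_mul] at this
    ext x
    have h2 := congrArg (fun R : PiLp 2 (fun _ : Fin 2 => K) →L[ℂ] PiLp 2 (fun _ : Fin 2 => K) =>
      R (PiLp.single 2 0 x) 0) this
    simpa using h2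
  · refine a.opNorm_le_bound (norm_nonneg _) fun x => ?_
    rw [ha]
    refine (PiLp.norm_apply_le _ _).trans ((T.le_opNorm _).trans ?_)
    rw [PiLp.norm_single]

lemma single_pos (P : VonNeumannAlgebra K) (k l : Fin 2) (hkl : l ≠ k) (Z : K →L[ℂ] K)
    (hZ : ∀ a ∈ P, ‖Z * a - a * Z‖ ≤ ‖a‖) :
    ∀ T ∈ (Ct P).centralizer, ∀ ζ, ‖(1 + pos k l Z) (T ζ)‖ ≤ 2 * ‖T‖ * ‖(1 + pos k l Z) ζ‖ := by
  intro T hT ζ
  obtain ⟨a, ha, hTa, hn⟩ := exists_of_mem P T hT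
  have e1 : (1 + pos k l Z) (T ζ) =
      T ((1 + pos k l Z) ζ) + PiLp.single 2 k ((Z * a - a * Z) (ζ l)) := by
    rw [hTa]
    ext i
    simp only [_root_.add_apply, one_apply_eq_self, pos_apply, amp_apply, PiLp.add_apply,
      PiLp.single_apply, map_add, _root_.sub_apply, mul_apply_eq_comp]
    split_ifs <;> simp
  have e2 : ζ l = (1 + pos k l Z) ζ l := by
    simp [pos_apply, hkl]
  rw [e1]
  refine (norm_add_le _ _).trans ?_
  rw [PiLp.norm_single]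
  have n1 := T.le_opNorm ((1 + pos k l Z) ζ)
  have n2 : ‖(Z * a - a * Z) (ζ l)‖ ≤ ‖T‖ * ‖(1 + pos k l Z) ζ‖ := by
    refine ((Z * a - a * Z).le_opNorm _).trans (mul_le_mul ((hZ a ha).trans hn) ?_
      (norm_nonneg _) (norm_nonneg _))
    rw [e2]
    exact PiLp.norm_apply_le _ _
  linarith

theorem core (hU : ThmU.{u, u}) (P : VonNeumannAlgebra K) (Y : K →L[ℂ] K)
    (hY : ∀ a ∈ P, ‖Y * a - a * Y‖ ≤ ‖a‖) (h : ℕ) (x : Fin h → Fin h → (K →L[ℂ] K))
    (hx : ∀ i j, x i j ∈ P)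
    (hc : ∀ ξ : Fin h → K, ∑ i, ‖∑ j, x i j (ξ j)‖ ^ 2 ≤ ∑ j, ‖ξ j‖ ^ 2) (ξ η : Fin h → K) :
    ‖∑ i, ∑ j, ⟪η i, Y (x i j (ξ j)) - x i j (Y (ξ j))⟫_ℂ‖ ≤
      Phi 2 * √(∑ j, ‖ξ j‖ ^ 2) * √(∑ i, ‖η i‖ ^ 2) := by
  have hY' : ∀ a ∈ P, ‖(-star Y) * a - a * (-star Y)‖ ≤ ‖a‖ := by
    intro a ha
    have := hY (star a) (star_mem ha)
    rw [← norm_star, norm_star a] at this
    refine le_of_eq_of_le ?_ this
    congr 1
    simp only [star_sub, star_mul, star_star, neg_mul, mul_neg]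
    abel
  have hpair : ∀ η ζ : PiLp 2 (fun _ : Fin 2 => K),
      ⟪(1 + pos 1 0 (-star Y)) η, (1 + pos 0 1 Y) ζ⟫_ℂ = ⟪η, ζ⟫_ℂ := by
    intro η ζ
    simp [pos_apply, PiLp.inner_apply, Fin.sum_univ_two,
      ContinuousLinearMap.star_eq_adjoint, ContinuousLinearMap.adjoint_inner_left]
  have hub := hU _ _ (Ct P) (Ct_star P) (1 + pos 0 1 Y) (1 + pos 1 0 (-star Y)) 2 (by norm_num)
    (single_pos P 0 1 (by decide) Y hY) (single_pos P 1 0 (by decide) _ hY') (by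
      intro a _ ζ η
      rw [hpair, hpair, ContinuousLinearMap.star_eq_adjoint,
        ContinuousLinearMap.adjoint_inner_left])
  have := hub h (fun i j => amp (K := K) (Fin 2) (x i j)) (fun i j => amp_mem P _ (hx i j))
    (fun ζ => by
      simp only [PiLp.norm_sq_eq_of_L2]
      rw [Finset.sum_comm, Finset.sum_comm (s := Finset.univ (α := Fin h))]
      refine Finset.sum_le_sum fun s _ => ?_
      simpa using hc (fun j => ζ j s))
    (fun j => WithLp.toLp 2 ![-Y (ξ j), ξ j]) (fun i => WithLp.toLp 2 ![η i, star Y (η i)])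
  have e1 : ∀ j, ‖(1 + pos 0 1 Y) (WithLp.toLp 2 ![-Y (ξ j), ξ j])‖ ^ 2 = ‖ξ j‖ ^ 2 := fun j => by
    simp [PiLp.norm_sq_eq_of_L2, pos_apply]
  have e2 : ∀ i, ‖(1 + pos 1 0 (-star Y)) (WithLp.toLp 2 ![η i, star Y (η i)])‖ ^ 2 =
      ‖η i‖ ^ 2 := fun i => by
    simp [PiLp.norm_sq_eq_of_L2, pos_apply]
  simp only [hpair, e1, e2] at this
  refine le_of_eq_of_le ?_ this
  congr 1
  refine Finset.sum_congr rfl fun i _ => Finset.sum_congr rfl fun j _ => ?_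
  simp [PiLp.inner_apply, ContinuousLinearMap.star_eq_adjoint,
    ContinuousLinearMap.adjoint_inner_left]
  ring

theorem s0165_of_thmU (hU : ThmU.{u, u}) :
    ∃ C : ℝ, ∀ (K : Type u) [NormedAddCommGroup K] [InnerProductSpace ℂ K] [CompleteSpace K]
      (P : VonNeumannAlgebra K) (Y : K →L[ℂ] K) (g : ℝ),
      (∀ a ∈ P, ‖Y * a - a * Y‖ ≤ g * ‖a‖) →
      ∀ (h : ℕ), 1 ≤ h →
        ∀ (Yh X : PiLp 2 (fun _ : Fin h => K) →L[ℂ] PiLp 2 (fun _ : Fin h => K))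
          (x : Fin h → Fin h → (K →L[ℂ] K)),
          (∀ (v : PiLp 2 (fun _ : Fin h => K)) (i : Fin h), Yh v i = Y (v i)) →
          (∀ i j, x i j ∈ P) →
          (∀ (v : PiLp 2 (fun _ : Fin h => K)) (i : Fin h), X v i = ∑ j, x i j (v j)) →
          ‖Yh * X - X * Yh‖ ≤ C * g * ‖X‖ := by
  refine ⟨Phi 2, fun K _ _ _ P Y g hg h _ Yh X x hYh hx hX => ?_⟩
  have hΦ : 0 ≤ Phi 2 := by unfold Phi Cc; positivity
  rcases lt_or_ge g 0 with hg0 | hg0
  · have hx0 : ∀ i j, x i j = 0 := fun i j => by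
      have := (norm_nonneg _).trans (hg _ (hx i j))
      by_contra hne
      have := mul_neg_of_neg_of_pos hg0 (norm_pos_iff.mpr hne)
      linarith
    have : X = 0 := by ext v i; simp [hX, hx0]
    simp [this]
  have key : ∀ ε : ℝ, 0 < ε → ‖Yh * X - X * Yh‖ ≤ Phi 2 * (g + ε) * (‖X‖ + ε) := by
    intro ε hε
    have h1 : 0 < g + ε := by linarith
    have h2 : 0 < ‖X‖ + ε := by positivity
    refine ContinuousLinearMap.opNorm_le_bound _ (by positivity) fun ξ => ?_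
    set D := (Yh * X - X * Yh) ξ with hD
    have := core hU P ((((g + ε)⁻¹ : ℝ) : ℂ) • Y) (fun a ha => by
      rw [smul_mul_assoc, mul_smul_comm, ← smul_sub, norm_smul, Complex.norm_real,
        Real.norm_of_nonneg (by positivity), inv_mul_le_iff₀ h1]
      refine (hg a ha).trans (mul_le_mul_of_nonneg_right (by linarith) (norm_nonneg _))) h
      (fun i j => (((‖X‖ + ε)⁻¹ : ℝ) : ℂ) • x i j) (fun i j => P.toStarSubalgebra.smul_mem (hx i j) _)
      (fun ζ => by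
        have e1 : ∑ j, ‖ζ j‖ ^ 2 = ‖(WithLp.toLp 2 ζ : PiLp 2 (fun _ : Fin h => K))‖ ^ 2 := by
          rw [PiLp.norm_sq_eq_of_L2]
        have e2 : ∑ i, ‖∑ j, ((((‖X‖ + ε)⁻¹ : ℝ) : ℂ) • x i j) (ζ j)‖ ^ 2 =
            ‖(((‖X‖ + ε)⁻¹ : ℝ) : ℂ) • X (WithLp.toLp 2 ζ)‖ ^ 2 := by
          rw [PiLp.norm_sq_eq_of_L2]
          refine Finset.sum_congr rfl fun i _ => ?_
          simp only [PiLp.smul_apply, hX, _root_.smul_apply, Finset.smul_sum]
        rw [e1, e2]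
        refine pow_le_pow_left₀ (norm_nonneg _) ?_ 2
        rw [norm_smul, Complex.norm_real, Real.norm_of_nonneg (by positivity), inv_mul_le_iff₀ h2]
        exact (X.le_opNorm _).trans (mul_le_mul_of_nonneg_right (by linarith) (norm_nonneg _)))
      (fun j => ξ j) (fun i => D i)
    have e3 : ∑ i, ∑ j, ⟪D i, ((((g + ε)⁻¹ : ℝ) : ℂ) • Y)
        (((((‖X‖ + ε)⁻¹ : ℝ) : ℂ) • x i j) (ξ j)) - ((((‖X‖ + ε)⁻¹ : ℝ) : ℂ) • x i j)
          (((((g + ε)⁻¹ : ℝ) : ℂ) • Y) (ξ j))⟫_ℂ =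
        (((g + ε)⁻¹ * (‖X‖ + ε)⁻¹ * ‖D‖ ^ 2 : ℝ) : ℂ) := by
      have : ((‖D‖ ^ 2 : ℝ) : ℂ) = ⟪D, D⟫_ℂ := by rw [inner_self_eq_norm_sq_to_K]; simp
      rw [Complex.ofReal_mul, this, PiLp.inner_apply, Finset.mul_sum]
      refine Finset.sum_congr rfl fun i _ => ?_
      have hDi : D i = ∑ j, (Y (x i j (ξ j)) - x i j (Y (ξ j))) := by
        simp only [hD, _root_.sub_apply, mul_apply_eq_comp, PiLp.sub_apply, hYh, hX, map_sum,
          Finset.sum_sub_distrib]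
      conv_rhs => rw [← inner_smul_right]; rhs; rw [hDi, Finset.smul_sum]
      rw [inner_sum]
      refine Finset.sum_congr rfl fun j _ => ?_
      congr 1
      simp only [_root_.smul_apply, map_smul, smul_smul, smul_sub, Complex.ofReal_mul,
        mul_comm]
    rw [e3, ← PiLp.norm_sq_eq_of_L2, ← PiLp.norm_sq_eq_of_L2, Real.sqrt_sq (norm_nonneg _),
      Real.sqrt_sq (norm_nonneg _), Complex.norm_real, Real.norm_of_nonneg (by positivity),
      mul_assoc, inv_mul_le_iff₀ h1, inv_mul_le_iff₀ h2] at this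
    rcases eq_or_lt_of_le (norm_nonneg D) with h0 | h0
    · rw [← h0]; positivity
    refine le_of_mul_le_mul_left ?_ h0
    nlinarith
  have hlim : Filter.Tendsto (fun ε : ℝ => Phi 2 * (g + ε) * (‖X‖ + ε))
      (nhdsWithin 0 (Set.Ioi 0)) (nhds (Phi 2 * (g + 0) * (‖X‖ + 0))) :=
    (Continuous.tendsto (by fun_prop) 0).mono_left nhdsWithin_le_nhds
  have := ge_of_tendsto hlim (eventually_nhdsWithin_of_forall key)
  simpa using this

end Crest.Agent.H9.KE
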