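import Crest.Agent.H9.KD2

/-! KS-D, part 3: bicommutant and a weak Kaplansky density theorem. -/

set_option autoImplicit false
open scoped InnerProductSpace ComplexOrder ComplexStarModule

namespace Crest.Agent.H9.KD

variable {A : Type*} [CStarAlgebra A]
variable {K : Type*} [NormedAddCommGroup K] [InnerProductSpace ℂ K] [CompleteSpace K]

theorem bicomm_fun (ρ : A →⋆ₐ[ℂ] (K →L[ℂ] K)) {ι : Type*} [Fintype ι] (ζ η : ι → K)
    (h : ∀ b, ∑ k, ⟪η k, ρ b (ζ k)⟫_ℂ = 0) (a : K →L[ℂ] K)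
    (ha : a ∈ (Set.range ρ).centralizer.centralizer) : ∑ k, ⟪η k, a (ζ k)⟫_ℂ = 0 := by
  classical
  let X := PiLp 2 (fun _ : ι => K)
  let z : X := WithLp.toLp 2 ζ
  let y : X := WithLp.toLp 2 η
  let σ : A →⋆ₐ[ℂ] (X →L[ℂ] X) := (amp (K := K) ι).comp ρ
  let L : A →ₗ[ℂ] X := (ContinuousLinearMap.apply ℂ X z).toLinearMap ∘ₗ
    (σ : A →ₐ[ℂ] (X →L[ℂ] X)).toLinearMap
  have hL : ∀ b, L b = σ b z := fun b => rfl
  let V : Submodule ℂ X := (LinearMap.range L).topologicalClosure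
  haveI : CompleteSpace V := (LinearMap.range L).isClosed_topologicalClosure.completeSpace_coe
  have hinv : ∀ b, ∀ v ∈ V, σ b v ∈ V := by
    intro b v hv
    have hv' : v ∈ closure (LinearMap.range L : Set X) := hv
    refine map_mem_closure (σ b).continuous hv' ?_
    rintro _ ⟨c, rfl⟩
    exact ⟨b * c, by rw [hL, hL, map_mul]; rfl⟩
  have hcomm : ∀ b x, V.starProjection (σ b x) = σ b (V.starProjection x) := by
    intro b x
    refine Submodule.eq_starProjection_of_mem_of_inner_eq_zero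
      (hinv b _ (V.starProjection_apply_mem x)) fun w hw => ?_
    rw [← map_sub, ← ContinuousLinearMap.adjoint_inner_right,
      ← ContinuousLinearMap.star_eq_adjoint, ← map_star]
    exact V.starProjection_inner_eq_zero x _ (hinv _ w hw)
  let inc : ι → (K →L[ℂ] X) := fun l =>
    (PiLp.continuousLinearEquiv 2 ℂ (fun _ : ι => K)).symm.toContinuousLinearMap ∘L
      ContinuousLinearMap.single ℂ (fun _ : ι => K) l
  have hinc : ∀ l x, inc l x = PiLp.single 2 l x := fun l x => rfl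
  let p : ι → ι → (K →L[ℂ] K) := fun k l =>
    PiLp.proj 2 (fun _ : ι => K) k ∘L V.starProjection ∘L inc l
  have hp : ∀ k l x, p k l x = V.starProjection (inc l x) k := fun k l x => rfl
  have hpC : ∀ k l, p k l ∈ (Set.range ρ).centralizer := by
    rintro k l _ ⟨b, rfl⟩
    ext x
    have h1 : inc l (ρ b x) = σ b (inc l x) := by
      ext i
      show (PiLp.single 2 l (ρ b x) : X) i = ρ b ((PiLp.single 2 l x : X) i)
      by_cases hi : i = l
      · subst hi; simp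
      · simp [hi]
    show ρ b (p k l x) = p k l (ρ b x)
    rw [hp, hp, h1, hcomm]
    rfl
  have hdec : ∀ x : X, x = ∑ l, inc l (x l) := by
    intro x
    ext i
    simp only [hinc]
    rw [show (∑ l, (PiLp.single 2 l (x l) : X)) i = ∑ l, (PiLp.single 2 l (x l) : X) i from by
      simp]
    rw [Finset.sum_eq_single i]
    · simp
    · intro j _ hj; exact PiLp.single_eq_of_ne' _ hj _
    · simp
  have hpx : ∀ (x : X) k, V.starProjection x k = ∑ l, p k l (x l) := by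
    intro x k
    conv_lhs => rw [hdec x, map_sum]
    simp [X, hp]
  have hz : V.starProjection z = z := by
    rw [Submodule.starProjection_eq_self_iff]
    refine Submodule.le_topologicalClosure _ ⟨1, ?_⟩
    rw [hL, map_one]; rfl
  have haz : V.starProjection (amp (K := K) ι a z) = amp (K := K) ι a z := by
    ext k
    rw [hpx]
    conv_rhs => rw [← hz]
    rw [amp_apply, hpx, map_sum]
    refine Finset.sum_congr rfl fun l _ => ?_
    have := ha _ (hpC k l)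
    exact congrArg (fun T : K →L[ℂ] K => T (z l)) this
  have hmem : amp (K := K) ι a z ∈ closure (LinearMap.range L : Set X) := by
    have : amp (K := K) ι a z ∈ V := by rw [← haz]; exact V.starProjection_apply_mem _
    exact this
  have hcl : closure (LinearMap.range L : Set X) ⊆ {w | ⟪y, w⟫_ℂ = 0} := by
    refine closure_minimal ?_ (isClosed_eq (by fun_prop) continuous_const)
    rintro _ ⟨b, rfl⟩
    exact h b
  exact hcl hmem

theorem sa_approx (ρ : A →⋆ₐ[ℂ] (K →L[ℂ] K)) (a : K →L[ℂ] K)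
    (ha : a ∈ (Set.range ρ).centralizer.centralizer) (hsa : IsSelfAdjoint a) (ζ : K) :
    a ζ ∈ closure {w | ∃ b, IsSelfAdjoint b ∧ w = ρ b ζ} := by
  by_contra hn
  have hconv : Convex ℝ {w | ∃ b, IsSelfAdjoint b ∧ w = ρ b ζ} := by
    rintro _ ⟨b, hb, rfl⟩ _ ⟨c, hc, rfl⟩ s t _ _ _
    refine ⟨(s : ℂ) • b + (t : ℂ) • c, ?_, by
      rw [map_add, map_smul, map_smul, _root_.add_apply, _root_.smul_apply, _root_.smul_apply,
        Complex.coe_smul, Complex.coe_smul]⟩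
    refine IsSelfAdjoint.add (IsSelfAdjoint.smul ?_ hb) (IsSelfAdjoint.smul ?_ hc) <;>
      exact Complex.conj_ofReal _
  obtain ⟨f, u, hf, hu⟩ := RCLike.geometric_hahn_banach_closed_point (𝕜 := ℂ)
    hconv.closure isClosed_closure hn
  obtain ⟨η, rfl⟩ := (InnerProductSpace.toDual ℂ K).surjective f
  simp only [InnerProductSpace.toDual_apply_apply, RCLike.re_to_complex] at hf hu
  have hu0 : 0 < u := by
    have := hf 0 (subset_closure ⟨0, IsSelfAdjoint.zero _, by simp⟩)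
    simpa using this
  have h0 : ∀ b, IsSelfAdjoint b → (⟪η, ρ b ζ⟫_ℂ).re = 0 := by
    intro b hb
    by_contra hne
    have := hf (ρ (((u / (⟪η, ρ b ζ⟫_ℂ).re : ℝ) : ℂ) • b) ζ) (subset_closure
      ⟨_, IsSelfAdjoint.smul (Complex.conj_ofReal _) hb, rfl⟩)
    rw [map_smul, _root_.smul_apply, inner_smul_right, Complex.re_ofReal_mul,
      div_mul_cancel₀ _ hne] at this
    exact lt_irrefl _ this
  have key : ∀ T : K →L[ℂ] K, IsSelfAdjoint T →
      ⟪η, T ζ⟫_ℂ + ⟪ζ, T η⟫_ℂ = ((2 * (⟪η, T ζ⟫_ℂ).re : ℝ) : ℂ) := by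
    intro T hT
    have : ⟪ζ, T η⟫_ℂ = (starRingEnd ℂ) ⟪η, T ζ⟫_ℂ := by
      rw [inner_conj_symm, ← ContinuousLinearMap.adjoint_inner_left,
        ← ContinuousLinearMap.star_eq_adjoint, hT.star_eq]
    rw [this, Complex.add_conj]
  have h1 : ∀ b, IsSelfAdjoint b → ⟪η, ρ b ζ⟫_ℂ + ⟪ζ, ρ b η⟫_ℂ = 0 := by
    intro b hb
    rw [key _ (hb.map ρ), h0 b hb]; simp
  have h2 := bicomm_fun ρ (ι := Fin 2) ![ζ, η] ![η, ζ] (fun b => by
    have e1 := h1 _ (ℜ b).2
    have e2 := h1 _ (ℑ b).2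
    rw [← realPart_add_I_smul_imaginaryPart b]
    simp only [Fin.sum_univ_two, Matrix.cons_val_zero, Matrix.cons_val_one, map_add, map_smul,
      _root_.add_apply, _root_.smul_apply, inner_add_right,
      inner_smul_right]
    linear_combination e1 + Complex.I * e2) a ha
  simp only [Fin.sum_univ_two, Matrix.cons_val_zero, Matrix.cons_val_one] at h2
  rw [key a hsa] at h2
  have : (⟪η, a ζ⟫_ℂ).re = 0 := by
    have h3 : (2 * (⟪η, a ζ⟫_ℂ).re : ℝ) = 0 := by exact_mod_cast h2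
    linarith
  linarith

theorem exists_resolvent {B : Type*} [CStarAlgebra B] (b : B) (hb : IsSelfAdjoint b) (c : ℂ)
    (hc : |c.im| = 1) :
    ∃ r : B, r * (b + c • 1) = 1 ∧ (b + c • 1) * r = 1 ∧ ‖r‖ ≤ 1 := by
  have hn : IsStarNormal b := hb.isStarNormal
  have hge : ∀ z ∈ spectrum ℂ b, 1 ≤ ‖z + c‖ := by
    intro z hz
    have := Complex.abs_im_le_norm (z + c)
    rwa [Complex.add_im, hb.im_eq_zero_of_mem_spectrum hz, zero_add, hc] at this
  have hne : ∀ z ∈ spectrum ℂ b, z + c ≠ 0 := by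
    intro z hz h0
    have := hge z hz
    rw [h0, norm_zero] at this
    linarith
  have hcont : ContinuousOn (fun z : ℂ => (z + c)⁻¹) (spectrum ℂ b) :=
    ContinuousOn.inv₀ (by fun_prop) hne
  have he : b + c • (1 : B) = cfc (fun z : ℂ => z + c) b := by
    rw [cfc_add_const c _ b, cfc_id' ℂ b, Algebra.algebraMap_eq_smul_one]
  refine ⟨cfc (fun z : ℂ => (z + c)⁻¹) b, ?_, ?_, ?_⟩
  · rw [he, ← cfc_mul _ _ b, ← cfc_one ℂ b]
    exact cfc_congr fun z hz => inv_mul_cancel₀ (hne z hz)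
  · rw [he, ← cfc_mul _ _ b, ← cfc_one ℂ b]
    exact cfc_congr fun z hz => mul_inv_cancel₀ (hne z hz)
  · refine norm_cfc_le zero_le_one fun z hz => ?_
    rw [norm_inv]
    exact inv_le_one_of_one_le₀ (hge z hz)

variable {H : Type*} [NormedAddCommGroup H] [InnerProductSpace ℂ H]

theorem resolvent_bound (ρ : A →⋆ₐ[ℂ] (K →L[ℂ] K)) (S : K →L[ℂ] H) (κ : ℝ) (hκ : 0 ≤ κ)
    (hS : ∀ b ζ, ‖S (ρ b ζ)‖ ≤ κ * ‖b‖ * ‖S ζ‖) (a : K →L[ℂ] K)
    (ha : a ∈ (Set.range ρ).centralizer.centralizer) (hsa : IsSelfAdjoint a) (c : ℂ)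
    (hc : |c.im| = 1) (R : K →L[ℂ] K) (hR : (a + c • 1) * R = 1) (ζ : K) :
    ‖S (R ζ)‖ ≤ κ * ‖S ζ‖ := by
  refine le_of_forall_pos_le_add fun ε hε => ?_
  obtain ⟨_, ⟨b, hb, rfl⟩, hd⟩ := Metric.mem_closure_iff.mp (sa_approx ρ a ha hsa (R ζ))
    (ε / (‖S‖ + 1)) (by positivity)
  obtain ⟨r, hr1, -, hr⟩ := exists_resolvent b hb c hc
  have e1 : ρ r (ρ b (R ζ) + c • R ζ) = R ζ := by
    have := congrArg (fun t => ρ t (R ζ)) hr1
    simpa using this
  have e2 : a (R ζ) + c • R ζ = ζ := by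
    have := congrArg (fun t : K →L[ℂ] K => t ζ) hR
    simpa using this
  have e3 : R ζ = ρ r ζ + ρ r (ρ b (R ζ) - a (R ζ)) := by
    rw [← map_add]
    conv_lhs => rw [← e1]
    congr 1
    conv_rhs => lhs; rw [← e2]
    abel
  have hρ : ‖ρ r‖ ≤ 1 := (NonUnitalStarAlgHom.norm_apply_le ρ r).trans hr
  have n1 : ‖S (ρ r ζ)‖ ≤ κ * ‖S ζ‖ := by
    refine (hS r ζ).trans ?_
    have : κ * ‖r‖ ≤ κ := mul_le_of_le_one_right hκ hr
    exact mul_le_mul_of_nonneg_right this (norm_nonneg _)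
  have n2 : ‖S (ρ r (ρ b (R ζ) - a (R ζ)))‖ ≤ ε := by
    rw [dist_comm, dist_eq_norm] at hd
    have h1 : ‖ρ r (ρ b (R ζ) - a (R ζ))‖ ≤ ε / (‖S‖ + 1) := by
      refine ((ρ r).le_opNorm _).trans ?_
      exact (mul_le_of_le_one_left (norm_nonneg _) hρ).trans hd.le
    refine (S.le_opNorm _).trans ?_
    calc ‖S‖ * ‖ρ r (ρ b (R ζ) - a (R ζ))‖ ≤ (‖S‖ + 1) * (ε / (‖S‖ + 1)) :=
          mul_le_mul (by linarith) h1 (norm_nonneg _) (by positivity)
      _ = ε := by field_simp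
  rw [e3, map_add]
  exact (norm_add_le _ _).trans (add_le_add n1 n2)

theorem star_mem_centralizer_range (ρ : A →⋆ₐ[ℂ] (K →L[ℂ] K)) :
    ∀ c ∈ (Set.range ρ).centralizer, star c ∈ (Set.range ρ).centralizer := by
  rintro c hc _ ⟨b, rfl⟩
  have := congrArg star (hc (ρ (star b)) ⟨_, rfl⟩)
  rw [star_mul, star_mul, map_star, star_star] at this
  exact this.symm

theorem sa_bound (ρ : A →⋆ₐ[ℂ] (K →L[ℂ] K)) (S : K →L[ℂ] H) (κ : ℝ) (hκ : 0 ≤ κ)
    (hS : ∀ b ζ, ‖S (ρ b ζ)‖ ≤ κ * ‖b‖ * ‖S ζ‖) (a : K →L[ℂ] K)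
    (ha : a ∈ (Set.range ρ).centralizer.centralizer) (hsa : IsSelfAdjoint a) (h1 : ‖a‖ ≤ 1)
    (ζ : K) : ‖S (a ζ)‖ ≤ 2 * κ * ‖S ζ‖ := by
  let g : ℝ → ℝ := fun t => t / (1 + √(1 - t ^ 2))
  have hg : Continuous g := by
    refine Continuous.div (by fun_prop) (by fun_prop) fun t => ?_
    positivity
  let a' : K →L[ℂ] K := cfc g a
  have ha' : a' ∈ (Set.range ρ).centralizer.centralizer := by
    intro c hc
    exact (Commute.cfc_real (ha c hc).symm g).symm
  have hsa' : IsSelfAdjoint a' := cfc_predicate g a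
  have hid : a * (a' * a' + 1) = a' + a' := by
    have : a * (a' * a' + 1) = cfc (fun t : ℝ => t * (g t * g t + 1)) a := by
      rw [cfc_mul _ _ a, cfc_id' ℝ a, cfc_add a _ _, cfc_mul _ _ a, cfc_const_one ℝ a]
    rw [this, ← cfc_add a _ _]
    refine cfc_congr fun t ht => ?_
    have ht1 : |t| ≤ 1 := by
      rcases subsingleton_or_nontrivial (K →L[ℂ] K) with hs | hs
      · simp [spectrum.of_subsingleton] at ht
      · exact (spectrum.norm_le_norm_of_mem ht).trans h1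
    have h2 : 0 ≤ 1 - t ^ 2 := by nlinarith [abs_nonneg t, sq_abs t]
    have h3 := Real.sq_sqrt h2
    have h4 : 0 < 1 + √(1 - t ^ 2) := by positivity
    simp only [g]
    field_simp
    linear_combination t * h3
  obtain ⟨R₁, hR₁, hR₁', -⟩ := exists_resolvent a' hsa' Complex.I (by simp)
  obtain ⟨R₂, hR₂, hR₂', -⟩ := exists_resolvent a' hsa' (-Complex.I) (by simp)
  have hfac : (a' + Complex.I • 1) * (a' + (-Complex.I) • 1) = a' * a' + 1 := by
    simp only [mul_add, add_mul, smul_mul_assoc, mul_smul_comm, one_mul, mul_one, smul_smul,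
      neg_smul, mul_neg, smul_neg, Complex.I_mul_I, one_smul, smul_add, neg_add_rev, neg_neg]
    abel
  have hfac' : (a' + (-Complex.I) • 1) * (a' + Complex.I • 1) = a' * a' + 1 := by
    simp only [mul_add, add_mul, smul_mul_assoc, mul_smul_comm, one_mul, mul_one, smul_smul,
      neg_smul, mul_neg, neg_mul, smul_neg, Complex.I_mul_I, one_smul, smul_add, neg_add_rev,
      neg_neg]
    abel
  have hsum : a = R₁ + R₂ := by
    have e1 : (R₁ + R₂) * (a' * a' + 1) = a' + a' := by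
      rw [add_mul]
      conv_lhs => lhs; rw [← hfac, ← mul_assoc, hR₁, one_mul]
      conv_lhs => rhs; rw [← hfac', ← mul_assoc, hR₂, one_mul]
      rw [neg_smul]; abel
    have e2 : (a' * a' + 1) * (R₂ * R₁) = 1 := by
      rw [← hfac, mul_assoc, ← mul_assoc _ R₂, hR₂', one_mul, hR₁']
    calc a = a * ((a' * a' + 1) * (R₂ * R₁)) := by rw [e2, mul_one]
      _ = (R₁ + R₂) * ((a' * a' + 1) * (R₂ * R₁)) := by rw [← mul_assoc, hid, ← e1, mul_assoc]
      _ = R₁ + R₂ := by rw [e2, mul_one]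
  have n1 := resolvent_bound ρ S κ hκ hS a' ha' hsa' _ (by simp) R₁ hR₁' ζ
  have n2 := resolvent_bound ρ S κ hκ hS a' ha' hsa' _ (by simp) R₂ hR₂' ζ
  rw [hsum, _root_.add_apply, map_add]
  exact (norm_add_le _ _).trans (by linarith)

theorem single_bound (ρ : A →⋆ₐ[ℂ] (K →L[ℂ] K)) (S : K →L[ℂ] H) (κ : ℝ) (hκ : 0 ≤ κ)
    (hS : ∀ b ζ, ‖S (ρ b ζ)‖ ≤ κ * ‖b‖ * ‖S ζ‖) (a : K →L[ℂ] K)
    (ha : a ∈ (Set.range ρ).centralizer.centralizer) (ζ : K) :
    ‖S (a ζ)‖ ≤ 4 * κ * ‖a‖ * ‖S ζ‖ := by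
  have hsa : ∀ b : K →L[ℂ] K, b ∈ (Set.range ρ).centralizer.centralizer → IsSelfAdjoint b →
      ‖S (b ζ)‖ ≤ 2 * κ * ‖b‖ * ‖S ζ‖ := by
    intro b hb hbs
    rcases eq_or_ne b 0 with rfl | hb0
    · simp
    have hn : 0 < ‖b‖ := norm_pos_iff.mpr hb0
    have := sa_bound ρ S κ hκ hS (((‖b‖⁻¹ : ℝ) : ℂ) • b)
      (fun c hc => (Commute.smul_right (hb c hc) _)) (IsSelfAdjoint.smul (Complex.conj_ofReal _) hbs)
      (by rw [norm_smul, Complex.norm_real, norm_inv, norm_norm, inv_mul_cancel₀ hn.ne']) ζ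
    rw [_root_.smul_apply, map_smul, norm_smul, Complex.norm_real, norm_inv,
      norm_norm, inv_mul_le_iff₀ hn] at this
    linarith
  have hstar : star a ∈ (Set.range ρ).centralizer.centralizer := by
    intro c hc
    have := congrArg star (ha _ (star_mem_centralizer_range ρ c hc))
    rw [star_mul, star_mul, star_star] at this
    exact this.symm
  have hre : (ℜ a : K →L[ℂ] K) ∈ (Set.range ρ).centralizer.centralizer := by
    intro c hc
    rw [realPart_apply_coe]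
    exact Commute.smul_right (Commute.add_right (ha c hc) (hstar c hc)) _
  have him : (ℑ a : K →L[ℂ] K) ∈ (Set.range ρ).centralizer.centralizer := by
    intro c hc
    rw [imaginaryPart_apply_coe]
    exact Commute.smul_right (Commute.smul_right (Commute.sub_right (ha c hc) (hstar c hc)) _) _
  have n1 := hsa _ hre (ℜ a).2
  have n2 := hsa _ him (ℑ a).2
  have m1 : ‖(ℜ a : K →L[ℂ] K)‖ ≤ ‖a‖ := realPart.norm_le a
  have m2 : ‖(ℑ a : K →L[ℂ] K)‖ ≤ ‖a‖ := imaginaryPart.norm_le a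
  have e : S (a ζ) = S ((ℜ a : K →L[ℂ] K) ζ) + Complex.I • S ((ℑ a : K →L[ℂ] K) ζ) := by
    conv_lhs => rw [← realPart_add_I_smul_imaginaryPart a]
    simp
  rw [e]
  refine (norm_add_le _ _).trans ?_
  rw [norm_smul, Complex.norm_I, one_mul]
  have k1 : 2 * κ * ‖(ℜ a : K →L[ℂ] K)‖ * ‖S ζ‖ ≤ 2 * κ * ‖a‖ * ‖S ζ‖ := by gcongr
  have k2 : 2 * κ * ‖(ℑ a : K →L[ℂ] K)‖ * ‖S ζ‖ ≤ 2 * κ * ‖a‖ * ‖S ζ‖ := by gcongr
  linarith

end Crest.Agent.H9.KD
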