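import Mathlib

/-! KS-A, part 1: random signs and the self-adjoint column bound. -/

set_option autoImplicit false
open scoped InnerProductSpace

namespace Crest.Agent.H9.KA

variable {A : Type*} [CStarAlgebra A] [PartialOrder A] [StarOrderedRing A]
variable {H : Type*} [NormedAddCommGroup H] [InnerProductSpace ℂ H]

theorem fourth_step (R b : A) (hR : IsSelfAdjoint R) (hb : IsSelfAdjoint b) :
    (R + b) * (R + b) * ((R + b) * (R + b)) + (R - b) * (R - b) * ((R - b) * (R - b)) ≤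
      2 • (R * R * (R * R)) + 2 • (R * 1 * R * (b * b) + b * b * (R * 1 * R) +
        2 • (b * (R * 1 * R) * b) + 2 • (R * (b * b) * R) + b * b * (b * b)) := by
  have h := star_mul_self_nonneg (R * b - b * R)
  rw [star_sub, star_mul, star_mul, hR.star_eq, hb.star_eq] at h
  have h2 := add_nonneg h h
  rw [← sub_nonneg]
  convert h2 using 1
  noncomm_ring

theorem exists_signs (u : A →ₗ[ℂ] H) {ι : Type*} (a : ι → A) (ha : ∀ i, IsSelfAdjoint (a i))
    (s : Finset ι) : ∃ (Ω : Type) (_ : Fintype Ω) (R : Ω → A), 0 < Fintype.card Ω ∧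
      (∀ ω, IsSelfAdjoint (R ω)) ∧
      ∑ ω, ‖u (R ω)‖ ^ 2 = Fintype.card Ω * ∑ i ∈ s, ‖u (a i)‖ ^ 2 ∧
      (∀ x, ∑ ω, R ω * x * R ω = Fintype.card Ω • ∑ i ∈ s, a i * x * a i) ∧
      ∑ ω, R ω * R ω * (R ω * R ω) ≤ Fintype.card Ω •
        ((∑ i ∈ s, a i * 1 * a i) * (∑ i ∈ s, a i * 1 * a i) +
          2 • ∑ i ∈ s, a i * (∑ i ∈ s, a i * 1 * a i) * a i) := by
  classical
  induction s using Finset.induction_on with
  | empty => exact ⟨Unit, inferInstance, fun _ => 0, by simp, by simp, by simp, by simp, by simp⟩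
  | insert j s hj ih =>
    obtain ⟨Ω, _, R, h0, h1, h2, h3, h4⟩ := ih
    refine ⟨Ω ⊕ Ω, inferInstance, Sum.elim (fun ω => R ω + a j) (fun ω => R ω - a j),
      by simp [h0], ?_, ?_, ?_, ?_⟩
    · rintro (ω | ω)
      exacts [(h1 ω).add (ha j), (h1 ω).sub (ha j)]
    · simp only [Fintype.sum_sum_type, Sum.elim_inl, Sum.elim_inr, map_add, map_sub,
        Finset.sum_insert hj, Fintype.card_sum, ← Finset.sum_add_distrib]
      have : ∀ ω, ‖u (R ω) + u (a j)‖ ^ 2 + ‖u (R ω) - u (a j)‖ ^ 2 =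
          2 * ‖u (R ω)‖ ^ 2 + 2 * ‖u (a j)‖ ^ 2 := fun ω => by
        have := parallelogram_law_with_norm ℂ (u (R ω)) (u (a j))
        linarith
      simp only [this, Finset.sum_add_distrib, ← Finset.mul_sum, h2, Finset.sum_const,
        Finset.card_univ, nsmul_eq_mul]
      push_cast; ring
    · intro x
      simp only [Fintype.sum_sum_type, Sum.elim_inl, Sum.elim_inr,
        Finset.sum_insert hj, Fintype.card_sum, ← Finset.sum_add_distrib]
      have : ∀ ω, (R ω + a j) * x * (R ω + a j) + (R ω - a j) * x * (R ω - a j) =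
          2 • (R ω * x * R ω) + 2 • (a j * x * a j) := fun ω => by noncomm_ring
      simp only [this, Finset.sum_add_distrib, ← Finset.smul_sum, h3, Finset.sum_const,
        Finset.card_univ]
      module
    · simp only [Fintype.sum_sum_type, Sum.elim_inl, Sum.elim_inr,
        Finset.sum_insert hj, Fintype.card_sum, ← Finset.sum_add_distrib]
      refine (Finset.sum_le_sum fun ω _ => fourth_step (R ω) (a j) (h1 ω) (ha j)).trans ?_
      simp only [Finset.sum_add_distrib, ← Finset.smul_sum, ← Finset.sum_mul, ← Finset.mul_sum,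
        h3, Finset.sum_const, Finset.card_univ]
      set σ := ∑ i ∈ s, a i * 1 * a i with hσ
      set N := Fintype.card Ω
      have hb4 : 0 ≤ a j * a j * (a j * a j) := by
        have := star_mul_self_nonneg (a j * a j)
        rwa [star_mul, (ha j).star_eq] at this
      have e1 : ∑ i ∈ s, a i * (a j * 1 * a j + σ) * a i =
          ∑ i ∈ s, a i * (a j * a j) * a i + ∑ i ∈ s, a i * σ * a i := by
        rw [← Finset.sum_add_distrib]
        exact Finset.sum_congr rfl fun i _ => by noncomm_ring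
      rw [e1]
      set U := ∑ i ∈ s, a i * (a j * a j) * a i
      set T := ∑ i ∈ s, a i * σ * a i
      have h5 := add_le_add h4 h4
      have h6 := nsmul_nonneg hb4 (4 * N)
      rw [← sub_nonneg] at h5 ⊢
      convert add_nonneg h5 h6 using 1
      simp only [mul_add, add_mul, smul_mul_assoc, mul_smul_comm, mul_assoc, one_mul]
      module

theorem col_step (u : A →ₗ[ℂ] H) (M c : ℝ) (hM : ∀ a, ‖u a‖ ≤ M * ‖a‖) (hM0 : 0 ≤ M)
    (hc0 : 0 ≤ c)
    (hc : ∀ (Ω : Type) [Fintype Ω] (b : Ω → A), (∀ ω, IsSelfAdjoint (b ω)) →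
      ∑ ω, ‖u (b ω)‖ ^ 2 ≤ c * ‖∑ ω, b ω * b ω‖)
    (ι : Type) [Fintype ι] (a : ι → A) (ha : ∀ i, IsSelfAdjoint (a i)) :
    ∑ i, ‖u (a i)‖ ^ 2 ≤ (2 * M ^ 2 + 3 / 8 * c) * ‖∑ i, a i * a i‖ := by
  have hsq : ∀ x : A, IsSelfAdjoint x → 0 ≤ x * x := fun x hx => by
    have := star_mul_self_nonneg x
    rwa [hx.star_eq] at this
  set σ := ∑ i, a i * a i with hσ
  have hσ0 : 0 ≤ σ := Finset.sum_nonneg fun i _ => hsq _ (ha i)
  rcases eq_or_lt_of_le (norm_nonneg σ) with h0 | hpos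
  · have : ∀ i, a i = 0 := fun i => by
      have h1 : a i * a i ≤ σ :=
        Finset.single_le_sum (f := fun i => a i * a i) (fun i _ => hsq _ (ha i)) (Finset.mem_univ i)
      have h2 := CStarAlgebra.norm_le_norm_of_nonneg_of_le (hsq _ (ha i)) h1
      rw [(ha i).norm_mul_self, ← h0] at h2
      exact norm_eq_zero.mp (pow_eq_zero_iff two_ne_zero |>.mp (le_antisymm h2 (sq_nonneg _)))
    simp [this, ← h0]
  obtain ⟨Ω, _, R, hN, h1, h2, -, h4⟩ := exists_signs u a ha Finset.univ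
  simp only [mul_one, ← hσ] at h4
  set N := Fintype.card Ω
  set τ := √‖σ‖ with hτ
  have hτ0 : 0 < τ := Real.sqrt_pos.mpr hpos
  have hτ2 : τ ^ 2 = ‖σ‖ := Real.sq_sqrt hpos.le
  let f : ℝ → ℝ := fun t => max (-τ) (min t τ)
  let g : ℝ → ℝ := fun t => t - f t
  have hf : Continuous f := by fun_prop
  have hg : Continuous g := by fun_prop
  have hdec : ∀ ω, R ω = cfc f (R ω) + cfc g (R ω) := fun ω => by
    have := h1 ω
    rw [← cfc_add (R ω) f g]
    simp only [g, add_sub_cancel]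
    exact (cfc_id' ℝ (R ω)).symm
  have hn1 : ∀ ω, ‖u (cfc f (R ω))‖ ≤ M * τ := fun ω => by
    refine (hM _).trans (mul_le_mul_of_nonneg_left ?_ hM0)
    refine norm_cfc_le hτ0.le fun t _ => ?_
    rw [Real.norm_eq_abs, abs_le]
    exact ⟨le_max_left _ _, max_le (by linarith) (min_le_right _ _)⟩
  have hn2 : ∀ ω, cfc g (R ω) * cfc g (R ω) ≤ (16 * ‖σ‖)⁻¹ • (R ω * R ω * (R ω * R ω)) := by
    intro ω
    have := h1 ω
    have e : (16 * ‖σ‖)⁻¹ • (R ω * R ω * (R ω * R ω)) =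
        cfc (fun t : ℝ => (16 * ‖σ‖)⁻¹ * (t * t * (t * t))) (R ω) := by
      rw [cfc_const_mul _ _ (R ω), cfc_mul _ _ (R ω), cfc_mul _ _ (R ω), cfc_id' ℝ (R ω)]
    rw [e, ← cfc_mul _ _ (R ω)]
    refine cfc_mono fun t _ => ?_
    rw [← hτ2, le_inv_mul_iff₀ (by positivity)]
    simp only [g, f]
    rcases le_total t τ with h | h
    · rw [min_eq_left h]
      rcases le_total (-τ) t with h' | h'
      · rw [max_eq_right h']
        nlinarith [mul_self_nonneg (t * t)]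
      · rw [max_eq_left h']
        have h3 : 0 ≤ t * t + 4 * τ * (t + τ) := by nlinarith [sq_nonneg (t + 2 * τ)]
        have h4 : 0 ≤ t * t - 4 * τ * (t + τ) := by nlinarith
        nlinarith [mul_nonneg h3 h4]
    · rw [min_eq_right h, max_eq_right (by linarith)]
      have h3 : 0 ≤ t * t - 4 * τ * (t - τ) := by nlinarith [sq_nonneg (t - 2 * τ)]
      have h4 : 0 ≤ t * t + 4 * τ * (t - τ) := by nlinarith
      nlinarith [mul_nonneg h3 h4]
  have hσa : IsSelfAdjoint σ := .of_nonneg hσ0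
  have hle : σ ≤ ‖σ‖ • (1 : A) := by
    rw [← Algebra.algebraMap_eq_smul_one]; exact hσa.le_algebraMap_norm_self
  have h5 : σ * σ + 2 • ∑ i, a i * σ * a i ≤ (3 * ‖σ‖ ^ 2) • (1 : A) := by
    have k1 : σ * σ ≤ (‖σ‖ ^ 2) • (1 : A) := by
      have := CStarAlgebra.star_mul_le_algebraMap_norm_sq (a := σ)
      rwa [hσa.star_eq, Algebra.algebraMap_eq_smul_one] at this
    have k2 : ∑ i, a i * σ * a i ≤ (‖σ‖ ^ 2) • (1 : A) := by
      calc ∑ i, a i * σ * a i ≤ ∑ i, ‖σ‖ • (a i * a i) := Finset.sum_le_sum fun i _ => by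
            have := CStarAlgebra.star_left_conjugate_le_norm_smul (a := a i) hσa
            rwa [(ha i).star_eq] at this
        _ = ‖σ‖ • σ := by rw [← Finset.smul_sum]
        _ ≤ ‖σ‖ • (‖σ‖ • (1 : A)) := smul_le_smul_of_nonneg_left hle hpos.le
        _ = _ := by rw [smul_smul, sq]
    calc _ ≤ (‖σ‖ ^ 2) • (1 : A) + ((‖σ‖ ^ 2) • (1 : A) + (‖σ‖ ^ 2) • (1 : A)) := by
          rw [two_smul]; exact add_le_add k1 (add_le_add k2 k2)
      _ = _ := by module
  have h6 : ‖∑ ω, cfc g (R ω) * cfc g (R ω)‖ ≤ N * (3 / 16 * ‖σ‖) := by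
    rw [CStarAlgebra.norm_le_iff_le_algebraMap _ (by positivity)
      (Finset.sum_nonneg fun ω _ => hsq _ (cfc_predicate g (R ω)))]
    calc _ ≤ ∑ ω, (16 * ‖σ‖)⁻¹ • (R ω * R ω * (R ω * R ω)) := Finset.sum_le_sum fun ω _ => hn2 ω
      _ = (16 * ‖σ‖)⁻¹ • ∑ ω, R ω * R ω * (R ω * R ω) := by rw [Finset.smul_sum]
      _ ≤ (16 * ‖σ‖)⁻¹ • (N • ((3 * ‖σ‖ ^ 2) • (1 : A))) :=
          smul_le_smul_of_nonneg_left (h4.trans (nsmul_le_nsmul_right h5 N)) (by positivity)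
      _ = _ := by
          rw [Algebra.algebraMap_eq_smul_one, ← Nat.cast_smul_eq_nsmul ℝ, smul_smul, smul_smul]
          congr 1
          field_simp
  have h7 := hc Ω (fun ω => cfc g (R ω)) (fun ω => cfc_predicate g (R ω))
  have h8 : ∑ ω, ‖u (R ω)‖ ^ 2 ≤ ∑ ω : Ω, (2 * (M ^ 2 * ‖σ‖) + 2 * ‖u (cfc g (R ω))‖ ^ 2) := by
    refine Finset.sum_le_sum fun ω _ => ?_
    have k1 : ‖u (R ω)‖ ≤ M * τ + ‖u (cfc g (R ω))‖ := by
      conv_lhs => rw [hdec ω, map_add]
      exact (norm_add_le _ _).trans (add_le_add (hn1 ω) le_rfl)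
    have k2 := pow_le_pow_left₀ (norm_nonneg _) k1 2
    rw [← hτ2]
    nlinarith [sq_nonneg (M * τ - ‖u (cfc g (R ω))‖)]
  rw [h2, Finset.sum_add_distrib, Finset.sum_const, Finset.card_univ, nsmul_eq_mul,
    ← Finset.mul_sum] at h8
  have hN' : (0 : ℝ) < N := by exact_mod_cast hN
  have h9 := h7.trans (mul_le_mul_of_nonneg_left h6 hc0)
  refine le_of_mul_le_mul_left ?_ hN'
  nlinarith

theorem col_of_finite (u : A →ₗ[ℂ] H) (M c : ℝ) (hM : ∀ a, ‖u a‖ ≤ M * ‖a‖) (hM0 : 0 ≤ M)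
    (hc0 : 0 ≤ c)
    (hc : ∀ (Ω : Type) [Fintype Ω] (b : Ω → A), (∀ ω, IsSelfAdjoint (b ω)) →
      ∑ ω, ‖u (b ω)‖ ^ 2 ≤ c * ‖∑ ω, b ω * b ω‖)
    (ι : Type) [Fintype ι] (a : ι → A) (ha : ∀ i, IsSelfAdjoint (a i)) :
    ∑ i, ‖u (a i)‖ ^ 2 ≤ 4 * M ^ 2 * ‖∑ i, a i * a i‖ := by
  have key : ∀ k : ℕ, ∀ (Ω : Type) [Fintype Ω] (b : Ω → A), (∀ ω, IsSelfAdjoint (b ω)) →
      ∑ ω, ‖u (b ω)‖ ^ 2 ≤ (4 * M ^ 2 + c * (1 / 2) ^ k) * ‖∑ ω, b ω * b ω‖ := by
    intro k
    induction k with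
    | zero =>
      intro Ω _ b hb
      refine (hc Ω b hb).trans (mul_le_mul_of_nonneg_right ?_ (norm_nonneg _))
      nlinarith [sq_nonneg M]
    | succ k ih =>
      intro Ω _ b hb
      refine (col_step u M _ hM hM0 (by positivity) ih Ω b hb).trans
        (mul_le_mul_of_nonneg_right ?_ (norm_nonneg _))
      have : 0 ≤ c * (1 / 2) ^ k := by positivity
      rw [pow_succ (1 / 2 : ℝ) k]
      nlinarith [sq_nonneg M]
  have hlim : Filter.Tendsto (fun k : ℕ => (4 * M ^ 2 + c * (1 / 2 : ℝ) ^ k) * ‖∑ i, a i * a i‖)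
      Filter.atTop (nhds ((4 * M ^ 2 + c * 0) * ‖∑ i, a i * a i‖)) :=
    ((tendsto_pow_atTop_nhds_zero_of_lt_one (by norm_num) (by norm_num)).const_mul c
      |>.const_add _).mul_const _
  have := ge_of_tendsto' hlim fun k => key k ι a ha
  simpa using this

theorem norm_sum_smul_sq_le {ι : Type*} [Fintype ι] (c : ι → ℂ) (b : ι → A) :
    ‖∑ i, c i • b i‖ ^ 2 ≤ (∑ i, ‖c i‖ ^ 2) * ‖∑ i, star (b i) * b i‖ := by
  set C : ℝ := ∑ i, ‖c i‖ ^ 2 with hC
  have hC0 : 0 ≤ C := Finset.sum_nonneg fun _ _ => sq_nonneg _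
  set X := ∑ i, c i • b i with hX
  set Y := ∑ i, star (b i) * b i with hY
  have h1 : 0 ≤ ∑ i, ∑ j, star (star (c j) • b i - star (c i) • b j) *
      (star (c j) • b i - star (c i) • b j) :=
    Finset.sum_nonneg fun i _ => Finset.sum_nonneg fun j _ => star_mul_self_nonneg _
  have hn : ∀ z : ℂ, z * star z = ((‖z‖ ^ 2 : ℝ) : ℂ) := fun z => by
    rw [RCLike.star_def, Complex.mul_conj']; simp
  have hXX : star X * X = ∑ i, ∑ j, (star (c i) * c j) • (star (b i) * b j) := by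
    simp only [hX, star_sum, star_smul, Finset.sum_mul, Finset.mul_sum, smul_mul_smul_comm]
    exact Finset.sum_comm
  have hCY : C • Y = ∑ i, ∑ j, (‖c j‖ ^ 2) • (star (b i) * b i) := by
    simp only [hC, hY, Finset.smul_sum, Finset.sum_smul]
  have h2 : ∑ i, ∑ j, star (star (c j) • b i - star (c i) • b j) *
      (star (c j) • b i - star (c i) • b j) = C • Y + C • Y - (star X * X + star X * X) := by
    conv_rhs => lhs; lhs; rw [hCY]
    conv_rhs => lhs; rhs; rw [hCY, Finset.sum_comm]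
    conv_rhs => rhs; lhs; rw [hXX]
    conv_rhs => rhs; rhs; rw [hXX, Finset.sum_comm]
    simp only [← Finset.sum_add_distrib, ← Finset.sum_sub_distrib]
    refine Finset.sum_congr rfl fun i _ => Finset.sum_congr rfl fun j _ => ?_
    simp only [star_sub, star_smul, star_star, sub_mul, mul_sub, smul_mul_smul_comm, hn,
      Complex.coe_smul, mul_comm (c j) (star (c i)), mul_comm (c i) (star (c j))]
    abel
  rw [h2, sub_nonneg] at h1
  have h3 : star X * X ≤ C • Y := by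
    have := smul_le_smul_of_nonneg_left h1 (show (0 : ℝ) ≤ 1 / 2 by norm_num)
    convert this using 1 <;> module
  have h4 := CStarAlgebra.norm_le_norm_of_nonneg_of_le (star_mul_self_nonneg X) h3
  rwa [CStarRing.norm_star_mul_self, norm_smul, Real.norm_of_nonneg hC0, ← sq] at h4

theorem functional_col (φ : A →ₗ[ℂ] ℂ) (M : ℝ) (hM : ∀ a, ‖φ a‖ ≤ M * ‖a‖)
    {ι : Type*} [Fintype ι] (b : ι → A) :
    ∑ i, ‖φ (b i)‖ ^ 2 ≤ M ^ 2 * ‖∑ i, star (b i) * b i‖ := by
  set C : ℝ := ∑ i, ‖φ (b i)‖ ^ 2 with hC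
  have hC0 : 0 ≤ C := Finset.sum_nonneg fun _ _ => sq_nonneg _
  have h1 := norm_sum_smul_sq_le (fun i => star (φ (b i))) b
  simp only [norm_star, ← hC] at h1
  have h2 := hM (∑ i, star (φ (b i)) • b i)
  have h3 : φ (∑ i, star (φ (b i)) • b i) = (C : ℂ) := by
    rw [map_sum, hC, Complex.ofReal_sum]
    refine Finset.sum_congr rfl fun i _ => ?_
    rw [map_smul, smul_eq_mul, RCLike.star_def, Complex.conj_mul']
    simp
  rw [h3, Complex.norm_real, Real.norm_of_nonneg hC0] at h2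
  rcases eq_or_lt_of_le hC0 with h | h
  · rw [← h]; positivity
  have h4 := pow_le_pow_left₀ hC0 h2 2
  rw [mul_pow] at h4
  have h5 := h4.trans (mul_le_mul_of_nonneg_left h1 (sq_nonneg M))
  refine le_of_mul_le_mul_left ?_ h
  nlinarith

theorem sa_col_fd [FiniteDimensional ℂ H] (u : A →ₗ[ℂ] H) (M : ℝ) (hM : ∀ a, ‖u a‖ ≤ M * ‖a‖)
    (hM0 : 0 ≤ M) (ι : Type) [Fintype ι] (a : ι → A) (ha : ∀ i, IsSelfAdjoint (a i)) :
    ∑ i, ‖u (a i)‖ ^ 2 ≤ 4 * M ^ 2 * ‖∑ i, a i * a i‖ := by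
  let e := stdOrthonormalBasis ℂ H
  refine col_of_finite u M (Module.finrank ℂ H * M ^ 2) hM hM0 (by positivity) ?_ ι a ha
  intro Ω _ b hb
  simp only [← e.sum_sq_norm_inner_right]
  rw [Finset.sum_comm]
  have : ∀ k, ∑ ω, ‖⟪e k, u (b ω)⟫_ℂ‖ ^ 2 ≤ M ^ 2 * ‖∑ ω, b ω * b ω‖ := by
    intro k
    have := functional_col (innerₛₗ ℂ (e k) ∘ₗ u) M (fun x => by
      refine (norm_inner_le_norm (𝕜 := ℂ) (e k) (u x)).trans ?_
      rw [e.norm_eq_one, one_mul]
      exact hM x) b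
    simp only [(hb _).star_eq] at this
    exact this
  refine (Finset.sum_le_sum fun k _ => this k).trans ?_
  simp [mul_assoc]

theorem sa_col (u : A →ₗ[ℂ] H) (M : ℝ) (hM : ∀ a, ‖u a‖ ≤ M * ‖a‖)
    (hM0 : 0 ≤ M) (ι : Type) [Fintype ι] (a : ι → A) (ha : ∀ i, IsSelfAdjoint (a i)) :
    ∑ i, ‖u (a i)‖ ^ 2 ≤ 4 * M ^ 2 * ‖∑ i, a i * a i‖ := by
  let V : Submodule ℂ H := Submodule.span ℂ (Set.range fun i => u (a i))
  have : FiniteDimensional ℂ V := FiniteDimensional.span_of_finite ℂ (Set.finite_range _)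
  have h := sa_col_fd (V.orthogonalProjectionOnto.toLinearMap ∘ₗ u) M (fun x =>
    (V.norm_orthogonalProjectionOnto_apply_le (u x)).trans (hM x)) hM0 ι a ha
  refine le_of_eq_of_le (Finset.sum_congr rfl fun i _ => ?_) h
  have hm : u (a i) ∈ V := Submodule.subset_span ⟨i, rfl⟩
  have := V.orthogonalProjectionOnto_mem_subspace_eq_self ⟨u (a i), hm⟩
  show _ = ‖V.orthogonalProjectionOnto ((⟨u (a i), hm⟩ : V) : H)‖ ^ 2
  rw [this]
  rfl

end Crest.Agent.H9.KA
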