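import Crest.Agent.H9.KD1

/-! KS-D, part 2: amplification and the dilation of a column-bounded homomorphism. -/

set_option autoImplicit false
open scoped InnerProductSpace ComplexOrder

namespace Crest.Agent.H9.KD

section Amp
variable (ι : Type*) [Fintype ι]
variable {K : Type*} [NormedAddCommGroup K] [InnerProductSpace ℂ K] [CompleteSpace K]

/-- The diagonal operator on the `ℓ²` sum. -/
noncomputable def diagL (a : K →L[ℂ] K) :
    PiLp 2 (fun _ : ι => K) →L[ℂ] PiLp 2 (fun _ : ι => K) :=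
  (PiLp.continuousLinearEquiv 2 ℂ (fun _ : ι => K)).symm.toContinuousLinearMap ∘L
    (ContinuousLinearMap.pi fun i => a ∘L PiLp.proj 2 (fun _ : ι => K) i)

omit [Fintype ι] [CompleteSpace K] in
@[simp] lemma diagL_apply (a : K →L[ℂ] K) (x : PiLp 2 (fun _ : ι => K)) (i : ι) :
    diagL ι a x i = a (x i) := rfl

/-- Amplification as a star algebra homomorphism. -/
noncomputable def amp : (K →L[ℂ] K) →⋆ₐ[ℂ]
    (PiLp 2 (fun _ : ι => K) →L[ℂ] PiLp 2 (fun _ : ι => K)) where
  toFun := diagL ι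
  map_one' := by ext x i; simp
  map_mul' a b := by ext x i; simp
  map_zero' := by ext x i; simp
  map_add' a b := by ext x i; simp
  commutes' r := by ext x i; simp [Algebra.algebraMap_eq_smul_one]
  map_star' a := by
    rw [ContinuousLinearMap.star_eq_adjoint, ContinuousLinearMap.star_eq_adjoint,
      ContinuousLinearMap.eq_adjoint_iff]
    intro x y
    simp [PiLp.inner_apply, ContinuousLinearMap.adjoint_inner_left]

@[simp] lemma amp_apply (a : K →L[ℂ] K) (x : PiLp 2 (fun _ : ι => K)) (i : ι) :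
    amp (K := K) ι a x i = a (x i) := rfl

end Amp

universe u

section Dil
variable {A : Type u} [CStarAlgebra A] [PartialOrder A] [StarOrderedRing A]
variable {H : Type*} [NormedAddCommGroup H] [InnerProductSpace ℂ H] [CompleteSpace H]

/-- Column boundedness of a linear map into a Hilbert space. -/
def ColBdd (u : A →ₗ[ℂ] H) : Prop :=
  ∃ c : ℝ, 0 ≤ c ∧ ∀ (ι : Type) [Fintype ι] (v : ι → A),
      ∑ i, ‖u (v i)‖ ^ 2 ≤ c * ‖∑ i, star (v i) * v i‖

omit [CompleteSpace H] in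
theorem exists_pos_functional_family {J : Type*} [Fintype J] (u : J → (A →ₗ[ℂ] H))
    (hu : ∀ j, ColBdd (u j)) :
    ∃ f : A →ₚ[ℂ] ℂ, ∀ j a, ‖u j a‖ ^ 2 ≤ (f (star a * a)).re := by
  choose c hc hc' using hu
  choose f hf using fun j => exists_pos_functional (u j) (c j) (hc j) (hc' j)
  choose t ht ht' using hf
  have ht0 : ∀ j a, 0 ≤ t j a := fun j a => le_trans (sq_nonneg _) (ht' j a)
  refine ⟨PositiveLinearMap.mk₀ (∑ j, f j) ?_, fun j a => ?_⟩
  · intro x hx
    obtain ⟨b, rfl⟩ := CStarAlgebra.nonneg_iff_eq_star_mul_self.mp hx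
    rw [LinearMap.sum_apply]
    refine Finset.sum_nonneg fun j _ => ?_
    rw [ht]
    exact_mod_cast ht0 j b
  · show _ ≤ ((∑ j, f j) (star a * a)).re
    rw [LinearMap.sum_apply, Complex.re_sum]
    simp only [ht, Complex.ofReal_re]
    exact (ht' j a).trans (Finset.single_le_sum (fun i _ => ht0 i a) (Finset.mem_univ j))

/-- The bounded extension to the GNS space. -/
theorem exists_gns_map (f : A →ₚ[ℂ] ℂ) (π : A →ₗ[ℂ] (H →L[ℂ] H))
    (hmul : ∀ a b, π (a * b) = π a * π b) (hone : π 1 = 1) (ξ : H)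
    (hf : ∀ a, ‖π a ξ‖ ^ 2 ≤ (f (star a * a)).re) :
    ∃ T : f.GNS →L[ℂ] H, (∀ b ζ, T (f.gnsStarAlgHom b ζ) = π b (T ζ)) ∧
      T ((f.toPreGNS 1 : f.PreGNS) : f.GNS) = ξ := by
  let T0 : f.PreGNS →L[ℂ] H :=
    LinearMap.mkContinuous (((ContinuousLinearMap.apply ℂ H ξ).toLinearMap ∘ₗ π) ∘ₗ
      f.ofPreGNS.toLinearMap) 1 (fun a => by
        rw [one_mul, f.preGNS_norm_def]
        exact Real.le_sqrt_of_sq_le (hf _))
  have hT0 : ∀ a, T0 a = π (f.ofPreGNS a) ξ := fun a => rfl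
  refine ⟨T0.fromCompletion, fun b ζ => ?_, ?_⟩
  · induction ζ using UniformSpace.Completion.induction_on with
    | hp => apply isClosed_eq <;> fun_prop
    | ih a =>
      have : f.gnsStarAlgHom b (a : f.GNS) = (f.leftMulMapPreGNS b a : f.PreGNS) :=
        f.gnsNonUnitalStarAlgHom_apply_coe
      rw [this, ContinuousLinearMap.fromCompletion_apply_coe,
        ContinuousLinearMap.fromCompletion_apply_coe, hT0, hT0]
      have h2 : f.ofPreGNS (f.leftMulMapPreGNS b a) = b * f.ofPreGNS a := rfl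
      rw [h2, hmul]
      rfl
  · rw [ContinuousLinearMap.fromCompletion_apply_coe, hT0]
    simp [hone]

theorem exists_dilation (π π' : A →ₗ[ℂ] (H →L[ℂ] H))
    (hmul : ∀ a b, π (a * b) = π a * π b) (hone : π 1 = 1)
    (hmul' : ∀ a b, π' (a * b) = π' a * π' b) (hone' : π' 1 = 1)
    (hcol : ∀ h : H, ColBdd ((ContinuousLinearMap.apply ℂ H h).toLinearMap ∘ₗ π))
    (hcol' : ∀ h : H, ColBdd ((ContinuousLinearMap.apply ℂ H h).toLinearMap ∘ₗ π'))
    {ι : Type} [Fintype ι] (ξ η : ι → H) :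
    ∃ (K : Type u) (_ : NormedAddCommGroup K) (_ : InnerProductSpace ℂ K) (_ : CompleteSpace K)
      (ρ : A →⋆ₐ[ℂ] (K →L[ℂ] K)) (S₁ S₂ : K →L[ℂ] H) (e : ι → K),
      (∀ b ζ, S₁ (ρ b ζ) = π b (S₁ ζ)) ∧ (∀ b ζ, S₂ (ρ b ζ) = π' b (S₂ ζ)) ∧
      (∀ j, S₁ (e j) = ξ j) ∧ ∀ j, S₂ (e j) = η j := by
  classical
  obtain ⟨f, hf⟩ := exists_pos_functional_family (J := ι ⊕ ι)
    (Sum.elim (fun j => (ContinuousLinearMap.apply ℂ H (ξ j)).toLinearMap ∘ₗ π)
      (fun j => (ContinuousLinearMap.apply ℂ H (η j)).toLinearMap ∘ₗ π'))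
    (by rintro (j | j); exacts [hcol _, hcol' _])
  choose T₁ hT₁ hT₁' using fun j => exists_gns_map f π hmul hone (ξ j) (hf (Sum.inl j))
  choose T₂ hT₂ hT₂' using fun j => exists_gns_map f π' hmul' hone' (η j) (hf (Sum.inr j))
  refine ⟨PiLp 2 (fun _ : ι => f.GNS), inferInstance, inferInstance, inferInstance,
    (amp ι).comp f.gnsStarAlgHom,
    ∑ j, T₁ j ∘L PiLp.proj 2 (fun _ : ι => f.GNS) j,
    ∑ j, T₂ j ∘L PiLp.proj 2 (fun _ : ι => f.GNS) j,
    fun j => PiLp.single 2 j ((f.toPreGNS 1 : f.PreGNS) : f.GNS), ?_, ?_, ?_, ?_⟩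
  · intro b ζ
    simp only [_root_.sum_apply, ContinuousLinearMap.comp_apply, map_sum]
    exact Finset.sum_congr rfl fun j _ => hT₁ j b (ζ j)
  · intro b ζ
    simp only [_root_.sum_apply, ContinuousLinearMap.comp_apply, map_sum]
    exact Finset.sum_congr rfl fun j _ => hT₂ j b (ζ j)
  · intro j
    simp only [_root_.sum_apply, ContinuousLinearMap.comp_apply, PiLp.proj_apply]
    rw [Finset.sum_eq_single j]
    · rw [PiLp.single_eq_same, hT₁']
    · intro i _ hi
      rw [PiLp.single_eq_of_ne _ hi, map_zero]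
    · simp
  · intro j
    simp only [_root_.sum_apply, ContinuousLinearMap.comp_apply, PiLp.proj_apply]
    rw [Finset.sum_eq_single j]
    · rw [PiLp.single_eq_same, hT₂']
    · intro i _ hi
      rw [PiLp.single_eq_of_ne _ hi, map_zero]
    · simp

end Dil

end Crest.Agent.H9.KD
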