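import Crest.Agent.H9.KD5

/-! KS-D, part 6: completely bounded homomorphisms are similar to star homomorphisms. -/

set_option autoImplicit false
open scoped InnerProductSpace ComplexOrder Matrix
open InnerProductSpace Crest.Agent.H2.KS

namespace Crest.Agent.H9.KD

universe u v

variable {A : Type u} [CStarAlgebra A]
variable {H : Type v} [NormedAddCommGroup H] [InnerProductSpace ℂ H] [CompleteSpace H]

/-- The rank-one positive operator of a vector. -/
noncomputable def Q (h : H) : H →L[ℂ] H := rankOne ℂ h h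

omit [CompleteSpace H] in
lemma inner_Q (h ζ : H) : (⟪ζ, Q h ζ⟫_ℂ).re = ‖⟪h, ζ⟫_ℂ‖ ^ 2 := by
  rw [Q, inner_right_rankOne_apply, ← inner_conj_symm ζ h, Complex.conj_mul']
  norm_cast

omit [CompleteSpace H] in
lemma Q_smul (c : ℝ) (h : H) : Q ((c : ℂ) • h) = (c ^ 2) • Q h := by
  ext z
  simp only [Q, rankOne_apply, inner_smul_left, Complex.conj_ofReal, smul_smul, _root_.smul_apply,
    ← Complex.coe_smul]
  congr 1
  push_cast; ring

omit [CompleteSpace H] in
lemma Q_zero : Q (0 : H) = 0 := by simp [Q]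

lemma Q_sa (h : H) : IsSelfAdjoint (Q h) := (isPositive_rankOne_self h).isSelfAdjoint

omit [CompleteSpace H] in
theorem exists_invariant_functional [PartialOrder A] [StarOrderedRing A]
    (π : A →ₐ[ℂ] (H →L[ℂ] H)) (Φ : ℝ) (hcb : CB π Φ) :
    ∃ ℓ : (H →L[ℂ] H) →ₗ[ℝ] ℝ, (∀ h, ‖h‖ ^ 2 ≤ ℓ (Q h)) ∧ (∀ h, ℓ (Q h) ≤ Φ ^ 2 * ‖h‖ ^ 2) ∧
      ∀ v : A, ‖v‖ < 1 → ∀ h, ℓ (Q (π v h)) ≤ ℓ (Q h) := by
  let T : Set ((H →L[ℂ] H) × ℝ) := {p | ∃ (ι : Type) (_ : Fintype ι) (g k h : ι → H) (v : ι → A),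
    (∀ l, ‖v l‖ < 1) ∧ p.1 = ∑ l, (Q (k l) - Q (g l) + Q (h l) - Q (π (v l) (h l))) ∧
      p.2 = ∑ l, (‖k l‖ ^ 2 - Φ ^ 2 * ‖g l‖ ^ 2)}
  obtain ⟨ℓ, hℓ⟩ := hb_cone T
    ⟨Empty, inferInstance, Empty.elim, Empty.elim, Empty.elim, Empty.elim, fun l => l.elim,
      by simp, by simp⟩ (by
      rintro p ⟨ι, _, g, k, h, v, hv, h1, h2⟩ q ⟨ι', _, g', k', h', v', hv', h1', h2'⟩
      refine ⟨ι ⊕ ι', inferInstance, Sum.elim g g', Sum.elim k k', Sum.elim h h', Sum.elim v v',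
        ?_, ?_, ?_⟩
      · rintro (l | l); exacts [hv l, hv' l]
      · simp only [Prod.fst_add, h1, h1', Fintype.sum_sum_type, Sum.elim_inl, Sum.elim_inr]
      · simp only [Prod.snd_add, h2, h2', Fintype.sum_sum_type, Sum.elim_inl, Sum.elim_inr]) (by
      rintro t ht p ⟨ι, _, g, k, h, v, hv, h1, h2⟩
      refine ⟨ι, inferInstance, fun l => ((√t : ℝ) : ℂ) • g l, fun l => ((√t : ℝ) : ℂ) • k l,
        fun l => ((√t : ℝ) : ℂ) • h l, v, hv, ?_, ?_⟩
      · simp only [Prod.smul_fst, h1, Finset.smul_sum, map_smul, Q_smul, Real.sq_sqrt ht.le,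
          smul_sub, smul_add]
      · simp only [Prod.smul_snd, h2, norm_smul, mul_pow, smul_eq_mul, Complex.norm_real,
          Real.norm_eq_abs, sq_abs, Real.sq_sqrt ht.le, Finset.mul_sum]
        exact Finset.sum_congr rfl fun l _ => by ring) (by
      classical
      rintro r ⟨ι, _, g, k, h, v, hv, h1, h2⟩
      simp only at h1 h2
      obtain ⟨γ, hγ, hrel⟩ := exists_isometry_of_gram (Sum.elim g (fun l => π (v l) (h l)))
        (Sum.elim k h) (fun ζ => by
          have := congrArg (fun T : H →L[ℂ] H => (⟪ζ, T ζ⟫_ℂ).re) h1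
          simp only [_root_.sum_apply, inner_sum, Complex.re_sum, _root_.sub_apply,
            _root_.add_apply, inner_sub_right, inner_add_right, Complex.sub_re, Complex.add_re,
            inner_Q, _root_.zero_apply, inner_zero_right, Complex.zero_re,
            Finset.sum_sub_distrib, Finset.sum_add_distrib] at this
          simp only [Fintype.sum_sum_type, Sum.elim_inl, Sum.elim_inr]
          linarith)
      obtain ⟨W, Y, hWY, hk⟩ := exists_transfer π v hv γ hγ g k h hrel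
      have hb := hcb ι ι W Y hWY g k
      have he : ∑ i, ∑ j, ⟪k i, π (W i j) (g j)⟫_ℂ = ((∑ i, ‖k i‖ ^ 2 : ℝ) : ℂ) := by
        rw [Complex.ofReal_sum]
        refine Finset.sum_congr rfl fun i _ => ?_
        rw [← inner_sum, ← hk, inner_self_eq_norm_sq_to_K]
        simp
      have hk0 : 0 ≤ ∑ i, ‖k i‖ ^ 2 := Finset.sum_nonneg fun _ _ => sq_nonneg _
      have hg0 : 0 ≤ ∑ i, ‖g i‖ ^ 2 := Finset.sum_nonneg fun _ _ => sq_nonneg _
      rw [he, Complex.norm_real, Real.norm_of_nonneg hk0] at hb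
      rw [h2, Finset.sum_sub_distrib, ← Finset.mul_sum]
      have s1 := Real.sq_sqrt hk0
      have s2 := Real.sq_sqrt hg0
      nlinarith [sq_nonneg (Φ * √(∑ i, ‖g i‖ ^ 2) - √(∑ i, ‖k i‖ ^ 2))]) (by
      rintro x r ⟨ι, _, g, k, h, v, hv, h1, -⟩
      refine ⟨_, ι ⊕ ι, inferInstance, Sum.elim k h, Sum.elim g (fun l => π (v l) (h l)),
        fun _ => 0, fun _ => 0, fun _ => by simp, ?_, rfl⟩
      simp only at h1
      simp only [h1, Fintype.sum_sum_type, Sum.elim_inl, Sum.elim_inr, map_zero, Q_zero,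
        add_zero, sub_zero, ← Finset.sum_add_distrib, ← Finset.sum_neg_distrib]
      exact Finset.sum_congr rfl fun l _ => by abel)
  refine ⟨ℓ, fun h => ?_, fun h => ?_, fun v hv h => ?_⟩
  · exact hℓ _ _ ⟨Unit, inferInstance, fun _ => 0, fun _ => h, fun _ => 0, fun _ => 0,
      fun _ => by simp, by simp [Q_zero], by simp⟩
  · have := hℓ (-Q h) (-(Φ ^ 2 * ‖h‖ ^ 2)) ⟨Unit, inferInstance, fun _ => h, fun _ => 0,
      fun _ => 0, fun _ => 0, fun _ => by simp, by simp [Q_zero], by simp⟩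
    rw [map_neg] at this
    linarith
  · have := hℓ (Q h - Q (π v h)) 0 ⟨Unit, inferInstance, fun _ => 0, fun _ => 0,
      fun _ => h, fun _ => v, fun _ => hv, by simp [Q_zero], by simp⟩
    rw [map_sub] at this
    linarith

theorem exists_operator (ℓ : (H →L[ℂ] H) →ₗ[ℝ] ℝ) (c : ℝ) (h0 : ∀ h, 0 ≤ ℓ (Q h))
    (h1 : ∀ h, ℓ (Q h) ≤ c * ‖h‖ ^ 2) (hc : 0 ≤ c) :
    ∃ T : H →L[ℂ] H, ∀ h, ⟪T h, h⟫_ℂ = ℓ (Q h) := by
  obtain ⟨f, hf⟩ := complexify ℓ
  have hq : ∀ h, f (rankOne ℂ h h) = ℓ (Q h) := fun h => hf _ (Q_sa h)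
  let B : H →ₛₗ[starRingEnd ℂ] H →ₗ[ℂ] ℂ := LinearMap.mk₂'ₛₗ (starRingEnd ℂ) (RingHom.id ℂ)
    (fun x y => f (rankOne ℂ y x)) (fun _ _ _ => by simp) (fun _ _ _ => by simp)
    (fun _ _ _ => by simp) (fun _ _ _ => by simp)
  have hB : ∀ x y, B x y = f (rankOne ℂ y x) := fun x y => rfl
  have hunit : ∀ x y : H, ‖x‖ ≤ 1 → ‖y‖ ≤ 1 → ‖B x y‖ ≤ 6 * c := by
    intro x y hx hy
    have key : ∀ w : H, ‖w‖ ≤ 2 → ‖B w w‖ ≤ 4 * c := by
      intro w hw
      rw [hB, hq, Complex.norm_real, Real.norm_of_nonneg (h0 w)]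
      refine (h1 w).trans ?_
      have : ‖w‖ ^ 2 ≤ 4 := by nlinarith [norm_nonneg w]
      nlinarith
    have key1 : ∀ w : H, ‖w‖ ≤ 1 → ‖B w w‖ ≤ c := by
      intro w hw
      rw [hB, hq, Complex.norm_real, Real.norm_of_nonneg (h0 w)]
      refine (h1 w).trans ?_
      have : ‖w‖ ^ 2 ≤ 1 := by nlinarith [norm_nonneg w]
      nlinarith
    have e : (2 : ℂ) * B x y = B (x + y) (x + y) - B x x - B y y + Complex.I *
        (B (Complex.I • x + y) (Complex.I • x + y) - B x x - B y y) := by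
      simp only [map_add, map_smulₛₗ, LinearMap.add_apply, LinearMap.smul_apply, smul_eq_mul,
        Complex.conj_I, RingHom.id_apply]
      linear_combination (B x y - B y x + Complex.I * B x x) * Complex.I_mul_I
    have n1 := key (x + y) ((norm_add_le _ _).trans (by linarith))
    have n2 := key (Complex.I • x + y) ((norm_add_le _ _).trans
      (by rw [norm_smul, Complex.norm_I]; linarith))
    have n3 := key1 x hx
    have n4 := key1 y hy
    have n5 : ‖(2 : ℂ) * B x y‖ ≤ 12 * c := by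
      rw [e]
      refine (norm_add_le _ _).trans ?_
      rw [norm_mul, Complex.norm_I, one_mul]
      have m1 := norm_sub_le (B (x + y) (x + y) - B x x) (B y y)
      have m2 := norm_sub_le (B (x + y) (x + y)) (B x x)
      have m3 := norm_sub_le (B (Complex.I • x + y) (Complex.I • x + y) - B x x) (B y y)
      have m4 := norm_sub_le (B (Complex.I • x + y) (Complex.I • x + y)) (B x x)
      linarith
    rw [norm_mul, Complex.norm_two] at n5
    linarith
  have hbd : ∀ x y : H, ‖B x y‖ ≤ 6 * c * ‖x‖ * ‖y‖ := by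
    intro x y
    rcases eq_or_ne x 0 with rfl | hx
    · simp
    rcases eq_or_ne y 0 with rfl | hy
    · simp
    have hx' : 0 < ‖x‖ := norm_pos_iff.mpr hx
    have hy' : 0 < ‖y‖ := norm_pos_iff.mpr hy
    have := hunit (((‖x‖⁻¹ : ℝ) : ℂ) • x) (((‖y‖⁻¹ : ℝ) : ℂ) • y)
      (by rw [norm_smul, Complex.norm_real, norm_inv, norm_norm, inv_mul_cancel₀ hx'.ne'])
      (by rw [norm_smul, Complex.norm_real, norm_inv, norm_norm, inv_mul_cancel₀ hy'.ne'])
    simp only [map_smulₛₗ, LinearMap.smul_apply, smul_eq_mul, norm_mul, RingHom.id_apply,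
      Complex.conj_ofReal, Complex.norm_real, norm_inv, norm_norm] at this
    rw [inv_mul_le_iff₀ hy', inv_mul_le_iff₀ hx'] at this
    linarith
  refine ⟨continuousLinearMapOfBilin (B.mkContinuous₂ _ hbd), fun h => ?_⟩
  rw [continuousLinearMapOfBilin_apply, LinearMap.mkContinuous₂_apply, hB, hq]

theorem similar_of_cb [PartialOrder A] [StarOrderedRing A]
    (π : A →ₐ[ℂ] (H →L[ℂ] H)) (Φ : ℝ) (hcb : CB π Φ) :
    ∃ S : (H →L[ℂ] H)ˣ, ∀ a : A,
      star ((S : H →L[ℂ] H) * π a * (↑S⁻¹ : H →L[ℂ] H)) =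
        (S : H →L[ℂ] H) * π (star a) * (↑S⁻¹ : H →L[ℂ] H) := by
  obtain ⟨ℓ, h1, h2, h3⟩ := exists_invariant_functional π Φ hcb
  have h0 : ∀ h, 0 ≤ ℓ (Q h) := fun h => (sq_nonneg _).trans (h1 h)
  obtain ⟨T, hT⟩ := exists_operator ℓ (Φ ^ 2) h0 h2 (sq_nonneg _)
  have hle : ∀ u ∈ unitary A, ∀ h, ℓ (Q (π u h)) ≤ ℓ (Q h) := by
    intro u hu h
    have hu1 : ‖u‖ ≤ 1 := by
      rcases subsingleton_or_nontrivial A with hs | hs
      · simp [Subsingleton.elim u 0]
      · exact (CStarRing.norm_of_mem_unitary hu).le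
    have hcl : closure (Set.Ico (0 : ℝ) 1) ⊆ {θ | θ ^ 2 * ℓ (Q (π u h)) ≤ ℓ (Q h)} := by
      refine closure_minimal (fun θ hθ => ?_) (isClosed_le (by fun_prop) continuous_const)
      have := h3 ((θ : ℂ) • u) (by
        rw [norm_smul, Complex.norm_real, Real.norm_of_nonneg hθ.1]
        exact lt_of_le_of_lt (mul_le_of_le_one_right hθ.1 hu1) hθ.2) h
      rwa [map_smul, _root_.smul_apply, Q_smul, map_smul, smul_eq_mul] at this
    have := hcl (show (1 : ℝ) ∈ closure (Set.Ico (0 : ℝ) 1) by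
      rw [closure_Ico zero_ne_one]; simp)
    simpa using this
  have heq : ∀ u ∈ unitary A, ∀ h, ℓ (Q (π u h)) = ℓ (Q h) := by
    intro u hu h
    refine le_antisymm (hle u hu h) ?_
    have := hle (star u) (Unitary.star_mem hu) (π u h)
    rwa [← mul_apply_eq_comp, ← map_mul, Unitary.star_mul_self_of_mem hu, map_one,
      one_apply_eq_self] at this
  have hinv : ∀ u ∈ unitary A, star (π u) * T * π u = T := by
    intro u hu
    have : ((star (π u) * T * π u : H →L[ℂ] H) : H →ₗ[ℂ] H) = (T : H →ₗ[ℂ] H) := by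
      rw [← ext_inner_map]
      intro x
      show ⟪star (π u) (T (π u x)), x⟫_ℂ = ⟪T x, x⟫_ℂ
      rw [ContinuousLinearMap.star_eq_adjoint, ContinuousLinearMap.adjoint_inner_left, hT, hT,
        heq u hu]
    exact ContinuousLinearMap.coe_injective this
  have hall : ∀ a : A, star (π a) * T = T * π (star a) := by
    intro a
    have ha : a ∈ Submodule.span ℂ (unitary A : Set A) := by
      rw [CStarAlgebra.span_unitary]; trivial
    induction ha using Submodule.span_induction with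
    | mem u hu =>
      conv_rhs => rw [← hinv u hu]
      rw [mul_assoc, ← map_mul, Unitary.mul_star_self_of_mem hu, map_one, mul_one]
    | zero => simp
    | add x y _ _ hx hy => simp [add_mul, mul_add, hx, hy]
    | smul c x _ hx => simp [hx]
  have h1T : 1 ≤ T := by
    rw [ContinuousLinearMap.le_def, ContinuousLinearMap.isPositive_iff_complex]
    intro x
    have : ⟪(T - 1) x, x⟫_ℂ = ((ℓ (Q x) - ‖x‖ ^ 2 : ℝ) : ℂ) := by
      rw [_root_.sub_apply, inner_sub_left, hT, one_apply_eq_self, inner_self_eq_norm_sq_to_K]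
      simp
    rw [this]
    exact ⟨by simp only [RCLike.re_to_complex, Complex.ofReal_re],
      by simp only [RCLike.re_to_complex, Complex.ofReal_re]; exact sub_nonneg.mpr (h1 x)⟩
  have h0T : 0 ≤ T := zero_le_one.trans h1T
  have hTu : IsUnit T := CStarAlgebra.isUnit_of_le 1 h1T
  obtain ⟨S, hS⟩ := (CFC.isUnit_sqrt_iff T h0T).mpr hTu
  have hSS : (S : H →L[ℂ] H) * S = T := by rw [hS]; exact CFC.sqrt_mul_sqrt_self T h0T
  have hSsa : star (S : H →L[ℂ] H) = S := by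
    rw [hS]; exact (IsSelfAdjoint.of_nonneg (CFC.sqrt_nonneg T)).star_eq
  have hSi : star (↑S⁻¹ : H →L[ℂ] H) = ↑S⁻¹ := by
    have : (S : H →L[ℂ] H) * star (↑S⁻¹ : H →L[ℂ] H) = 1 := by
      rw [← hSsa, ← star_mul, S.inv_mul, star_one]
    exact (Units.inv_eq_of_mul_eq_one_right this).symm
  refine ⟨S, fun a => ?_⟩
  rw [star_mul, star_mul, hSsa, hSi]
  calc (↑S⁻¹ : H →L[ℂ] H) * (star (π a) * ↑S)
      = ↑S⁻¹ * (star (π a) * (S * S)) * ↑S⁻¹ := by
        simp only [mul_assoc, Units.mul_inv, mul_one]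
    _ = ↑S⁻¹ * ((S * S) * π (star a)) * ↑S⁻¹ := by rw [hSS, hall]
    _ = _ := by simp only [← mul_assoc, Units.inv_mul, one_mul]

/-- The column bound for bounded homomorphisms, in the weak form needed here. -/
def HomColW : Prop :=
  ∀ (A : Type u) [CStarAlgebra A] (H : Type v) [NormedAddCommGroup H] [InnerProductSpace ℂ H]
    [CompleteSpace H] (π : A →ₐ[ℂ] (H →L[ℂ] H)) (κ : ℝ), 0 ≤ κ → (∀ a, ‖π a‖ ≤ κ * ‖a‖) →
    ∀ h : H, ColBdd ((ContinuousLinearMap.apply ℂ H h).toLinearMap ∘ₗ π.toLinearMap)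

theorem kadison_of (hU : ThmU.{u, v}) (hC : HomColW.{u, v})
    (π : A →ₐ[ℂ] (H →L[ℂ] H)) (hπ : ∃ K : ℝ, ∀ a : A, ‖π a‖ ≤ K * ‖a‖) :
    ∃ S : (H →L[ℂ] H)ˣ, ∀ a : A,
      star ((S : H →L[ℂ] H) * π a * (↑S⁻¹ : H →L[ℂ] H)) =
        (S : H →L[ℂ] H) * π (star a) * (↑S⁻¹ : H →L[ℂ] H) := by
  let := CStarAlgebra.spectralOrder A
  have := CStarAlgebra.spectralOrderedRing A
  obtain ⟨K, hK⟩ := hπ
  have hK' : ∀ a, ‖π a‖ ≤ |K| * ‖a‖ := fun a =>
    (hK a).trans (mul_le_mul_of_nonneg_right (le_abs_self K) (norm_nonneg _))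
  have hK'' : ∀ a, ‖conjRep π a‖ ≤ |K| * ‖a‖ := fun a => by
    rw [conjRep_apply, norm_star]; simpa using hK' (star a)
  exact similar_of_cb π _ (cb_of_thmU hU π |K| (abs_nonneg K) hK'
    (hC A H π _ (abs_nonneg K) hK') (hC A H (conjRep π) _ (abs_nonneg K) hK''))

end Crest.Agent.H9.KD
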