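import Crest.Agent.H9.KA1
import Crest.Agent.H9.KD6

/-! KS-A, part 2: row and column bounds for bounded homomorphisms. -/

set_option autoImplicit false
open scoped InnerProductSpace
open Crest.Agent.H2.KS

namespace Crest.Agent.H9.KA

section
variable {A : Type*} [CStarAlgebra A]
variable {H : Type*} [NormedAddCommGroup H] [InnerProductSpace ℂ H]

theorem exists_factor [PartialOrder A] [StarOrderedRing A] (v : A) (ε : ℝ) (hε : 0 < ε) :
    ∃ a c : A, IsSelfAdjoint a ∧ a * a = star v * v + ε • 1 ∧ ‖c‖ ≤ 1 ∧ v = c * a := by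
  have h0 : (0 : A) ≤ ε • 1 := smul_nonneg hε.le zero_le_one
  have h1 : 0 ≤ star v * v + ε • (1 : A) := add_nonneg (star_mul_self_nonneg v) h0
  have hu : IsUnit (star v * v + ε • (1 : A)) := by
    refine CStarAlgebra.isUnit_of_le (ε • 1) (le_add_of_nonneg_left (star_mul_self_nonneg v)) ?_
    refine ⟨h0, ?_⟩
    rw [← Algebra.algebraMap_eq_smul_one]
    exact (IsUnit.mk0 ε hε.ne').map _
  obtain ⟨S, hS⟩ := (CFC.isUnit_sqrt_iff _ h1).mpr hu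
  have hSS : (S : A) * S = star v * v + ε • 1 := by rw [hS]; exact CFC.sqrt_mul_sqrt_self _ h1
  have hSsa : IsSelfAdjoint (S : A) := by
    rw [hS]; exact IsSelfAdjoint.of_nonneg (CFC.sqrt_nonneg _)
  have hSi : star (↑S⁻¹ : A) = ↑S⁻¹ := by
    have : (S : A) * star (↑S⁻¹ : A) = 1 := by
      rw [← hSsa.star_eq, ← star_mul, S.inv_mul, star_one]
    exact (Units.inv_eq_of_mul_eq_one_right this).symm
  refine ⟨S, v * ↑S⁻¹, hSsa, hSS, ?_, by simp⟩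
  have h2 : star (v * ↑S⁻¹) * (v * ↑S⁻¹) ≤ 1 := by
    calc star (v * ↑S⁻¹) * (v * ↑S⁻¹) = star (↑S⁻¹ : A) * (star v * v) * ↑S⁻¹ := by
          simp only [star_mul, mul_assoc]
      _ ≤ star (↑S⁻¹ : A) * (star v * v + ε • 1) * ↑S⁻¹ :=
          star_left_conjugate_le_conjugate (le_add_of_nonneg_right h0) _
      _ = 1 := by rw [← hSS, hSi]; simp [mul_assoc]
  rw [← CStarAlgebra.norm_le_one_iff_of_nonneg _ (star_mul_self_nonneg _),
    CStarRing.norm_star_mul_self] at h2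
  nlinarith [norm_nonneg (v * ↑S⁻¹)]

theorem hom_col' (π : A →ₗ[ℂ] (H →L[ℂ] H)) (hmul : ∀ a b, π (a * b) = π a * π b) (κ : ℝ)
    (hκ0 : 0 ≤ κ) (hκ : ∀ a, ‖π a‖ ≤ κ * ‖a‖) {ι : Type} [Fintype ι] (v : ι → A) (h : H) :
    ∑ i, ‖π (v i) h‖ ^ 2 ≤ 4 * κ ^ 4 * ‖h‖ ^ 2 * ‖∑ i, star (v i) * v i‖ := by
  let := CStarAlgebra.spectralOrder A
  have := CStarAlgebra.spectralOrderedRing A
  have key : ∀ ε : ℝ, 0 < ε → ∑ i, ‖π (v i) h‖ ^ 2 ≤ 4 * κ ^ 4 * ‖h‖ ^ 2 *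
      (‖∑ i, star (v i) * v i‖ + ε * (Fintype.card ι * ‖(1 : A)‖)) := by
    intro ε hε
    choose a c ha haa hc hv using fun i => exists_factor (v i) ε hε
    have h1 := sa_col ((ContinuousLinearMap.apply ℂ H h).toLinearMap ∘ₗ π) (κ * ‖h‖) (fun x => by
      refine ((π x).le_opNorm h).trans ?_
      have := mul_le_mul_of_nonneg_right (hκ x) (norm_nonneg h)
      linarith) (by positivity) ι a ha
    have h2 : ‖∑ i, a i * a i‖ ≤ ‖∑ i, star (v i) * v i‖ + ε * (Fintype.card ι * ‖(1 : A)‖) := by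
      simp only [haa, Finset.sum_add_distrib, Finset.sum_const, Finset.card_univ]
      refine (norm_add_le _ _).trans (add_le_add le_rfl ?_)
      refine (norm_nsmul_le).trans ?_
      rw [norm_smul, Real.norm_of_nonneg hε.le]
      exact le_of_eq (by ring)
    have h3 : ∑ i, ‖π (v i) h‖ ^ 2 ≤ ∑ i, κ ^ 2 * ‖π (a i) h‖ ^ 2 := by
      refine Finset.sum_le_sum fun i _ => ?_
      rw [hv i, hmul, ← mul_pow]
      refine pow_le_pow_left₀ (norm_nonneg _) (((π (c i)).le_opNorm _).trans ?_) 2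
      exact mul_le_mul_of_nonneg_right ((hκ _).trans (mul_le_of_le_one_right hκ0 (hc i)))
        (norm_nonneg _)
    rw [← Finset.mul_sum] at h3
    have h4 : ∑ i, ‖π (a i) h‖ ^ 2 ≤ 4 * (κ * ‖h‖) ^ 2 *
        (‖∑ i, star (v i) * v i‖ + ε * (Fintype.card ι * ‖(1 : A)‖)) :=
      le_trans h1 (mul_le_mul_of_nonneg_left h2 (by positivity))
    refine h3.trans ((mul_le_mul_of_nonneg_left h4 (sq_nonneg κ)).trans (le_of_eq (by ring)))
  have hlim : Filter.Tendsto (fun ε : ℝ => 4 * κ ^ 4 * ‖h‖ ^ 2 *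
      (‖∑ i, star (v i) * v i‖ + ε * (Fintype.card ι * ‖(1 : A)‖))) (nhdsWithin 0 (Set.Ioi 0))
      (nhds (4 * κ ^ 4 * ‖h‖ ^ 2 *
      (‖∑ i, star (v i) * v i‖ + 0 * (Fintype.card ι * ‖(1 : A)‖)))) :=
    (Continuous.tendsto (by fun_prop) 0).mono_left nhdsWithin_le_nhds
  have := ge_of_tendsto hlim (eventually_nhdsWithin_of_forall key)
  simpa using this

theorem hom_col (π : A →ₗ[ℂ] (H →L[ℂ] H)) (hmul : ∀ a b, π (a * b) = π a * π b) (κ : ℝ)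
    (hκ0 : 0 ≤ κ) (hκ : ∀ a, ‖π a‖ ≤ κ * ‖a‖) {ι : Type} [Fintype ι] (v : ι → A)
    (hv : ‖∑ i, star (v i) * v i‖ ≤ 1) (h : H) :
    ∑ i, ‖π (v i) h‖ ^ 2 ≤ Cc κ * ‖h‖ ^ 2 := by
  refine (hom_col' π hmul κ hκ0 hκ v h).trans ?_
  refine (mul_le_of_le_one_right (by positivity) hv).trans ?_
  unfold Cc
  have : 0 ≤ κ ^ 4 * ‖h‖ ^ 2 := by positivity
  linarith

theorem hom_row [CompleteSpace H] (π : A →ₗ[ℂ] (H →L[ℂ] H))
    (hmul : ∀ a b, π (a * b) = π a * π b) (κ : ℝ)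
    (hκ0 : 0 ≤ κ) (hκ : ∀ a, ‖π a‖ ≤ κ * ‖a‖) {ι : Type} [Fintype ι] (v : ι → A)
    (hv : ‖∑ i, v i * star (v i)‖ ≤ 1) (h : ι → H) :
    ‖∑ i, π (v i) (h i)‖ ^ 2 ≤ Cc κ * ∑ i, ‖h i‖ ^ 2 := by
  let π' : A →ₗ[ℂ] (H →L[ℂ] H) :=
    { toFun := fun a => star (π (star a))
      map_add' := fun a b => by simp
      map_smul' := fun c a => by simp }
  have hπ' : ∀ a, π' a = star (π (star a)) := fun a => rfl
  set w := ∑ i, π (v i) (h i) with hw
  have h1 := hom_col π' (fun a b => by simp [hπ', hmul]) κ hκ0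
    (fun a => by rw [hπ', norm_star]; simpa using hκ (star a)) (fun i => star (v i))
    (by simpa using hv) w
  simp only [hπ', star_star] at h1
  have h2 : ‖w‖ ^ 2 ≤ ∑ i, ‖star (π (v i)) w‖ * ‖h i‖ := by
    have : ‖w‖ ^ 2 = ‖⟪w, w⟫_ℂ‖ := by
      rw [inner_self_eq_norm_sq_to_K]; simp
    rw [this]
    conv_lhs => rw [hw, inner_sum, ← hw]
    refine (norm_sum_le _ _).trans (Finset.sum_le_sum fun i _ => ?_)
    rw [← ContinuousLinearMap.adjoint_inner_left, ← ContinuousLinearMap.star_eq_adjoint]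
    exact norm_inner_le_norm _ _
  have h3 := Finset.sum_mul_sq_le_sq_mul_sq Finset.univ (fun i => ‖star (π (v i)) w‖)
    (fun i => ‖h i‖)
  have hs : 0 ≤ ∑ i, ‖h i‖ ^ 2 := Finset.sum_nonneg fun _ _ => sq_nonneg _
  have hC : 0 ≤ Cc κ := by unfold Cc; positivity
  have h4 := (pow_le_pow_left₀ (sq_nonneg _) h2 2).trans
    (h3.trans (mul_le_mul_of_nonneg_right h1 hs))
  rcases eq_or_lt_of_le (sq_nonneg ‖w‖) with h0 | h0
  · rw [← h0]; positivity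
  refine le_of_mul_le_mul_left ?_ h0
  nlinarith

end

universe u v

theorem homColW : Crest.Agent.H9.KD.HomColW.{u, v} := by
  intro A _ H _ _ _ π κ hκ0 hκ h
  exact ⟨4 * κ ^ 4 * ‖h‖ ^ 2, by positivity, fun ι _ v =>
    hom_col' π.toLinearMap (map_mul π) κ hκ0 hκ v h⟩

/-- Kadison's similarity problem from the uniform theorem. -/
theorem kadison_of_thmU (hU : ThmU.{u, v}) {A : Type u} [CStarAlgebra A]
    {H : Type v} [NormedAddCommGroup H] [InnerProductSpace ℂ H] [CompleteSpace H]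
    (π : A →ₐ[ℂ] (H →L[ℂ] H)) (hπ : ∃ K : ℝ, ∀ a : A, ‖π a‖ ≤ K * ‖a‖) :
    ∃ S : (H →L[ℂ] H)ˣ, ∀ a : A,
      star ((S : H →L[ℂ] H) * π a * (↑S⁻¹ : H →L[ℂ] H)) =
        (S : H →L[ℂ] H) * π (star a) * (↑S⁻¹ : H →L[ℂ] H) :=
  Crest.Agent.H9.KD.kadison_of hU homColW π hπ

section Adm
variable {K : Type*} [NormedAddCommGroup K] [InnerProductSpace ℂ K] [CompleteSpace K]
variable {H : Type*} [NormedAddCommGroup H] [InnerProductSpace ℂ H] [CompleteSpace H]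

theorem norm_sum_star_mul_le_one {ι : Type*} [Fintype ι] (v : ι → (K →L[ℂ] K))
    (hv : ∀ ζ, ∑ i, ‖v i ζ‖ ^ 2 ≤ ‖ζ‖ ^ 2) : ‖∑ i, star (v i) * v i‖ ≤ 1 := by
  rw [CStarAlgebra.norm_le_one_iff_of_nonneg _
    (Finset.sum_nonneg fun i _ => star_mul_self_nonneg _),
    ContinuousLinearMap.le_def, ContinuousLinearMap.isPositive_iff_complex]
  intro x
  have h : ∀ w : K, ⟪w, w⟫_ℂ = ((‖w‖ ^ 2 : ℝ) : ℂ) := fun w => by
    rw [inner_self_eq_norm_sq_to_K]; simp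
  have : ⟪((1 : K →L[ℂ] K) - ∑ i, star (v i) * v i) x, x⟫_ℂ =
      ((‖x‖ ^ 2 - ∑ i, ‖v i x‖ ^ 2 : ℝ) : ℂ) := by
    rw [_root_.sub_apply, inner_sub_left, one_apply_eq_self, h, _root_.sum_apply, sum_inner,
      Complex.ofReal_sub, Complex.ofReal_sum]
    congr 1
    refine Finset.sum_congr rfl fun i _ => ?_
    rw [mul_apply_eq_comp, ContinuousLinearMap.star_eq_adjoint,
      ContinuousLinearMap.adjoint_inner_left, h]
  rw [this]
  exact ⟨by simp only [RCLike.re_to_complex, Complex.ofReal_re],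
    by simp only [RCLike.re_to_complex, Complex.ofReal_re]; exact sub_nonneg.mpr (hv x)⟩

theorem adm_of_single (C : Set (K →L[ℂ] K)) (hC : ∀ c ∈ C, star c ∈ C) (S : K →L[ℂ] H) (κ : ℝ)
    (hκ : 1 ≤ κ) (hS : ∀ a ∈ C.centralizer, ∀ ζ, ‖S (a ζ)‖ ≤ κ * ‖a‖ * ‖S ζ‖) :
    Adm C.centralizer S κ := by
  have hκ0 : 0 ≤ κ := by linarith
  let B : StarSubalgebra ℂ (K →L[ℂ] K) := StarSubalgebra.centralizer ℂ C
  have hB : ∀ a, a ∈ B ↔ a ∈ C.centralizer := fun a => by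
    rw [StarSubalgebra.mem_centralizer_iff]
    exact ⟨fun h g hg => (h g hg).1, fun h g hg => ⟨h g hg, h _ (hC g hg)⟩⟩
  have hcl : IsClosed (B : Set (K →L[ℂ] K)) := by
    rw [StarSubalgebra.coe_centralizer]; exact Set.isClosed_centralizer _
  let : CStarAlgebra B := StarSubalgebra.cstarAlgebra B (h_closed := hcl)
  let V : Submodule ℂ H := (LinearMap.range (S : K →ₗ[ℂ] H)).topologicalClosure
  have : CompleteSpace V :=
    (LinearMap.range (S : K →ₗ[ℂ] H)).isClosed_topologicalClosure.completeSpace_coe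
  let e : K →ₗ[ℂ] V := LinearMap.codRestrict V (S : K →ₗ[ℂ] H)
    (fun ζ => Submodule.le_topologicalClosure _ ⟨ζ, rfl⟩)
  have he : ∀ ζ, ‖e ζ‖ = ‖S ζ‖ := fun ζ => rfl
  have hd : DenseRange e := by
    rw [DenseRange, Subtype.dense_iff]
    refine closure_mono ?_
    rintro _ ⟨ζ, rfl⟩
    exact ⟨e ζ, ⟨ζ, rfl⟩, rfl⟩
  let p : B → (V →L[ℂ] V) := fun a =>
    (e ∘ₗ ((a : K →L[ℂ] K) : K →ₗ[ℂ] K)).extendOfNorm e
  have hbd : ∀ (a : B) ζ, ‖(e ∘ₗ ((a : K →L[ℂ] K) : K →ₗ[ℂ] K)) ζ‖ ≤ κ * ‖a‖ * ‖e ζ‖ :=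
    fun a ζ => hS a ((hB a).mp a.2) ζ
  have hp : ∀ (a : B) ζ, p a (e ζ) = e ((a : K →L[ℂ] K) ζ) := fun a ζ =>
    LinearMap.extendOfNorm_eq hd ⟨_, hbd a⟩ ζ
  have hext : ∀ T T' : V →L[ℂ] V, (∀ ζ, T (e ζ) = T' (e ζ)) → T = T' := fun T T' h =>
    ContinuousLinearMap.ext fun x => hd.induction_on x (isClosed_eq T.continuous T'.continuous) h
  let π : B →ₗ[ℂ] (V →L[ℂ] V) :=
    { toFun := p
      map_add' := fun a b => hext _ _ fun ζ => by simp [hp]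
      map_smul' := fun c a => hext _ _ fun ζ => by simp [hp] }
  have hπ : ∀ a ζ, π a (e ζ) = e ((a : K →L[ℂ] K) ζ) := hp
  have hmul : ∀ a b, π (a * b) = π a * π b := fun a b => hext _ _ fun ζ => by
    rw [mul_apply_eq_comp, hπ, hπ, hπ]; rfl
  have hn : ∀ a, ‖π a‖ ≤ κ * ‖a‖ := fun a =>
    LinearMap.opNorm_extendOfNorm_le hd (by positivity) (hbd a)
  refine ⟨hS, fun n v hv hc ζ => ?_, fun n v hv hc α => ?_⟩
  · have := hom_col π hmul κ hκ0 hn (fun i => (⟨v i, (hB _).mpr (hv i)⟩ : B)) (by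
      have := norm_sum_star_mul_le_one v hc
      refine le_of_eq_of_le ?_ this
      show ‖((∑ i, star (⟨v i, (hB _).mpr (hv i)⟩ : B) * ⟨v i, (hB _).mpr (hv i)⟩ : B) :
        K →L[ℂ] K)‖ = _
      simp) (e ζ)
    simpa only [hπ, he] using this
  · have := hom_row π hmul κ hκ0 hn (fun i => (⟨v i, (hB _).mpr (hv i)⟩ : B)) (by
      have := norm_sum_star_mul_le_one (fun i => star (v i)) hc
      refine le_of_eq_of_le ?_ this
      show ‖((∑ i, ⟨v i, (hB _).mpr (hv i)⟩ * star (⟨v i, (hB _).mpr (hv i)⟩ : B) : B) :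
        K →L[ℂ] K)‖ = _
      simp) (fun i => e (α i))
    simpa only [hπ, he, ← map_sum] using this

end Adm

end Crest.Agent.H9.KA
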