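import Crest.Agent.H9.KB2

/-! KS-B, part 3: the type I decomposition. -/

set_option autoImplicit false
open scoped InnerProductSpace ComplexStarModule
open Crest.Agent.H2.KS Crest.Agent.H9.KD

namespace Crest.Agent.H9.KB

variable {K : Type*} [NormedAddCommGroup K] [InnerProductSpace ℂ K] [CompleteSpace K]
variable {C : Set (K →L[ℂ] K)}

theorem extend_sys {n : ℕ} {e g p t : K →L[ℂ] K} {v : Fin n → (K →L[ℂ] K)}
    (hv : IsSys C.centralizer e v) (hgv : ∀ i, g * v i = v i) (hp : IsStarProjection p)
    (hpP : p ∈ C.centralizer) (hep : e * p = p) (htP : t ∈ C.centralizer) (htt : star t * t = p)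
    (htv : ∀ i, star t * (v i * p) = 0) (hgt : g * t = t) (hs : Small C.centralizer (n + 1) g) :
    p = 0 := by
  refine hs p (Fin.cons t fun i => v i * p) ⟨hpP, hp, Fin.cases htP fun i => mul_mem (hv.mem i) hpP,
    fun i j => ?_⟩ (Fin.cases hgt fun i => ?_)
  · cases i using Fin.cases with
    | zero =>
      cases j using Fin.cases with
      | zero => simpa using htt
      | succ j => rw [if_neg (Fin.succ_ne_zero j).symm]; exact htv j
    | succ i =>
      cases j using Fin.cases with
      | zero =>
        rw [if_neg (Fin.succ_ne_zero i)]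
        have := star_eq_of (htv i)
        rwa [star_star, star_zero] at this
      | succ j =>
        show star (v i * p) * (v j * p) = _
        rw [star_mul, hp.isSelfAdjoint.star_eq, mul_assoc, ← mul_assoc (star (v i)), hv.orth]
        by_cases h : i = j
        · simp [h, hep, hp.isIdempotentElem.eq]
        · simp [h]
  · show g * (v i * p) = v i * p
    rw [← mul_assoc, hgv]

/-- One bisection step. -/
theorem bisect (hC : ∀ c ∈ C, star c ∈ C) {e a : K →L[ℂ] K} (he : IsStarProjection e)
    (ha : a ∈ C.centralizer) (hsa : IsSelfAdjoint a) (hea : e * a = a) (r : ℝ) (hr : ‖a‖ ≤ r) :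
    ∃ p ∈ C.centralizer, IsStarProjection p ∧ e * p = p ∧ p * a = a * p ∧
      ‖a - ((r / 2 : ℝ) : ℂ) • (p + p - e)‖ ≤ r / 2 := by
  have hr0 : 0 ≤ r := (norm_nonneg _).trans hr
  set x := cfc (fun t : ℝ => max t 0) a with hx
  set y := cfc (fun t : ℝ => max (-t) 0) a with hy
  have hxs : IsSelfAdjoint x := cfc_predicate _ _
  have hys : IsSelfAdjoint y := cfc_predicate _ _
  have hxP : x ∈ C.centralizer := fun d hd => (Commute.cfc_real (ha d hd).symm _).symm
  have hxy : x * y = 0 := by
    rw [hx, hy, ← cfc_mul _ _ a, ← cfc_zero ℝ a]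
    refine cfc_congr fun t _ => ?_
    rcases le_total t 0 with h | h
    · simp [h]
    · simp [h]
  have hyx : y * x = 0 := by
    have := star_eq_of hxy
    rwa [hxs.star_eq, hys.star_eq, star_zero] at this
  have hsub : x - y = a := by
    rw [hx, hy, ← cfc_sub _ _ a]
    conv_rhs => rw [← cfc_id' ℝ a]
    refine cfc_congr fun t _ => ?_
    rcases le_total t 0 with h | h
    · simp [h]
    · simp [h]
  have hae : a * e = a := by
    have := star_eq_of hea
    rwa [hsa.star_eq, he.isSelfAdjoint.star_eq] at this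
  have h1e : star (1 - e) = 1 - e := he.one_sub.isSelfAdjoint.star_eq
  have hd : x * (1 - e) = y * (1 - e) := by
    rw [← sub_eq_zero, ← sub_mul, hsub, mul_sub, hae, mul_one, sub_self]
  have hxe : x * (1 - e) = 0 := by
    rw [← CStarRing.star_mul_self_eq_zero_iff, star_mul, hxs.star_eq]
    conv_lhs => rhs; rw [hd]
    rw [mul_assoc, ← mul_assoc x, hxy, zero_mul, mul_zero]
  have hye : y * (1 - e) = 0 := by rw [← hd, hxe]
  have hex : e * x = x := by
    have := star_eq_of hxe
    rwa [h1e, hxs.star_eq, star_zero, sub_mul, one_mul, sub_eq_zero, eq_comm] at this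
  have hey : e * y = y := by
    have := star_eq_of hye
    rwa [h1e, hys.star_eq, star_zero, sub_mul, one_mul, sub_eq_zero, eq_comm] at this
  obtain ⟨u, hu, h1, h2, -, h4⟩ := polar hC x hxP
  set p := star u * u with hp
  have hps : star p = p := h1.isSelfAdjoint.star_eq
  have hpx : p * x = x := by
    have := star_eq_of h2
    rwa [hps, hxs.star_eq] at this
  have hpy : p * y = 0 := by rw [hp, mul_assoc, h4 y hxy, mul_zero]
  have hyp : y * p = 0 := by
    have := star_eq_of hpy
    rwa [hps, hys.star_eq, star_zero] at this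
  have hpe : p * e = p := by
    have : p * (1 - e) = 0 := by rw [hp, mul_assoc, h4 _ hxe, mul_zero]
    rwa [mul_sub, mul_one, sub_eq_zero, eq_comm] at this
  have hep : e * p = p := by
    have := star_eq_of hpe
    rwa [hps, he.isSelfAdjoint.star_eq] at this
  refine ⟨p, mul_mem (star_mem hC hu) hu, h1, hep, ?_, ?_⟩
  · rw [← hsub, mul_sub, sub_mul, hpx, hpy, h2, hyp]
  · have e1 : a - ((r / 2 : ℝ) : ℂ) • (p + p - e) =
        (p + p - e) * (x + y - ((r / 2 : ℝ) : ℂ) • 1) := by
      simp only [mul_sub, mul_add, sub_mul, add_mul, hpx, hpy, hex, hey, mul_smul_comm, mul_one,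
        smul_sub, smul_add, ← hsub]
      abel
    have e2 : ‖p + p - e‖ ≤ 1 := by
      have : star (p + p - e) * (p + p - e) = e := by
        simp only [star_sub, star_add, hps, he.isSelfAdjoint.star_eq, mul_sub, mul_add, sub_mul,
          add_mul, hep, hpe, h1.isIdempotentElem.eq, he.isIdempotentElem.eq]
        abel
      have h3 := CStarRing.norm_star_mul_self (x := p + p - e)
      rw [this] at h3
      have h5 := he.norm_le
      nlinarith [norm_nonneg (p + p - e)]
    have e3 : ‖x + y - ((r / 2 : ℝ) : ℂ) • (1 : K →L[ℂ] K)‖ ≤ r / 2 := by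
      have : x + y - ((r / 2 : ℝ) : ℂ) • (1 : K →L[ℂ] K) =
          cfc (fun t : ℝ => max t 0 + max (-t) 0 - r / 2) a := by
        rw [cfc_sub _ _ a, cfc_add a _ _, cfc_const _ a, Complex.coe_smul,
          Algebra.algebraMap_eq_smul_one]
      rw [this]
      refine norm_cfc_le (by positivity) fun t ht => ?_
      have ht1 : |t| ≤ r := by
        rcases subsingleton_or_nontrivial (K →L[ℂ] K) with hs | hs
        · simp [spectrum.of_subsingleton] at ht
        · exact (spectrum.norm_le_norm_of_mem ht).trans hr
      rw [abs_le] at ht1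
      rw [Real.norm_eq_abs, abs_le]
      rcases le_total t 0 with h | h
      · rw [max_eq_right h, max_eq_left (by linarith)]
        constructor <;> linarith
      · rw [max_eq_left h, max_eq_right (by linarith)]
        constructor <;> linarith
    rw [e1]
    exact (norm_mul_le _ _).trans ((mul_le_of_le_one_left (norm_nonneg _) e2).trans e3)

theorem commute_of_no_nil (hC : ∀ c ∈ C, star c ∈ C) {e : K →L[ℂ] K} (he : IsStarProjection e)
    (heP : e ∈ C.centralizer)
    (hnil : ∀ c ∈ C.centralizer, e * c = c → c * e = c → c * c = 0 → c = 0) :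
    ∀ a ∈ C.centralizer, ∀ b ∈ C.centralizer, Commute (e * a * e) (e * b * e) := by
  intro a ha b hb
  set b' := e * b * e with hb'
  have hb'P : b' ∈ C.centralizer := mul_mem (mul_mem heP hb) heP
  have hee := he.isIdempotentElem.eq
  have heb : e * b' = b' := by rw [hb', ← mul_assoc, ← mul_assoc, hee]
  have hbe : b' * e = b' := by rw [hb', mul_assoc, hee]
  have hproj : ∀ p ∈ C.centralizer, IsStarProjection p → e * p = p → p * b' = b' * p := by
    intro p hpP hp hep
    have hpe : p * e = p := by
      have := star_eq_of hep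
      rwa [hp.isSelfAdjoint.star_eq, he.isSelfAdjoint.star_eq] at this
    have hpp := hp.isIdempotentElem.eq
    have z1 : (e - p) * p = 0 := by rw [sub_mul, hep, hpp, sub_self]
    have z2 : p * (e - p) = 0 := by rw [mul_sub, hpe, hpp, sub_self]
    have c1 := hnil (p * b' * (e - p)) (mul_mem (mul_mem hpP hb'P) (sub_mem heP hpP))
      (by rw [← mul_assoc, ← mul_assoc, hep]) (by rw [mul_assoc _ _ e, sub_mul e, hee, hpe])
      (by rw [mul_assoc _ (e - p), ← mul_assoc (e - p), ← mul_assoc (e - p), z1]; simp)
    have c2 := hnil ((e - p) * b' * p) (mul_mem (mul_mem (sub_mem heP hpP) hb'P) hpP)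
      (by rw [← mul_assoc, ← mul_assoc, mul_sub e, hee, hep]) (by rw [mul_assoc _ _ e, hpe])
      (by rw [mul_assoc _ p, ← mul_assoc p, ← mul_assoc p, z2]; simp)
    rw [mul_sub, mul_assoc p b' e, hbe, sub_eq_zero] at c1
    rw [sub_mul, sub_mul, heb, sub_eq_zero] at c2
    rw [c1, c2]
  have key : ∀ k : ℕ, ∀ x ∈ C.centralizer, IsSelfAdjoint x → e * x = x → ∀ r : ℝ, ‖x‖ ≤ r →
      ‖x * b' - b' * x‖ ≤ 2 * r * ‖b'‖ * (1 / 2) ^ k := by
    intro k
    induction k with
    | zero =>
      intro x _ _ _ r hr
      refine (norm_sub_le _ _).trans ?_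
      have h1 := (norm_mul_le x b').trans (mul_le_mul_of_nonneg_right hr (norm_nonneg _))
      have h2 := (norm_mul_le b' x).trans (mul_le_mul_of_nonneg_left hr (norm_nonneg _))
      linarith
    | succ k ih =>
      intro x hx hxs hex r hr
      obtain ⟨p, hpP, hp, hep, -, hn⟩ := bisect hC he hx hxs hex r hr
      have := ih _ (sub_mem hx (smul_mem _ (sub_mem (add_mem hpP hpP) heP)))
        (hxs.sub (IsSelfAdjoint.smul (Complex.conj_ofReal _)
          ((hp.isSelfAdjoint.add hp.isSelfAdjoint).sub he.isSelfAdjoint)))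
        (by simp only [mul_sub, mul_add, mul_smul_comm, hex, hep, hee]) _ hn
      have e1 : (x - ((r / 2 : ℝ) : ℂ) • (p + p - e)) * b' -
          b' * (x - ((r / 2 : ℝ) : ℂ) • (p + p - e)) = x * b' - b' * x := by
        simp only [mul_sub, mul_add, sub_mul, add_mul, mul_smul_comm, smul_mul_assoc, heb, hbe,
          hproj p hpP hp hep]
        abel
      rw [e1] at this
      refine this.trans (le_of_eq ?_)
      ring
  have hsa : ∀ x ∈ C.centralizer, IsSelfAdjoint x → e * x = x → Commute x b' := by
    intro x hx hxs hex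
    have hlim : Filter.Tendsto (fun k : ℕ => 2 * ‖x‖ * ‖b'‖ * (1 / 2 : ℝ) ^ k)
        Filter.atTop (nhds (2 * ‖x‖ * ‖b'‖ * 0)) :=
      (tendsto_pow_atTop_nhds_zero_of_lt_one (by norm_num) (by norm_num)).const_mul _
    have := ge_of_tendsto' hlim fun k => key k x hx hxs hex _ le_rfl
    rw [mul_zero, norm_le_zero_iff, sub_eq_zero] at this
    exact this
  set a' := e * a * e with ha'
  have ha'P : a' ∈ C.centralizer := mul_mem (mul_mem heP ha) heP
  have hea : e * a' = a' := by rw [ha', ← mul_assoc, ← mul_assoc, hee]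
  have hae : a' * e = a' := by rw [ha', mul_assoc, hee]
  have hea' : e * star a' = star a' := by
    have := star_eq_of hae
    rwa [he.isSelfAdjoint.star_eq] at this
  have hre : Commute (ℜ a' : K →L[ℂ] K) b' := by
    refine hsa _ (fun c hc => ?_) (ℜ a').2 ?_
    · rw [realPart_apply_coe]
      exact Commute.smul_right (Commute.add_right (ha'P c hc) (star_mem hC ha'P c hc)) _
    · rw [realPart_apply_coe, mul_smul_comm, mul_add, hea, hea']
  have him : Commute (ℑ a' : K →L[ℂ] K) b' := by
    refine hsa _ (fun c hc => ?_) (ℑ a').2 ?_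
    · rw [imaginaryPart_apply_coe]
      exact Commute.smul_right
        (Commute.smul_right (Commute.sub_right (ha'P c hc) (star_mem hC ha'P c hc)) _) _
    · rw [imaginaryPart_apply_coe, mul_smul_comm, mul_smul_comm, mul_sub, hea, hea']
  rw [← realPart_add_I_smul_imaginaryPart a']
  exact hre.add_left (him.smul_left _)

theorem exists_typeI (hC : ∀ c ∈ C, star c ∈ C) (n : ℕ) :
    ∀ g : K →L[ℂ] K, IsCP C.centralizer g → Small C.centralizer n g →
      ∃ (N : ℕ) (z : Fin N → (K →L[ℂ] K)), (∀ j, IsCP C.centralizer (z j)) ∧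
        (∀ i j, i ≠ j → z i * z j = 0) ∧ ∑ j, z j = g ∧
        ∀ j, ∃ (k : ℕ) (e : K →L[ℂ] K) (v : Fin k → (K →L[ℂ] K)), IsSys C.centralizer e v ∧
          ∑ i, v i * star (v i) = z j ∧
          ∀ a ∈ C.centralizer, ∀ b ∈ C.centralizer, Commute (e * a * e) (e * b * e) := by
  have triv : ∀ g : K →L[ℂ] K, g = 0 →
      ∃ (N : ℕ) (z : Fin N → (K →L[ℂ] K)), (∀ j, IsCP C.centralizer (z j)) ∧
        (∀ i j, i ≠ j → z i * z j = 0) ∧ ∑ j, z j = g ∧
        ∀ j, ∃ (k : ℕ) (e : K →L[ℂ] K) (v : Fin k → (K →L[ℂ] K)), IsSys C.centralizer e v ∧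
          ∑ i, v i * star (v i) = z j ∧
          ∀ a ∈ C.centralizer, ∀ b ∈ C.centralizer, Commute (e * a * e) (e * b * e) :=
    fun g hg => ⟨0, Fin.elim0, fun j => j.elim0, fun j => j.elim0, by simp [hg], fun j => j.elim0⟩
  induction n with
  | zero =>
    intro g hg hs
    exact triv g (hs g Fin.elim0 ⟨hg.mem, hg.proj, fun j => j.elim0, fun j => j.elim0⟩
      fun j => j.elim0)
  | succ n ih =>
    intro g hg hs
    rcases Nat.eq_zero_or_pos n with rfl | hn
    · refine triv g (hs g (fun _ => g) ⟨hg.mem, hg.proj, fun _ => hg.mem, fun i j => ?_⟩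
        fun _ => hg.proj.isIdempotentElem.eq)
      rw [if_pos (Subsingleton.elim (α := Fin 1) i j), hg.proj.isSelfAdjoint.star_eq,
        hg.proj.isIdempotentElem.eq]
    obtain ⟨v, hv, hgv, hf, hgf, hvf, hsm⟩ := exists_max_under hC ⟨0, hn⟩ g hg.proj
    set e := v ⟨0, hn⟩ with he
    set z₀ := ∑ i, v i * star (v i) with hz₀
    set f := g - z₀ with hfdef
    have hz₀P : z₀ ∈ C.centralizer := sys_sum_mem hC hv
    have hfP : f ∈ C.centralizer := sub_mem hg.mem hz₀P
    have hes : star e = e := hv.proj.isSelfAdjoint.star_eq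
    have hfv : ∀ i, f * v i = 0 := fun i => by
      have := star_eq_of (hvf i)
      rwa [hf.isSelfAdjoint.star_eq, star_star, star_zero] at this
    have hfe : ∀ a ∈ C.centralizer, f * a * e = 0 := by
      intro a ha
      obtain ⟨u, hu, h1, h2, -, -, h5, h6⟩ := polar' hC (f * a * e)
        (mul_mem (mul_mem hfP ha) hv.he)
      have hfu : f * u = u := h5 f (by rw [← mul_assoc, ← mul_assoc, hf.isIdempotentElem.eq])
      have hue : u * e = u := h6 e (by rw [mul_assoc, hv.proj.isIdempotentElem.eq])
      have heu : e * star u = star u := by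
        have := star_eq_of hue
        rwa [hes] at this
      have huf : star u * f = star u := by
        have := star_eq_of hfu
        rwa [hf.isSelfAdjoint.star_eq] at this
      have := extend_sys hv hgv h1 (mul_mem (star_mem hC hu) hu) (by rw [← mul_assoc, heu]) hu rfl
        (fun i => by rw [← huf, mul_assoc, ← mul_assoc f, hfv, zero_mul, mul_zero])
        (by rw [← hfu, ← mul_assoc, hgf]) hs
      rw [← h2, this, mul_zero]
    have hgz : g * z₀ = z₀ := by
      rw [hz₀, Finset.mul_sum]
      exact Finset.sum_congr rfl fun i _ => by rw [← mul_assoc, hgv]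
    have hzc : IsCP C.centralizer z₀ := central_of hC (sys_sum_proj hv) hz₀P fun a ha => by
      have h1 : f * a * z₀ = 0 := by
        rw [hz₀, Finset.mul_sum]
        refine Finset.sum_eq_zero fun i _ => ?_
        have := hfe _ (mul_mem ha (hv.mem i))
        rw [← sys_e_mul hv i, ← mul_assoc, ← mul_assoc, mul_assoc f, this, zero_mul]
      rwa [hfdef, sub_mul, sub_mul, (hg.comm a ha).eq, mul_assoc a, hgz, sub_eq_zero] at h1
    have hfc : IsCP C.centralizer f :=
      ⟨hfP, hf, fun a ha => (hg.comm a ha).sub_left (hzc.comm a ha)⟩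
    have hnil : ∀ c ∈ C.centralizer, e * c = c → c * e = c → c * c = 0 → c = 0 := by
      intro c hc h1 h2 h3
      obtain ⟨u, hu, k1, k2, k3, k4, k5, k6⟩ := polar' hC c hc
      have heu : e * u = u := k5 e h1
      have hue : u * e = u := k6 e h2
      have huu : u * u = 0 := k4 u (k3 c h3)
      have heu' : e * star u = star u := by
        have := star_eq_of hue
        rwa [hes] at this
      have hue' : star u * e = star u := by
        have := star_eq_of heu
        rwa [hes] at this
      have := extend_sys hv hgv k1 (mul_mem (star_mem hC hu) hu) (by rw [← mul_assoc, heu']) hu rfl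
        (fun i => by
          have h5 := hv.orth ⟨0, hn⟩ i
          rw [← he, hes] at h5
          calc star u * (v i * (star u * u)) = star u * (e * v i) * (star u * u) := by
                rw [← mul_assoc (star u) e, hue', mul_assoc]
            _ = 0 := by
                rw [h5]
                split_ifs
                · rw [hue', ← mul_assoc, ← star_mul, huu, star_zero, zero_mul]
                · simp)
        (by rw [← heu, ← mul_assoc, hgv]) hs
      rw [← k2, this, mul_zero]
    obtain ⟨N, z, m1, m2, m3, m4⟩ := ih f hfc hsm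
    have hzf : z₀ * f = 0 := by
      rw [hz₀, Finset.sum_mul]
      exact Finset.sum_eq_zero fun i _ => by rw [mul_assoc, hvf, mul_zero]
    have hz0 : ∀ j, z₀ * z j = 0 := fun j => by
      have : f * z j = z j := by
        rw [← m3, Finset.sum_mul, Finset.sum_eq_single j, (m1 j).proj.isIdempotentElem.eq]
        · intro i _ hi; exact m2 i j hi
        · simp
      rw [← this, ← mul_assoc, hzf, zero_mul]
    refine ⟨N + 1, Fin.cons z₀ z, Fin.cases hzc m1, ?_, ?_,
      Fin.cases ⟨n, e, v, hv, rfl, commute_of_no_nil hC hv.proj hv.he hnil⟩ m4⟩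
    · intro i j hij
      cases i using Fin.cases with
      | zero =>
        cases j using Fin.cases with
        | zero => exact absurd rfl hij
        | succ j => exact hz0 j
      | succ i =>
        cases j using Fin.cases with
        | zero => exact ((hzc.comm _ (m1 i).mem).eq.symm).trans (hz0 i)
        | succ j => exact m2 i j fun h => hij (by rw [h])
    · rw [Fin.sum_univ_succ]
      show z₀ + ∑ j, z j = g
      rw [m3, hfdef, add_sub_cancel]

end Crest.Agent.H9.KB
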