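import Crest.Agent.H9.KD2
import Crest.Agent.H2.KSDefs

/-! KS-B, part 1: systems from graphs, maximal systems, polar decomposition. -/

set_option autoImplicit false
open scoped InnerProductSpace
open Crest.Agent.H2.KS Crest.Agent.H9.KD

namespace Crest.Agent.H9.KB

variable {K : Type*} [NormedAddCommGroup K] [InnerProductSpace ℂ K] [CompleteSpace K]

theorem star_mem {C : Set (K →L[ℂ] K)} (hC : ∀ c ∈ C, star c ∈ C) {a : K →L[ℂ] K}
    (ha : a ∈ C.centralizer) : star a ∈ C.centralizer := by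
  intro c hc
  have := congrArg star (ha _ (hC c hc))
  rw [star_mul, star_mul, star_star] at this
  exact this.symm

theorem sys_of_graph {C : Set (K →L[ℂ] K)} (hC : ∀ c ∈ C, star c ∈ C) {ι : Type*} [Fintype ι]
    (i₀ : ι) (G : Submodule ℂ (PiLp 2 (fun _ : ι => K)))
    (hcl : IsClosed (G : Set (PiLp 2 (fun _ : ι => K))))
    (hinv : ∀ c ∈ C, ∀ g ∈ G, amp (K := K) ι c g ∈ G)
    (hiso : ∀ g ∈ G, ∀ g' ∈ G, ∀ i, ⟪g i, g' i⟫_ℂ = ⟪g i₀, g' i₀⟫_ℂ) :
    ∃ v : ι → (K →L[ℂ] K), (∀ i, v i ∈ C.centralizer) ∧ IsStarProjection (v i₀) ∧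
      (∀ ζ, WithLp.toLp 2 (fun i => v i ζ) ∈ G) ∧ ∀ g ∈ G, ∀ i, v i (g i₀) = g i := by
  classical
  have : CompleteSpace G := hcl.completeSpace_coe
  have hcomm : ∀ c ∈ C, ∀ x, G.starProjection (amp (K := K) ι c x) =
      amp (K := K) ι c (G.starProjection x) := by
    intro c hc x
    refine Submodule.eq_starProjection_of_mem_of_inner_eq_zero
      (hinv c hc _ (G.starProjection_apply_mem x)) fun w hw => ?_
    rw [← map_sub, ← ContinuousLinearMap.adjoint_inner_right,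
      ← ContinuousLinearMap.star_eq_adjoint, ← map_star]
    exact G.starProjection_inner_eq_zero x _ (hinv _ (hC c hc) w hw)
  let inc : K →L[ℂ] PiLp 2 (fun _ : ι => K) :=
    (PiLp.continuousLinearEquiv 2 ℂ (fun _ : ι => K)).symm.toContinuousLinearMap ∘L
      ContinuousLinearMap.single ℂ (fun _ : ι => K) i₀
  have hinc : ∀ x, inc x = PiLp.single 2 i₀ x := fun x => rfl
  have hinner : ∀ x (y : PiLp 2 (fun _ : ι => K)), ⟪inc x, y⟫_ℂ = ⟪x, y i₀⟫_ℂ := by
    intro x y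
    rw [hinc, PiLp.inner_apply, Finset.sum_eq_single i₀]
    · simp
    · intro j _ hj; simp [hj]
    · simp
  have hGinner : ∀ g ∈ G, ∀ g' ∈ G, ⟪g, g'⟫_ℂ = (Fintype.card ι : ℂ) * ⟪g i₀, g' i₀⟫_ℂ := by
    intro g hg g' hg'
    rw [PiLp.inner_apply]
    simp [hiso g hg g' hg']
  let γ : K →L[ℂ] PiLp 2 (fun _ : ι => K) := (Fintype.card ι : ℂ) • (G.starProjection ∘L inc)
  have hγ : ∀ ζ, γ ζ = (Fintype.card ι : ℂ) • G.starProjection (inc ζ) := fun ζ => rfl
  have hγG : ∀ ζ, γ ζ ∈ G := fun ζ => G.smul_mem _ (G.starProjection_apply_mem _)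
  have hN : (Fintype.card ι : ℂ) ≠ 0 := by
    have : Nonempty ι := ⟨i₀⟩
    exact_mod_cast Fintype.card_ne_zero
  have hγg : ∀ g ∈ G, γ (g i₀) = g := by
    intro g hg
    have : G.starProjection (inc (g i₀)) = (Fintype.card ι : ℂ)⁻¹ • g := by
      refine Submodule.eq_starProjection_of_mem_of_inner_eq_zero (G.smul_mem _ hg) fun w hw => ?_
      rw [inner_sub_left, hinner, inner_smul_left, hGinner g hg w hw, ← mul_assoc]
      simp [hN]
    rw [hγ, this, smul_smul, mul_inv_cancel₀ hN, one_smul]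
  refine ⟨fun i => PiLp.proj 2 (fun _ : ι => K) i ∘L γ, fun i c hc => ?_, ⟨?_, ?_⟩,
    fun ζ => hγG ζ, fun g hg i => ?_⟩
  · ext x
    have h1 : inc (c x) = amp (K := K) ι c (inc x) := by
      ext i
      simp only [hinc, amp_apply, PiLp.single_apply]
      split_ifs <;> simp
    show c (γ x i) = γ (c x) i
    rw [hγ, hγ, h1, hcomm c hc]
    simp
  · ext x
    show γ (γ x i₀) i₀ = γ x i₀
    rw [hγg _ (hγG x)]
  · rw [isSelfAdjoint_iff, ContinuousLinearMap.star_eq_adjoint, eq_comm,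
      ContinuousLinearMap.eq_adjoint_iff]
    intro x y
    show ⟪γ x i₀, y⟫_ℂ = ⟪x, γ y i₀⟫_ℂ
    rw [← hinner, ← inner_conj_symm, ← hinner, inner_conj_symm, hγ, hγ, inner_smul_left,
      inner_smul_right, G.inner_starProjection_left_eq_right]
    simp
  · show γ (g i₀) i = g i
    rw [hγg g hg]

theorem exists_max_sys {C : Set (K →L[ℂ] K)} (hC : ∀ c ∈ C, star c ∈ C) {n : ℕ} (i₀ : Fin n)
    (f : Fin n → (K →L[ℂ] K)) :
    ∃ v : Fin n → (K →L[ℂ] K), IsSys C.centralizer (v i₀) v ∧ (∀ i, f i * v i = v i) ∧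
      ∀ e' (v' : Fin n → (K →L[ℂ] K)), IsSys C.centralizer e' v' → (∀ i, f i * v' i = v' i) →
        (∀ i j, star (v j) * v' i = 0) → e' = 0 := by
  let Good : Set (Submodule ℂ (PiLp 2 (fun _ : Fin n => K))) := {G | (∀ c ∈ C, ∀ g ∈ G, amp (K := K) (Fin n) c g ∈ G) ∧
    (∀ g ∈ G, ∀ i, f i (g i) = g i) ∧
    ∀ g ∈ G, ∀ g' ∈ G, ∀ i j, ⟪g i, g' j⟫_ℂ = if i = j then ⟪g i₀, g' i₀⟫_ℂ else 0}
  obtain ⟨G, -, hG, hmax⟩ := zorn_le_nonempty₀ Good (by
    intro c hc hch y hy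
    have hm : ∀ z, z ∈ sSup c ↔ ∃ y ∈ c, z ∈ y := fun z =>
      Submodule.mem_sSup_of_directed ⟨y, hy⟩ hch.directedOn
    refine ⟨sSup c, ⟨?_, ?_, ?_⟩, fun z hz => le_sSup hz⟩
    · intro d hd g hg
      obtain ⟨G, hG, hg⟩ := (hm g).mp hg
      exact (hm _).mpr ⟨G, hG, (hc hG).1 d hd g hg⟩
    · intro g hg
      obtain ⟨G, hG, hg⟩ := (hm g).mp hg
      exact (hc hG).2.1 g hg
    · intro g hg g' hg'
      obtain ⟨G, hG, hg⟩ := (hm g).mp hg
      obtain ⟨G', hG', hg'⟩ := (hm g').mp hg'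
      rcases hch.total hG hG' with h | h
      · exact (hc hG').2.2 g (h hg) g' hg'
      · exact (hc hG).2.2 g hg g' (h hg')) ⊥ (by
    refine ⟨?_, ?_, ?_⟩
    · intro c _ g hg
      rw [Submodule.mem_bot] at hg ⊢
      rw [hg, map_zero]
    · intro g hg i
      rw [Submodule.mem_bot] at hg
      simp [hg]
    · intro g hg g' _ i j
      rw [Submodule.mem_bot] at hg
      simp [hg])
  have hclG : G.topologicalClosure ∈ Good := by
    refine ⟨fun c hc g hg => ?_, fun g hg i => ?_, fun g hg g' hg' i j => ?_⟩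
    · exact map_mem_closure (amp (K := K) (Fin n) c).continuous hg (hG.1 c hc)
    · have : closure (G : Set (PiLp 2 (fun _ : Fin n => K))) ⊆ {g | f i (g i) = g i} :=
        closure_minimal (fun g hg => hG.2.1 g hg i) (isClosed_eq (by fun_prop) (by fun_prop))
      exact this hg
    · have : closure ((G : Set (PiLp 2 (fun _ : Fin n => K))) ×ˢ (G : Set (PiLp 2 (fun _ : Fin n => K)))) ⊆ {p | ⟪p.1 i, p.2 j⟫_ℂ =
          if i = j then ⟪p.1 i₀, p.2 i₀⟫_ℂ else 0} := by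
        refine closure_minimal (fun p hp => hG.2.2 p.1 hp.1 p.2 hp.2 i j)
          (isClosed_eq (by fun_prop) ?_)
        split_ifs <;> fun_prop
      rw [closure_prod_eq] at this
      exact this (show (g, g') ∈ _ from ⟨hg, hg'⟩)
  have hcl : IsClosed (G : Set (PiLp 2 (fun _ : Fin n => K))) := by
    have : G.topologicalClosure = G :=
      le_antisymm (hmax hclG G.le_topologicalClosure) G.le_topologicalClosure
    rw [← this]
    exact G.isClosed_topologicalClosure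
  obtain ⟨v, hvP, hv0, hvG, hvg⟩ := sys_of_graph hC i₀ G hcl hG.1 (fun g hg g' hg' i => by
    simpa using hG.2.2 g hg g' hg' i i)
  have hsys : IsSys C.centralizer (v i₀) v := by
    refine ⟨hvP i₀, hv0, hvP, fun i j => ?_⟩
    ext y
    refine ext_inner_left ℂ fun x => ?_
    have := hG.2.2 _ (hvG x) _ (hvG y) i j
    simp only at this
    rw [mul_apply_eq_comp, ContinuousLinearMap.star_eq_adjoint,
      ContinuousLinearMap.adjoint_inner_right, this]
    split_ifs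
    · rw [← ContinuousLinearMap.adjoint_inner_right, ← ContinuousLinearMap.star_eq_adjoint,
        hv0.isSelfAdjoint.star_eq, ← mul_apply_eq_comp, hv0.isIdempotentElem.eq]
    · simp
  refine ⟨v, hsys, fun i => ?_, fun e' v' hs' hf' ho => ?_⟩
  · ext ζ
    exact hG.2.1 _ (hvG ζ) i
  · let L : K →ₗ[ℂ] (PiLp 2 (fun _ : Fin n => K)) := (WithLp.linearEquiv 2 ℂ (Fin n → K)).symm.toLinearMap ∘ₗ
      LinearMap.pi fun i => (v' i : K →ₗ[ℂ] K)
    have hL : ∀ ζ i, L ζ i = v' i ζ := fun ζ i => rfl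
    have hcross : ∀ g ∈ G, ∀ ζ i j, ⟪g j, v' i ζ⟫_ℂ = 0 := by
      intro g hg ζ i j
      rw [← hvg g hg j, ← ContinuousLinearMap.adjoint_inner_right,
        ← ContinuousLinearMap.star_eq_adjoint, ← mul_apply_eq_comp, ho]
      simp
    have hcross' : ∀ g ∈ G, ∀ ζ i j, ⟪v' i ζ, g j⟫_ℂ = 0 := by
      intro g hg ζ i j
      rw [inner_eq_zero_symm]; exact hcross g hg ζ i j
    have hvv : ∀ ζ ζ' i j, ⟪v' i ζ, v' j ζ'⟫_ℂ = if i = j then ⟪ζ, e' ζ'⟫_ℂ else 0 := by
      intro ζ ζ' i j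
      rw [← ContinuousLinearMap.adjoint_inner_right,
        ← ContinuousLinearMap.star_eq_adjoint, ← mul_apply_eq_comp, hs'.orth]
      split_ifs <;> simp
    have hsup : G ⊔ LinearMap.range L ∈ Good := by
      refine ⟨fun c hc g hg => ?_, fun g hg i => ?_, fun g hg g' hg' i j => ?_⟩
      · obtain ⟨g₁, h₁, _, ⟨ζ, rfl⟩, rfl⟩ := Submodule.mem_sup.mp hg
        refine Submodule.mem_sup.mpr ⟨_, hG.1 c hc g₁ h₁, L (c ζ), ⟨_, rfl⟩, ?_⟩
        rw [map_add]
        congr 1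
        ext i
        rw [amp_apply, hL, hL, ← mul_apply_eq_comp, ← hs'.mem i c hc, mul_apply_eq_comp]
      · obtain ⟨g₁, h₁, _, ⟨ζ, rfl⟩, rfl⟩ := Submodule.mem_sup.mp hg
        show f i (g₁ i + L ζ i) = g₁ i + L ζ i
        rw [map_add, hG.2.1 g₁ h₁, hL, ← mul_apply_eq_comp, hf']
      · obtain ⟨g₁, h₁, _, ⟨ζ, rfl⟩, rfl⟩ := Submodule.mem_sup.mp hg
        obtain ⟨g₂, h₂, _, ⟨ζ', rfl⟩, rfl⟩ := Submodule.mem_sup.mp hg'
        show ⟪g₁ i + L ζ i, g₂ j + L ζ' j⟫_ℂ =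
          if i = j then ⟪g₁ i₀ + L ζ i₀, g₂ i₀ + L ζ' i₀⟫_ℂ else 0
        simp only [hL, inner_add_left, inner_add_right, hcross g₁ h₁, hcross' g₂ h₂, hvv,
          hG.2.2 g₁ h₁ g₂ h₂ i j]
        split_ifs <;> simp
    have hle := hmax hsup le_sup_left
    ext ζ
    have h1 : L ζ ∈ G := hle (Submodule.mem_sup_right ⟨ζ, rfl⟩)
    have h2 := hcross _ h1 ζ i₀ i₀
    rw [hL, inner_self_eq_zero] at h2
    have h3 := hs'.orth i₀ i₀
    rw [if_pos rfl] at h3
    rw [← h3, mul_apply_eq_comp, h2]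
    simp

theorem pi_mul {u : K →L[ℂ] K} (h : IsStarProjection (star u * u)) : u * (star u * u) = u := by
  have h1 := h.isIdempotentElem.eq
  have : star (u - u * (star u * u)) * (u - u * (star u * u)) = 0 := by
    rw [star_sub, star_mul, h.isSelfAdjoint.star_eq]
    calc _ = star u * u - star u * u * (star u * u) - star u * u * (star u * u) +
        star u * u * (star u * u) * (star u * u) := by noncomm_ring
      _ = 0 := by rw [h1, h1]; abel
  exact (sub_eq_zero.mp ((CStarRing.star_mul_self_eq_zero_iff _).mp this)).symm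

theorem polar {C : Set (K →L[ℂ] K)} (hC : ∀ c ∈ C, star c ∈ C) (c : K →L[ℂ] K)
    (hc : c ∈ C.centralizer) : ∃ u ∈ C.centralizer, IsStarProjection (star u * u) ∧
      c * (star u * u) = c ∧ (∀ f, f * c = 0 → f * u = 0) ∧ (∀ f, c * f = 0 → u * f = 0) := by
  let a : K →L[ℂ] K := cfc Real.sqrt (star c * c)
  have hsa : IsSelfAdjoint a := cfc_predicate _ _
  have h0 : 0 ≤ star c * c := star_mul_self_nonneg c
  have haa : a * a = star c * c := by
    rw [← cfc_mul _ _ (star c * c)]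
    conv_rhs => rw [← cfc_id' ℝ (star c * c)]
    exact cfc_congr fun t ht => Real.mul_self_sqrt (spectrum_nonneg_of_nonneg h0 ht)
  have haP : a ∈ C.centralizer := fun d hd =>
    (Commute.cfc_real (Set.mul_mem_centralizer (star_mem hC hc) hc d hd).symm _).symm
  have hiso : ∀ x y, ⟪c x, c y⟫_ℂ = ⟪a x, a y⟫_ℂ := by
    intro x y
    rw [← ContinuousLinearMap.adjoint_inner_right, ← ContinuousLinearMap.adjoint_inner_right a,
      ← ContinuousLinearMap.star_eq_adjoint, ← ContinuousLinearMap.star_eq_adjoint,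
      hsa.star_eq, ← mul_apply_eq_comp, ← mul_apply_eq_comp, haa]
  let L : K →ₗ[ℂ] (PiLp 2 (fun _ : Fin 2 => K)) := (WithLp.linearEquiv 2 ℂ (Fin 2 → K)).symm.toLinearMap ∘ₗ
    LinearMap.pi fun i => ((![a, c] i : K →L[ℂ] K) : K →ₗ[ℂ] K)
  have hL0 : ∀ ζ, L ζ 0 = a ζ := fun ζ => rfl
  have hL1 : ∀ ζ, L ζ 1 = c ζ := fun ζ => rfl
  obtain ⟨v, hvP, hv0, hvG, hvg⟩ := sys_of_graph hC (0 : Fin 2)
    (LinearMap.range L).topologicalClosure (LinearMap.range L).isClosed_topologicalClosure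
    (fun d hd g hg => by
      refine map_mem_closure (amp (K := K) (Fin 2) d).continuous hg ?_
      rintro _ ⟨ζ, rfl⟩
      refine ⟨d ζ, ?_⟩
      ext i
      fin_cases i
      · exact (congrArg (fun T : K →L[ℂ] K => T ζ) (haP d hd)).symm
      · exact (congrArg (fun T : K →L[ℂ] K => T ζ) (hc d hd)).symm)
    (fun g hg g' hg' i => by
      have : closure ((LinearMap.range L : Set (PiLp 2 (fun _ : Fin 2 => K))) ×ˢ (LinearMap.range L : Set (PiLp 2 (fun _ : Fin 2 => K)))) ⊆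
          {p | ⟪p.1 i, p.2 i⟫_ℂ = ⟪p.1 0, p.2 0⟫_ℂ} := by
        refine closure_minimal ?_ (isClosed_eq (by fun_prop) (by fun_prop))
        rintro ⟨_, _⟩ ⟨⟨x, rfl⟩, ⟨y, rfl⟩⟩
        fin_cases i
        · rfl
        · exact hiso x y
      rw [closure_prod_eq] at this
      exact this (show (g, g') ∈ _ from ⟨hg, hg'⟩))
  have hLG : ∀ ζ, L ζ ∈ (LinearMap.range L).topologicalClosure := fun ζ =>
    Submodule.le_topologicalClosure _ ⟨ζ, rfl⟩
  have hva : v 1 * a = c := by ext ζ; exact hvg _ (hLG ζ) 1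
  have hpa : v 0 * a = a := by ext ζ; exact hvg _ (hLG ζ) 0
  have hap : a * v 0 = a := by
    have := congrArg star hpa
    rwa [star_mul, hsa.star_eq, hv0.isSelfAdjoint.star_eq] at this
  have hvp : v 1 * v 0 = v 1 := by ext ζ; exact hvg _ (hvG ζ) 1
  have hcoord : ∀ (i : Fin 2) (f : K →L[ℂ] K), (∀ ζ, f (L ζ i) = 0) → f * v i = 0 := by
    intro i f hf
    have : closure (LinearMap.range L : Set (PiLp 2 (fun _ : Fin 2 => K))) ⊆ {g | f (g i) = 0} := by
      refine closure_minimal ?_ (isClosed_eq (by fun_prop) (by fun_prop))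
      rintro _ ⟨ζ, rfl⟩
      exact hf ζ
    ext ζ
    exact this (hvG ζ)
  have huu : star (v 1) * v 1 = v 0 := by
    have h1 : (star (v 1) * v 1 - v 0) * a = 0 := by
      ext y
      refine ext_inner_left ℂ fun x => ?_
      have : closure (LinearMap.range L : Set (PiLp 2 (fun _ : Fin 2 => K))) ⊆ {g | ⟪g 1, c y⟫_ℂ = ⟪g 0, a y⟫_ℂ} := by
        refine closure_minimal ?_ (isClosed_eq (by fun_prop) (by fun_prop))
        rintro _ ⟨ζ, rfl⟩
        exact hiso ζ y
      have h2 : ⟪v 1 x, c y⟫_ℂ = ⟪v 0 x, a y⟫_ℂ := this (hvG x)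
      rw [sub_mul, mul_assoc, hva, _root_.sub_apply, inner_sub_right, mul_apply_eq_comp,
        mul_apply_eq_comp, ContinuousLinearMap.star_eq_adjoint,
        ContinuousLinearMap.adjoint_inner_right, h2, ← ContinuousLinearMap.adjoint_inner_right,
        ← ContinuousLinearMap.star_eq_adjoint, hv0.isSelfAdjoint.star_eq]
      simp
    have h3 := hcoord 0 (star (v 1) * v 1 - v 0)
      (fun ζ => congrArg (fun T : K →L[ℂ] K => T ζ) h1)
    rwa [sub_mul, mul_assoc, hvp, hv0.isIdempotentElem.eq, sub_eq_zero] at h3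
  refine ⟨v 1, hvP 1, huu ▸ hv0, ?_, fun f hf => ?_, fun f hf => ?_⟩
  · rw [huu, ← hva, mul_assoc, hap]
  · exact hcoord 1 f fun ζ => congrArg (fun T : K →L[ℂ] K => T ζ) hf
  · have h1 : a * f = 0 := by
      rw [← CStarRing.star_mul_self_eq_zero_iff, star_mul, hsa.star_eq, mul_assoc,
        ← mul_assoc a, haa, mul_assoc, hf]
      simp
    have h2 : star f * a = 0 := by
      have := congrArg star h1
      rwa [star_mul, hsa.star_eq, star_zero] at this
    have h3 := hcoord 0 (star f) (fun ζ => congrArg (fun T : K →L[ℂ] K => T ζ) h2)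
    have h4 : v 0 * f = 0 := by
      have := congrArg star h3
      rwa [star_mul, star_star, hv0.isSelfAdjoint.star_eq, star_zero] at this
    rw [← hvp, mul_assoc, h4, mul_zero]

end Crest.Agent.H9.KB
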