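import Crest.Agent.H9.KB1

/-! KS-B, part 2: comparison and the decomposition theorem. -/

set_option autoImplicit false
open scoped InnerProductSpace
open Crest.Agent.H2.KS Crest.Agent.H9.KD

namespace Crest.Agent.H9.KB

variable {K : Type*} [NormedAddCommGroup K] [InnerProductSpace ℂ K] [CompleteSpace K]
variable {C : Set (K →L[ℂ] K)}

omit [CompleteSpace K] in
theorem mul_mem {a b : K →L[ℂ] K} (ha : a ∈ C.centralizer) (hb : b ∈ C.centralizer) :
    a * b ∈ C.centralizer := Set.mul_mem_centralizer ha hb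

omit [CompleteSpace K] in
theorem sub_mem {a b : K →L[ℂ] K} (ha : a ∈ C.centralizer) (hb : b ∈ C.centralizer) :
    a - b ∈ C.centralizer := fun c hc => Commute.sub_right (ha c hc) (hb c hc)

omit [CompleteSpace K] in
theorem add_mem {a b : K →L[ℂ] K} (ha : a ∈ C.centralizer) (hb : b ∈ C.centralizer) :
    a + b ∈ C.centralizer := fun c hc => Commute.add_right (ha c hc) (hb c hc)

omit [CompleteSpace K] in
theorem smul_mem (z : ℂ) {a : K →L[ℂ] K} (ha : a ∈ C.centralizer) :
    z • a ∈ C.centralizer := fun c hc => Commute.smul_right (ha c hc) _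

omit [CompleteSpace K] in
theorem one_mem : (1 : K →L[ℂ] K) ∈ C.centralizer := fun c _ => Commute.one_right c

omit [CompleteSpace K] in
theorem sum_mem {ι : Type*} (s : Finset ι) {a : ι → (K →L[ℂ] K)}
    (ha : ∀ i, a i ∈ C.centralizer) : ∑ i ∈ s, a i ∈ C.centralizer := fun c hc =>
  Commute.sum_right _ _ _ fun i _ => ha i c hc

theorem star_eq_of {a b c : K →L[ℂ] K} (h : a * b = c) : star b * star a = star c := by
  rw [← star_mul, h]

theorem polar' (hC : ∀ c ∈ C, star c ∈ C) (c : K →L[ℂ] K)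
    (hc : c ∈ C.centralizer) : ∃ u ∈ C.centralizer, IsStarProjection (star u * u) ∧
      c * (star u * u) = c ∧ (∀ f, f * c = 0 → f * u = 0) ∧ (∀ f, c * f = 0 → u * f = 0) ∧
      (∀ f, f * c = c → f * u = u) ∧ (∀ f, c * f = c → u * f = u) := by
  obtain ⟨u, hu, h1, h2, h3, h4⟩ := polar hC c hc
  refine ⟨u, hu, h1, h2, h3, h4, fun f hf => ?_, fun f hf => ?_⟩
  · have := h3 (f - 1) (by rw [sub_mul, hf, one_mul, sub_self])
    rwa [sub_mul, one_mul, sub_eq_zero] at this
  · have := h4 (f - 1) (by rw [mul_sub, hf, mul_one, sub_self])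
    rwa [mul_sub, mul_one, sub_eq_zero] at this

section Sys
variable {n : ℕ} {e : K →L[ℂ] K} {v : Fin n → (K →L[ℂ] K)}

theorem sys_self {P : Set (K →L[ℂ] K)} (h : IsSys P e v) (i : Fin n) : star (v i) * v i = e := by
  rw [h.orth, if_pos rfl]

theorem sys_mul_e {P : Set (K →L[ℂ] K)} (h : IsSys P e v) (i : Fin n) : v i * e = v i := by
  have := pi_mul (u := v i) (by rw [sys_self h]; exact h.proj)
  rwa [sys_self h] at this

theorem sys_e_mul {P : Set (K →L[ℂ] K)} (h : IsSys P e v) (i : Fin n) :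
    e * star (v i) = star (v i) := by
  have := star_eq_of (sys_mul_e h i)
  rwa [h.proj.isSelfAdjoint.star_eq] at this

theorem sys_star_mul_sum {P : Set (K →L[ℂ] K)} (h : IsSys P e v) (j : Fin n) :
    star (v j) * ∑ i, v i * star (v i) = star (v j) := by
  rw [Finset.mul_sum, Finset.sum_eq_single j]
  · rw [← mul_assoc, sys_self h, sys_e_mul h]
  · intro i _ hi
    rw [← mul_assoc, h.orth, if_neg (Ne.symm hi), zero_mul]
  · simp

theorem sys_sum_sa : star (∑ i, v i * star (v i)) = ∑ i, v i * star (v i) := by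
  simp [star_sum]

theorem sys_sum_mul {P : Set (K →L[ℂ] K)} (h : IsSys P e v) (j : Fin n) :
    (∑ i, v i * star (v i)) * v j = v j := by
  have := star_eq_of (sys_star_mul_sum h j)
  rwa [star_star, sys_sum_sa] at this

theorem sys_sum_proj {P : Set (K →L[ℂ] K)} (h : IsSys P e v) :
    IsStarProjection (∑ i, v i * star (v i)) := by
  refine ⟨?_, sys_sum_sa⟩
  show _ * _ = _
  conv_lhs => rw [Finset.mul_sum]
  exact Finset.sum_congr rfl fun j _ => by rw [← mul_assoc, sys_sum_mul h]

theorem sys_sum_mem (hC : ∀ c ∈ C, star c ∈ C) (h : IsSys C.centralizer e v) :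
    ∑ i, v i * star (v i) ∈ C.centralizer :=
  sum_mem _ fun i => mul_mem (h.mem i) (star_mem hC (h.mem i))

end Sys

/-- A maximal `n`-system under a projection `g`. -/
theorem exists_max_under (hC : ∀ c ∈ C, star c ∈ C) {n : ℕ} (i₀ : Fin n) (g : K →L[ℂ] K)
    (hg : IsStarProjection g) :
    ∃ v : Fin n → (K →L[ℂ] K), IsSys C.centralizer (v i₀) v ∧ (∀ i, g * v i = v i) ∧
      IsStarProjection (g - ∑ i, v i * star (v i)) ∧
      g * (g - ∑ i, v i * star (v i)) = g - ∑ i, v i * star (v i) ∧
      (∀ j, star (v j) * (g - ∑ i, v i * star (v i)) = 0) ∧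
      Small C.centralizer n (g - ∑ i, v i * star (v i)) := by
  obtain ⟨v, hv, hgv, hmax⟩ := exists_max_sys hC i₀ (fun _ => g)
  have h1 : g * ∑ i, v i * star (v i) = ∑ i, v i * star (v i) := by
    rw [Finset.mul_sum]
    exact Finset.sum_congr rfl fun i _ => by rw [← mul_assoc, hgv]
  have h2 : g * (g - ∑ i, v i * star (v i)) = g - ∑ i, v i * star (v i) := by
    rw [mul_sub, h1, hg.isIdempotentElem.eq]
  have h3 : ∀ j, star (v j) * (g - ∑ i, v i * star (v i)) = 0 := fun j => by
    have := star_eq_of (hgv j)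
    rw [hg.isSelfAdjoint.star_eq] at this
    rw [mul_sub, this, sys_star_mul_sum hv, sub_self]
  refine ⟨v, hv, hgv, (sys_sum_proj hv).sub_of_mul_eq_right hg h1, h2, h3,
    fun e' v' hs hf => hmax e' v' hs (fun i => ?_) (fun i j => ?_)⟩
  · rw [← hf i, ← mul_assoc, h2]
  · rw [← hf i, ← mul_assoc, h3, zero_mul]

theorem comparison (hC : ∀ c ∈ C, star c ∈ C) (f e : K →L[ℂ] K) (hf : IsStarProjection f)
    (he : IsStarProjection e) (hfP : f ∈ C.centralizer) (heP : e ∈ C.centralizer)
    (hef : e * f = 0) :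
    ∃ w ∈ C.centralizer, IsStarProjection (star w * w) ∧ e * w = w ∧ w * f = w ∧
      ∀ a ∈ C.centralizer, (e - w * star w) * a * (f - star w * w) = 0 := by
  obtain ⟨v, hv, hfv, hmax⟩ := exists_max_sys hC (0 : Fin 2) ![f, e]
  have hfe : f * e = 0 := by
    have := star_eq_of hef
    rwa [hf.isSelfAdjoint.star_eq, he.isSelfAdjoint.star_eq, star_zero] at this
  have hw : star (v 1) * v 1 = v 0 := sys_self hv 1
  have hp : star (v 0) = v 0 := hv.proj.isSelfAdjoint.star_eq
  have hfp : f * v 0 = v 0 := hfv 0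
  have hpf : v 0 * f = v 0 := by
    have := star_eq_of hfp
    rwa [hf.isSelfAdjoint.star_eq, hp] at this
  have hew : e * v 1 = v 1 := hfv 1
  have hwe : star (v 1) * e = star (v 1) := by
    have := star_eq_of hew
    rwa [he.isSelfAdjoint.star_eq] at this
  have hwp : v 1 * v 0 = v 1 := sys_mul_e hv 1
  have hpw : v 0 * star (v 1) = star (v 1) := sys_e_mul hv 1
  have hwf : v 1 * f = v 1 := by rw [← hwp, mul_assoc, hpf]
  refine ⟨v 1, hv.mem 1, hw ▸ hv.proj, hew, hwf, fun a ha => ?_⟩
  rw [hw]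
  set c := (e - v 1 * star (v 1)) * a * (f - v 0) with hc
  obtain ⟨u, hu, h1, h2, h3, h4, h5, h6⟩ := polar' hC c
    (mul_mem (mul_mem (sub_mem heP (mul_mem (hv.mem 1) (star_mem hC (hv.mem 1)))) ha)
      (sub_mem hfP (hv.mem 0)))
  have heu : e * u = u := h5 e (by
    rw [hc, ← mul_assoc, ← mul_assoc, mul_sub e, he.isIdempotentElem.eq, ← mul_assoc, hew])
  have huf : u * f = u := h6 f (by
    rw [hc, mul_assoc _ _ f, sub_mul f, hf.isIdempotentElem.eq, hpf])
  have hfu : f * star u = star u := by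
    have := star_eq_of huf
    rwa [hf.isSelfAdjoint.star_eq] at this
  have hup : u * v 0 = 0 := h4 _ (by
    rw [hc, mul_assoc _ _ (v 0), sub_mul f, hv.proj.isIdempotentElem.eq, hfp, sub_self, mul_zero])
  have hpu : v 0 * star u = 0 := by
    have := star_eq_of hup
    rwa [hp, star_zero] at this
  have hwu : star (v 1) * u = 0 := h3 _ (by
    rw [hc, ← mul_assoc, ← mul_assoc, mul_sub (star (v 1)), hwe, ← mul_assoc, hw, hpw, sub_self, zero_mul,
      zero_mul])
  have huu : u * u = 0 := by
    calc u * u = (u * f) * (e * u) := by rw [huf, heu]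
      _ = 0 := by rw [mul_assoc, ← mul_assoc f, hfe, zero_mul, mul_zero]
  have hz := hmax (star u * u) ![star u * u, u] ⟨mul_mem (star_mem hC hu) hu, h1, ?_, ?_⟩ ?_ ?_
  · rw [← h2, hz, mul_zero]
  · intro i
    fin_cases i
    exacts [mul_mem (star_mem hC hu) hu, hu]
  · intro i j
    fin_cases i <;> fin_cases j
    · show star (star u * u) * (star u * u) = _
      rw [h1.isSelfAdjoint.star_eq, h1.isIdempotentElem.eq]; rfl
    · show star (star u * u) * u = 0
      rw [h1.isSelfAdjoint.star_eq, mul_assoc, huu, mul_zero]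
    · show star u * (star u * u) = 0
      rw [← mul_assoc, ← star_mul, huu, star_zero, zero_mul]
    · rfl
  · intro i
    fin_cases i
    · show f * (star u * u) = star u * u
      rw [← mul_assoc, hfu]
    · exact heu
  · intro i j
    fin_cases i <;> fin_cases j
    · show star (v 0) * (star u * u) = 0
      rw [hp, ← mul_assoc, hpu, zero_mul]
    · show star (v 1) * (star u * u) = 0
      rw [← hwe, ← hfu, mul_assoc, mul_assoc, ← mul_assoc e, hef, zero_mul, mul_zero]
    · show star (v 0) * u = 0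
      rw [hp, ← hpf, ← heu, mul_assoc, ← mul_assoc f, hfe, zero_mul, mul_zero]
    · exact hwu

theorem chain (hC : ∀ c ∈ C, star c ∈ C) (e : K →L[ℂ] K) (he : IsStarProjection e)
    (heP : e ∈ C.centralizer) (m : ℕ) :
    ∀ f : K →L[ℂ] K, IsStarProjection f → f ∈ C.centralizer → e * f = 0 →
      ∃ (w : Fin m → (K →L[ℂ] K)) (g : K →L[ℂ] K), (∀ j, w j ∈ C.centralizer) ∧
        (∀ j, IsStarProjection (star (w j) * w j)) ∧ (∀ j, e * w j = w j) ∧
        (∀ j, w j * f = w j) ∧ (∀ i j, i ≠ j → w i * star (w j) = 0) ∧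
        g = f - ∑ j, star (w j) * w j ∧ IsStarProjection g ∧ g ∈ C.centralizer ∧ f * g = g ∧
        ∀ j, ∀ a ∈ C.centralizer, (e - w j * star (w j)) * a * g = 0 := by
  induction m with
  | zero =>
    intro f hf hfP _
    exact ⟨Fin.elim0, f, fun j => j.elim0, fun j => j.elim0, fun j => j.elim0, fun j => j.elim0,
      fun j => j.elim0, by simp, hf, hfP, hf.isIdempotentElem.eq, fun j => j.elim0⟩
  | succ m ih =>
    intro f hf hfP hef
    obtain ⟨w₀, hw₀, h1, h2, h3, h4⟩ := comparison hC f e hf he hfP heP hef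
    have h3' : f * star w₀ = star w₀ := by
      have := star_eq_of h3
      rwa [hf.isSelfAdjoint.star_eq] at this
    have hf' : IsStarProjection (f - star w₀ * w₀) :=
      h1.sub_of_mul_eq_left hf (by rw [mul_assoc, h3])
    have hff' : f * (f - star w₀ * w₀) = f - star w₀ * w₀ := by
      rw [mul_sub, hf.isIdempotentElem.eq, ← mul_assoc, h3']
    have hf'f : (f - star w₀ * w₀) * f = f - star w₀ * w₀ := by
      rw [sub_mul, hf.isIdempotentElem.eq, mul_assoc, h3]
    have hwf' : w₀ * (f - star w₀ * w₀) = 0 := by rw [mul_sub, h3, pi_mul h1, sub_self]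
    obtain ⟨w, g, k1, k2, k3, k4, k5, k6, k7, k8, k9, k10⟩ := ih (f - star w₀ * w₀) hf'
      (sub_mem hfP (mul_mem (star_mem hC hw₀) hw₀)) (by rw [← hff', ← mul_assoc, hef, zero_mul])
    have hz : ∀ j, w₀ * star (w j) = 0 := fun j => by
      have := star_eq_of (k4 j)
      rw [hf'.isSelfAdjoint.star_eq] at this
      rw [← this, ← mul_assoc, hwf', zero_mul]
    have a1 : ∀ j, w j * f = w j := fun j => by rw [← k4 j, mul_assoc, hf'f]
    have a2 : ∀ a ∈ C.centralizer, (e - w₀ * star w₀) * a * g = 0 := fun a ha => by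
      rw [← k9, ← mul_assoc, h4 a ha, zero_mul]
    refine ⟨Fin.cons w₀ w, g, Fin.cases hw₀ k1, Fin.cases h1 k2, Fin.cases h2 k3,
      Fin.cases h3 a1, ?_, ?_, k7, k8, ?_, Fin.cases a2 k10⟩
    · intro i j hij
      cases i using Fin.cases with
      | zero =>
        cases j using Fin.cases with
        | zero => exact absurd rfl hij
        | succ j => exact hz j
      | succ i =>
        cases j using Fin.cases with
        | zero =>
          have := star_eq_of (hz i)
          rwa [star_star, star_zero] at this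
        | succ j => exact k5 i j fun h => hij (by rw [h])
    · rw [k6, Fin.sum_univ_succ, sub_sub]; rfl
    · rw [← k9, ← mul_assoc, hff']

theorem central_of {z : K →L[ℂ] K} (hC : ∀ c ∈ C, star c ∈ C) (hz : IsStarProjection z)
    (hzP : z ∈ C.centralizer) (h : ∀ a ∈ C.centralizer, a * z = z * a * z) :
    IsCP C.centralizer z := by
  refine ⟨hzP, hz, fun a ha => ?_⟩
  have h1 := congrArg star (h _ (star_mem hC ha))
  simp only [star_mul, star_star, hz.isSelfAdjoint.star_eq] at h1
  show z * a = a * z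
  rw [h1, ← mul_assoc]
  exact (h a ha).symm

theorem exists_decomp (hC : ∀ c ∈ C, star c ∈ C) (n : ℕ) (hn : 0 < n) :
    ∃ (e : K →L[ℂ] K) (v : Fin n → (K →L[ℂ] K)) (w : Fin (2 * n) → (K →L[ℂ] K))
      (z : K →L[ℂ] K), IsSys C.centralizer e v ∧ (∀ l, w l ∈ C.centralizer) ∧
      (∀ l, e * w l = w l) ∧ ∑ l, star (w l) * w l = z ∧ IsCP C.centralizer z ∧
      Small C.centralizer n (1 - z) := by
  obtain ⟨v, hv, -, hf, -, hvf, hsm⟩ := exists_max_under hC ⟨0, hn⟩ 1 (IsStarProjection.one _)
  set e := v ⟨0, hn⟩ with he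
  set f := 1 - ∑ i, v i * star (v i) with hfdef
  have hfP : f ∈ C.centralizer := sub_mem one_mem (sys_sum_mem hC hv)
  have hef : e * f = 0 := by
    have := hvf ⟨0, hn⟩
    rwa [← he, hv.proj.isSelfAdjoint.star_eq] at this
  obtain ⟨w, g, k1, k2, k3, k4, k5, k6, k7, k8, k9, k10⟩ := chain hC e hv.proj hv.he n f hf hfP hef
  have heg : ∀ a ∈ C.centralizer, e * a * g = 0 := by
    intro a ha
    obtain ⟨u, hu, h1, h2, -, -, h5, -⟩ := polar' hC (e * a * g) (mul_mem (mul_mem hv.he ha) k8)
    have hwu : ∀ j, w j * star (w j) * u = u := fun j => h5 _ (by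
      have h6 := star_eq_of (k3 j)
      rw [hv.proj.isSelfAdjoint.star_eq] at h6
      have := k10 j a ha
      rw [sub_mul, sub_mul, sub_eq_zero] at this
      rw [← mul_assoc, ← mul_assoc, mul_assoc (w j), h6, this])
    have hz := hsm (star u * u) (fun j => star (w j) * u)
      ⟨mul_mem (star_mem hC hu) hu, h1, fun j => mul_mem (star_mem hC (k1 j)) hu, fun i j => by
        rw [star_mul, star_star, mul_assoc, ← mul_assoc (w i)]
        split_ifs with hij
        · rw [← hij, hwu]
        · rw [k5 i j hij, zero_mul, mul_zero]⟩ (fun j => by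
        have := star_eq_of (k4 j)
        rw [hf.isSelfAdjoint.star_eq] at this
        rw [← mul_assoc, this])
    rw [← h2, hz, mul_zero]
  have hz : 1 - g = ∑ i, v i * star (v i) + ∑ j, star (w j) * w j := by
    rw [k6, hfdef]; abel
  have hgc : IsCP C.centralizer g := central_of hC k7 k8 fun a ha => by
    have : (1 - g) * a * g = 0 := by
      rw [hz, add_mul, add_mul, Finset.sum_mul, Finset.sum_mul, Finset.sum_mul, Finset.sum_mul,
        Finset.sum_eq_zero, Finset.sum_eq_zero, add_zero]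
      · intro j _
        have := heg _ (mul_mem (k1 j) ha)
        rw [← mul_assoc, k3] at this
        rw [mul_assoc (star (w j)), mul_assoc (star (w j)), this, mul_zero]
      · intro i _
        have := heg _ (mul_mem (star_mem hC (hv.mem i)) ha)
        rw [← mul_assoc, sys_e_mul hv] at this
        rw [mul_assoc (v i), mul_assoc (v i), this, mul_zero]
    rwa [sub_mul, sub_mul, one_mul, sub_eq_zero] at this
  let σ : Fin (2 * n) ≃ Fin n ⊕ Fin n := (finCongr (two_mul n)).trans finSumFinEquiv.symm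
  refine ⟨e, v, fun l => Sum.elim (fun i => star (v i)) w (σ l), 1 - g, hv, fun l => ?_,
    fun l => ?_, ?_, ⟨sub_mem one_mem k8, k7.one_sub, fun a ha =>
      (Commute.one_left a).sub_left (hgc.comm a ha)⟩, ?_⟩
  · beta_reduce
    rcases σ l with i | j
    exacts [star_mem hC (hv.mem i), k1 j]
  · beta_reduce
    rcases σ l with i | j
    exacts [sys_e_mul hv i, k3 j]
  · rw [σ.sum_comp (fun s => star (Sum.elim (fun i => star (v i)) w s) *
      Sum.elim (fun i => star (v i)) w s), Fintype.sum_sum_type, hz]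
    simp
  · rw [sub_sub_cancel]
    intro e' v' hs hv'
    refine hsm e' v' hs fun i => ?_
    rw [← hv' i, ← mul_assoc, k9]

end Crest.Agent.H9.KB
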