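import Crest.Agent.H9.KD3
import Crest.Agent.H2.KSDefs

/-! KS-D, part 4: complete boundedness from the uniform theorem. -/

set_option autoImplicit false
open scoped InnerProductSpace ComplexOrder Matrix
open Crest.Agent.H2.KS

namespace Crest.Agent.H9.KD

section
variable {K : Type*} [NormedAddCommGroup K] [InnerProductSpace ℂ K] [CompleteSpace K]

theorem gram_sum {ι ι' : Type*} [Fintype ι] [Fintype ι'] (x : ι' → ι → (K →L[ℂ] K))
    (ξ : ι → K) : ((∑ i, ‖∑ j, x i j (ξ j)‖ ^ 2 : ℝ) : ℂ) =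
      ∑ j, ∑ j', ⟪ξ j, (∑ i, star (x i j) * x i j') (ξ j')⟫_ℂ := by
  have h : ∀ w : K, ((‖w‖ ^ 2 : ℝ) : ℂ) = ⟪w, w⟫_ℂ := fun w => by
    rw [inner_self_eq_norm_sq_to_K]; simp
  rw [Complex.ofReal_sum]
  simp only [h, sum_inner, inner_sum, _root_.sum_apply]
  rw [Finset.sum_comm]
  conv_rhs => rw [Finset.sum_comm]
  refine Finset.sum_congr rfl fun j' _ => ?_
  rw [Finset.sum_comm]
  refine Finset.sum_congr rfl fun j _ => Finset.sum_congr rfl fun i _ => ?_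
  rw [ContinuousLinearMap.star_eq_adjoint]
  exact (ContinuousLinearMap.adjoint_inner_right _ _ _).symm

theorem contraction_of_cert {ι ι' : Type*} [Fintype ι] [DecidableEq ι] [Fintype ι']
    (x : ι → ι → (K →L[ℂ] K)) (y : ι' → ι → (K →L[ℂ] K))
    (h : ∀ j j', ∑ i, star (x i j) * x i j' + ∑ i, star (y i j) * y i j' =
      if j = j' then 1 else 0) (ξ : ι → K) :
    ∑ i, ‖∑ j, x i j (ξ j)‖ ^ 2 ≤ ∑ j, ‖ξ j‖ ^ 2 := by
  have h1 := gram_sum x ξ
  have h2 := gram_sum y ξ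
  have h3 : ((∑ i, ‖∑ j, x i j (ξ j)‖ ^ 2 + ∑ i, ‖∑ j, y i j (ξ j)‖ ^ 2 : ℝ) : ℂ) =
      ((∑ j, ‖ξ j‖ ^ 2 : ℝ) : ℂ) := by
    rw [Complex.ofReal_add, h1, h2, ← Finset.sum_add_distrib, Complex.ofReal_sum]
    refine Finset.sum_congr rfl fun j _ => ?_
    rw [← Finset.sum_add_distrib, Finset.sum_eq_single j]
    · rw [← inner_add_right, ← _root_.add_apply, h, if_pos rfl, one_apply_eq_self,
        inner_self_eq_norm_sq_to_K]
      simp
    · intro j' _ hj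
      rw [← inner_add_right, ← _root_.add_apply, h, if_neg (Ne.symm hj)]
      simp
    · simp
  have h4 := Complex.ofReal_injective h3
  have h5 : 0 ≤ ∑ i, ‖∑ j, y i j (ξ j)‖ ^ 2 := Finset.sum_nonneg fun _ _ => sq_nonneg _
  linarith

variable {H : Type*} [NormedAddCommGroup H] [InnerProductSpace ℂ H]

omit [CompleteSpace K] in
theorem ubound_fintype {P : Set (K →L[ℂ] K)} {S₁ S₂ : K →L[ℂ] H} {Φ : ℝ}
    (hU : UBound P S₁ S₂ Φ) {ι : Type*} [Fintype ι] (x : ι → ι → (K →L[ℂ] K))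
    (hx : ∀ i j, x i j ∈ P)
    (hc : ∀ ξ : ι → K, ∑ i, ‖∑ j, x i j (ξ j)‖ ^ 2 ≤ ∑ j, ‖ξ j‖ ^ 2) (ξ η : ι → K) :
    ‖∑ i, ∑ j, ⟪S₂ (η i), S₁ (x i j (ξ j))⟫_ℂ‖ ≤
      Φ * √(∑ j, ‖S₁ (ξ j)‖ ^ 2) * √(∑ i, ‖S₂ (η i)‖ ^ 2) := by
  let e := (Fintype.equivFin ι).symm
  have := hU (Fintype.card ι) (fun i j => x (e i) (e j)) (fun i j => hx _ _) (fun ζ => by
    have h1 := hc (fun j => ζ (e.symm j))
    rw [← e.sum_comp, ← e.sum_comp (fun j => ‖ζ (e.symm j)‖ ^ 2)] at h1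
    simp only [Equiv.symm_apply_apply] at h1
    refine le_of_eq_of_le (Finset.sum_congr rfl fun i _ => ?_) h1
    rw [← e.sum_comp]
    simp) (fun j => ξ (e j)) (fun j => η (e j))
  rw [e.sum_comp (fun j => ‖S₁ (ξ j)‖ ^ 2), e.sum_comp (fun j => ‖S₂ (η j)‖ ^ 2)] at this
  refine le_of_eq_of_le ?_ this
  congr 1
  rw [← e.sum_comp]
  refine Finset.sum_congr rfl fun i _ => ?_
  rw [← e.sum_comp]

end

universe u v

variable {A : Type u} [CStarAlgebra A]
variable {H : Type v} [NormedAddCommGroup H] [InnerProductSpace ℂ H] [CompleteSpace H]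

/-- The conjugate homomorphism `a ↦ π(a⋆)⋆`. -/
noncomputable def conjRep (π : A →ₐ[ℂ] (H →L[ℂ] H)) : A →ₐ[ℂ] (H →L[ℂ] H) where
  toFun a := star (π (star a))
  map_one' := by simp
  map_mul' a b := by simp
  map_zero' := by simp
  map_add' a b := by simp
  commutes' r := by simp [Algebra.algebraMap_eq_smul_one]

lemma conjRep_apply (π : A →ₐ[ℂ] (H →L[ℂ] H)) (a : A) : conjRep π a = star (π (star a)) := rfl

/-- Complete boundedness, tested on matrices with an algebraic contraction certificate. -/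
def CB (π : A →ₐ[ℂ] (H →L[ℂ] H)) (Φ : ℝ) : Prop :=
  ∀ (ι ι' : Type) [Fintype ι] [DecidableEq ι] [Fintype ι'] (W : Matrix ι ι A) (Y : Matrix ι' ι A),
    Wᴴ * W + Yᴴ * Y = 1 → ∀ g k : ι → H,
      ‖∑ i, ∑ j, ⟪k i, π (W i j) (g j)⟫_ℂ‖ ≤ Φ * √(∑ j, ‖g j‖ ^ 2) * √(∑ i, ‖k i‖ ^ 2)

theorem cb_of_thmU [PartialOrder A] [StarOrderedRing A] (hU : ThmU.{u, v})
    (π : A →ₐ[ℂ] (H →L[ℂ] H)) (κ : ℝ) (hκ : 0 ≤ κ) (hπ : ∀ a, ‖π a‖ ≤ κ * ‖a‖)
    (hcol : ∀ h : H, ColBdd ((ContinuousLinearMap.apply ℂ H h).toLinearMap ∘ₗ π.toLinearMap))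
    (hcol' : ∀ h : H, ColBdd ((ContinuousLinearMap.apply ℂ H h).toLinearMap ∘ₗ
      (conjRep π).toLinearMap)) : CB π (Phi (4 * κ + 1)) := by
  intro ι ι' _ _ _ W Y hWY g k
  obtain ⟨K, _, _, _, ρ, S₁, S₂, e, h1, h2, h3, h4⟩ := exists_dilation π.toLinearMap
    (conjRep π).toLinearMap (map_mul π) (map_one π) (map_mul (conjRep π)) (map_one (conjRep π))
    hcol hcol' g k
  simp only [AlgHom.toLinearMap_apply] at h1 h2
  have hπ' : ∀ a, ‖conjRep π a‖ ≤ κ * ‖a‖ := fun a => by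
    rw [conjRep_apply, norm_star]; simpa using hπ (star a)
  have hs : ∀ (S : K →L[ℂ] H) (τ : A →ₐ[ℂ] (H →L[ℂ] H)), (∀ a, ‖τ a‖ ≤ κ * ‖a‖) →
      (∀ b ζ, S (ρ b ζ) = τ b (S ζ)) →
      ∀ a ∈ (Set.range ρ).centralizer.centralizer, ∀ ζ,
        ‖S (a ζ)‖ ≤ (4 * κ + 1) * ‖a‖ * ‖S ζ‖ := by
    intro S τ hτ hS a ha ζ
    refine (single_bound ρ S κ hκ (fun b ζ => ?_) a ha ζ).trans ?_
    · rw [hS]
      exact ((τ b).le_opNorm _).trans (mul_le_mul_of_nonneg_right (hτ b) (norm_nonneg _))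
    · gcongr; linarith
  have hbal : Bal (Set.range ρ).centralizer.centralizer S₁ S₂ := by
    intro a ha ζ η
    have hC : ContinuousLinearMap.adjoint S₂ ∘L S₁ ∈ (Set.range ρ).centralizer := by
      rintro _ ⟨b, rfl⟩
      ext x
      refine ext_inner_left ℂ fun w => ?_
      show ⟪w, ρ b (ContinuousLinearMap.adjoint S₂ (S₁ x))⟫_ℂ =
        ⟪w, ContinuousLinearMap.adjoint S₂ (S₁ (ρ b x))⟫_ℂ
      rw [ContinuousLinearMap.adjoint_inner_right, h1, ← ContinuousLinearMap.adjoint_inner_left,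
        ContinuousLinearMap.adjoint_inner_right, ← ContinuousLinearMap.star_eq_adjoint,
        ← map_star, h2, conjRep_apply, star_star, ContinuousLinearMap.star_eq_adjoint,
        ContinuousLinearMap.adjoint_inner_left]
    have := congrArg (fun T : K →L[ℂ] K => ⟪η, T ζ⟫_ℂ) (ha _ hC)
    simp only [mul_apply_eq_comp, ContinuousLinearMap.comp_apply] at this
    rw [ContinuousLinearMap.adjoint_inner_right] at this
    rw [this, ← ContinuousLinearMap.adjoint_inner_left, ContinuousLinearMap.adjoint_inner_right,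
      ContinuousLinearMap.star_eq_adjoint]
  have hub := hU K H (Set.range ρ).centralizer (star_mem_centralizer_range ρ) S₁ S₂ (4 * κ + 1)
    (by linarith) (hs S₁ π hπ h1) (hs S₂ (conjRep π) hπ' h2) hbal
  have := ubound_fintype hub (fun i j => ρ (W i j))
    (fun i j => Set.subset_centralizer_centralizer ⟨_, rfl⟩)
    (contraction_of_cert _ (fun i j => ρ (Y i j)) (fun j j' => by
      have := congrArg ρ (congrFun (congrFun hWY j) j')
      simp only [Matrix.add_apply, Matrix.mul_apply, Matrix.conjTranspose_apply, map_add, map_sum,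
        map_mul, map_star, Matrix.one_apply] at this
      rw [this]
      split_ifs <;> simp)) e e
  simpa only [h1, h3, h4] using this

end Crest.Agent.H9.KD
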