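import Crest.Agent.H9.KD4

/-! KS-D, part 5: Gram equalities and transfer functions. -/

set_option autoImplicit false
open scoped InnerProductSpace ComplexOrder Matrix

namespace Crest.Agent.H9.KD

section Gram
variable {H : Type*} [NormedAddCommGroup H] [InnerProductSpace ℂ H]

theorem exists_isometry_of_gram {J : Type*} [Fintype J] [DecidableEq J] (a b : J → H)
    (h : ∀ ζ, ∑ j, ‖⟪a j, ζ⟫_ℂ‖ ^ 2 = ∑ j, ‖⟪b j, ζ⟫_ℂ‖ ^ 2) :
    ∃ γ : Matrix J J ℂ, γᴴ * γ = 1 ∧ ∀ i, b i = ∑ j, γ i j • a j := by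
  let F : (J → H) → (H →ₗ[ℂ] EuclideanSpace ℂ J) := fun c =>
    (WithLp.linearEquiv 2 ℂ (J → ℂ)).symm.toLinearMap ∘ₗ LinearMap.pi fun j => innerₛₗ ℂ (c j)
  have hF : ∀ c ζ j, F c ζ j = ⟪c j, ζ⟫_ℂ := fun c ζ j => rfl
  have hn : ∀ ζ, ‖F b ζ‖ = ‖F a ζ‖ := fun ζ => by
    rw [EuclideanSpace.norm_eq, EuclideanSpace.norm_eq]
    simp only [hF, h]
  have hker : LinearMap.ker (F a) ≤ LinearMap.ker (F b) := fun ζ hζ => by
    rw [LinearMap.mem_ker] at hζ ⊢
    rw [← norm_eq_zero, hn, hζ, norm_zero]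
  let L0 : LinearMap.range (F a) →ₗ[ℂ] EuclideanSpace ℂ J :=
    (LinearMap.ker (F a)).liftQ (F b) hker ∘ₗ (F a).quotKerEquivRange.symm.toLinearMap
  have hL0 : ∀ ζ, L0 ⟨F a ζ, ζ, rfl⟩ = F b ζ := fun ζ => by
    show (LinearMap.ker (F a)).liftQ (F b) hker
      ((F a).quotKerEquivRange.symm ⟨F a ζ, ζ, rfl⟩) = _
    rw [LinearMap.quotKerEquivRange_symm_apply_image]
    rfl
  let L : LinearMap.range (F a) →ₗᵢ[ℂ] EuclideanSpace ℂ J :=
    { L0 with
      norm_map' := by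
        rintro ⟨_, ζ, rfl⟩
        exact (congrArg norm (hL0 ζ)).trans (hn ζ) }
  let U := L.extend
  have hU : ∀ ζ, U (F a ζ) = F b ζ := fun ζ =>
    (L.extend_apply ⟨F a ζ, ζ, rfl⟩).trans (hL0 ζ)
  refine ⟨Matrix.of fun i j => (starRingEnd ℂ) (U (EuclideanSpace.single j 1) i), ?_, ?_⟩
  · ext j j'
    have := U.inner_map_map (EuclideanSpace.single j' (1 : ℂ)) (EuclideanSpace.single j 1)
    rw [EuclideanSpace.inner_single_left, PiLp.inner_apply] at this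
    simp only [Matrix.mul_apply, Matrix.conjTranspose_apply, Matrix.of_apply, RCLike.star_def,
      Complex.conj_conj, Matrix.one_apply]
    simp only [RCLike.inner_apply, map_one, one_mul, PiLp.single_apply] at this
    rw [this]
    simp [eq_comm]
  · intro i
    refine ext_inner_right ℂ fun ζ => ?_
    rw [← hF b, ← hU, sum_inner]
    have : F a ζ = ∑ j, ⟪a j, ζ⟫_ℂ • EuclideanSpace.single j (1 : ℂ) := by
      ext k
      simp [hF, Pi.single_apply]
    rw [this, map_sum]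
    simp [inner_smul_left, mul_comm]

end Gram

theorem isUnit_one_sub_of_cert {B : Type*} [CStarAlgebra B] (x y z : B) (θ : ℝ) (h0 : 0 ≤ θ)
    (h1 : θ < 1) (h : star x * x + star y * y + star z * z = ((θ ^ 2 : ℝ) : ℂ) • (1 : B)) :
    IsUnit (1 - x) := by
  let := CStarAlgebra.spectralOrder B
  have := CStarAlgebra.spectralOrderedRing B
  have h2 : star x * x ≤ algebraMap ℝ B (θ ^ 2) := by
    rw [Algebra.algebraMap_eq_smul_one, ← Complex.coe_smul, ← h, add_assoc]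
    exact le_add_of_nonneg_right (add_nonneg (star_mul_self_nonneg _) (star_mul_self_nonneg _))
  rw [← CStarAlgebra.norm_le_iff_le_algebraMap _ (sq_nonneg θ) (star_mul_self_nonneg _),
    CStarRing.norm_star_mul_self, ← sq] at h2
  have h3 : ‖x‖ ≤ θ := (sq_le_sq₀ (norm_nonneg _) h0).mp h2
  exact isUnit_one_sub_of_norm_lt_one (lt_of_le_of_lt h3 h1)

variable {A : Type*} [CStarAlgebra A] [PartialOrder A] [StarOrderedRing A]

theorem matrix_isUnit_of_cert {ι : Type*} [Fintype ι] [DecidableEq ι] (x y z : Matrix ι ι A)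
    (θ : ℝ) (h0 : 0 ≤ θ) (h1 : θ < 1)
    (h : xᴴ * x + yᴴ * y + zᴴ * z = ((θ ^ 2 : ℝ) : ℂ) • (1 : Matrix ι ι A)) :
    IsUnit (1 - x) :=
  isUnit_one_sub_of_cert (B := CStarMatrix ι ι A) x y z θ h0 h1 h

theorem exists_defect {ι : Type*} [Fintype ι] [DecidableEq ι] (v : ι → A) (θ : ℝ)
    (hv : ∀ l, ‖v l‖ ≤ θ) : ∃ D : Matrix ι ι A, (Matrix.diagonal v)ᴴ * Matrix.diagonal v +
      Dᴴ * D = ((θ ^ 2 : ℝ) : ℂ) • (1 : Matrix ι ι A) := by
  have : ∀ l, ∃ d : A, star (v l) * v l + star d * d = ((θ ^ 2 : ℝ) : ℂ) • (1 : A) := by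
    intro l
    have h1 : star (v l) * v l ≤ algebraMap ℝ A (θ ^ 2) := by
      rw [← CStarAlgebra.norm_le_iff_le_algebraMap _ (sq_nonneg θ) (star_mul_self_nonneg _),
        CStarRing.norm_star_mul_self, ← sq]
      exact pow_le_pow_left₀ (norm_nonneg _) (hv l) 2
    obtain ⟨d, hd⟩ := CStarAlgebra.nonneg_iff_eq_star_mul_self.mp (sub_nonneg.mpr h1)
    refine ⟨d, ?_⟩
    rw [← hd, Algebra.algebraMap_eq_smul_one, Complex.coe_smul]
    abel
  choose d hd using this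
  refine ⟨Matrix.diagonal d, ?_⟩
  rw [Matrix.diagonal_conjTranspose, Matrix.diagonal_conjTranspose, Matrix.diagonal_mul_diagonal,
    Matrix.diagonal_mul_diagonal, Matrix.diagonal_add, ← Matrix.diagonal_one,
    ← Matrix.diagonal_smul]
  congr 1
  funext l
  exact hd l

variable {H : Type*} [NormedAddCommGroup H] [InnerProductSpace ℂ H]

/-- Action of a matrix over `A` on `H`-valued vectors. -/
noncomputable def act (π : A →ₐ[ℂ] (H →L[ℂ] H)) {ι : Type*} [Fintype ι] (X : Matrix ι ι A)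
    (x : ι → H) : ι → H := fun i => ∑ j, π (X i j) (x j)

omit [PartialOrder A] [StarOrderedRing A] in
theorem act_mul (π : A →ₐ[ℂ] (H →L[ℂ] H)) {ι : Type*} [Fintype ι] (X Y : Matrix ι ι A)
    (x : ι → H) : act π (X * Y) x = act π X (act π Y x) := by
  funext i
  simp only [act, Matrix.mul_apply, map_sum, map_mul, _root_.sum_apply, mul_apply_eq_comp]
  exact Finset.sum_comm

omit [PartialOrder A] [StarOrderedRing A] in
theorem act_add (π : A →ₐ[ℂ] (H →L[ℂ] H)) {ι : Type*} [Fintype ι] (X Y : Matrix ι ι A)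
    (x : ι → H) : act π (X + Y) x = act π X x + act π Y x := by
  funext i
  simp [act, Finset.sum_add_distrib]

omit [PartialOrder A] [StarOrderedRing A] in
theorem act_sub (π : A →ₐ[ℂ] (H →L[ℂ] H)) {ι : Type*} [Fintype ι] (X Y : Matrix ι ι A)
    (x : ι → H) : act π (X - Y) x = act π X x - act π Y x := by
  funext i
  simp [act, Finset.sum_sub_distrib]

omit [PartialOrder A] [StarOrderedRing A] in
theorem act_diagonal (π : A →ₐ[ℂ] (H →L[ℂ] H)) {ι : Type*} [Fintype ι] [DecidableEq ι]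
    (v : ι → A) (x : ι → H) : act π (Matrix.diagonal v) x = fun i => π (v i) (x i) := by
  funext i
  simp only [act]
  rw [Finset.sum_eq_single i]
  · simp
  · intro j _ hj
    simp [Matrix.diagonal_apply_ne' _ hj]
  · simp

omit [PartialOrder A] [StarOrderedRing A] in
theorem act_one (π : A →ₐ[ℂ] (H →L[ℂ] H)) {ι : Type*} [Fintype ι] [DecidableEq ι]
    (x : ι → H) : act π (1 : Matrix ι ι A) x = x := by
  rw [← Matrix.diagonal_one, act_diagonal]
  simp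

omit [PartialOrder A] [StarOrderedRing A] in
theorem act_map (π : A →ₐ[ℂ] (H →L[ℂ] H)) {ι : Type*} [Fintype ι] (γ : Matrix ι ι ℂ)
    (x : ι → H) : act π (γ.map (algebraMap ℂ A)) x = fun i => ∑ j, γ i j • x j := by
  funext i
  simp [act, Algebra.algebraMap_eq_smul_one]

theorem exists_transfer (π : A →ₐ[ℂ] (H →L[ℂ] H)) {ι : Type*} [Fintype ι] [DecidableEq ι]
    (v : ι → A) (hv : ∀ l, ‖v l‖ < 1) (γ : Matrix (ι ⊕ ι) (ι ⊕ ι) ℂ) (hγ : γᴴ * γ = 1)
    (g k h : ι → H)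
    (hrel : ∀ i, Sum.elim k h i = ∑ j, γ i j • Sum.elim g (fun l => π (v l) (h l)) j) :
    ∃ W Y : Matrix ι ι A, Wᴴ * W + Yᴴ * Y = 1 ∧ ∀ i, k i = ∑ j, π (W i j) (g j) := by
  let G : Matrix (ι ⊕ ι) (ι ⊕ ι) A := γ.map (algebraMap ℂ A)
  have hG : Gᴴ * G = 1 := by
    have h1 : Gᴴ = γᴴ.map (algebraMap ℂ A) := by
      ext i j
      simp [G, Algebra.algebraMap_eq_smul_one]
    rw [h1, ← Matrix.map_mul, hγ]
    simp
  set G₁₁ := γ.toBlocks₁₁.map (algebraMap ℂ A) with hG₁₁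
  set G₁₂ := γ.toBlocks₁₂.map (algebraMap ℂ A) with hG₁₂
  set G₂₁ := γ.toBlocks₂₁.map (algebraMap ℂ A) with hG₂₁
  set G₂₂ := γ.toBlocks₂₂.map (algebraMap ℂ A) with hG₂₂
  have hGb : G = Matrix.fromBlocks G₁₁ G₁₂ G₂₁ G₂₂ := by
    ext (i | i) (j | j) <;> rfl
  rw [hGb, Matrix.fromBlocks_conjTranspose, Matrix.fromBlocks_multiply,
    ← Matrix.fromBlocks_one, Matrix.fromBlocks_inj] at hG
  obtain ⟨e11, e12, e21, e22⟩ := hG
  set V := Matrix.diagonal v with hV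
  have hθ : ‖v‖ < 1 := (pi_norm_lt_iff one_pos).mpr hv
  obtain ⟨D', hD'⟩ := exists_defect v ‖v‖ (norm_le_pi_norm v)
  obtain ⟨D, hD⟩ := exists_defect v 1 (fun l => (hv l).le)
  rw [one_pow, Complex.ofReal_one, one_smul] at hD
  have hunit : IsUnit (1 - G₂₂ * V) := by
    refine matrix_isUnit_of_cert _ (G₁₂ * V) D' ‖v‖ (norm_nonneg _) hθ ?_
    rw [← hD', Matrix.conjTranspose_mul, Matrix.conjTranspose_mul]
    congr 1
    calc Vᴴ * G₂₂ᴴ * (G₂₂ * V) + Vᴴ * G₁₂ᴴ * (G₁₂ * V)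
        = Vᴴ * (G₁₂ᴴ * G₁₂ + G₂₂ᴴ * G₂₂) * V := by noncomm_ring
      _ = _ := by rw [e22, mul_one]
  obtain ⟨u, hu⟩ := hunit
  set N : Matrix ι ι A := ↑u⁻¹ with hN
  have hN1 : N * (1 - G₂₂ * V) = 1 := by rw [← hu]; exact u.inv_mul
  have hN2 : (1 - G₂₂ * V) * N = 1 := by rw [← hu]; exact u.mul_inv
  set B := N * G₂₁ with hB
  have hB' : B = G₂₁ + G₂₂ * (V * B) := by
    have : (1 - G₂₂ * V) * B = G₂₁ := by rw [hB, ← mul_assoc, hN2, one_mul]
    rw [← this]; noncomm_ring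
  refine ⟨G₁₁ + G₁₂ * (V * B), D * B, ?_, ?_⟩
  · have hE : (G₁₁ + G₁₂ * (V * B))ᴴ * (G₁₁ + G₁₂ * (V * B)) +
        (G₂₁ + G₂₂ * (V * B))ᴴ * (G₂₁ + G₂₂ * (V * B)) = 1 + (V * B)ᴴ * (V * B) := by
      generalize V * B = X
      simp only [Matrix.conjTranspose_add, Matrix.conjTranspose_mul]
      calc _ = (G₁₁ᴴ * G₁₁ + G₂₁ᴴ * G₂₁) + (G₁₁ᴴ * G₁₂ + G₂₁ᴴ * G₂₂) * X +
            Xᴴ * (G₁₂ᴴ * G₁₁ + G₂₂ᴴ * G₂₁) + Xᴴ * (G₁₂ᴴ * G₁₂ + G₂₂ᴴ * G₂₂) * X := by
            noncomm_ring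
        _ = _ := by rw [e11, e12, e21, e22]; noncomm_ring
    rw [← hB'] at hE
    have hDB : (D * B)ᴴ * (D * B) = Bᴴ * B - (V * B)ᴴ * (V * B) := by
      simp only [Matrix.conjTranspose_mul]
      calc Bᴴ * Dᴴ * (D * B) = Bᴴ * (Vᴴ * V + Dᴴ * D) * B - Bᴴ * Vᴴ * (V * B) := by noncomm_ring
        _ = _ := by rw [hD, mul_one]
    rw [hDB, ← add_sub_assoc, hE, add_sub_cancel_right]
  · have hk : k = act π G₁₁ g + act π G₁₂ (act π V h) := by
      funext i
      have := hrel (Sum.inl i)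
      rw [Fintype.sum_sum_type] at this
      rw [hG₁₁, hG₁₂, act_map, act_map, hV, act_diagonal]
      exact this
    have hh : h = act π G₂₁ g + act π G₂₂ (act π V h) := by
      funext i
      have := hrel (Sum.inr i)
      rw [Fintype.sum_sum_type] at this
      rw [hG₂₁, hG₂₂, act_map, act_map, hV, act_diagonal]
      exact this
    have hh' : h = act π B g := by
      have h1 : act π (1 - G₂₂ * V) h = act π G₂₁ g := by
        rw [act_sub, act_one, act_mul, sub_eq_iff_eq_add]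
        exact hh
      rw [hB, act_mul, ← h1, ← act_mul, hN1, act_one]
    intro i
    have : k = act π (G₁₁ + G₁₂ * (V * B)) g := by
      rw [act_add, act_mul, act_mul, ← hh']
      exact hk
    exact congrFun this i

end Crest.Agent.H9.KD
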