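import Crest.Agent.H9.KKSym

set_option autoImplicit false

namespace Crest.Agent.H9KK

open Finset
open scoped Pointwise

variable {G E : Type} [Group G] [Fintype G] [Fintype E] [DecidableEq E] [MulAction G E]

structure Valid (G : Type) {E : Type} [Group G] [DecidableEq E] [MulAction G E] (H : Finset E)
    {Ω Y : Type} [Fintype Ω] [MulAction G Ω] [MulAction G Y]
    (μ : Ω → ℝ) (B : Ω → Finset E) (W : Ω → Y) : Prop where
  h0 : ∀ ω, 0 ≤ μ ω
  h1 : ∑ ω, μ ω = 1
  hB : ∀ (g : G) ω, B (g • ω) = g • B ω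
  hW : ∀ (g : G) ω, W (g • ω) = g • W ω
  hH : ∀ ω, μ ω ≠ 0 → B ω ⊆ H

noncomputable def err {Ω Y : Type} [Fintype Ω] (μ : Ω → ℝ) (B : Ω → Finset E) (W : Ω → Y) : ℝ :=
  ∑ e, ∑ ω, μ ω * (cp μ W (fun ω => e ∈ B ω) ω * rt (cp μ W (fun ω => e ∈ B ω) ω))

noncomputable def sz {Ω : Type} [Fintype Ω] (μ : Ω → ℝ) (B : Ω → Finset E) : ℝ :=
  ∑ ω, μ ω * (B ω).card

variable (G) in
noncomputable def Psi (x : ℝ) {Ω Y : Type} [Fintype Ω] [MulAction G Ω]
    (μ : Ω → ℝ) (B : Ω → Finset E) (W : Ω → Y) : ℝ :=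
  - Dv G μ + x * sz μ B + 6 * err μ B W - 3 / 8 * ent μ W

omit [DecidableEq E] in
theorem err_nonneg {Ω Y : Type} [Fintype Ω] {μ : Ω → ℝ} (h0 : ∀ ω, 0 ≤ μ ω)
    (B : Ω → Finset E) (W : Ω → Y) : 0 ≤ err μ B W :=
  Finset.sum_nonneg fun _ _ => Finset.sum_nonneg fun ω _ =>
    mul_nonneg (h0 ω) (mul_nonneg (cp_nonneg h0 _ _ _) (rt_nonneg _))

omit [DecidableEq E] in
theorem err_le {Ω Y : Type} [Fintype Ω] {μ : Ω → ℝ} (h0 : ∀ ω, 0 ≤ μ ω) (h1 : ∑ ω, μ ω = 1)
    (B : Ω → Finset E) (W : Ω → Y) : err μ B W ≤ Fintype.card E := by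
  unfold err
  rw [← Finset.card_univ, ← mul_one (#(Finset.univ : Finset E) : ℝ), ← nsmul_eq_mul]
  refine Finset.sum_le_card_nsmul _ _ _ fun e _ => ?_
  rw [← h1]
  refine Finset.sum_le_sum fun ω _ => mul_le_of_le_one_right (h0 ω) ?_
  exact mul_le_one₀ (cp_le_one h0 _ _ _) (rt_nonneg _) (rt_le_one (cp_le_one h0 _ _ _))

theorem ent_nonneg {Ω Y : Type} [Fintype Ω] {μ : Ω → ℝ} (h0 : ∀ ω, 0 ≤ μ ω) (h1 : ∑ ω, μ ω = 1)
    (W : Ω → Y) : 0 ≤ ent μ W := by
  classical
  unfold ent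
  rw [neg_nonneg]
  refine Finset.sum_nonpos fun ω _ => mul_nonpos_of_nonneg_of_nonpos (h0 ω) ?_
  refine Real.log_nonpos (push_nonneg h0 _ _) ?_
  rw [← h1]
  unfold push
  refine Finset.sum_le_sum fun ω' _ => ?_
  split_ifs
  · exact le_rfl
  · exact h0 _

theorem ent_unit {Ω : Type} [Fintype Ω] {μ : Ω → ℝ} (h1 : ∑ ω, μ ω = 1) :
    ent μ (fun _ => ()) = 0 := by
  unfold ent push
  simp [h1]

theorem Psi_le (x : ℝ) (H : Finset E) {Ω Y : Type} [Fintype Ω] [MulAction G Ω] [MulAction G Y]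
    {μ : Ω → ℝ} {B : Ω → Finset E} {W : Ω → Y} (hv : Valid G H μ B W) :
    Psi G x μ B W ≤ (|x| + 6) * Fintype.card E := by
  unfold Psi
  have a1 := Dv_nonneg (G := G) hv.h0
  have a2 := err_le hv.h0 hv.h1 B W
  have a3 := ent_nonneg hv.h0 hv.h1 W
  have a4 : 0 ≤ sz μ B := Finset.sum_nonneg fun ω _ => mul_nonneg (hv.h0 ω) (Nat.cast_nonneg _)
  have a5 : sz μ B ≤ Fintype.card E := by
    unfold sz
    calc _ ≤ ∑ ω, μ ω * Fintype.card E := Finset.sum_le_sum fun ω _ =>
          mul_le_mul_of_nonneg_left (by exact_mod_cast Finset.card_le_univ _) (hv.h0 ω)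
      _ = _ := by rw [← Finset.sum_mul, hv.h1, one_mul]
  have a6 : x * sz μ B ≤ |x| * Fintype.card E :=
    (mul_le_mul_of_nonneg_right (le_abs_self x) a4).trans
      (mul_le_mul_of_nonneg_left a5 (abs_nonneg x))
  nlinarith

omit [Fintype E] in
theorem push_pair_sum {Ω A C : Type*} [Fintype Ω] [Fintype C] (μ : Ω → ℝ) (a : Ω → A) (c : Ω → C)
    (y : A) : ∑ b, push μ (fun ω => (a ω, c ω)) (y, b) = push μ a y := by
  classical
  unfold push
  rw [Finset.sum_comm]
  refine Finset.sum_congr rfl fun ω _ => ?_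
  by_cases h : a ω = y
  · simp [h]
  · simp [h]

theorem step (H : Finset E) (ℓ M : ℝ)
    (hs : ∀ F ⊆ H, Real.exp (ℓ * F.card) ≤
      2 * ((Finset.univ.image (fun g : G => g • F)).card : ℝ))
    (hM : ∀ (Ω Y : Type) [Fintype Ω] [Fintype Y] [MulAction G Ω] [MulAction G Y]
      (μ : Ω → ℝ) (B : Ω → Finset E) (W : Ω → Y), Valid G H μ B W → Psi G (ℓ - 25) μ B W ≤ M)
    {Ω Y : Type} [Fintype Ω] [Fintype Y] [MulAction G Ω] [MulAction G Y]
    {μ : Ω → ℝ} {B : Ω → Finset E} {W : Ω → Y} (hv : Valid G H μ B W) :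
    3 / 8 * (M - Real.log 2) ≤ 7 / 3 * (M - Psi G (ℓ - 25) μ B W) := by
  classical
  obtain ⟨h0, h1, hB, hW, hH⟩ := hv
  set ρ := rho μ W with hρ
  have ρ0 : ∀ z, 0 ≤ ρ z := rho_nonneg h0 W
  have ρ1 : ∑ z, ρ z = 1 := by simpa [h1] using rho_fst h0 W (fun _ => 1)
  let Z : Ω × Ω → Finset E := fun z => B z.1 ∩ B z.2
  have hZ : ∀ (g : G) z, Z (g • z) = g • Z z := fun g z => by
    simp only [Z, Prod.smul_fst, Prod.smul_snd, hB, Finset.smul_finset_inter]
  set τ : Ω × Finset E → ℝ := push ρ (fun z => (z.1, Z z)) with hτ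
  have τ0 : ∀ u, 0 ≤ τ u := push_nonneg ρ0 _
  set T := sym G τ with hT
  have T0 : ∀ u, 0 ≤ T u := sym_nonneg τ0
  have Tinv : ∀ (g : G) u, T (g • u) = T u := sym_smul τ
  have T1 : ∑ u, T u = 1 := by rw [hT, sum_sym, hτ, sum_push, ρ1]
  have τm : ∀ ω, ∑ b, τ (ω, b) = μ ω := fun ω => by
    rw [hτ, push_pair_sum ρ (fun z => z.1) Z ω]
    have := rho_fst h0 W (fun ω' => if ω' = ω then 1 else 0)
    simp only [mul_ite, mul_one, mul_zero, Finset.sum_ite_eq', Finset.mem_univ, if_true] at this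
    rw [← this]
    unfold push
    refine Finset.sum_congr rfl fun z _ => ?_
    by_cases h : z.1 = ω <;> simp [h, hρ]
  have Tm : ∀ ω, ∑ b, T (ω, b) = sym G μ ω := fun ω => by
    simp only [hT, sym]
    rw [← Finset.sum_div, Finset.sum_comm]
    congr 1
    refine Finset.sum_congr rfl fun g _ => ?_
    rw [← τm (g • ω)]
    exact Fintype.sum_equiv (MulAction.toPerm g) _ _ fun b => by simp
  have Tsub : ∀ u, T u ≠ 0 → u.2 ⊆ B u.1 := fun u hu => by
    obtain ⟨g, hg⟩ := sym_ne_zero hu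
    obtain ⟨z, hz, -⟩ := push_ne_zero _ hg
    have e1 : z.1 = g • u.1 := congrArg Prod.fst hz
    have e2 : Z z = g • u.2 := congrArg Prod.snd hz
    have : g • u.2 ⊆ g • B u.1 := by
      rw [← e2, ← hB, ← e1]; exact Finset.inter_subset_left
    exact (Finset.smul_finset_subset_smul_finset_iff).mp this
  have Tpos1 : ∀ z, ρ z ≠ 0 → 0 < T (z.1, Z z) := fun z hz =>
    sym_pos τ0 (push_pos ρ0 (fun z => (z.1, Z z)) hz).ne'
  have Tpos2 : ∀ z, ρ z ≠ 0 → 0 < T (z.2, Z z) := fun z hz => by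
    have := Tpos1 z.swap (by rwa [hρ, rho_swap])
    simpa only [Z, Prod.fst_swap, Prod.snd_swap, Finset.inter_comm] using this
  let W2 : Ω × Finset E → Y × Finset E := fun u => (W u.1, u.2)
  have hW2 : ∀ (g : G) u, W2 (g • u) = g • W2 u := fun g u => by
    simp only [W2, Prod.smul_fst, Prod.smul_snd, hW, Prod.smul_mk]
  set ζ := push T W2 with hζ
  have ζ0 : ∀ v, 0 ≤ ζ v := push_nonneg T0 _
  have ζinv : ∀ (g : G) v, ζ (g • v) = ζ v := push_inv T Tinv W2 hW2
  have ζ1 : ∑ v, ζ v = 1 := by rw [hζ, sum_push, T1]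
  have ζpos : ∀ u, T u ≠ 0 → 0 < ζ (W2 u) := fun u hu => push_pos T0 W2 hu
  -- the resampled law
  let ν : Ω × Finset E → ℝ := fun u => μ u.1 * (T u / sym G μ u.1)
  have ν0 : ∀ u, 0 ≤ ν u := fun u => mul_nonneg (h0 _) (div_nonneg (T0 _) (sym_nonneg h0 _))
  have νne : ∀ u, ν u ≠ 0 → μ u.1 ≠ 0 ∧ T u ≠ 0 := fun u hu =>
    ⟨fun h => hu (by simp [ν, h]), fun h => hu (by simp [ν, h])⟩
  have νsym : ∀ u, sym G ν u = T u := fun u => by
    have e := sym_mul_inv (G := G) (fun u : Ω × Finset E => μ u.1) (fun u => T u / sym G μ u.1)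
      (fun g u => by rw [Tinv, Prod.smul_fst, sym_smul]) u
    have e' : sym G (fun u : Ω × Finset E => μ u.1) u = sym G μ u.1 := rfl
    rw [e'] at e
    simp only [ν]
    rw [e]
    by_cases h : sym G μ u.1 = 0
    · have := Finset.single_le_sum (f := fun b => T (u.1, b)) (fun _ _ => T0 _)
        (Finset.mem_univ u.2)
      rw [Tm, h] at this
      have := le_antisymm this (T0 _)
      rw [h, zero_mul]; exact this.symm
    · rw [mul_div_cancel₀ _ h]
  have νm : ∀ ω, ∑ b, ν (ω, b) = μ ω := fun ω => by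
    simp only [ν]
    rw [← Finset.mul_sum, ← Finset.sum_div, Tm]
    by_cases h : μ ω = 0
    · simp [h]
    · rw [div_self (sym_pos h0 h).ne', mul_one]
  have νfst : ∀ F : Ω → ℝ, ∑ u, ν u * F u.1 = ∑ ω, μ ω * F ω := fun F => by
    rw [Fintype.sum_prod_type]
    refine Finset.sum_congr rfl fun ω _ => ?_
    simp only
    rw [← Finset.sum_mul, νm]
  have ν1 : ∑ u, ν u = 1 := by simpa [h1] using νfst (fun _ => 1)
  have νinv : ∀ F : Ω × Finset E → ℝ, (∀ (g : G) u, F (g • u) = F u) →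
      ∑ z, ρ z * F (z.1, Z z) = ∑ u, ν u * F u := fun F hF => by
    rw [← sum_sym_mul (G := G) ν F hF, ← sum_push_mul ρ (fun z => (z.1, Z z)) F, ← hτ,
      ← sum_sym_mul (G := G) τ F hF]
    exact Finset.sum_congr rfl fun u _ => by rw [νsym]
  have νD : Dv G ν = Dv G μ := by
    unfold Dv
    rw [← νfst]
    refine Finset.sum_congr rfl fun u _ => ?_
    by_cases h : ν u = 0
    · simp [h]
    · obtain ⟨a1, a2⟩ := νne u h
      have a3 := (sym_pos (G := G) h0 a1).ne'
      rw [νsym]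
      congr 1
      simp only [ν]
      rw [Real.log_mul a1 (div_ne_zero a2 a3), Real.log_div a2 a3]; ring
  set ξ := push ν W2 with hξ
  have ξ0 : ∀ v, 0 ≤ ξ v := push_nonneg ν0 _
  have ξ1 : ∑ v, ξ v = 1 := by rw [hξ, sum_push, ν1]
  -- the three competitors
  have c1 := hM (Ω × Ω) Y ρ (fun z => B z.1 ∪ B z.2) (fun z => W z.1)
    ⟨ρ0, ρ1, fun g z => by
      simp only [Prod.smul_fst, Prod.smul_snd, hB, Finset.smul_finset_union],
     fun g z => by simp only [Prod.smul_fst, hW],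
     fun z hz => by
      obtain ⟨-, a1, a2⟩ := rho_ne_zero hz
      exact Finset.union_subset (hH _ a1) (hH _ a2)⟩
  have c2 := hM (Ω × Finset E) (Y × Finset E) ν (fun u => B u.1) W2
    ⟨ν0, ν1, fun g u => by simp only [Prod.smul_fst, hB], hW2,
     fun u hu => hH _ (νne u hu).1⟩
  have c3 := hM (Y × Finset E) Unit ξ (fun v => v.2) (fun _ => ())
    ⟨ξ0, ξ1, fun g v => rfl, fun g v => rfl, fun v hv => by
      obtain ⟨u, rfl, hu⟩ := push_ne_zero _ hv
      exact (Tsub u (νne u hu).2).trans (hH _ (νne u hu).1)⟩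
  -- sizes
  set zz : ℝ := ∑ z, ρ z * (Z z).card with hzz
  have s2 : sz ν (fun u => B u.1) = sz μ B := νfst (fun ω => (B ω).card)
  have sν : ∑ u, ν u * (u.2.card : ℝ) = zz :=
    (νinv (fun u => (u.2.card : ℝ)) (fun g u => by
      simp only [Prod.smul_snd, Finset.card_smul_finset])).symm
  have s3 : sz ξ (fun v => v.2) = zz := by
    unfold sz
    rw [hξ, sum_push_mul ν W2 (fun v => (v.2.card : ℝ))]
    exact sν
  have s1 : sz ρ (fun z => B z.1 ∪ B z.2) = 2 * sz μ B - zz := by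
    unfold sz
    rw [two_mul]
    nth_rewrite 1 [← rho_fst h0 W (fun ω => ((B ω).card : ℝ))]
    rw [← rho_snd h0 W (fun ω => ((B ω).card : ℝ)), hzz, ← Finset.sum_add_distrib,
      ← Finset.sum_sub_distrib]
    refine Finset.sum_congr rfl fun z _ => ?_
    have : (((B z.1 ∪ B z.2).card : ℝ)) + (Z z).card = (B z.1).card + (B z.2).card := by
      exact_mod_cast Finset.card_union_add_card_inter _ _
    rw [← hρ]
    linear_combination (ρ z) * this
  have e1 : ent ρ (fun z => W z.1) = ent μ W := by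
    unfold ent
    rw [← rho_fst h0 W (fun ω => Real.log (push μ W (W ω)))]
    congr 1
    exact Finset.sum_congr rfl fun z _ => by rw [hρ, rho_push h0 W]
  -- the pointwise inequality
  have pw : 2 * err μ B W ≤ 6 * (err ρ (fun z => B z.1 ∪ B z.2) (fun z => W z.1) - 2 * err μ B W)
      + 75 / 8 * zz := by
    have z1 : zz = ∑ e, ∑ ω, μ ω *
        (cp μ W (fun ω => e ∈ B ω) ω * cp μ W (fun ω => e ∈ B ω) ω) := by
      have : ∀ z, ρ z * ((Z z).card : ℝ) =
          ∑ e, ρ z * (if e ∈ B z.2 then (if e ∈ B z.1 then 1 else 0) else 0) := fun z => by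
        rw [← Finset.mul_sum]
        congr 1
        rw [Finset.card_eq_sum_ones, Nat.cast_sum, ← Finset.sum_filter, ← Finset.sum_filter]
        refine Finset.sum_congr ?_ (by simp)
        ext e; simp [Z, and_comm]
      rw [hzz]
      simp_rw [this]
      rw [Finset.sum_comm]
      refine Finset.sum_congr rfl fun e _ => ?_
      have a1 := rho_sum μ W (fun ω => if e ∈ B ω then 1 else 0) (fun ω => e ∈ B ω)
      have a2 := tower h0 W (fun ω => e ∈ B ω) (cp μ W (fun ω => e ∈ B ω))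
        (fun ω ω' h => cp_const μ W _ h)
      rw [a2]
      refine Eq.trans ?_ (a1.trans ?_)
      · refine Finset.sum_congr rfl fun z _ => ?_
        by_cases h : e ∈ B z.2 <;> simp [h, hρ]
      · refine Finset.sum_congr rfl fun ω _ => ?_
        by_cases h : e ∈ B ω <;> simp [h]
    have z2 : err ρ (fun z => B z.1 ∪ B z.2) (fun z => W z.1) = ∑ e, ∑ ω, μ ω *
        ((2 * cp μ W (fun ω => e ∈ B ω) ω - cp μ W (fun ω => e ∈ B ω) ω ^ 2) *
          rt (2 * cp μ W (fun ω => e ∈ B ω) ω - cp μ W (fun ω => e ∈ B ω) ω ^ 2)) := by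
      unfold err
      refine Finset.sum_congr rfl fun e _ => ?_
      rw [← rho_fst h0 W]
      refine Finset.sum_congr rfl fun z _ => ?_
      have := rho_cp h0 W (fun ω => e ∈ B ω) z
      simp only [Finset.mem_union]
      rw [hρ, this]
    rw [z1, z2]
    unfold err
    simp only [Finset.mul_sum, ← Finset.sum_sub_distrib, ← Finset.sum_add_distrib]
    refine Finset.sum_le_sum fun e _ => Finset.sum_le_sum fun ω _ => ?_
    have := mul_le_mul_of_nonneg_left (ptw (cp_nonneg h0 W (fun ω => e ∈ B ω) ω)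
      (cp_le_one h0 W (fun ω => e ∈ B ω) ω)) (h0 ω)
    linarith
  -- the key inequality
  have kk := key_ineq ν0 (fun u : Ω × Finset E => u.1) (fun u => W u.1) (fun u => u.2)
    (fun u => B u.1) (fun u u' h => by rw [h]) (fun u u' h => by rw [h])
    (fun u hu => Tsub u (νne u hu).2)
  have k1 : ent ν (fun u : Ω × Finset E => (u.1, u.2)) = - ∑ u, ν u * Real.log (ν u) := by
    unfold ent push
    simp
  have k2 : ent ν (fun u : Ω × Finset E => u.1) = - ∑ ω, μ ω * Real.log (μ ω) := by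
    unfold ent
    rw [← νfst (fun ω => Real.log (μ ω))]
    congr 1
    refine Finset.sum_congr rfl fun u _ => ?_
    have := νfst (fun ω => if ω = u.1 then 1 else 0)
    simp only [mul_ite, mul_one, mul_zero, Finset.sum_ite_eq', Finset.mem_univ, if_true] at this
    rw [← this]
    unfold push
    congr 2
  have k3 : ent ν (fun u : Ω × Finset E => W u.1) = ent μ W := by
    unfold ent
    rw [← νfst (fun ω => Real.log (push μ W (W ω)))]
    congr 1
    refine Finset.sum_congr rfl fun u _ => ?_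
    have := νfst (fun ω => if W ω = W u.1 then 1 else 0)
    simp only [mul_ite, mul_one, mul_zero] at this
    congr 2
  have k4 : ent ν W2 = - ∑ v, ξ v * Real.log (ξ v) := by
    unfold ent
    rw [hξ, sum_push_mul ν W2 (fun v => Real.log (push ν W2 v))]
  have kk' : 4 * (- ∑ u, ν u * Real.log (ν u) + ∑ ω, μ ω * Real.log (μ ω)) ≤
      (ent ν W2 - ent μ W) + 4 * err ν (fun u => B u.1) W2 := by
    rw [k1, k2, k3] at kk
    unfold err
    linarith
  -- the bound on the information of the pair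
  let Q : Ω × Ω → ℝ := fun z =>
    if W z.1 = W z.2 then T (z.1, Z z) * T (z.2, Z z) / ζ (W z.1, Z z) else 0
  have Q0 : ∀ z, 0 ≤ Q z := fun z => by
    simp only [Q]
    split_ifs
    · exact div_nonneg (mul_nonneg (T0 _) (T0 _)) (ζ0 _)
    · exact le_rfl
  have Qinv : ∀ (g : G) z, Q (g • z) = Q z := fun g z => by
    simp only [Q, hZ, Prod.smul_fst, Prod.smul_snd, hW, smul_left_cancel_iff]
    rw [← Prod.smul_mk, ← Prod.smul_mk, ← Prod.smul_mk, Tinv, Tinv, ζinv]
  have Q1 : ∑ z, Q z ≤ 1 := by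
    have a1 : ∀ z, Q z ≤ ∑ b, if W z.1 = W z.2 then T (z.1, b) * T (z.2, b) / ζ (W z.1, b) else 0 :=
      fun z => Finset.single_le_sum
        (f := fun b => if W z.1 = W z.2 then T (z.1, b) * T (z.2, b) / ζ (W z.1, b) else 0)
        (fun b _ => by
          split_ifs
          · exact div_nonneg (mul_nonneg (T0 _) (T0 _)) (ζ0 _)
          · exact le_rfl) (Finset.mem_univ (Z z))
    refine (Finset.sum_le_sum fun z _ => a1 z).trans ?_
    rw [← T1, Fintype.sum_prod_type, Fintype.sum_prod_type]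
    refine Finset.sum_le_sum fun ω _ => ?_
    rw [Finset.sum_comm]
    refine Finset.sum_le_sum fun b _ => ?_
    have a2 : ζ (W ω, b) = ∑ ω', if W ω = W ω' then T (ω', b) else 0 := by
      rw [hζ]
      unfold push
      rw [Fintype.sum_prod_type]
      refine Finset.sum_congr rfl fun ω' _ => ?_
      by_cases h : W ω = W ω'
      · simp [W2, h]
      · have h' : ¬ W ω' = W ω := fun e => h e.symm
        simp [W2, h, h']
    have a3 : (∑ ω', if W ω = W ω' then T (ω, b) * T (ω', b) / ζ (W ω, b) else 0) =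
        T (ω, b) * (ζ (W ω, b) / ζ (W ω, b)) := by
      nth_rewrite 2 [a2]
      rw [Finset.sum_div, Finset.mul_sum]
      refine Finset.sum_congr rfl fun ω' _ => ?_
      split_ifs
      · ring
      · simp
    simp only
    rw [a3]
    exact mul_le_of_le_one_right (T0 _) (div_self_le_one _)
  have Qac : ∀ z, ρ z ≠ 0 → 0 < Q z := fun z hz => by
    simp only [Q]
    rw [if_pos (rho_ne_zero hz).1]
    exact div_pos (mul_pos (Tpos1 z hz) (Tpos2 z hz)) (ζpos (z.1, Z z) (Tpos1 z hz).ne')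
  have d1 := Dv_le (G := G) ρ0 ρ1 Q Q0 Qinv Q1 Qac
  have d2 : ∑ z, ρ z * (Real.log (ρ z) - Real.log (Q z)) =
      ∑ z, ρ z * Real.log (μ z.1) + ∑ z, ρ z * Real.log (μ z.2)
       - ∑ z, ρ z * Real.log (push μ W (W z.1)) - ∑ z, ρ z * Real.log (T (z.1, Z z))
       - ∑ z, ρ z * Real.log (T (z.2, Z z)) + ∑ z, ρ z * Real.log (ζ (W2 (z.1, Z z))) := by
    simp only [← Finset.sum_sub_distrib, ← Finset.sum_add_distrib]
    refine Finset.sum_congr rfl fun z _ => ?_
    by_cases hz : ρ z = 0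
    · simp [hz]
    obtain ⟨a1, a2, a3⟩ := rho_ne_zero hz
    have a4 := (push_pos h0 W a2).ne'
    have a5 := (Tpos1 z hz).ne'
    have a6 := (Tpos2 z hz).ne'
    have a7 := (ζpos (z.1, Z z) a5).ne'
    have b1 : Real.log (ρ z) =
        Real.log (μ z.1) + Real.log (μ z.2) - Real.log (push μ W (W z.1)) := by
      rw [hρ]; unfold rho
      rw [if_pos a1, Real.log_div (mul_ne_zero a2 a3) a4, Real.log_mul a2 a3]
    have b2 : Real.log (Q z) = Real.log (T (z.1, Z z)) + Real.log (T (z.2, Z z)) -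
        Real.log (ζ (W2 (z.1, Z z))) := by
      simp only [Q]
      rw [if_pos a1, Real.log_div (mul_ne_zero a5 a6) a7, Real.log_mul a5 a6]
    rw [b1, b2]; ring
  have d3 : ∑ z, ρ z * Real.log (T (z.2, Z z)) = ∑ z, ρ z * Real.log (T (z.1, Z z)) := by
    rw [hρ, ← rho_sum_swap μ W (fun z => Real.log (T (z.1, Z z)))]
    simp only [Z, Prod.fst_swap, Prod.snd_swap, Finset.inter_comm]
  have d4 := νinv (fun u => Real.log (T u)) (fun g u => by rw [Tinv])
  have d5 := νinv (fun u => Real.log (ζ (W2 u))) (fun g u => by rw [hW2, ζinv])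
  have d6 : ∑ u, ν u * Real.log (T u) = ∑ u, ν u * Real.log (ν u) - Dv G μ := by
    rw [← νD]
    unfold Dv
    rw [← Finset.sum_sub_distrib]
    exact Finset.sum_congr rfl fun u _ => by rw [νsym]; ring
  have d7 := rho_fst h0 W (fun ω => Real.log (μ ω))
  have d8 := rho_snd h0 W (fun ω => Real.log (μ ω))
  have d9 : ∑ z, ρ z * Real.log (push μ W (W z.1)) = - ent μ W := by
    unfold ent
    rw [neg_neg]
    exact rho_fst h0 W (fun ω => Real.log (push μ W (W ω)))
  rw [← hρ] at d7 d8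
  -- beta bound
  have bb : Dv G ξ ≤ - ent ν W2 - ∑ u, ν u * Real.log (ζ (W2 u)) := by
    have := Dv_le (G := G) ξ0 ξ1 ζ ζ0 ζinv ζ1.le (fun v hv => by
      obtain ⟨u, rfl, hu⟩ := push_ne_zero _ hv
      exact ζpos u (νne u hu).2)
    rw [k4, neg_neg, ← sum_push_mul ν W2 (fun v => Real.log (ζ v)), ← hξ,
      ← Finset.sum_sub_distrib]
    refine this.trans (le_of_eq (Finset.sum_congr rfl fun v _ => by ring))
  -- q bound
  have qq : ∑ u, ν u * Real.log (ζ (W2 u)) ≤ Real.log 2 - ℓ * zz := by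
    have : Real.log 2 - ℓ * zz = ∑ u, ν u * (Real.log 2 - ℓ * u.2.card) := by
      rw [← sν]
      simp only [mul_sub, Finset.sum_sub_distrib, ← Finset.sum_mul, ν1, one_mul, Finset.mul_sum]
      congr 1
      exact Finset.sum_congr rfl fun u _ => by ring
    rw [this]
    refine Finset.sum_le_sum fun u _ => ?_
    by_cases hu : ν u = 0
    · simp [hu]
    refine mul_le_mul_of_nonneg_left ?_ (ν0 u)
    have a1 := ζpos u (νne u hu).2
    have a2 := hs u.2 ((Tsub u (νne u hu).2).trans (hH _ (νne u hu).1))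
    have a3 := orbit_bound (G := G) ζ ζ0 ζinv ζ1.le (W u.1) u.2
    have a4 : Real.exp (ℓ * u.2.card) * ζ (W2 u) ≤ 2 := by
      have := mul_le_mul_of_nonneg_right a2 a1.le
      simp only [W2] at this ⊢
      linarith
    have a5 := Real.log_le_log (mul_pos (Real.exp_pos _) a1) a4
    rw [Real.log_mul (Real.exp_pos _).ne' a1.ne', Real.log_exp] at a5
    linarith
  have ee := err_nonneg ξ0 (fun v : Y × Finset E => v.2) (fun _ => ())
  unfold Psi at c1 c2 c3 ⊢
  rw [s1, e1] at c1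
  rw [s2, νD] at c2
  rw [s3, ent_unit ξ1] at c3
  linarith

theorem core (H : Finset E) (ℓ : ℝ)
    (hs : ∀ F ⊆ H, Real.exp (ℓ * F.card) ≤
      2 * ((Finset.univ.image (fun g : G => g • F)).card : ℝ))
    {Ω Y : Type} [Fintype Ω] [Fintype Y] [MulAction G Ω] [MulAction G Y]
    {μ : Ω → ℝ} {B : Ω → Finset E} {W : Ω → Y} (hv : Valid G H μ B W) :
    Psi G (ℓ - 25) μ B W < 1 := by
  let S : Set ℝ := {r | ∃ (Ω Y : Type) (_ : Fintype Ω) (_ : Fintype Y) (_ : MulAction G Ω)
    (_ : MulAction G Y) (μ : Ω → ℝ) (B : Ω → Finset E) (W : Ω → Y),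
      Valid G H μ B W ∧ r = Psi G (ℓ - 25) μ B W}
  have hb : BddAbove S := ⟨(|ℓ - 25| + 6) * Fintype.card E, by
    rintro r ⟨Ω, Y, _, _, _, _, μ, B, W, hv, rfl⟩
    exact Psi_le _ H hv⟩
  have hM : ∀ (Ω Y : Type) [Fintype Ω] [Fintype Y] [MulAction G Ω] [MulAction G Y]
      (μ : Ω → ℝ) (B : Ω → Finset E) (W : Ω → Y), Valid G H μ B W →
      Psi G (ℓ - 25) μ B W ≤ sSup S := fun Ω Y _ _ _ _ μ B W hv =>
    le_csSup hb ⟨Ω, Y, _, inferInstance, _, _, μ, B, W, hv, rfl⟩
  have hne : S.Nonempty := ⟨_, Ω, Y, _, inferInstance, _, _, μ, B, W, hv, rfl⟩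
  obtain ⟨r, ⟨Ω', Y', _, _, _, _, μ', B', W', hv', rfl⟩, hr⟩ :=
    exists_lt_of_lt_csSup hne (show sSup S - 1 / 100 < sSup S by linarith)
  have a1 := step H ℓ (sSup S) hs hM hv'
  have a2 := hM Ω Y μ B W hv
  have a3 := Real.log_two_lt_d9
  linarith

theorem spread_of_sparse (H : Finset E) (ℓ : ℝ)
    (hs : ∀ F ⊆ H, Real.exp (ℓ * F.card) ≤
      2 * ((Finset.univ.image (fun g : G => g • F)).card : ℝ)) (J : Finset E) :
    ((Finset.univ.filter (fun g : G => J ⊆ g • H)).card : ℝ) / Fintype.card G ≤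
      Real.exp (- (ℓ - 26) * J.card) := by
  classical
  by_contra hcon
  rw [not_le] at hcon
  have hG := card_pos' (G := G)
  set N : ℝ := ((Finset.univ.filter (fun g : G => J ⊆ g • H)).card : ℝ) with hN
  have hN0 : 0 < N := by
    have := (Real.exp_pos _).trans hcon
    exact (div_pos_iff_of_pos_right hG).mp this
  have hJ : (1:ℝ) ≤ J.card := by
    by_contra h
    have : J.card = 0 := by
      have : J.card < 1 := by exact_mod_cast not_le.mp h
      omega
    rw [this] at hcon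
    simp only [Nat.cast_zero, mul_zero, Real.exp_zero] at hcon
    rw [lt_div_iff₀ hG, one_mul, hN] at hcon
    have : (Finset.univ.filter (fun g : G => J ⊆ g • H)).card ≤ Fintype.card G :=
      Finset.card_le_univ _
    have : ((Finset.univ.filter (fun g : G => J ⊆ g • H)).card : ℝ) ≤ Fintype.card G := by
      exact_mod_cast this
    linarith
  let μ : G → ℝ := fun g => if g • J ⊆ H then 1 / N else 0
  have hcard : ((Finset.univ.filter (fun g : G => g • J ⊆ H)).card : ℝ) = N := by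
    rw [hN]
    congr 1
    refine Finset.card_bij (fun g _ => g⁻¹) ?_ ?_ ?_
    · intro g hg
      simp only [Finset.mem_filter, Finset.mem_univ, true_and] at hg ⊢
      exact Finset.smul_finset_subset_iff.mp hg
    · intro g _ g' _ h
      exact inv_injective h
    · intro g hg
      simp only [Finset.mem_filter, Finset.mem_univ, true_and] at hg
      refine ⟨g⁻¹, ?_, inv_inv g⟩
      simp only [Finset.mem_filter, Finset.mem_univ, true_and]
      rw [Finset.smul_finset_subset_iff, inv_inv]; exact hg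
  have μ0 : ∀ g, 0 ≤ μ g := fun g => by
    simp only [μ]; split_ifs <;> positivity
  have μ1 : ∑ g, μ g = 1 := by
    simp only [μ]
    rw [← Finset.sum_filter, Finset.sum_const, nsmul_eq_mul, hcard]
    field_simp
  have hv : Valid G H μ (fun g : G => g • J) (fun _ => ()) :=
    ⟨μ0, μ1, fun g g' => by rw [smul_eq_mul, mul_smul], fun _ _ => rfl, fun g hg => by
      by_contra h; exact hg (if_neg h)⟩
  have a1 := core H ℓ hs hv
  have a2 := Dv_le (G := G) μ0 μ1 (fun _ => 1 / Fintype.card G) (fun _ => by positivity)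
    (fun _ _ => rfl) (by
      rw [Finset.sum_const, Finset.card_univ, nsmul_eq_mul]; field_simp; rfl)
    (fun _ _ => by positivity)
  have a3 : ∑ g, μ g * (Real.log (μ g) - Real.log (1 / Fintype.card G)) =
      - Real.log (N / Fintype.card G) := by
    have : - Real.log (N / Fintype.card G) = ∑ g, μ g * (- Real.log (N / Fintype.card G)) := by
      rw [← Finset.sum_mul, μ1, one_mul]
    rw [this]
    refine Finset.sum_congr rfl fun g _ => ?_
    simp only [μ]
    split_ifs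
    · rw [Real.log_div hN0.ne' hG.ne', one_div, one_div, Real.log_inv, Real.log_inv]; ring
    · simp
  have a4 := Real.log_lt_log (Real.exp_pos _) hcon
  rw [Real.log_exp] at a4
  have a5 : sz μ (fun g : G => g • J) = J.card := by
    unfold sz
    simp only [Finset.card_smul_finset]
    rw [← Finset.sum_mul, μ1, one_mul]
  have a6 := err_nonneg μ0 (fun g : G => g • J) (fun _ => ())
  unfold Psi at a1
  rw [a5, ent_unit μ1] at a1
  nlinarith

end Crest.Agent.H9KK
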