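import Mathlib

set_option autoImplicit false

namespace Crest.Agent.H9KK

open Finset

variable {Ω : Type*} [Fintype Ω]

open Classical in
noncomputable def push {α : Type*} (μ : Ω → ℝ) (k : Ω → α) (y : α) : ℝ :=
  ∑ ω, if k ω = y then μ ω else 0

open Classical in
noncomputable def cp {α : Type*} (μ : Ω → ℝ) (k : Ω → α) (c : Ω → Prop) (ω : Ω) : ℝ :=
  (∑ ω', if k ω' = k ω ∧ c ω' then μ ω' else 0) / push μ k (k ω)

theorem push_nonneg {α : Type*} {μ : Ω → ℝ} (h0 : ∀ ω, 0 ≤ μ ω) (k : Ω → α) (y : α) :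
    0 ≤ push μ k y := by
  unfold push
  refine Finset.sum_nonneg fun ω _ => ?_
  split_ifs
  · exact h0 ω
  · exact le_rfl

theorem le_push {α : Type*} {μ : Ω → ℝ} (h0 : ∀ ω, 0 ≤ μ ω) (k : Ω → α) (ω : Ω) :
    μ ω ≤ push μ k (k ω) := by
  classical
  unfold push
  have := Finset.single_le_sum (f := fun ω' => if k ω' = k ω then μ ω' else 0)
    (fun ω' _ => by
      split_ifs
      · exact h0 ω'
      · exact le_rfl) (Finset.mem_univ ω)
  simpa using this

theorem push_pos {α : Type*} {μ : Ω → ℝ} (h0 : ∀ ω, 0 ≤ μ ω) (k : Ω → α) {ω : Ω}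
    (h : μ ω ≠ 0) : 0 < push μ k (k ω) :=
  lt_of_lt_of_le (lt_of_le_of_ne (h0 ω) (Ne.symm h)) (le_push h0 k ω)

theorem push_ne_zero {α : Type*} {μ : Ω → ℝ} (k : Ω → α) {y : α}
    (h : push μ k y ≠ 0) : ∃ ω, k ω = y ∧ μ ω ≠ 0 := by
  classical
  unfold push at h
  obtain ⟨ω, -, hω⟩ := Finset.exists_ne_zero_of_sum_ne_zero h
  by_cases e : k ω = y
  · exact ⟨ω, e, by simpa [e] using hω⟩
  · simp [e] at hω

theorem sum_push_mul {α : Type*} [Fintype α] (μ : Ω → ℝ) (k : Ω → α) (F : α → ℝ) :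
    ∑ y, push μ k y * F y = ∑ ω, μ ω * F (k ω) := by
  classical
  unfold push
  simp_rw [Finset.sum_mul]
  rw [Finset.sum_comm]
  refine Finset.sum_congr rfl fun ω _ => ?_
  simp_rw [ite_mul, zero_mul]
  rw [Finset.sum_ite_eq]
  simp

theorem sum_push {α : Type*} [Fintype α] (μ : Ω → ℝ) (k : Ω → α) :
    ∑ y, push μ k y = ∑ ω, μ ω := by
  simpa using sum_push_mul μ k (fun _ => 1)

theorem push_congr {α β : Type*} (μ : Ω → ℝ) (k : Ω → α) (k' : Ω → β) (ω : Ω)
    (h : ∀ ω', k ω' = k ω ↔ k' ω' = k' ω) : push μ k (k ω) = push μ k' (k' ω) := by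
  classical
  unfold push
  refine Finset.sum_congr rfl fun ω' _ => ?_
  by_cases e : k ω' = k ω
  · rw [if_pos e, if_pos ((h ω').mp e)]
  · rw [if_neg e, if_neg (fun e' => e ((h ω').mpr e'))]

theorem cp_nonneg {α : Type*} {μ : Ω → ℝ} (h0 : ∀ ω, 0 ≤ μ ω) (k : Ω → α) (c : Ω → Prop)
    (ω : Ω) : 0 ≤ cp μ k c ω := by
  unfold cp
  refine div_nonneg (Finset.sum_nonneg fun ω' _ => ?_) (push_nonneg h0 _ _)
  split_ifs
  · exact h0 ω'
  · exact le_rfl

theorem cp_le_one {α : Type*} {μ : Ω → ℝ} (h0 : ∀ ω, 0 ≤ μ ω) (k : Ω → α) (c : Ω → Prop)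
    (ω : Ω) : cp μ k c ω ≤ 1 := by
  unfold cp
  refine div_le_one_of_le₀ ?_ (push_nonneg h0 _ _)
  unfold push
  refine Finset.sum_le_sum fun ω' _ => ?_
  by_cases e : k ω' = k ω
  · rw [if_pos e]
    split_ifs
    · exact le_rfl
    · exact h0 ω'
  · rw [if_neg e, if_neg (fun h => e h.1)]

theorem cp_const {α : Type*} (μ : Ω → ℝ) (k : Ω → α) (c : Ω → Prop) {ω ω' : Ω}
    (h : k ω = k ω') : cp μ k c ω = cp μ k c ω' := by
  unfold cp
  rw [h]

open Classical in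
theorem tower {α : Type*} {μ : Ω → ℝ} (h0 : ∀ ω, 0 ≤ μ ω) (k : Ω → α) (c : Ω → Prop)
    (G : Ω → ℝ) (hG : ∀ ω ω', k ω = k ω' → G ω = G ω') :
    ∑ ω, μ ω * (G ω * cp μ k c ω) = ∑ ω, μ ω * (if c ω then G ω else 0) := by
  have e1 : ∀ ω, μ ω * (G ω * cp μ k c ω) =
      ∑ ω', if k ω = k ω' then μ ω * ((if c ω' then G ω' else 0) * μ ω' / push μ k (k ω')) else 0 := by
    intro ω
    unfold cp
    rw [Finset.sum_div, Finset.mul_sum, Finset.mul_sum]
    refine Finset.sum_congr rfl fun ω' _ => ?_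
    by_cases e : k ω = k ω'
    · rw [if_pos e]
      by_cases hc : c ω'
      · rw [if_pos ⟨e.symm, hc⟩, if_pos hc, hG ω ω' e, e]; ring
      · rw [if_neg (fun h => hc h.2), if_neg hc]; simp
    · rw [if_neg e, if_neg (fun h => e h.1.symm)]; simp
  simp_rw [e1]
  rw [Finset.sum_comm]
  refine Finset.sum_congr rfl fun ω' _ => ?_
  have e2 : ∑ ω, (if k ω = k ω' then
      μ ω * ((if c ω' then G ω' else 0) * μ ω' / push μ k (k ω')) else 0) =
      push μ k (k ω') * ((if c ω' then G ω' else 0) * μ ω' / push μ k (k ω')) := by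
    conv_rhs => arg 1; unfold push
    rw [Finset.sum_mul]
    refine Finset.sum_congr rfl fun ω _ => ?_
    split_ifs <;> simp
  rw [e2]
  by_cases hμ : μ ω' = 0
  · simp [hμ]
  · have := (push_pos h0 k hμ).ne'
    field_simp

theorem gibbs {μ : Ω → ℝ} (h0 : ∀ ω, 0 ≤ μ ω) (R : Ω → ℝ) (hR : ∀ ω, μ ω ≠ 0 → 0 < R ω) :
    ∑ ω, μ ω * Real.log (R ω) ≤ ∑ ω, μ ω * R ω - ∑ ω, μ ω := by
  rw [← Finset.sum_sub_distrib]
  refine Finset.sum_le_sum fun ω _ => ?_
  by_cases hμ : μ ω = 0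
  · simp [hμ]
  · have := Real.log_le_sub_one_of_pos (hR ω hμ)
    have := mul_le_mul_of_nonneg_left this (h0 ω)
    linarith

/-- fourth root -/
noncomputable def rt (x : ℝ) : ℝ := Real.sqrt (Real.sqrt x)

theorem rt_nonneg (x : ℝ) : 0 ≤ rt x := Real.sqrt_nonneg _

theorem rt_pow {x : ℝ} (hx : 0 ≤ x) : rt x ^ 4 = x := by
  unfold rt
  have h1 := Real.sq_sqrt (Real.sqrt_nonneg x)
  have h2 := Real.sq_sqrt hx
  calc _ = (Real.sqrt (Real.sqrt x) ^ 2) ^ 2 := by ring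
    _ = x := by rw [h1, h2]

theorem rt_le_one {x : ℝ} (hx : x ≤ 1) : rt x ≤ 1 := by
  unfold rt
  exact Real.sqrt_le_one.mpr (Real.sqrt_le_one.mpr hx)

open Classical in
theorem young {α β : Type*} {μ : Ω → ℝ} (h0 : ∀ ω, 0 ≤ μ ω) (k : Ω → α) (k' : Ω → β)
    (hk : ∀ ω ω', k' ω = k' ω' → k ω = k ω') (b c : Ω → Prop)
    (hbc : ∀ ω, μ ω ≠ 0 → b ω → c ω) :
    ∑ ω, μ ω * (if c ω then rt (cp μ k b ω) else 0) ≤
      ∑ ω, μ ω * (cp μ k' c ω * rt (cp μ k' c ω)) := by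
  have e1 := tower h0 k' c (fun ω => rt (cp μ k b ω))
    (fun ω ω' h => by rw [cp_const μ k b (hk ω ω' h)])
  have e2 := tower h0 k b (fun ω => rt (cp μ k b ω))
    (fun ω ω' h => by rw [cp_const μ k b h])
  have e3 : ∑ ω, μ ω * (if b ω then rt (cp μ k b ω) else 0) ≤
      ∑ ω, μ ω * (if c ω then rt (cp μ k b ω) else 0) := by
    refine Finset.sum_le_sum fun ω _ => ?_
    by_cases hμ : μ ω = 0
    · simp [hμ]
    · refine mul_le_mul_of_nonneg_left ?_ (h0 ω)
      by_cases hb : b ω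
      · rw [if_pos hb, if_pos (hbc ω hμ hb)]
      · rw [if_neg hb]
        split_ifs
        · exact rt_nonneg _
        · exact le_rfl
  have e4 : 5 * ∑ ω, μ ω * (rt (cp μ k b ω) * cp μ k' c ω) ≤
      ∑ ω, μ ω * (rt (cp μ k b ω) * cp μ k b ω) +
        4 * ∑ ω, μ ω * (cp μ k' c ω * rt (cp μ k' c ω)) := by
    rw [Finset.mul_sum, Finset.mul_sum, ← Finset.sum_add_distrib]
    refine Finset.sum_le_sum fun ω _ => ?_
    have a1 := rt_pow (cp_nonneg h0 k b ω)
    have a2 := rt_pow (cp_nonneg h0 k' c ω)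
    have a3 := rt_nonneg (cp μ k b ω)
    have a4 := rt_nonneg (cp μ k' c ω)
    set y := rt (cp μ k b ω)
    set z := rt (cp μ k' c ω)
    rw [← a1, ← a2]
    have : 0 ≤ (y - z) ^ 2 * (y ^ 3 + 2 * y ^ 2 * z + 3 * y * z ^ 2 + 4 * z ^ 3) := by positivity
    have h5 : 5 * (y * z ^ 4) ≤ y * y ^ 4 + 4 * (z ^ 4 * z) := by nlinarith
    have := mul_le_mul_of_nonneg_left h5 (h0 ω)
    linarith
  linarith

/-- entropy of a function of the outcome -/
noncomputable def ent {α : Type*} (μ : Ω → ℝ) (k : Ω → α) : ℝ :=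
  - ∑ ω, μ ω * Real.log (push μ k (k ω))

theorem ent_congr {α β : Type*} (μ : Ω → ℝ) (k : Ω → α) (k' : Ω → β)
    (h : ∀ ω ω', k ω' = k ω ↔ k' ω' = k' ω) : ent μ k = ent μ k' := by
  unfold ent
  congr 1
  exact Finset.sum_congr rfl fun ω _ => by rw [push_congr μ k k' ω (h ω)]

open Classical in
theorem push_refine {α β : Type*} {μ : Ω → ℝ} (h0 : ∀ ω, 0 ≤ μ ω) (k : Ω → α) (k' : Ω → β)
    (b : Ω → Prop) (hk : ∀ ω ω', k' ω = k' ω' ↔ k ω = k ω' ∧ (b ω ↔ b ω')) {ω : Ω}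
    (hμ : μ ω ≠ 0) :
    push μ k' (k' ω) = push μ k (k ω) * (if b ω then cp μ k b ω else cp μ k (fun x => ¬ b x) ω) := by
  have hp := (push_pos h0 k hμ).ne'
  by_cases hb : b ω
  · rw [if_pos hb]
    unfold cp
    rw [mul_div_cancel₀ _ hp]
    unfold push
    refine Finset.sum_congr rfl fun ω' _ => ?_
    have : k' ω' = k' ω ↔ k ω' = k ω ∧ b ω' := by rw [hk]; simp [hb]
    by_cases e : k' ω' = k' ω
    · rw [if_pos e, if_pos (this.mp e)]
    · rw [if_neg e, if_neg (fun h => e (this.mpr h))]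
  · rw [if_neg hb]
    unfold cp
    rw [mul_div_cancel₀ _ hp]
    unfold push
    refine Finset.sum_congr rfl fun ω' _ => ?_
    have : k' ω' = k' ω ↔ k ω' = k ω ∧ ¬ b ω' := by rw [hk]; simp [hb]
    by_cases e : k' ω' = k' ω
    · rw [if_pos e, if_pos (this.mp e)]
    · rw [if_neg e, if_neg (fun h => e (this.mpr h))]

theorem cp_pos {α : Type*} {μ : Ω → ℝ} (h0 : ∀ ω, 0 ≤ μ ω) (k : Ω → α) (c : Ω → Prop)
    {ω : Ω} (hμ : μ ω ≠ 0) (hc : c ω) : 0 < cp μ k c ω := by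
  classical
  unfold cp
  refine div_pos ?_ (push_pos h0 k hμ)
  have := Finset.single_le_sum (f := fun ω' => if k ω' = k ω ∧ c ω' then μ ω' else 0)
    (fun ω' _ => by
      split_ifs
      · exact h0 ω'
      · exact le_rfl) (Finset.mem_univ ω)
  rw [if_pos ⟨rfl, hc⟩] at this
  exact lt_of_lt_of_le (lt_of_le_of_ne (h0 ω) (Ne.symm hμ)) (by convert this)

open Classical in
theorem one_step {α α' β β' : Type*} {μ : Ω → ℝ} (h0 : ∀ ω, 0 ≤ μ ω)
    (f : Ω → α) (f' : Ω → α') (k : Ω → β) (k' : Ω → β') (b c : Ω → Prop)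
    (hf : ∀ ω ω', f' ω = f' ω' ↔ f ω = f ω' ∧ (b ω ↔ b ω'))
    (hk : ∀ ω ω', k' ω = k' ω' ↔ k ω = k ω' ∧ (b ω ↔ b ω'))
    (hfk : ∀ ω ω', f ω = f ω' → k ω = k ω') (hfc : ∀ ω ω', f ω = f ω' → (c ω ↔ c ω'))
    (hbc : ∀ ω, μ ω ≠ 0 → b ω → c ω) :
    4 * (ent μ f' - ent μ f) ≤ (ent μ k' - ent μ k) +
      4 * ∑ ω, μ ω * (if c ω then rt (cp μ k b ω) else 0) := by
  set y : Ω → ℝ := fun ω => rt (cp μ k b ω) with hy
  have hy0 : ∀ ω, 0 ≤ y ω := fun ω => rt_nonneg _
  have hyc : ∀ ω ω', f ω = f ω' → y ω = y ω' := fun ω ω' h => by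
    simp only [hy]; rw [cp_const μ k b (hfk ω ω' h)]
  let Q1 : Ω → ℝ := fun ω => if c ω then y ω / (1 + y ω) else 0
  let Q0 : Ω → ℝ := fun ω => if c ω then 1 / (1 + y ω) else 1
  have hQ1 : ∀ ω ω', f ω = f ω' → Q1 ω = Q1 ω' := fun ω ω' h => by
    simp only [Q1]; rw [hyc ω ω' h]; simp only [hfc ω ω' h]
  have hQ0 : ∀ ω ω', f ω = f ω' → Q0 ω = Q0 ω' := fun ω ω' h => by
    simp only [Q0]; rw [hyc ω ω' h]; simp only [hfc ω ω' h]
  have hQ1n : ∀ ω, 0 ≤ Q1 ω := fun ω => by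
    simp only [Q1]; have := hy0 ω; split_ifs <;> positivity
  have hQ0n : ∀ ω, 0 < Q0 ω := fun ω => by
    simp only [Q0]; have := hy0 ω; split_ifs <;> positivity
  have hQs : ∀ ω, Q1 ω + Q0 ω = 1 := fun ω => by
    simp only [Q1, Q0]; have := hy0 ω
    split_ifs
    · field_simp; ring
    · simp
  let R : Ω → ℝ := fun ω =>
    if b ω then Q1 ω / cp μ f b ω else Q0 ω / cp μ f (fun x => ¬ b x) ω
  have hypos : ∀ ω, μ ω ≠ 0 → b ω → 0 < y ω := fun ω hμ hb => by
    have := cp_pos h0 k b hμ hb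
    simp only [hy, rt]
    exact Real.sqrt_pos.mpr (Real.sqrt_pos.mpr this)
  have hR : ∀ ω, μ ω ≠ 0 → 0 < R ω := fun ω hμ => by
    simp only [R]
    by_cases hb : b ω
    · rw [if_pos hb]
      refine div_pos ?_ (cp_pos h0 f b hμ hb)
      simp only [Q1]; rw [if_pos (hbc ω hμ hb)]
      have := hypos ω hμ hb
      positivity
    · rw [if_neg hb]
      exact div_pos (hQ0n ω) (cp_pos h0 f _ hμ hb)
  have g := gibbs h0 R hR
  have t1 := tower h0 f b (fun ω => Q1 ω / cp μ f b ω)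
    (fun ω ω' h => by rw [hQ1 ω ω' h, cp_const μ f b h])
  have t0 := tower h0 f (fun x => ¬ b x) (fun ω => Q0 ω / cp μ f (fun x => ¬ b x) ω)
    (fun ω ω' h => by rw [hQ0 ω ω' h, cp_const μ f _ h])
  have s1 : ∑ ω, μ ω * R ω ≤ ∑ ω, μ ω := by
    have : ∑ ω, μ ω * R ω = ∑ ω, μ ω * (if b ω then Q1 ω / cp μ f b ω else 0) +
        ∑ ω, μ ω * (if ¬ b ω then Q0 ω / cp μ f (fun x => ¬ b x) ω else 0) := by
      rw [← Finset.sum_add_distrib]
      refine Finset.sum_congr rfl fun ω _ => ?_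
      simp only [R]
      by_cases hb : b ω <;> simp [hb]
    rw [this, ← t1]
    have t0' : ∑ ω, μ ω * (if ¬ b ω then Q0 ω / cp μ f (fun x => ¬ b x) ω else 0) =
        ∑ ω, μ ω * (Q0 ω / cp μ f (fun x => ¬ b x) ω * cp μ f (fun x => ¬ b x) ω) := by
      rw [t0]
      refine Finset.sum_congr rfl fun ω _ => ?_
      by_cases hb : b ω <;> simp [hb]
    rw [t0', ← Finset.sum_add_distrib]
    refine Finset.sum_le_sum fun ω _ => ?_
    rw [← mul_add]
    refine mul_le_of_le_one_right (h0 ω) ?_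
    have d : ∀ u v : ℝ, 0 ≤ u → u / v * v ≤ u := fun u v hu => by
      by_cases hv : v = 0
      · simp [hv, hu]
      · rw [div_mul_cancel₀ _ hv]
    have := d _ (cp μ f b ω) (hQ1n ω)
    have := d _ (cp μ f (fun x => ¬ b x) ω) (hQ0n ω).le
    have := hQs ω
    linarith
  have key : ∑ ω, (4 * (μ ω * Real.log (push μ f (f ω)) - μ ω * Real.log (push μ f' (f' ω))) -
      (μ ω * Real.log (push μ k (k ω)) - μ ω * Real.log (push μ k' (k' ω))) -
      4 * (μ ω * (if c ω then y ω else 0))) ≤ ∑ ω, 4 * (μ ω * Real.log (R ω)) := by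
    refine Finset.sum_le_sum fun ω _ => ?_
    by_cases hμ : μ ω = 0
    · simp [hμ]
    have p1 := push_pos h0 f hμ
    have p2 := push_pos h0 k hμ
    have r1 := push_refine h0 f f' b hf hμ
    have r2 := push_refine h0 k k' b hk hμ
    have l1 : Real.log (1 + y ω) ≤ y ω := by
      have := Real.log_le_sub_one_of_pos (x := 1 + y ω) (by have := hy0 ω; positivity)
      linarith
    have main : 4 * (Real.log (push μ f (f ω)) - Real.log (push μ f' (f' ω))) -
        (Real.log (push μ k (k ω)) - Real.log (push μ k' (k' ω))) -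
        4 * (if c ω then y ω else 0) ≤ 4 * Real.log (R ω) := by
      simp only [R]
      by_cases hb : b ω
      · have hc := hbc ω hμ hb
        have c1 := cp_pos h0 f b hμ hb
        have c2 := cp_pos h0 k b hμ hb
        have c3 := hypos ω hμ hb
        rw [if_pos hb] at r1 r2
        rw [r1, r2, if_pos hb, if_pos hc, Real.log_mul p1.ne' c1.ne', Real.log_mul p2.ne' c2.ne']
        simp only [Q1]
        rw [if_pos hc, Real.log_div (by positivity) c1.ne', Real.log_div c3.ne' (by positivity)]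
        have : Real.log (cp μ k b ω) = 4 * Real.log (y ω) := by
          rw [← rt_pow c2.le, Real.log_pow]; simp [hy]
        rw [this]; linarith
      · have c1 := cp_pos h0 f (fun x => ¬ b x) hμ hb
        have c2 := cp_pos h0 k (fun x => ¬ b x) hμ hb
        have c3 : Real.log (cp μ k (fun x => ¬ b x) ω) ≤ 0 :=
          Real.log_nonpos c2.le (cp_le_one h0 _ _ _)
        rw [if_neg hb] at r1 r2
        rw [r1, r2, if_neg hb, Real.log_mul p1.ne' c1.ne', Real.log_mul p2.ne' c2.ne',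
          Real.log_div (hQ0n ω).ne' c1.ne']
        simp only [Q0]
        by_cases hc : c ω
        · rw [if_pos hc, if_pos hc, Real.log_div one_ne_zero (by have := hy0 ω; positivity),
            Real.log_one]
          linarith
        · rw [if_neg hc, if_neg hc, Real.log_one]
          linarith
    have := mul_le_mul_of_nonneg_left main (h0 ω)
    linarith
  simp only [Finset.sum_sub_distrib, ← Finset.mul_sum] at key
  unfold ent
  linarith

open Classical in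
/-- the key inequality: `4 H(b | f) ≤ H(b | k) + 4 err` -/
theorem key_ineq {E α β : Type*} [Fintype E] [DecidableEq E] {μ : Ω → ℝ} (h0 : ∀ ω, 0 ≤ μ ω)
    (f : Ω → α) (k : Ω → β) (b B : Ω → Finset E)
    (hfk : ∀ ω ω', f ω = f ω' → k ω = k ω') (hfB : ∀ ω ω', f ω = f ω' → B ω = B ω')
    (hbB : ∀ ω, μ ω ≠ 0 → b ω ⊆ B ω) :
    4 * (ent μ (fun ω => (f ω, b ω)) - ent μ f) ≤ (ent μ (fun ω => (k ω, b ω)) - ent μ k) +
      4 * ∑ e, ∑ ω, μ ω * (cp μ (fun ω => (k ω, b ω)) (fun ω => e ∈ B ω) ω *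
        rt (cp μ (fun ω => (k ω, b ω)) (fun ω => e ∈ B ω) ω)) := by
  have main : ∀ S : Finset E,
      4 * (ent μ (fun ω => (f ω, b ω ∩ S)) - ent μ f) ≤
        (ent μ (fun ω => (k ω, b ω ∩ S)) - ent μ k) +
      4 * ∑ e ∈ S, ∑ ω, μ ω * (cp μ (fun ω => (k ω, b ω)) (fun ω => e ∈ B ω) ω *
        rt (cp μ (fun ω => (k ω, b ω)) (fun ω => e ∈ B ω) ω)) := by
    intro S
    induction S using Finset.induction_on with
    | empty =>
      rw [ent_congr μ (fun ω => (f ω, b ω ∩ ∅)) f (fun ω ω' => by simp),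
        ent_congr μ (fun ω => (k ω, b ω ∩ ∅)) k (fun ω ω' => by simp)]
      simp
    | insert e S he ih =>
      have hins : ∀ ω ω', b ω ∩ insert e S = b ω' ∩ insert e S ↔
          b ω ∩ S = b ω' ∩ S ∧ (e ∈ b ω ↔ e ∈ b ω') := by
        intro ω ω'
        simp only [Finset.ext_iff, Finset.mem_inter, Finset.mem_insert]
        constructor
        · intro h
          refine ⟨fun x => ?_, ?_⟩
          · have := h x; tauto
          · have := h e; tauto
        · rintro ⟨h1, h2⟩ x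
          by_cases hx : x = e
          · subst hx; tauto
          · have := h1 x; tauto
      have s1 := one_step h0 (fun ω => (f ω, b ω ∩ S)) (fun ω => (f ω, b ω ∩ insert e S))
        (fun ω => (k ω, b ω ∩ S)) (fun ω => (k ω, b ω ∩ insert e S))
        (fun ω => e ∈ b ω) (fun ω => e ∈ B ω)
        (fun ω ω' => by simp only [Prod.mk.injEq, hins]; tauto)
        (fun ω ω' => by simp only [Prod.mk.injEq, hins]; tauto)
        (fun ω ω' h => by
          simp only [Prod.mk.injEq] at h ⊢; exact ⟨hfk _ _ h.1, h.2⟩)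
        (fun ω ω' h => by
          simp only [Prod.mk.injEq] at h; rw [hfB _ _ h.1])
        (fun ω hμ h => hbB ω hμ h)
      have s2 := young h0 (fun ω => (k ω, b ω ∩ S)) (fun ω => (k ω, b ω))
        (fun ω ω' h => by
          simp only [Prod.mk.injEq] at h ⊢; exact ⟨h.1, by rw [h.2]⟩)
        (fun ω => e ∈ b ω) (fun ω => e ∈ B ω) (fun ω hμ h => hbB ω hμ h)
      rw [Finset.sum_insert he]
      linarith
  have := main Finset.univ
  simpa only [Finset.inter_univ] using this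

end Crest.Agent.H9KK
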