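import Crest.Agent.H9.KKEnt
import Crest.Prelude.Def_FinProb

set_option autoImplicit false

namespace Crest.Agent.H9KK

open Finset Crest.FinProb

variable {E : Type} [Fintype E] [DecidableEq E]

theorem prod_push {S S' : Type} [Fintype S] [Fintype S'] [DecidableEq S'] (ρ : E → S → ℝ)
    (φ : E → S → S') (F : (E → S') → ℝ) :
    ∑ a : E → S, (∏ e, ρ e (a e)) * F (fun e => φ e (a e)) =
      ∑ b : E → S', (∏ e, ∑ s, if φ e s = b e then ρ e s else 0) * F b := by
  have e1 : ∀ b : E → S', (∏ e, ∑ s, if φ e s = b e then ρ e s else 0) =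
      ∑ a : E → S, if (fun e => φ e (a e)) = b then ∏ e, ρ e (a e) else 0 := by
    intro b
    rw [Finset.prod_univ_sum, Fintype.piFinset_univ]
    refine Finset.sum_congr rfl fun a _ => ?_
    rw [Finset.prod_ite_zero]
    simp only [Finset.mem_univ, true_imp_iff, funext_iff]
  simp_rw [e1, Finset.sum_mul]
  rw [Finset.sum_comm]
  refine Finset.sum_congr rfl fun a _ => ?_
  simp_rw [ite_mul, zero_mul]
  rw [Finset.sum_ite_eq]
  simp

omit [DecidableEq E] in
theorem bw_nonneg {p : ℝ} (h0 : 0 ≤ p) (h1 : p ≤ 1) (ω : E → Bool) : 0 ≤ bernoulliWeight p ω := by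
  unfold bernoulliWeight
  refine Finset.prod_nonneg fun e _ => ?_
  split_ifs <;> linarith

theorem bw_sum (p : ℝ) : ∑ ω : E → Bool, bernoulliWeight p ω = 1 := by
  unfold bernoulliWeight
  have := Finset.prod_univ_sum (fun _ : E => (Finset.univ : Finset Bool))
    (fun _ b => if b then p else 1 - p)
  rw [Fintype.piFinset_univ] at this
  rw [← this]
  simp

theorem bw_union (a b : ℝ) (F : (E → Bool) → ℝ) :
    ∑ ω : E → Bool, bernoulliWeight (1 - (1 - a) * (1 - b)) ω * F ω =
      ∑ ω₁ : E → Bool, bernoulliWeight a ω₁ *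
        ∑ ω₂ : E → Bool, bernoulliWeight b ω₂ * F (fun e => ω₁ e || ω₂ e) := by
  have := prod_push (E := E)
    (fun _ (s : Bool × Bool) => (if s.1 then a else 1 - a) * (if s.2 then b else 1 - b))
    (fun _ s => s.1 || s.2) F
  have e1 : ∀ x : Bool, (∑ s : Bool × Bool, if (s.1 || s.2) = x then
      (if s.1 then a else 1 - a) * (if s.2 then b else 1 - b) else 0) =
      if x then 1 - (1 - a) * (1 - b) else 1 - (1 - (1 - a) * (1 - b)) := by
    intro x
    rw [Fintype.sum_prod_type]
    cases x <;> simp <;> ring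
  simp only [e1] at this
  unfold bernoulliWeight
  rw [← this]
  simp_rw [Finset.mul_sum]
  rw [← Fintype.sum_prod_type']
  refine Fintype.sum_equiv (Equiv.arrowProdEquivProdArrow E (fun _ => Bool) (fun _ => Bool)) _ _
    fun s => ?_
  simp only [Equiv.arrowProdEquivProdArrow_apply, Finset.prod_mul_distrib]
  ring

def orS (ω : E → Bool) (S : Finset E) : E → Bool := fun e => ω e || decide (e ∈ S)

theorem bw_plant {p : ℝ} (hp : p ≠ 0) (S : Finset E) (F : (E → Bool) → ℝ) :
    ∑ ω : E → Bool, bernoulliWeight p ω * F (orS ω S) =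
      ∑ ω : E → Bool, bernoulliWeight p ω *
        ((if ∀ e ∈ S, ω e = true then p⁻¹ ^ S.card else 0) * F ω) := by
  have := prod_push (E := E) (fun _ (s : Bool) => if s then p else 1 - p)
    (fun e s => s || decide (e ∈ S)) F
  unfold bernoulliWeight orS
  rw [this]
  refine Finset.sum_congr rfl fun ω _ => ?_
  rw [← mul_assoc]
  congr 1
  have e1 : (if ∀ e ∈ S, ω e = true then p⁻¹ ^ S.card else 0) =
      ∏ e, if e ∈ S then (if ω e = true then p⁻¹ else 0) else 1 := by
    rw [Finset.prod_ite_mem, Finset.univ_inter, Finset.prod_ite_zero, Finset.prod_const]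
    congr
  rw [e1, ← Finset.prod_mul_distrib]
  refine Finset.prod_congr rfl fun e _ => ?_
  by_cases he : e ∈ S <;> cases h : ω e <;> simp [he, hp]

theorem bw_sub (p : ℝ) (S : Finset E) :
    ∑ ω : E → Bool, bernoulliWeight p ω * (if ∀ e ∈ S, ω e = true then 1 else 0) = p ^ S.card := by
  unfold bernoulliWeight
  have := Finset.prod_univ_sum (fun _ : E => (Finset.univ : Finset Bool))
    (fun e b => (if b then p else 1 - p) * (if e ∈ S then (if b = true then 1 else 0) else 1))
  rw [Fintype.piFinset_univ] at this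
  have e1 : ∀ ω : E → Bool, (if ∀ e ∈ S, ω e = true then (1:ℝ) else 0) =
      ∏ e, if e ∈ S then (if ω e = true then 1 else 0) else 1 := by
    intro ω
    rw [Finset.prod_ite_mem, Finset.univ_inter, Finset.prod_ite_zero, Finset.prod_const, one_pow]
    congr
  simp_rw [e1, ← Finset.prod_mul_distrib]
  rw [← this, ← Finset.prod_const, ← Finset.univ_inter S, ← Finset.prod_ite_mem, Finset.univ_inter]
  refine Finset.prod_congr rfl fun e _ => ?_
  by_cases he : e ∈ S <;> simp [he]

structure Spread (β : ℝ) (a : Finset E → ℝ) : Prop where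
  h0 : ∀ S, 0 ≤ a S
  h1 : ∑ S, a S = 1
  hs : ∀ F : Finset E, ∑ S, (if F ⊆ S then a S else 0) ≤ β ^ F.card

theorem one_round {β : ℝ} (hβ : 0 < β) (hβ1 : 4 * β ≤ 1) {a : Finset E → ℝ} (ha : Spread β a) :
    ∃ b : (E → Bool) → Finset E → ℝ, (∀ ω, Spread β (b ω)) ∧
      (∀ ω T, b ω T ≠ 0 → ∃ S, a S ≠ 0 ∧ ∀ e ∈ S, orS ω T e = true) ∧
      ∑ ω, bernoulliWeight (4 * β) ω * ∑ T, b ω T * T.card ≤ (∑ S, a S * S.card) / 2 := by
  classical
  obtain ⟨h0, h1, hs⟩ := ha
  set p := 4 * β with hp
  have p0 : 0 < p := by linarith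
  let t : (E → Bool) → Finset E → ℝ := fun Z S =>
    a S * (if ∀ e ∈ S, Z e = true then p⁻¹ ^ S.card else 0)
  have t0 : ∀ Z S, 0 ≤ t Z S := fun Z S => mul_nonneg (h0 S) (by split_ifs <;> positivity)
  let L : (E → Bool) → ℝ := fun Z => ∑ S, t Z S
  have L0 : ∀ Z, 0 ≤ L Z := fun Z => Finset.sum_nonneg fun S _ => t0 Z S
  have Lpos : ∀ ω S, a S ≠ 0 → 0 < L (orS ω S) := fun ω S hS => by
    have := Finset.single_le_sum (f := t (orS ω S)) (fun S' _ => t0 _ S') (Finset.mem_univ S)
    refine lt_of_lt_of_le ?_ this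
    simp only [t]
    rw [if_pos (fun e he => by simp [orS, he])]
    exact mul_pos (lt_of_le_of_ne (h0 S) (Ne.symm hS)) (by positivity)
  let P : (E → Bool) → Finset E × Finset E → ℝ := fun ω u =>
    a u.1 * (t (orS ω u.1) u.2 / L (orS ω u.1))
  have P0 : ∀ ω u, 0 ≤ P ω u := fun ω u => mul_nonneg (h0 _) (div_nonneg (t0 _ _) (L0 _))
  have Pm : ∀ ω S, ∑ S', P ω (S, S') = a S := fun ω S => by
    simp only [P]
    rw [← Finset.mul_sum, ← Finset.sum_div]
    by_cases hS : a S = 0
    · simp [hS]
    · rw [div_self (Lpos ω S hS).ne', mul_one]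
  have Pfst : ∀ ω (F : Finset E → ℝ), ∑ u, P ω u * F u.1 = ∑ S, a S * F S := fun ω F => by
    rw [Fintype.sum_prod_type]
    refine Finset.sum_congr rfl fun S _ => ?_
    simp only
    rw [← Finset.sum_mul, Pm]
  refine ⟨fun ω => push (P ω) (fun u => u.1 ∩ u.2), fun ω => ⟨push_nonneg (P0 ω) _, ?_, ?_⟩,
    ?_, ?_⟩
  · rw [sum_push]
    simpa [h1] using Pfst ω (fun _ => 1)
  · intro F
    have e1 := sum_push_mul (P ω) (fun u => u.1 ∩ u.2) (fun S => if F ⊆ S then 1 else 0)
    have e2 := Pfst ω (fun S => if F ⊆ S then 1 else 0)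
    simp only [mul_ite, mul_one, mul_zero] at e1 e2
    rw [e1]
    refine le_trans ?_ (hs F)
    rw [← e2]
    refine Finset.sum_le_sum fun u _ => ?_
    by_cases h : F ⊆ u.1 ∩ u.2
    · rw [if_pos h, if_pos (h.trans Finset.inter_subset_left)]
    · rw [if_neg h]
      split_ifs
      · exact P0 _ _
      · exact le_rfl
  · intro ω T hT
    obtain ⟨u, rfl, hu⟩ := push_ne_zero _ hT
    have a1 : t (orS ω u.1) u.2 ≠ 0 := fun h => hu (by simp [P, h])
    have a2 : a u.2 ≠ 0 := fun h => a1 (by simp [t, h])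
    have a3 : ∀ e ∈ u.2, orS ω u.1 e = true := by
      by_contra h; exact a1 (by simp only [t]; rw [if_neg h, mul_zero])
    refine ⟨u.2, a2, fun e he => ?_⟩
    have := a3 e he
    simp only [orS, Bool.or_eq_true, decide_eq_true_eq, Finset.mem_inter] at this ⊢
    tauto
  · have w0 := bw_nonneg (E := E) p0.le hβ1
    let μ : (E → Bool) × (Finset E × Finset E) → ℝ := fun v => bernoulliWeight p v.1 * P v.1 v.2
    have μ0 : ∀ v, 0 ≤ μ v := fun v => mul_nonneg (w0 _) (P0 _ _)
    have μsum : ∀ F : (E → Bool) × (Finset E × Finset E) → ℝ,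
        ∑ v, μ v * F v = ∑ ω, bernoulliWeight p ω * ∑ u, P ω u * F (ω, u) := fun F => by
      rw [Fintype.sum_prod_type]
      refine Finset.sum_congr rfl fun ω _ => ?_
      rw [Finset.mul_sum]
      exact Finset.sum_congr rfl fun u _ => by simp only [μ]; ring
    have μ1 : ∑ v, μ v = 1 := by
      have := μsum (fun _ => 1)
      have e := fun ω => Pfst ω (fun _ => 1)
      simp only [mul_one] at this e
      rw [this]
      simp only [e, h1, mul_one, bw_sum]
    have μne : ∀ v, μ v ≠ 0 → a v.2.1 ≠ 0 := fun v hv h => hv (by simp [μ, P, h])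
    have g1 := gibbs μ0 (fun v => 4 ^ (v.2.1 ∩ v.2.2).card * L (orS v.1 v.2.1) / 2 ^ v.2.1.card)
      (fun v hv => by have := Lpos v.1 _ (μne v hv); positivity)
    have g2 := gibbs μ0 (fun v => (L (orS v.1 v.2.1))⁻¹)
      (fun v hv => by have := Lpos v.1 _ (μne v hv); positivity)
    have s2 : ∑ v, μ v * (L (orS v.1 v.2.1))⁻¹ ≤ 1 := by
      rw [μsum]
      have e := fun ω => Pfst ω (fun S => (L (orS ω S))⁻¹)
      simp only [e, Finset.mul_sum]
      rw [Finset.sum_comm]
      have e2 : ∀ S, ∑ ω, bernoulliWeight p ω * (a S * (L (orS ω S))⁻¹) =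
          ∑ ω, bernoulliWeight p ω * (t ω S * (L ω)⁻¹) := fun S => by
        rw [bw_plant p0.ne' S (fun Z => a S * (L Z)⁻¹)]
        exact Finset.sum_congr rfl fun ω _ => by simp only [t]; ring
      simp only [e2]
      rw [Finset.sum_comm, ← bw_sum (E := E) p]
      refine Finset.sum_le_sum fun ω _ => ?_
      rw [← Finset.mul_sum, ← Finset.sum_mul]
      exact mul_le_of_le_one_right (w0 ω) (mul_inv_le_one)
    have s1 : ∑ v, μ v * (4 ^ (v.2.1 ∩ v.2.2).card * L (orS v.1 v.2.1) / 2 ^ v.2.1.card) ≤ 1 := by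
      rw [μsum]
      simp only [Finset.mul_sum]
      rw [Finset.sum_comm, Fintype.sum_prod_type, ← h1]
      refine Finset.sum_le_sum fun S _ => ?_
      by_cases hS : a S = 0
      · simp [P, hS]
      have e1 : ∀ S' : Finset E, ∑ ω, bernoulliWeight p ω *
          (P ω (S, S') * (4 ^ (S ∩ S').card * L (orS ω S) / 2 ^ S.card)) =
          a S / 2 ^ S.card * (a S' * β⁻¹ ^ (S ∩ S').card) := fun S' => by
        have e2 : ∀ ω, P ω (S, S') * (4 ^ (S ∩ S').card * L (orS ω S) / 2 ^ S.card) =
            (a S / 2 ^ S.card * a S' * p⁻¹ ^ S'.card * 4 ^ (S ∩ S').card) *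
              (if ∀ e ∈ S' \ S, ω e = true then 1 else 0) := fun ω => by
          have := (Lpos ω S hS).ne'
          have e3 : (∀ e ∈ S', orS ω S e = true) ↔ ∀ e ∈ S' \ S, ω e = true := by
            simp only [orS, Bool.or_eq_true, decide_eq_true_eq, Finset.mem_sdiff]
            constructor
            · intro h e he; exact (h e he.1).resolve_right he.2
            · intro h e he
              by_cases h2 : e ∈ S
              · exact Or.inr h2
              · exact Or.inl (h e ⟨he, h2⟩)
          simp only [P, t, e3]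
          split_ifs
          · field_simp
          · simp
        simp only [e2]
        simp_rw [mul_left_comm (bernoulliWeight p _)]
        rw [← Finset.mul_sum, bw_sub]
        have c : S'.card = (S' \ S).card + (S ∩ S').card := by
          rw [Finset.inter_comm, Finset.card_sdiff_add_card_inter]
        rw [c, pow_add, hp]
        have := hβ.ne'
        simp only [inv_pow, mul_pow]
        field_simp
      simp only [e1]
      rw [← Finset.mul_sum]
      have e4 : ∑ S' : Finset E, a S' * β⁻¹ ^ (S ∩ S').card ≤ 2 ^ S.card := by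
        calc _ ≤ ∑ S' : Finset E, ∑ F ∈ S.powerset,
              (if F ⊆ S' then a S' else 0) * β⁻¹ ^ F.card := by
              refine Finset.sum_le_sum fun S' _ => ?_
              have := Finset.single_le_sum
                (f := fun F => (if F ⊆ S' then a S' else 0) * β⁻¹ ^ F.card) (s := S.powerset)
                (fun F _ => mul_nonneg (by
                  split_ifs
                  · exact h0 _
                  · exact le_rfl) (by positivity))
                (Finset.mem_powerset.mpr (Finset.inter_subset_left (s₁ := S) (s₂ := S')))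
              rwa [if_pos Finset.inter_subset_right] at this
          _ = ∑ F ∈ S.powerset, (∑ S' : Finset E, if F ⊆ S' then a S' else 0) * β⁻¹ ^ F.card := by
              rw [Finset.sum_comm]
              exact Finset.sum_congr rfl fun F _ => by rw [Finset.sum_mul]
          _ ≤ ∑ F ∈ S.powerset, (1:ℝ) := by
              refine Finset.sum_le_sum fun F _ => ?_
              refine (mul_le_mul_of_nonneg_right (hs F) (by positivity)).trans ?_
              rw [← mul_pow, mul_inv_cancel₀ hβ.ne', one_pow]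
          _ = 2 ^ S.card := by simp
      calc _ ≤ a S / 2 ^ S.card * 2 ^ S.card :=
            mul_le_mul_of_nonneg_left e4 (div_nonneg (h0 S) (by positivity))
        _ = a S := by field_simp
    have e5 : ∑ v, μ v * Real.log (4 ^ (v.2.1 ∩ v.2.2).card * L (orS v.1 v.2.1) / 2 ^ v.2.1.card)
        + ∑ v, μ v * Real.log (L (orS v.1 v.2.1))⁻¹ =
        Real.log 2 * (2 * ∑ v, μ v * ((v.2.1 ∩ v.2.2).card : ℝ) -
          ∑ v, μ v * (v.2.1.card : ℝ)) := by
      rw [Finset.mul_sum, ← Finset.sum_sub_distrib, Finset.mul_sum, ← Finset.sum_add_distrib]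
      refine Finset.sum_congr rfl fun v _ => ?_
      by_cases hv : μ v = 0
      · simp [hv]
      have := (Lpos v.1 _ (μne v hv)).ne'
      have l4 : Real.log 4 = 2 * Real.log 2 := by
        rw [show (4:ℝ) = 2 ^ 2 by norm_num, Real.log_pow]; norm_num
      rw [Real.log_div (by positivity) (by positivity), Real.log_mul (by positivity) this,
        Real.log_inv, Real.log_pow, Real.log_pow, l4]
      ring
    have e6 : ∑ v, μ v * (v.2.1.card : ℝ) = ∑ S, a S * S.card := by
      rw [μsum]
      have e := fun ω => Pfst ω (fun S => (S.card : ℝ))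
      simp only [e]
      rw [← Finset.sum_mul, bw_sum, one_mul]
    have e7 : ∑ v, μ v * ((v.2.1 ∩ v.2.2).card : ℝ) =
        ∑ ω, bernoulliWeight p ω * ∑ T, push (P ω) (fun u => u.1 ∩ u.2) T * T.card := by
      rw [μsum]
      refine Finset.sum_congr rfl fun ω _ => ?_
      rw [sum_push_mul (P ω) (fun u => u.1 ∩ u.2) (fun T => (T.card : ℝ))]
    rw [← e7, ← e6]
    have l2 : 0 < Real.log 2 := Real.log_pos (by norm_num)
    have : Real.log 2 * (2 * ∑ v, μ v * ((v.2.1 ∩ v.2.2).card : ℝ) -
          ∑ v, μ v * (v.2.1.card : ℝ)) ≤ 0 := by linarith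
    have := nonpos_of_mul_nonpos_right this l2
    linarith

open Classical in
theorem rounds {β : ℝ} (hβ : 0 < β) (hβ1 : 4 * β ≤ 1) (s : ℝ) (hs0 : 0 ≤ s) (hs1 : s ≤ 1) (r : ℕ) :
    ∀ (a : Finset E → ℝ) (A : (E → Bool) → Prop), Spread β a →
      (∀ S, a S ≠ 0 → ∀ ω, (∀ e ∈ S, ω e = true) → A ω) →
      ∑ ω, bernoulliWeight (1 - (1 - 4 * β) ^ r * (1 - s)) ω * (if A ω then 0 else 1) ≤
        (∑ S, a S * S.card) / 2 ^ r := by
  induction r with
  | zero =>
    intro a A ha hA
    simp only [pow_zero, one_mul, sub_sub_cancel, div_one]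
    by_cases h : ∀ ω, A ω
    · simp only [h, if_true, mul_zero, Finset.sum_const_zero]
      exact Finset.sum_nonneg fun S _ => mul_nonneg (ha.h0 S) (Nat.cast_nonneg _)
    · push Not at h
      obtain ⟨ω₀, h⟩ := h
      calc _ ≤ ∑ ω : E → Bool, bernoulliWeight s ω := Finset.sum_le_sum fun ω _ =>
            mul_le_of_le_one_right (bw_nonneg hs0 hs1 ω) (by split_ifs <;> norm_num)
        _ = ∑ S, a S := by rw [bw_sum, ha.h1]
        _ ≤ _ := Finset.sum_le_sum fun S _ => by
            by_cases hS : a S = 0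
            · simp [hS]
            · refine le_mul_of_one_le_right (ha.h0 S) ?_
              have : S ≠ ∅ := by
                rintro rfl
                exact h (hA _ hS ω₀ (by simp))
              exact_mod_cast Finset.card_pos.mpr (Finset.nonempty_iff_ne_empty.mpr this)
  | succ r ih =>
    intro a A ha hA
    obtain ⟨b, hb1, hb2, hb3⟩ := one_round hβ hβ1 ha
    have e : 1 - (1 - 4 * β) ^ (r + 1) * (1 - s) =
        1 - (1 - 4 * β) * (1 - (1 - (1 - 4 * β) ^ r * (1 - s))) := by ring
    rw [e, bw_union]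
    calc _ ≤ ∑ ω₁ : E → Bool, bernoulliWeight (4 * β) ω₁ * ((∑ T, b ω₁ T * T.card) / 2 ^ r) := by
          refine Finset.sum_le_sum fun ω₁ _ => mul_le_mul_of_nonneg_left ?_
            (bw_nonneg (by linarith) hβ1 ω₁)
          have := ih (b ω₁) (fun ω₂ => A (fun e => ω₁ e || ω₂ e)) (hb1 ω₁) (fun T hT ω₂ hω => by
            obtain ⟨S, hS, h⟩ := hb2 ω₁ T hT
            refine hA S hS _ fun e he => ?_
            have := h e he
            simp only [orS, Bool.or_eq_true, decide_eq_true_eq] at this ⊢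
            exact this.imp id (hω e))
          convert this
      _ = (∑ ω₁ : E → Bool, bernoulliWeight (4 * β) ω₁ * (∑ T, b ω₁ T * T.card)) / 2 ^ r := by
          rw [Finset.sum_div]
          exact Finset.sum_congr rfl fun _ _ => by ring
      _ ≤ ((∑ S, a S * S.card) / 2) / 2 ^ r := div_le_div_of_nonneg_right hb3 (by positivity)
      _ = _ := by rw [pow_succ]; ring

theorem spread_lemma {β : ℝ} (hβ : 0 < β) {a : Finset E → ℝ} (ha : Spread β a) (h : ℕ) (h1 : 1 ≤ h)
    (hh : ∀ S, a S ≠ 0 → S.card ≤ h) (A : Set (E → Bool))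
    (hA : ∀ S, a S ≠ 0 → ∀ ω, (∀ e ∈ S, ω e = true) → ω ∈ A) (x : ℝ)
    (hx : 8 * β * (1 + Real.logb 2 h) ≤ x) : 1 / 2 ≤ bernoulliProb (min 1 x) A := by
  classical
  have hl : 0 ≤ Real.logb 2 h := Real.logb_nonneg (by norm_num) (by exact_mod_cast h1)
  have key : ∀ q : ℝ, bernoulliProb q A =
      1 - ∑ ω, bernoulliWeight q ω * (if ω ∈ A then 0 else 1) := fun q => by
    unfold bernoulliProb
    rw [Finset.sum_filter]
    nth_rewrite 1 [← bw_sum (E := E) q]
    rw [← Finset.sum_sub_distrib]
    refine Finset.sum_congr rfl fun ω _ => ?_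
    by_cases hω : ω ∈ A <;> simp [hω]
  rw [key]
  by_cases hβ1 : 4 * β < 1
  · set r := Nat.log 2 h + 2 with hr
    have r1 : (r : ℝ) ≤ 2 * (1 + Real.logb 2 h) := by
      have := Real.natLog_le_logb h 2
      simp only [Nat.cast_ofNat] at this
      rw [hr]; push_cast; linarith
    have r2 : (h : ℝ) / 2 ^ r ≤ 1 / 2 := by
      have := Nat.lt_pow_succ_log_self (b := 2) (by norm_num) h
      have : (h : ℝ) ≤ 2 ^ (Nat.log 2 h + 1) := by exact_mod_cast this.le
      rw [div_le_iff₀ (by positivity), hr, pow_succ]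
      linarith
    have c0 : 0 < (1 - 4 * β) ^ r := pow_pos (by linarith) r
    have c1 : 1 - min 1 x ≤ (1 - 4 * β) ^ r := by
      have := one_add_mul_le_pow (a := - (4 * β)) (by linarith) r
      have e : 1 + -(4 * β) = 1 - 4 * β := by ring
      rw [e] at this
      have : (r : ℝ) * (4 * β) ≤ x := by nlinarith
      rcases le_total 1 x with h | h
      · rw [min_eq_left h]; linarith
      · rw [min_eq_right h]; linarith
    have c2 : 0 ≤ 1 - min 1 x := by linarith [min_le_left 1 x]
    have := rounds hβ hβ1.le (1 - (1 - min 1 x) / (1 - 4 * β) ^ r)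
      (by rw [sub_nonneg, div_le_one c0]; exact c1)
      (by have := div_nonneg c2 c0.le; linarith) r a (fun ω => ω ∈ A) ha hA
    have e : 1 - (1 - 4 * β) ^ r * (1 - (1 - (1 - min 1 x) / (1 - 4 * β) ^ r)) = min 1 x := by
      field_simp; ring
    rw [e] at this
    have s : ∑ S, a S * S.card ≤ h := by
      calc _ ≤ ∑ S, a S * h := Finset.sum_le_sum fun S _ => by
            by_cases hS : a S = 0
            · simp [hS]
            · exact mul_le_mul_of_nonneg_left (by exact_mod_cast hh S hS) (ha.h0 S)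
        _ = h := by rw [← Finset.sum_mul, ha.h1, one_mul]
    have s2 := div_le_div_of_nonneg_right s (show (0:ℝ) ≤ 2 ^ r by positivity)
    have : ∑ ω, bernoulliWeight (min 1 x) ω * (if ω ∈ A then 0 else 1) ≤ 1 / 2 := by
      refine le_trans ?_ (s2.trans r2)
      convert this
    linarith
  · have : min 1 x = 1 := min_eq_left (by nlinarith)
    rw [this]
    have : ∑ ω, bernoulliWeight (1:ℝ) ω * (if ω ∈ A then 0 else 1) = 0 := by
      refine Finset.sum_eq_zero fun ω _ => ?_
      by_cases hω : ω ∈ A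
      · simp [hω]
      · obtain ⟨S, -, hS⟩ := Finset.exists_ne_zero_of_sum_ne_zero (ha.h1.trans_ne one_ne_zero)
        have : ¬ ∀ e ∈ S, ω e = true := fun h => hω (hA S hS ω h)
        push Not at this
        obtain ⟨e, -, he⟩ := this
        have : bernoulliWeight (1:ℝ) ω = 0 := by
          unfold bernoulliWeight
          exact Finset.prod_eq_zero (Finset.mem_univ e) (by simp [he])
        rw [this, zero_mul]
    rw [this]; norm_num

end Crest.Agent.H9KK
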