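import Crest.Agent.H9.KKCore
import Crest.Agent.H9.KKSpread
import Crest.Prelude.Def_RandomGraph

set_option autoImplicit false

namespace Crest.Agent.H9KK

open Finset Crest.FinProb Crest.CombinatoricsR.RandomGraph
open scoped Pointwise

@[reducible] def act (n : ℕ) : MulAction (Equiv.Perm (Fin n)) (EdgeSlot n) where
  smul g e := ⟨e.1.map g, by rw [Sym2.isDiag_map g.injective]; exact e.2⟩
  one_smul e := Subtype.ext (by
    change Sym2.map _ e.1 = e.1
    simp)
  mul_smul g h e := Subtype.ext (by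
    change Sym2.map _ e.1 = Sym2.map _ (Sym2.map _ e.1)
    rw [Sym2.map_map]; rfl)

attribute [local instance] act

theorem act_val {n : ℕ} (g : Equiv.Perm (Fin n)) (e : EdgeSlot n) : (g • e).1 = e.1.map g := rfl

theorem graphOf_adj {n : ℕ} (ω : EdgeSlot n → Bool) (e : EdgeSlot n) (a b : Fin n)
    (h : e.1 = s(a, b)) : (graphOf ω).Adj a b ↔ ω e = true := by
  obtain ⟨z, hz⟩ := e
  simp only at h
  subst h
  simp only [graphOf, SimpleGraph.fromEdgeSet_adj, Set.mem_ofPred_eq]
  constructor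
  · rintro ⟨⟨_, h⟩, -⟩; exact h
  · intro h; exact ⟨⟨hz, h⟩, by simpa using hz⟩

theorem copy_le {n : ℕ} {W : Type} [Finite W] (H : SimpleGraph W) (ι : W ↪ Fin n)
    (F : Finset (EdgeSlot n)) (hF : ∀ e ∈ F, ∃ u v, H.Adj u v ∧ e.1 = s(ι u, ι v)) :
    ∃ F' : H.Subgraph, ∀ ω : EdgeSlot n → Bool, (((graphOf ω).copyCount F'.coe : ℕ) : ℝ) ≤
      ∑ A ∈ Finset.univ.image (fun g : Equiv.Perm (Fin n) => g • F),
        if ∀ e ∈ A, ω e = true then 1 else 0 := by
  classical
  let F' : H.Subgraph :=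
    { verts := {u | ∃ v, H.Adj u v ∧ ∃ e ∈ F, e.1 = s(ι u, ι v)}
      Adj := fun u v => H.Adj u v ∧ ∃ e ∈ F, e.1 = s(ι u, ι v)
      adj_sub := fun h => h.1
      edge_vert := fun h => ⟨_, h⟩
      symm := ⟨fun u v h => ⟨h.1.symm, by rw [Sym2.eq_swap]; exact h.2⟩⟩ }
  refine ⟨F', fun ω => ?_⟩
  rw [Finset.sum_boole]
  unfold SimpleGraph.copyCount
  refine Nat.cast_le.mpr (Finset.card_le_card_of_injOn
    (fun G' => Finset.univ.filter (fun e : EdgeSlot n => e.1 ∈ G'.edgeSet)) ?_ ?_)
  · intro G' hG'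
    simp only [Finset.coe_filter, Finset.mem_univ, true_and, Set.mem_ofPred_eq] at hG'
    obtain ⟨φ⟩ := hG'
    obtain ⟨σ, hσ⟩ := Equiv.Perm.exists_extending_pair (fun u : F'.verts => ι u)
      (fun u : F'.verts => ((φ u : G'.verts) : Fin n))
      (ι.injective.comp Subtype.val_injective) (Subtype.val_injective.comp φ.injective)
    simp only [Finset.coe_filter, Finset.mem_image, Finset.mem_univ, true_and, Set.mem_ofPred_eq,
      Finset.mem_filter]
    refine ⟨⟨σ, ?_⟩, ?_⟩
    · ext e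
      simp only [Finset.mem_smul_finset, Finset.mem_filter, Finset.mem_univ, true_and]
      constructor
      · rintro ⟨e', he', rfl⟩
        obtain ⟨u, v, huv, h⟩ := hF e' he'
        have a1 : F'.Adj u v := ⟨huv, e', he', h⟩
        have a2 : F'.coe.Adj ⟨u, F'.edge_vert a1⟩ ⟨v, F'.edge_vert a1.symm⟩ := a1
        have a3 := φ.map_adj_iff.mpr a2
        rw [act_val, h, Sym2.map_mk, hσ ⟨u, F'.edge_vert a1⟩, hσ ⟨v, F'.edge_vert a1.symm⟩]
        exact a3
      · intro he
        obtain ⟨z, hz⟩ := e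
        induction z using Sym2.ind with
        | _ a b =>
          have a1 : G'.Adj a b := he
          have a2 : G'.coe.Adj ⟨a, G'.edge_vert a1⟩ ⟨b, G'.edge_vert a1.symm⟩ := a1
          have a3 := φ.symm.map_adj_iff.mpr a2
          obtain ⟨-, e', he', h⟩ := a3
          refine ⟨e', he', Subtype.ext ?_⟩
          rw [act_val, h, Sym2.map_mk, hσ, hσ]
          simp
    · intro e he
      obtain ⟨z, hz⟩ := e
      induction z using Sym2.ind with
      | _ a b =>
        have a1 : G'.Adj a b := he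
        exact (graphOf_adj ω ⟨_, hz⟩ a b rfl).mp (G'.adj_sub a1)
  · intro G₁ h₁ G₂ h₂ e
    simp only [Finset.coe_filter, Finset.mem_univ, true_and, Set.mem_ofPred_eq] at h₁ h₂
    have hadj : ∀ a b, G₁.Adj a b ↔ G₂.Adj a b := by
      intro a b
      by_cases hab : a = b
      · subst hab
        exact ⟨fun h => (h.ne rfl).elim, fun h => (h.ne rfl).elim⟩
      · have := Finset.ext_iff.mp e ⟨s(a, b), by simpa using hab⟩
        simpa using this
    have hv : ∀ G' : (graphOf ω).Subgraph, Nonempty (F'.coe ≃g G'.coe) →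
        ∀ a, a ∈ G'.verts ↔ ∃ b, G'.Adj a b := by
      rintro G' ⟨φ⟩ a
      refine ⟨fun ha => ?_, fun ⟨b, h⟩ => G'.edge_vert h⟩
      obtain ⟨v, hv⟩ := (φ.symm ⟨a, ha⟩).2
      have a1 : F'.Adj (φ.symm ⟨a, ha⟩) v := hv
      have a2 : F'.coe.Adj (φ.symm ⟨a, ha⟩) ⟨v, F'.edge_vert a1.symm⟩ := a1
      have a3 := φ.map_adj_iff.mpr a2
      rw [φ.apply_symm_apply] at a3
      exact ⟨_, a3⟩
    refine SimpleGraph.Subgraph.ext ?_ ?_
    · ext a
      rw [hv G₁ h₁, hv G₂ h₂]
      simp only [hadj]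
    · ext a b; exact hadj a b

theorem second_kk (n : ℕ) (W : Type) [Fintype W] [DecidableEq W] (H : SimpleGraph W)
    [DecidableRel H.Adj] (hW : Fintype.card W ≤ n) (hH : 1 ≤ H.edgeFinset.card)
    (p : ℝ) (hp0 : 0 ≤ p)
    (hE : ∀ F : H.Subgraph, (1 : ℝ) / 2 ≤ gnpExpect n p (fun G => (G.copyCount F.coe : ℝ)))
    (hp1 : p ≤ 1) :
    (1 : ℝ) / 2 ≤ gnpProb n
      (min 1 (2048 * Real.exp 50 * p * (1 + Real.logb 2 (H.edgeFinset.card : ℝ))))
      {G | H.IsContained G} := by
  classical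
  obtain ⟨ι⟩ : Nonempty (W ↪ Fin n) := Function.Embedding.nonempty_of_card_le (by simpa using hW)
  let H₀ : Finset (EdgeSlot n) :=
    Finset.univ.filter (fun e => ∃ u v, H.Adj u v ∧ e.1 = s(ι u, ι v))
  have hmem : ∀ u v (h : H.Adj u v), ∃ e ∈ H₀, e.1 = s(ι u, ι v) := fun u v h =>
    ⟨⟨s(ι u, ι v), by simpa using h.ne⟩, by
      simp only [H₀, Finset.mem_filter, Finset.mem_univ, true_and]
      exact ⟨u, v, h, rfl⟩, rfl⟩
  have hcard : H₀.card ≤ H.edgeFinset.card := by
    refine le_trans ?_ (Finset.card_image_le (f := Sym2.map ι))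
    refine Finset.card_le_card_of_injOn Subtype.val ?_ Subtype.val_injective.injOn
    intro e he
    simp only [H₀, Finset.coe_filter, Finset.mem_univ, true_and, Set.mem_ofPred_eq] at he
    obtain ⟨u, v, h, he⟩ := he
    simp only [Finset.coe_image, Set.mem_image, Finset.mem_coe, SimpleGraph.mem_edgeFinset]
    exact ⟨s(u, v), h, he.symm⟩
  have hs : ∀ F ⊆ H₀, 1 / 2 ≤
      ((Finset.univ.image (fun g : Equiv.Perm (Fin n) => g • F)).card : ℝ) * p ^ F.card := by
    intro F hF
    obtain ⟨F', h⟩ := copy_le H ι F (fun e he => (Finset.mem_filter.mp (hF he)).2)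
    refine (hE F').trans ?_
    unfold gnpExpect
    calc _ ≤ ∑ ω : EdgeSlot n → Bool, bernoulliWeight p ω *
          ∑ A ∈ Finset.univ.image (fun g : Equiv.Perm (Fin n) => g • F),
            if ∀ e ∈ A, ω e = true then 1 else 0 :=
          Finset.sum_le_sum fun ω _ => mul_le_mul_of_nonneg_left (h ω) (bw_nonneg hp0 hp1 ω)
      _ = ∑ A ∈ Finset.univ.image (fun g : Equiv.Perm (Fin n) => g • F), p ^ F.card := by
          simp only [Finset.mul_sum]
          rw [Finset.sum_comm]
          refine Finset.sum_congr rfl fun A hA => ?_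
          obtain ⟨g, -, rfl⟩ := Finset.mem_image.mp hA
          rw [← Finset.card_smul_finset g F, ← bw_sub]
      _ = _ := by rw [Finset.sum_const, nsmul_eq_mul]
  have hp : 0 < p := by
    refine lt_of_le_of_ne hp0 ?_
    rintro rfl
    obtain ⟨z, hz⟩ := Finset.card_pos.mp hH
    induction z using Sym2.ind with
    | _ u v =>
      obtain ⟨e, he, -⟩ := hmem u v (by simpa using hz)
      have := hs H₀ subset_rfl
      rw [zero_pow (Finset.card_pos.mpr ⟨e, he⟩).ne', mul_zero] at this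
      norm_num at this
  have hsp := spread_of_sparse (G := Equiv.Perm (Fin n)) H₀ (- Real.log p) (fun F hF => by
    have := hs F hF
    have e : Real.exp (- Real.log p * F.card) * p ^ F.card = 1 := by
      rw [mul_comm (- Real.log p), Real.exp_nat_mul, Real.exp_neg, Real.exp_log hp, ← mul_pow,
        inv_mul_cancel₀ hp.ne', one_pow]
    have hpp : 0 < p ^ F.card := pow_pos hp _
    refine le_of_mul_le_mul_right ?_ hpp
    rw [e]; linarith)
  have hG := card_pos' (G := Equiv.Perm (Fin n))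
  let a : Finset (EdgeSlot n) → ℝ :=
    push (fun _ : Equiv.Perm (Fin n) => 1 / (Fintype.card (Equiv.Perm (Fin n)) : ℝ))
      (fun g => g • H₀)
  have ha : Spread (Real.exp 26 * p) a := by
    refine ⟨push_nonneg (fun _ => by positivity) _, ?_, fun F => ?_⟩
    · rw [sum_push, Finset.sum_const, Finset.card_univ, nsmul_eq_mul]; field_simp
    · have e1 := sum_push_mul
        (fun _ : Equiv.Perm (Fin n) => 1 / (Fintype.card (Equiv.Perm (Fin n)) : ℝ))
        (fun g => g • H₀) (fun S => if F ⊆ S then 1 else 0)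
      simp only [mul_ite, mul_one, mul_zero] at e1
      simp only [a]
      rw [e1, ← Finset.sum_filter, Finset.sum_const, nsmul_eq_mul, mul_one_div]
      refine (hsp F).trans (le_of_eq ?_)
      rw [mul_comm, Real.exp_nat_mul]
      congr 1
      rw [show -(-Real.log p - 26) = 26 + Real.log p by ring, Real.exp_add, Real.exp_log hp]
  have hl : 0 ≤ Real.logb 2 (H.edgeFinset.card : ℝ) :=
    Real.logb_nonneg (by norm_num) (by exact_mod_cast hH)
  refine spread_lemma (by positivity) ha H.edgeFinset.card hH (fun S hS => ?_) _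
    (fun S hS ω hω => ?_) _ ?_
  · obtain ⟨g, rfl, -⟩ := push_ne_zero _ hS
    rw [Finset.card_smul_finset]; exact hcard
  · obtain ⟨g, rfl, -⟩ := push_ne_zero _ hS
    simp only [Set.mem_ofPred_eq]
    refine SimpleGraph.isContained_iff_exists_le_comap.mpr ⟨ι.trans g.toEmbedding, fun x y hxy => ?_⟩
    obtain ⟨e, he, h⟩ := hmem x y hxy
    refine (graphOf_adj ω (g • e) _ _ ?_).mpr (hω _ (Finset.smul_mem_smul_finset he))
    rw [act_val, h]; rfl
  · have : Real.exp 26 ≤ Real.exp 50 := Real.exp_le_exp.mpr (by norm_num)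
    have e0 := Real.exp_pos 26
    refine mul_le_mul_of_nonneg_right ?_ (by linarith)
    nlinarith

end Crest.Agent.H9KK
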