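import Crest.Agent.H9.KKEnt

set_option autoImplicit false

namespace Crest.Agent.H9KK

open Finset
open scoped Pointwise

section Sym

variable (G : Type*) [Group G] [Fintype G] {X : Type*} [MulAction G X]

noncomputable def sym (μ : X → ℝ) (x : X) : ℝ := (∑ g : G, μ (g • x)) / Fintype.card G

variable {G}

theorem card_pos' : (0:ℝ) < Fintype.card G := by exact_mod_cast Fintype.card_pos

theorem sym_smul (μ : X → ℝ) (g : G) (x : X) : sym G μ (g • x) = sym G μ x := by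
  unfold sym
  congr 1
  refine Fintype.sum_equiv (Equiv.mulRight g) _ _ fun h => ?_
  simp [mul_smul]

theorem sym_nonneg {μ : X → ℝ} (h0 : ∀ x, 0 ≤ μ x) (x : X) : 0 ≤ sym G μ x :=
  div_nonneg (Finset.sum_nonneg fun _ _ => h0 _) card_pos'.le

theorem sym_pos {μ : X → ℝ} (h0 : ∀ x, 0 ≤ μ x) {x : X} (h : μ x ≠ 0) : 0 < sym G μ x := by
  refine div_pos ?_ card_pos'
  have := Finset.single_le_sum (f := fun g : G => μ (g • x)) (fun _ _ => h0 _) (Finset.mem_univ 1)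
  simp only [one_smul] at this
  exact lt_of_lt_of_le (lt_of_le_of_ne (h0 x) (Ne.symm h)) this

theorem sym_ne_zero {μ : X → ℝ} {x : X} (h : sym G μ x ≠ 0) : ∃ g : G, μ (g • x) ≠ 0 := by
  unfold sym at h
  obtain ⟨g, -, hg⟩ := Finset.exists_ne_zero_of_sum_ne_zero (div_ne_zero_iff.mp h).1
  exact ⟨g, hg⟩

theorem sym_mul_inv (μ F : X → ℝ) (hF : ∀ (g : G) x, F (g • x) = F x) (x : X) :
    sym G (fun x => μ x * F x) x = sym G μ x * F x := by
  unfold sym
  simp only [hF]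
  rw [← Finset.sum_mul]; ring

variable [Fintype X]

theorem sum_sym_mul (μ F : X → ℝ) (hF : ∀ (g : G) x, F (g • x) = F x) :
    ∑ x, sym G μ x * F x = ∑ x, μ x * F x := by
  unfold sym
  have e : ∀ g : G, ∑ x, μ (g • x) * F x = ∑ x, μ x * F x := fun g =>
    Fintype.sum_equiv (MulAction.toPerm g) _ _ fun x => by simp [hF]
  have : ∑ x, (∑ g : G, μ (g • x)) / Fintype.card G * F x =
      (∑ g : G, ∑ x, μ (g • x) * F x) / Fintype.card G := by
    rw [Finset.sum_comm, Finset.sum_div]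
    refine Finset.sum_congr rfl fun x _ => ?_
    rw [← Finset.sum_mul]; ring
  rw [this]
  simp only [e, Finset.sum_const, Finset.card_univ, nsmul_eq_mul]
  have := (card_pos' (G := G)).ne'
  field_simp

theorem sum_sym (μ : X → ℝ) : ∑ x, sym G μ x = ∑ x, μ x := by
  simpa using sum_sym_mul (G := G) μ (fun _ => 1) (fun _ _ => rfl)

omit [Fintype G] in
theorem push_inv {Y : Type*} [MulAction G Y] (Q : X → ℝ) (hQ : ∀ (g : G) x, Q (g • x) = Q x)
    (k : X → Y) (hk : ∀ (g : G) x, k (g • x) = g • k x) (g : G) (y : Y) :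
    push Q k (g • y) = push Q k y := by
  classical
  unfold push
  symm
  refine Fintype.sum_equiv (MulAction.toPerm g) _ _ fun x => ?_
  simp only [MulAction.toPerm_apply, hk, hQ, smul_left_cancel_iff]

variable (G) in
noncomputable def Dv (μ : X → ℝ) : ℝ := ∑ x, μ x * (Real.log (μ x) - Real.log (sym G μ x))

theorem Dv_le {μ : X → ℝ} (h0 : ∀ x, 0 ≤ μ x) (h1 : ∑ x, μ x = 1) (Q : X → ℝ)
    (hQ0 : ∀ x, 0 ≤ Q x) (hQ : ∀ (g : G) x, Q (g • x) = Q x) (hQ1 : ∑ x, Q x ≤ 1)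
    (hac : ∀ x, μ x ≠ 0 → 0 < Q x) :
    Dv G μ ≤ ∑ x, μ x * (Real.log (μ x) - Real.log (Q x)) := by
  have g := gibbs h0 (fun x => Q x / sym G μ x) (fun x hx => div_pos (hac x hx) (sym_pos h0 hx))
  rw [← sum_sym_mul (G := G) μ (fun x => Q x / sym G μ x)
    (fun g x => by rw [hQ, sym_smul])] at g
  have s : ∑ x, sym G μ x * (Q x / sym G μ x) ≤ ∑ x, Q x := by
    refine Finset.sum_le_sum fun x _ => ?_
    by_cases h : sym G μ x = 0
    · simp [h, hQ0]
    · rw [mul_div_cancel₀ _ h]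
  have e : ∑ x, μ x * Real.log (Q x / sym G μ x) =
      Dv G μ - ∑ x, μ x * (Real.log (μ x) - Real.log (Q x)) := by
    unfold Dv
    rw [← Finset.sum_sub_distrib]
    refine Finset.sum_congr rfl fun x _ => ?_
    by_cases h : μ x = 0
    · simp [h]
    · rw [Real.log_div (hac x h).ne' (sym_pos h0 h).ne']; ring
  linarith

theorem Dv_nonneg {μ : X → ℝ} (h0 : ∀ x, 0 ≤ μ x) : 0 ≤ Dv G μ := by
  have g := gibbs h0 (fun x => sym G μ x / μ x)
    (fun x hx => div_pos (sym_pos h0 hx) (lt_of_le_of_ne (h0 x) (Ne.symm hx)))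
  have s : ∑ x, μ x * (sym G μ x / μ x) ≤ ∑ x, sym G μ x := by
    refine Finset.sum_le_sum fun x _ => ?_
    by_cases h : μ x = 0
    · simp [h, sym_nonneg h0]
    · rw [mul_div_cancel₀ _ h]
  have e : ∑ x, μ x * Real.log (sym G μ x / μ x) = - Dv G μ := by
    unfold Dv
    rw [← Finset.sum_neg_distrib]
    refine Finset.sum_congr rfl fun x _ => ?_
    by_cases h : μ x = 0
    · simp [h]
    · rw [Real.log_div (sym_pos h0 h).ne' h]; ring
  rw [sum_sym] at s
  linarith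

theorem orbit_bound {Y : Type*} [Fintype Y] [MulAction G Y] [DecidableEq X] (Q : Y × X → ℝ)
    (hQ0 : ∀ x, 0 ≤ Q x) (hQ : ∀ (g : G) x, Q (g • x) = Q x) (hQ1 : ∑ x, Q x ≤ 1) (y : Y) (x : X) :
    ((Finset.univ.image (fun g : G => g • x)).card : ℝ) * Q (y, x) ≤ 1 := by
  refine le_trans ?_ hQ1
  rw [Fintype.sum_prod_type, Finset.sum_comm]
  refine le_trans ?_ (Finset.sum_le_sum_of_subset_of_nonneg
    (Finset.subset_univ (Finset.univ.image (fun g : G => g • x)))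
    (fun _ _ _ => Finset.sum_nonneg fun _ _ => hQ0 _))
  rw [← nsmul_eq_mul]
  refine Finset.card_nsmul_le_sum _ _ _ fun x' hx' => ?_
  obtain ⟨g, -, rfl⟩ := Finset.mem_image.mp hx'
  rw [← hQ g (y, x)]
  exact Finset.single_le_sum (f := fun y' => Q (y', g • x)) (fun _ _ => hQ0 _)
    (Finset.mem_univ (g • y))

end Sym

section Rho

variable {Ω Y : Type*} [Fintype Ω]

open Classical in
noncomputable def rho (μ : Ω → ℝ) (W : Ω → Y) (z : Ω × Ω) : ℝ :=
  if W z.1 = W z.2 then μ z.1 * μ z.2 / push μ W (W z.1) else 0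

theorem rho_nonneg {μ : Ω → ℝ} (h0 : ∀ x, 0 ≤ μ x) (W : Ω → Y) (z : Ω × Ω) : 0 ≤ rho μ W z := by
  unfold rho
  split_ifs
  · exact div_nonneg (mul_nonneg (h0 _) (h0 _)) (push_nonneg h0 _ _)
  · exact le_rfl

theorem rho_swap (μ : Ω → ℝ) (W : Ω → Y) (z : Ω × Ω) : rho μ W z.swap = rho μ W z := by
  unfold rho
  simp only [Prod.fst_swap, Prod.snd_swap]
  by_cases h : W z.1 = W z.2
  · rw [if_pos h, if_pos h.symm, h, mul_comm]
  · rw [if_neg h, if_neg (fun e => h e.symm)]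

theorem rho_sum_swap (μ : Ω → ℝ) (W : Ω → Y) (F : Ω × Ω → ℝ) :
    ∑ z, rho μ W z * F z.swap = ∑ z, rho μ W z * F z :=
  Fintype.sum_equiv (Equiv.prodComm Ω Ω) _ _ fun z => by
    simp only [Equiv.prodComm_apply, rho_swap]

theorem rho_ne_zero {μ : Ω → ℝ} {W : Ω → Y} {z : Ω × Ω} (h : rho μ W z ≠ 0) :
    W z.1 = W z.2 ∧ μ z.1 ≠ 0 ∧ μ z.2 ≠ 0 := by
  unfold rho at h
  by_cases e : W z.1 = W z.2
  · rw [if_pos e] at h
    exact ⟨e, fun h1 => h (by simp [h1]), fun h1 => h (by simp [h1])⟩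
  · exact absurd (if_neg e) h

open Classical in
theorem rho_sum (μ : Ω → ℝ) (W : Ω → Y) (F : Ω → ℝ) (c : Ω → Prop) :
    ∑ z, rho μ W z * (if c z.2 then F z.1 else 0) = ∑ ω, μ ω * (F ω * cp μ W c ω) := by
  rw [Fintype.sum_prod_type]
  refine Finset.sum_congr rfl fun ω _ => ?_
  unfold cp rho
  rw [Finset.sum_div, Finset.mul_sum, Finset.mul_sum]
  refine Finset.sum_congr rfl fun ω' _ => ?_
  by_cases e : W ω = W ω'
  · by_cases hc : c ω'
    · simp only [e, hc, if_true, and_self]; ring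
    · simp [hc]
  · have e' : ¬ W ω' = W ω := fun h => e h.symm
    simp [e, e']

theorem rho_fst {μ : Ω → ℝ} (h0 : ∀ x, 0 ≤ μ x) (W : Ω → Y) (F : Ω → ℝ) :
    ∑ z, rho μ W z * F z.1 = ∑ ω, μ ω * F ω := by
  have := rho_sum μ W F (fun _ => True)
  simp only [if_true] at this
  rw [this]
  refine Finset.sum_congr rfl fun ω _ => ?_
  by_cases h : μ ω = 0
  · simp [h]
  · have e : cp μ W (fun _ => True) ω = 1 := by
      have hp := (push_pos h0 W h).ne'
      unfold cp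
      rw [div_eq_one_iff_eq hp]
      unfold push
      refine Finset.sum_congr rfl fun x _ => ?_
      by_cases hx : W x = W ω <;> simp [hx]
    rw [e, mul_one]

theorem rho_snd {μ : Ω → ℝ} (h0 : ∀ x, 0 ≤ μ x) (W : Ω → Y) (F : Ω → ℝ) :
    ∑ z, rho μ W z * F z.2 = ∑ ω, μ ω * F ω := by
  rw [← rho_fst h0 W F, ← rho_sum_swap μ W (fun z => F z.1)]
  rfl

theorem rho_push {μ : Ω → ℝ} (h0 : ∀ x, 0 ≤ μ x) (W : Ω → Y) (y : Y) :
    push (rho μ W) (fun z => W z.1) y = push μ W y := by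
  classical
  have := rho_fst h0 W (fun ω => if W ω = y then 1 else 0)
  simp only [mul_ite, mul_one, mul_zero] at this
  unfold push
  convert this

theorem rho_cp {μ : Ω → ℝ} (h0 : ∀ x, 0 ≤ μ x) (W : Ω → Y) (c : Ω → Prop) (z : Ω × Ω) :
    cp (rho μ W) (fun z => W z.1) (fun z => c z.1 ∨ c z.2) z =
      2 * cp μ W c z.1 - cp μ W c z.1 ^ 2 := by
  classical
  set N : ℝ := ∑ ω', if W ω' = W z.1 ∧ c ω' then μ ω' else 0 with hN
  have hp : cp μ W c z.1 = N / push μ W (W z.1) := rfl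
  have a1 := rho_fst h0 W (fun ω => if W ω = W z.1 ∧ c ω then 1 else 0)
  have a2 := rho_sum μ W (fun ω => if W ω = W z.1 then 1 else 0) c
  have a3 := rho_sum μ W (fun ω => if W ω = W z.1 ∧ c ω then 1 else 0) c
  have b1 : ∑ ω, μ ω * (if W ω = W z.1 ∧ c ω then 1 else 0) = N := by
    simp only [hN, mul_ite, mul_one, mul_zero]
  have b2 : ∑ ω, μ ω * ((if W ω = W z.1 then 1 else 0) * cp μ W c ω) =
      push μ W (W z.1) * cp μ W c z.1 := by
    unfold push
    rw [Finset.sum_mul]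
    refine Finset.sum_congr rfl fun ω _ => ?_
    by_cases e : W ω = W z.1
    · rw [if_pos e, if_pos e, cp_const μ W c e, one_mul]
    · rw [if_neg e, if_neg e]; simp
  have b3 : ∑ ω, μ ω * ((if W ω = W z.1 ∧ c ω then 1 else 0) * cp μ W c ω) =
      N * cp μ W c z.1 := by
    rw [hN, Finset.sum_mul]
    refine Finset.sum_congr rfl fun ω _ => ?_
    by_cases e : W ω = W z.1 ∧ c ω
    · rw [if_pos e, if_pos e, cp_const μ W c e.1, one_mul]
    · rw [if_neg e, if_neg e]; simp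
  have e1 : (∑ z' : Ω × Ω, if W z'.1 = W z.1 ∧ (c z'.1 ∨ c z'.2) then rho μ W z' else 0) =
      N + push μ W (W z.1) * cp μ W c z.1 - N * cp μ W c z.1 := by
    rw [← b2, ← b3, ← a2, ← a3]
    conv_rhs => rw [← b1, ← a1]
    rw [← Finset.sum_add_distrib, ← Finset.sum_sub_distrib]
    refine Finset.sum_congr rfl fun z' _ => ?_
    by_cases h1 : W z'.1 = W z.1 <;> by_cases h2 : c z'.1 <;> by_cases h3 : c z'.2 <;>
      simp [h1, h2, h3]
  have e2 : cp (rho μ W) (fun z => W z.1) (fun z => c z.1 ∨ c z.2) z =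
      (N + push μ W (W z.1) * cp μ W c z.1 - N * cp μ W c z.1) / push μ W (W z.1) := by
    rw [← e1, ← rho_push h0 W]
    unfold cp
    congr 1
    refine Finset.sum_congr rfl fun x _ => ?_
    by_cases hx : W x.1 = W z.1 ∧ (c x.1 ∨ c x.2)
    · rw [if_pos hx, if_pos hx]
    · rw [if_neg hx, if_neg hx]
  rw [e2, hp]
  by_cases hm : push μ W (W z.1) = 0
  · simp [hm]
  · field_simp
    ring

end Rho

theorem ptw {p : ℝ} (h0 : 0 ≤ p) (h1 : p ≤ 1) :
    2 * (p * rt p) ≤ 6 * ((2 * p - p ^ 2) * rt (2 * p - p ^ 2) - 2 * (p * rt p)) +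
      75 / 8 * (p * p) := by
  have hy0 := rt_nonneg p
  have hy1 := rt_le_one h1
  have hy4 := rt_pow h0
  have hq0 : 0 ≤ 2 * p - p ^ 2 := by nlinarith
  have hz0 := rt_nonneg (2 * p - p ^ 2)
  have hz4 := rt_pow hq0
  set y := rt p
  set z := rt (2 * p - p ^ 2)
  have hu : (1 + 0.18 * (1 - p)) ^ 4 ≤ 2 - p := by
    set u := 1 - p with hu
    have u0 : 0 ≤ u := by linarith
    have u1 : u ≤ 1 := by linarith
    have : p = 1 - u := by linarith
    rw [this]
    have u2 : u ^ 2 ≤ u := by nlinarith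
    have u3 : u ^ 3 ≤ u := by nlinarith
    have u4 : u ^ 4 ≤ u := by nlinarith
    nlinarith
  have hz : y * (1 + 0.18 * (1 - p)) ≤ z := by
    refine le_of_pow_le_pow_left₀ (n := 4) (by norm_num) hz0 ?_
    rw [mul_pow, hy4, hz4]
    nlinarith
  have a1 : (2 * p - p ^ 2) * (y * (1 + 0.18 * (1 - p))) ≤ (2 * p - p ^ 2) * z :=
    mul_le_mul_of_nonneg_left hz hq0
  have a2 : 0 ≤ p * y := mul_nonneg h0 hy0
  have a3 : p * p * y ≤ p * p := mul_le_of_le_one_right (mul_nonneg h0 h0) hy1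
  have a4 : 0 ≤ p * p * p * y := by positivity
  have a5 : 0 ≤ p * p := mul_nonneg h0 h0
  nlinarith

end Crest.Agent.H9KK
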