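import Mathlib

set_option autoImplicit false

namespace Crest.Agent.H9Sw

open Finset Matrix

variable {Ω : Type*} [Fintype Ω] [DecidableEq Ω]

open Classical in
/-- equivalence class as a finset -/
noncomputable def cls (s : Setoid Ω) (x : Ω) : Finset Ω := univ.filter (fun y => s x y)

omit [DecidableEq Ω] in
@[simp] lemma mem_cls {s : Setoid Ω} {x y : Ω} : y ∈ cls s x ↔ s x y := by
  simp [cls]

omit [DecidableEq Ω] in
lemma self_mem_cls (s : Setoid Ω) (x : Ω) : x ∈ cls s x := mem_cls.2 (s.refl' x)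

omit [DecidableEq Ω] in
lemma cls_eq {s : Setoid Ω} {x y : Ω} (h : s x y) : cls s x = cls s y := by
  ext z
  simp only [mem_cls]
  exact ⟨fun h' => s.trans' (s.symm' h) h', fun h' => s.trans' h h'⟩

omit [DecidableEq Ω] in
lemma card_cls_pos (s : Setoid Ω) (x : Ω) : (0 : ℝ) < (cls s x).card := by
  exact_mod_cast Finset.card_pos.2 ⟨x, self_mem_cls s x⟩

open Classical in
/-- averaging matrix over classes -/
noncomputable def av (s : Setoid Ω) : Matrix Ω Ω ℝ :=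
  fun x y => if s x y then ((cls s x).card : ℝ)⁻¹ else 0

omit [DecidableEq Ω] in
lemma av_transpose (s : Setoid Ω) : (av s)ᵀ = av s := by
  ext x y
  simp only [Matrix.transpose_apply, av]
  by_cases h : s x y
  · rw [if_pos h, if_pos (s.symm' h), cls_eq h]
  · rw [if_neg h, if_neg (fun h' => h (s.symm' h'))]

omit [DecidableEq Ω] in
lemma av_mulVec (s : Setoid Ω) (f : Ω → ℝ) (x : Ω) :
    (av s *ᵥ f) x = (∑ y ∈ cls s x, f y) / (cls s x).card := by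
  classical
  simp only [Matrix.mulVec, dotProduct, av]
  rw [Finset.sum_div, cls, Finset.sum_filter]
  refine Finset.sum_congr rfl fun y _ => ?_
  split_ifs
  · rw [div_eq_inv_mul]
  · simp

omit [DecidableEq Ω] in
lemma av_mulVec_congr {s : Setoid Ω} (f : Ω → ℝ) {x y : Ω} (h : s x y) :
    (av s *ᵥ f) x = (av s *ᵥ f) y := by
  rw [av_mulVec, av_mulVec, cls_eq h]

omit [DecidableEq Ω] in
lemma av_mulVec_of_const {s : Setoid Ω} {f : Ω → ℝ} {x : Ω} (h : ∀ y, s x y → f y = f x) :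
    (av s *ᵥ f) x = f x := by
  rw [av_mulVec, Finset.sum_congr rfl (fun y hy => h y (mem_cls.1 hy))]
  have := card_cls_pos s x
  simp only [sum_const, nsmul_eq_mul]
  field_simp

omit [DecidableEq Ω] in
lemma av_mulVec_le {s : Setoid Ω} {f : Ω → ℝ} {x : Ω} {c : ℝ} (h : ∀ y, s x y → f y ≤ c) :
    (av s *ᵥ f) x ≤ c := by
  rw [av_mulVec, div_le_iff₀ (card_cls_pos s x)]
  calc ∑ y ∈ cls s x, f y ≤ ∑ y ∈ cls s x, c := Finset.sum_le_sum fun y hy => h y (mem_cls.1 hy)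
    _ = c * (cls s x).card := by simp [mul_comm]

omit [DecidableEq Ω] in
lemma av_mulVec_congr_fun {s : Setoid Ω} {f g : Ω → ℝ} {x : Ω} (h : ∀ y, s x y → f y = g y) :
    (av s *ᵥ f) x = (av s *ᵥ g) x := by
  rw [av_mulVec, av_mulVec, Finset.sum_congr rfl (fun y hy => h y (mem_cls.1 hy))]

lemma mat_ext_mulVec {A B : Matrix Ω Ω ℝ} (h : ∀ f, A *ᵥ f = B *ᵥ f) : A = B := by
  ext x y
  have := congrFun (h (Pi.single y 1)) x
  simpa using this

lemma av_mul_av_of_le' {s t : Setoid Ω} (h : ∀ x y, s x y → t x y) : av s * av t = av t := by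
  apply mat_ext_mulVec
  intro f
  rw [← Matrix.mulVec_mulVec]
  funext x
  apply av_mulVec_of_const
  intro y hy
  exact (av_mulVec_congr f (h x y hy)).symm

lemma av_mul_av_of_le {s t : Setoid Ω} (h : ∀ x y, s x y → t x y) : av t * av s = av t := by
  have := congrArg Matrix.transpose (av_mul_av_of_le' h)
  rwa [Matrix.transpose_mul, av_transpose, av_transpose] at this

lemma av_mul_self (s : Setoid Ω) : av s * av s = av s := av_mul_av_of_le' fun _ _ h => h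

omit [DecidableEq Ω] in
lemma sum_av_mulVec (s : Setoid Ω) (f : Ω → ℝ) : ∑ x, (av s *ᵥ f) x = ∑ x, f x := by
  have h1 : av s *ᵥ (fun _ => (1 : ℝ)) = fun _ => 1 := by
    funext x; exact av_mulVec_of_const (fun _ _ => rfl)
  have h2 : (fun _ => (1 : ℝ)) ⬝ᵥ (av s *ᵥ f) = (fun _ => (1 : ℝ)) ⬝ᵥ f := by
    rw [Matrix.dotProduct_mulVec, ← Matrix.mulVec_transpose, av_transpose, h1]
  simpa [dotProduct] using h2

omit [DecidableEq Ω] in
/-- classwise inequalities sum up -/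
lemma sum_le_sum_of_cls (s : Setoid Ω) {a b : Ω → ℝ}
    (h : ∀ x, ∑ y ∈ cls s x, a y ≤ ∑ y ∈ cls s x, b y) : ∑ x, a x ≤ ∑ x, b x := by
  rw [← sum_av_mulVec s a, ← sum_av_mulVec s b]
  refine Finset.sum_le_sum fun x _ => ?_
  rw [av_mulVec, av_mulVec]
  exact div_le_div_of_nonneg_right (h x) (card_cls_pos s x).le

omit [DecidableEq Ω] in
lemma sum_cls_sub_av (s : Setoid Ω) (f : Ω → ℝ) (x : Ω) :
    ∑ y ∈ cls s x, (f y - (av s *ᵥ f) y) = 0 := by
  rw [Finset.sum_sub_distrib,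
    Finset.sum_congr rfl (fun y hy => (av_mulVec_congr f (mem_cls.1 hy)).symm), av_mulVec]
  have := card_cls_pos s x
  simp only [sum_const, nsmul_eq_mul]
  field_simp
  ring

/-! ### symmetric matrices and dot products -/

omit [DecidableEq Ω] in
lemma dot_symm {A : Matrix Ω Ω ℝ} (hA : Aᵀ = A) (f g : Ω → ℝ) :
    (A *ᵥ f) ⬝ᵥ g = f ⬝ᵥ (A *ᵥ g) := by
  rw [Matrix.dotProduct_mulVec, ← Matrix.mulVec_transpose, hA]

omit [DecidableEq Ω] in
lemma dot_self_nonneg (f : Ω → ℝ) : 0 ≤ f ⬝ᵥ f :=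
  Finset.sum_nonneg fun _ _ => mul_self_nonneg _

omit [DecidableEq Ω] in
lemma dot_idem {A : Matrix Ω Ω ℝ} (hA : Aᵀ = A) (hA2 : A * A = A) (f : Ω → ℝ) :
    f ⬝ᵥ (A *ᵥ f) = (A *ᵥ f) ⬝ᵥ (A *ᵥ f) := by
  rw [dot_symm hA, Matrix.mulVec_mulVec, hA2]

omit [DecidableEq Ω] in
lemma dot_idem_le {A : Matrix Ω Ω ℝ} (hA : Aᵀ = A) (hA2 : A * A = A) (f : Ω → ℝ) :
    (A *ᵥ f) ⬝ᵥ (A *ᵥ f) ≤ f ⬝ᵥ f := by
  have h1 := dot_self_nonneg (f - A *ᵥ f)
  have h2 := dot_idem hA hA2 f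
  simp only [sub_dotProduct, dotProduct_sub] at h1
  rw [dotProduct_comm (A *ᵥ f) f] at h1
  linarith

omit [DecidableEq Ω] in
/-- commuting symmetric idempotents -/
lemma dot_comm_idem {A B : Matrix Ω Ω ℝ} (hA : Aᵀ = A) (hA2 : A * A = A) (hB : Bᵀ = B)
    (hB2 : B * B = B) (hAB : A * B = B * A) (f : Ω → ℝ) :
    (A *ᵥ f) ⬝ᵥ (B *ᵥ f) = ((A * B) *ᵥ f) ⬝ᵥ ((A * B) *ᵥ f) := by
  have h1 : (A * B)ᵀ = A * B := by rw [Matrix.transpose_mul, hA, hB, hAB]
  have h2 : A * B * (A * B) = A * B := by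
    calc A * B * (A * B) = A * (B * A) * B := by simp only [Matrix.mul_assoc]
      _ = A * A * (B * B) := by rw [← hAB]; simp only [Matrix.mul_assoc]
      _ = A * B := by rw [hA2, hB2]
  rw [← dot_idem h1 h2, dot_symm hA, Matrix.mulVec_mulVec]

omit [DecidableEq Ω] in
lemma dot_comm_idem_nonneg {A B : Matrix Ω Ω ℝ} (hA : Aᵀ = A) (hA2 : A * A = A) (hB : Bᵀ = B)
    (hB2 : B * B = B) (hAB : A * B = B * A) (f : Ω → ℝ) :
    0 ≤ (A *ᵥ f) ⬝ᵥ (B *ᵥ f) := by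
  rw [dot_comm_idem hA hA2 hB hB2 hAB]; exact dot_self_nonneg _

omit [DecidableEq Ω] in
lemma dot_comm_idem_ge {A B π : Matrix Ω Ω ℝ} (hA : Aᵀ = A) (hA2 : A * A = A) (hB : Bᵀ = B)
    (hB2 : B * B = B) (hAB : A * B = B * A) (hπ : πᵀ = π) (hπ2 : π * π = π)
    (hπA : π * A = π) (hπB : π * B = π) (f : Ω → ℝ) :
    (π *ᵥ f) ⬝ᵥ (π *ᵥ f) ≤ (A *ᵥ f) ⬝ᵥ (B *ᵥ f) := by
  rw [dot_comm_idem hA hA2 hB hB2 hAB]
  have := dot_idem_le hπ hπ2 ((A * B) *ᵥ f)
  rwa [Matrix.mulVec_mulVec, ← Matrix.mul_assoc, hπA, hπB] at this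

/-! ### splice lemma -/

lemma splice_count {k1 k2 κ : Setoid Ω} (h1 : ∀ x y, k1 x y → κ x y) (h2 : ∀ x y, k2 x y → κ x y)
    (sp : Ω → Ω → Ω)
    (hsp : ∀ A B, κ A B → k1 A (sp A B) ∧ k2 B (sp A B) ∧ sp (sp A B) (sp B A) = A)
    {A B : Ω} (hAB : κ A B) :
    (cls k1 A).card * (cls k2 B).card = (cls k1 A ∩ cls k2 B).card * (cls κ A).card := by
  rw [← Finset.card_product, ← Finset.card_product]
  refine Finset.card_bij' (fun p _ => (sp p.1 p.2, sp p.2 p.1)) (fun p _ => (sp p.1 p.2, sp p.2 p.1))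
    ?_ ?_ ?_ ?_
  · rintro ⟨X, Y⟩ hp
    simp only [mem_product, mem_cls, mem_inter] at hp ⊢
    obtain ⟨hX, hY⟩ := hp
    have hXY : κ X Y := κ.trans' (κ.symm' (h1 _ _ hX)) (κ.trans' hAB (h2 _ _ hY))
    obtain ⟨a1, a2, -⟩ := hsp X Y hXY
    obtain ⟨b1, b2, -⟩ := hsp Y X (κ.symm' hXY)
    exact ⟨⟨k1.trans' hX a1, k2.trans' hY a2⟩, κ.trans' (h1 _ _ hX) (h2 _ _ b2)⟩
  · rintro ⟨X, Y⟩ hp
    simp only [mem_product, mem_cls, mem_inter] at hp ⊢
    obtain ⟨⟨hX, hX'⟩, hY⟩ := hp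
    have hXY : κ X Y := κ.trans' (κ.symm' (h1 _ _ hX)) hY
    obtain ⟨a1, a2, -⟩ := hsp X Y hXY
    obtain ⟨b1, b2, -⟩ := hsp Y X (κ.symm' hXY)
    exact ⟨k1.trans' hX a1, k2.trans' hX' b2⟩
  · rintro ⟨X, Y⟩ hp
    simp only [mem_product, mem_cls] at hp
    obtain ⟨hX, hY⟩ := hp
    have hXY : κ X Y := κ.trans' (κ.symm' (h1 _ _ hX)) (κ.trans' hAB (h2 _ _ hY))
    simp only [Prod.mk.injEq]
    exact ⟨(hsp X Y hXY).2.2, (hsp Y X (κ.symm' hXY)).2.2⟩
  · rintro ⟨X, Y⟩ hp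
    simp only [mem_product, mem_cls, mem_inter] at hp
    obtain ⟨⟨hX, hX'⟩, hY⟩ := hp
    have hXY : κ X Y := κ.trans' (κ.symm' (h1 _ _ hX)) hY
    simp only [Prod.mk.injEq]
    exact ⟨(hsp X Y hXY).2.2, (hsp Y X (κ.symm' hXY)).2.2⟩

lemma splice {k1 k2 κ : Setoid Ω} (h1 : ∀ x y, k1 x y → κ x y) (h2 : ∀ x y, k2 x y → κ x y)
    (sp : Ω → Ω → Ω)
    (hsp : ∀ A B, κ A B → k1 A (sp A B) ∧ k2 B (sp A B) ∧ sp (sp A B) (sp B A) = A) :
    av k1 * av k2 = av κ := by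
  classical
  ext A B
  rw [Matrix.mul_apply]
  have e : ∀ C, av k1 A C * av k2 C B =
      if C ∈ cls k1 A ∩ cls k2 B then ((cls k1 A).card : ℝ)⁻¹ * ((cls k2 B).card : ℝ)⁻¹ else 0 := by
    intro C
    simp only [av, mem_inter, mem_cls]
    by_cases a : k1 A C
    · by_cases b : k2 C B
      · rw [if_pos a, if_pos b, if_pos ⟨a, k2.symm' b⟩, cls_eq b]
      · rw [if_neg b, if_neg (fun h : k1 A C ∧ k2 B C => b (k2.symm' h.2))]; simp
    · rw [if_neg a, if_neg (fun h : k1 A C ∧ k2 B C => a h.1)]; simp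
  simp only [e]
  rw [← Finset.sum_filter]
  simp only [Finset.filter_mem_eq_inter, Finset.univ_inter, sum_const, nsmul_eq_mul]
  by_cases hAB : κ A B
  · simp only [av, if_pos hAB]
    have h := splice_count h1 h2 sp hsp hAB
    have h' : ((cls k1 A).card : ℝ) * (cls k2 B).card =
        (cls k1 A ∩ cls k2 B).card * (cls κ A).card := by exact_mod_cast h
    have p1 := card_cls_pos k1 A
    have p2 := card_cls_pos k2 B
    have p3 := card_cls_pos κ A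
    field_simp
    linarith
  · simp only [av, if_neg hAB]
    have : cls k1 A ∩ cls k2 B = ∅ := by
      ext C
      simp only [mem_inter, mem_cls, Finset.notMem_empty, iff_false, not_and]
      intro a b
      exact hAB (κ.trans' (h1 _ _ a) (κ.symm' (h2 _ _ b)))
    simp [this]

lemma splice_comm {k1 k2 κ : Setoid Ω} (h1 : ∀ x y, k1 x y → κ x y) (h2 : ∀ x y, k2 x y → κ x y)
    (sp : Ω → Ω → Ω)
    (hsp : ∀ A B, κ A B → k1 A (sp A B) ∧ k2 B (sp A B) ∧ sp (sp A B) (sp B A) = A) :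
    av k1 * av k2 = av k2 * av k1 := by
  have h := splice h1 h2 sp hsp
  have := congrArg Matrix.transpose h
  rw [Matrix.transpose_mul, av_transpose, av_transpose, av_transpose] at this
  rw [h, this]

/-! ### spectral lemma -/

lemma spectral {T : Matrix Ω Ω ℝ} (hT : Tᵀ = T) (a b c : ℝ)
    (h : ∀ (μ : ℝ) (v : Ω → ℝ), v ≠ 0 → T *ᵥ v = μ • v → 0 ≤ a * μ ^ 2 + b * μ + c)
    (f : Ω → ℝ) :
    0 ≤ a * ((T *ᵥ f) ⬝ᵥ (T *ᵥ f)) + b * (f ⬝ᵥ (T *ᵥ f)) + c * (f ⬝ᵥ f) := by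
  have hH : T.IsHermitian := by
    rw [Matrix.IsHermitian, Matrix.conjTranspose_eq_transpose_of_trivial, hT]
  set B := hH.eigenvectorBasis with hB
  have hev : ∀ j, T *ᵥ (B j).ofLp = hH.eigenvalues j • (B j).ofLp := fun j => by
    have := hH.mulVec_eigenvectorBasis j
    simpa using this
  have hne : ∀ j, (B j).ofLp ≠ 0 := fun j h0 => by
    have h1 : B j = 0 := by
      ext x; exact congrFun h0 x
    exact B.orthonormal.ne_zero j h1
  have pars : ∀ u w : Ω → ℝ, u ⬝ᵥ w = ∑ j, ((B j).ofLp ⬝ᵥ u) * ((B j).ofLp ⬝ᵥ w) := by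
    intro u w
    have := B.sum_inner_mul_inner (WithLp.toLp 2 u) (WithLp.toLp 2 w)
    simp only [EuclideanSpace.inner_eq_star_dotProduct, star_trivial] at this
    rw [dotProduct_comm, ← this]
    refine Finset.sum_congr rfl fun j _ => ?_
    rw [dotProduct_comm w]
  have hTf : ∀ j, (B j).ofLp ⬝ᵥ (T *ᵥ f) = hH.eigenvalues j * ((B j).ofLp ⬝ᵥ f) := fun j => by
    rw [← dot_symm hT, hev]; simp
  rw [pars (T *ᵥ f) (T *ᵥ f), pars f (T *ᵥ f), pars f f]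
  simp only [hTf, Finset.mul_sum, ← Finset.sum_add_distrib]
  refine Finset.sum_nonneg fun j _ => ?_
  have := mul_nonneg (h _ _ (hne j) (hev j)) (sq_nonneg ((B j).ofLp ⬝ᵥ f))
  nlinarith [this]

lemma psd_of_eig {T : Matrix Ω Ω ℝ} (hT : Tᵀ = T)
    (h : ∀ (μ : ℝ) (v : Ω → ℝ), μ < 0 → T *ᵥ v = μ • v → v = 0) (f : Ω → ℝ) :
    0 ≤ f ⬝ᵥ (T *ᵥ f) := by
  have := spectral hT 0 1 0 (fun μ v hv e => by
    by_contra hc
    exact hv (h μ v (by linarith [not_le.1 hc]) e)) f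
  simpa using this

/-! ### contraction lemma -/

lemma contract {I : Type*} [Finite I] (a w : I → ℝ) (hw : ∀ i, 0 ≤ w i)
    (h0 : ∀ i, w i = 0 → a i ≤ 0) (κ : ℝ) (hκ : 1 < κ)
    (h : ∀ D, 0 ≤ D → (∀ i, a i ≤ D * w i) → ∀ i, κ * a i ≤ D * w i) : ∀ i, a i ≤ 0 := by
  intro i
  have : Nonempty I := ⟨i⟩
  obtain ⟨j, hj⟩ := Finite.exists_max (fun i => a i / w i)
  have hD : ∀ i, a i ≤ max 0 (a j / w j) * w i := by
    intro i
    rcases (hw i).eq_or_lt with e | e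
    · rw [← e]; simpa using h0 i e.symm
    · have := hj i
      rw [div_le_iff₀ e] at this
      exact this.trans (mul_le_mul_of_nonneg_right (le_max_right _ _) e.le)
  by_cases hp : a j / w j ≤ 0
  · have := hD i
    rwa [max_eq_left hp, zero_mul] at this
  · exfalso
    push Not at hp
    have h1 := h _ (le_max_left _ _) hD j
    rw [max_eq_right hp.le] at h1
    have hwj : 0 < w j := by
      rcases (hw j).eq_or_lt with e | e
      · rw [← e] at hp; simp at hp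
      · exact e
    rw [div_mul_cancel₀ _ hwj.ne'] at h1
    have : 0 < a j := by
      have := mul_pos hp hwj
      rwa [div_mul_cancel₀ _ hwj.ne'] at this
    nlinarith

end Crest.Agent.H9Sw
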