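import Mathlib

set_option autoImplicit false

namespace Crest.Agent.H9Sw

open Finset

section
variable {α : Type} [DecidableEq α] (Ω : Finset α) (K : α → α → ℝ)

omit [DecidableEq α] in
lemma dirichlet (hsym : ∀ x y, K x y = K y x) (hrow : ∀ x ∈ Ω, ∑ y ∈ Ω, K x y = 1) (f : α → ℝ) :
    2 * ∑ x ∈ Ω, f x * (f x - ∑ y ∈ Ω, K x y * f y) =
      ∑ x ∈ Ω, ∑ y ∈ Ω, K x y * (f x - f y) ^ 2 := by
  have h1 : ∑ x ∈ Ω, ∑ y ∈ Ω, K x y * f x ^ 2 = ∑ x ∈ Ω, f x ^ 2 :=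
    Finset.sum_congr rfl fun x hx => by rw [← Finset.sum_mul, hrow x hx, one_mul]
  have h2 : ∑ x ∈ Ω, ∑ y ∈ Ω, K x y * f y ^ 2 = ∑ x ∈ Ω, f x ^ 2 := by
    rw [Finset.sum_comm, ← h1]
    exact Finset.sum_congr rfl fun x _ => Finset.sum_congr rfl fun y _ => by rw [hsym]
  have h3 : ∑ x ∈ Ω, ∑ y ∈ Ω, K x y * (f x - f y) ^ 2 = ∑ x ∈ Ω, ∑ y ∈ Ω, K x y * f x ^ 2 +
      ∑ x ∈ Ω, ∑ y ∈ Ω, K x y * f y ^ 2 - 2 * ∑ x ∈ Ω, f x * ∑ y ∈ Ω, K x y * f y := by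
    simp only [Finset.mul_sum, ← Finset.sum_add_distrib, ← Finset.sum_sub_distrib]
    exact Finset.sum_congr rfl fun x _ => Finset.sum_congr rfl fun y _ => by ring
  rw [h3, h1, h2]
  simp only [mul_sub, Finset.sum_sub_distrib, sq]
  ring

lemma lazy_contract (hsym : ∀ x y, K x y = K y x) (hrow : ∀ x ∈ Ω, ∑ y ∈ Ω, K x y = 1)
    (hlazy : ∀ x y, (if x = y then 1 / 2 else 0) ≤ K x y) (f : α → ℝ) :
    ∑ x ∈ Ω, (∑ y ∈ Ω, K x y * f y) ^ 2 ≤ ∑ x ∈ Ω, f x * ∑ y ∈ Ω, K x y * f y := by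
  set L : α → α → ℝ := fun x y => 2 * K x y - if x = y then 1 else 0 with hL
  have L0 : ∀ x y, 0 ≤ L x y := fun x y => by
    have := hlazy x y
    simp only [hL]
    split_ifs at this ⊢ <;> linarith
  have Lsym : ∀ x y, L x y = L y x := fun x y => by simp only [hL, hsym x y, eq_comm]
  have Lf : ∀ (g : α → ℝ), ∀ x ∈ Ω, ∑ y ∈ Ω, L x y * g y = 2 * ∑ y ∈ Ω, K x y * g y - g x := by
    intro g x hx
    simp [hL, sub_mul, Finset.sum_sub_distrib, hx, mul_assoc, ← Finset.mul_sum]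
  have Lrow : ∀ x ∈ Ω, ∑ y ∈ Ω, L x y = 1 := fun x hx => by
    have := Lf (fun _ => 1) x hx
    simp only [mul_one, hrow x hx] at this
    linarith
  have J : ∀ x ∈ Ω, (∑ y ∈ Ω, L x y * f y) ^ 2 ≤ ∑ y ∈ Ω, L x y * f y ^ 2 := by
    intro x hx
    set m := ∑ y ∈ Ω, L x y * f y with hm
    have h0 : 0 ≤ ∑ y ∈ Ω, L x y * (f y - m) ^ 2 :=
      Finset.sum_nonneg fun y _ => mul_nonneg (L0 x y) (sq_nonneg _)
    have h1 : ∑ y ∈ Ω, L x y * (f y - m) ^ 2 = ∑ y ∈ Ω, L x y * f y ^ 2 -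
        2 * m * ∑ y ∈ Ω, L x y * f y + m ^ 2 * ∑ y ∈ Ω, L x y := by
      simp only [Finset.mul_sum, ← Finset.sum_add_distrib, ← Finset.sum_sub_distrib]
      exact Finset.sum_congr rfl fun y _ => by ring
    rw [h1, Lrow x hx, ← hm] at h0
    nlinarith
  have J2 : ∑ x ∈ Ω, (∑ y ∈ Ω, L x y * f y) ^ 2 ≤ ∑ x ∈ Ω, f x ^ 2 := by
    refine (Finset.sum_le_sum J).trans (le_of_eq ?_)
    rw [Finset.sum_comm]
    refine Finset.sum_congr rfl fun y hy => ?_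
    rw [← Finset.sum_mul, Finset.sum_congr rfl fun x _ => Lsym x y, Lrow y hy, one_mul]
  rw [Finset.sum_congr rfl fun x hx => by rw [Lf f x hx]] at J2
  have e : ∑ x ∈ Ω, (2 * ∑ y ∈ Ω, K x y * f y - f x) ^ 2 =
      4 * ∑ x ∈ Ω, (∑ y ∈ Ω, K x y * f y) ^ 2 - 4 * ∑ x ∈ Ω, f x * ∑ y ∈ Ω, K x y * f y +
        ∑ x ∈ Ω, f x ^ 2 := by
    rw [Finset.mul_sum, Finset.mul_sum, ← Finset.sum_sub_distrib, ← Finset.sum_add_distrib]
    exact Finset.sum_congr rfl fun x _ => by ring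
  linarith

end

lemma mixing {α : Type} [Fintype α] [DecidableEq α] (Ω : Finset α) (K : Matrix α α ℝ)
    (hsym : ∀ x y, K x y = K y x) (hrow : ∀ x ∈ Ω, ∑ y ∈ Ω, K x y = 1)
    (hlazy : ∀ x y, (if x = y then 1 / 2 else 0) ≤ K x y)
    (hsupp : ∀ x ∈ Ω, ∀ y ∉ Ω, K x y = 0) (c : ℝ) (hc : 1 ≤ c)
    (hP : ∀ f : α → ℝ, (Ω.card : ℝ) * (∑ x ∈ Ω, f x ^ 2) - (∑ x ∈ Ω, f x) ^ 2 ≤
      c * Ω.card * ∑ x ∈ Ω, f x * (f x - ∑ y ∈ Ω, K x y * f y)) {x0 : α} (h0 : x0 ∈ Ω) (t : ℕ) :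
    (∑ a, |(K ^ t) x0 a - (if a ∈ Ω then 1 / (Ω.card : ℝ) else 0)|) ^ 2 ≤
      Ω.card * (1 - 1 / c) ^ t := by
  have hN : (0 : ℝ) < Ω.card := by exact_mod_cast Finset.card_pos.2 ⟨x0, h0⟩
  have hc0 : 0 < c := by linarith
  have hγ : 0 ≤ 1 - 1 / c := by rw [sub_nonneg, div_le_one hc0]; exact hc
  have key : (∀ y ∉ Ω, (K ^ t) x0 y = 0) ∧ ∑ y ∈ Ω, ((K ^ t) x0 y - 1 / (Ω.card : ℝ)) = 0 ∧
      ∑ y ∈ Ω, ((K ^ t) x0 y - 1 / (Ω.card : ℝ)) ^ 2 ≤ (1 - 1 / c) ^ t := by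
    induction t with
    | zero =>
      refine ⟨fun y hy => ?_, ?_, ?_⟩
      · rw [pow_zero, Matrix.one_apply, if_neg (fun e : x0 = y => hy (e ▸ h0))]
      · simp only [pow_zero, Matrix.one_apply, Finset.sum_sub_distrib, Finset.sum_ite_eq, h0,
          if_true, sum_const, nsmul_eq_mul]
        field_simp
        ring
      · have : ∀ y, ((K ^ 0) x0 y - 1 / (Ω.card : ℝ)) ^ 2 =
            (if x0 = y then 1 - 2 / (Ω.card : ℝ) else 0) + (1 / (Ω.card : ℝ)) ^ 2 := fun y => by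
          simp only [pow_zero, Matrix.one_apply]
          split_ifs <;> ring
        rw [Finset.sum_congr rfl fun y _ => this y]
        simp only [Finset.sum_add_distrib, Finset.sum_ite_eq, h0, if_true, sum_const,
          nsmul_eq_mul, pow_zero]
        have : (Ω.card : ℝ) * (1 / (Ω.card : ℝ)) ^ 2 = 1 / (Ω.card : ℝ) := by field_simp
        rw [this]
        have : 0 < 1 / (Ω.card : ℝ) := by positivity
        have : 2 / (Ω.card : ℝ) = 2 * (1 / (Ω.card : ℝ)) := by ring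
        linarith
    | succ t ih =>
      obtain ⟨i1, i2, i3⟩ := ih
      have step : ∀ y, (K ^ (t + 1)) x0 y = ∑ z ∈ Ω, K y z * (K ^ t) x0 z := by
        intro y
        rw [pow_succ, Matrix.mul_apply, ← Finset.sum_subset (Finset.subset_univ Ω)]
        · exact Finset.sum_congr rfl fun z _ => by rw [hsym, mul_comm]
        · intro z _ hz; rw [i1 z hz, zero_mul]
      set ν : α → ℝ := fun y => (K ^ t) x0 y - 1 / (Ω.card : ℝ) with hν
      have step' : ∀ y ∈ Ω, (K ^ (t + 1)) x0 y - 1 / (Ω.card : ℝ) = ∑ z ∈ Ω, K y z * ν z := by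
        intro y hy
        simp only [step, hν, mul_sub, Finset.sum_sub_distrib, ← Finset.sum_mul, hrow y hy, one_mul]
      refine ⟨fun y hy => ?_, ?_, ?_⟩
      · rw [step]
        exact Finset.sum_eq_zero fun z hz => by rw [hsym, hsupp z hz y hy, zero_mul]
      · rw [Finset.sum_congr rfl step', Finset.sum_comm, ← i2]
        refine Finset.sum_congr rfl fun z hz => ?_
        rw [← Finset.sum_mul, Finset.sum_congr rfl fun y _ => hsym y z, hrow z hz, one_mul]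
      · rw [Finset.sum_congr rfl fun y hy => by rw [step' y hy]]
        refine (lazy_contract Ω K hsym hrow hlazy ν).trans ?_
        have h1 := hP ν
        rw [i2] at h1
        simp only [mul_sub, Finset.sum_sub_distrib, ← sq] at h1
        have h2 : ∑ x ∈ Ω, ν x ^ 2 ≤ c * (∑ x ∈ Ω, ν x ^ 2 - ∑ x ∈ Ω, ν x * ∑ y ∈ Ω, K x y * ν y) := by
          refine le_of_mul_le_mul_left ?_ hN
          nlinarith
        have h3 : ∑ x ∈ Ω, ν x * ∑ y ∈ Ω, K x y * ν y ≤ (1 - 1 / c) * ∑ x ∈ Ω, ν x ^ 2 := by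
          rw [← div_le_iff₀' hc0] at h2
          have : (∑ x ∈ Ω, ν x ^ 2) / c = 1 / c * ∑ x ∈ Ω, ν x ^ 2 := by ring
          linarith
        refine h3.trans ?_
        rw [pow_succ, mul_comm]
        exact mul_le_mul_of_nonneg_right i3 hγ
  obtain ⟨i1, -, i3⟩ := key
  rw [← Finset.sum_subset (Finset.subset_univ Ω)]
  · refine sq_sum_le_card_mul_sum_sq.trans (mul_le_mul_of_nonneg_left ?_ hN.le)
    refine le_trans (le_of_eq ?_) i3
    exact Finset.sum_congr rfl fun y hy => by rw [sq_abs, if_pos hy]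
  · intro y _ hy
    rw [i1 y hy, if_neg hy]; simp

lemma numeric (n : ℕ) (hn : 4 ≤ n) (N c : ℝ) (hN : N ≤ 2 ^ (n ^ 2)) (hc : 1 ≤ c)
    (hc' : c ≤ (n : ℝ) ^ 6) : N * (1 - 1 / c) ^ (2 * n ^ 8) ≤ 1 / 4 := by
  have hn' : (4 : ℝ) ≤ n := by exact_mod_cast hn
  have hc0 : 0 < c := by linarith
  have hγ : 0 ≤ 1 - 1 / c := by rw [sub_nonneg, div_le_one hc0]; exact hc
  have h1 : (1 - 1 / c) ^ (n ^ 6) ≤ 1 / 2 := by
    have a : (1 - 1 / c) ^ (n ^ 6) ≤ Real.exp (-(1 / c)) ^ (n ^ 6) :=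
      pow_le_pow_left₀ hγ (by linarith [Real.add_one_le_exp (-(1 / c))]) _
    have b : Real.exp (-(1 / c)) ^ (n ^ 6) ≤ Real.exp (-1) := by
      rw [← Real.exp_nat_mul, Real.exp_le_exp]
      push_cast
      have : 1 ≤ (n : ℝ) ^ 6 * (1 / c) := by
        rw [mul_one_div, le_div_iff₀ hc0]; linarith
      linarith
    have e : Real.exp (-1) ≤ 1 / 2 := by
      rw [Real.exp_neg, one_div]
      apply inv_anti₀ (by norm_num)
      linarith [Real.add_one_le_exp 1]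
    linarith
  have h2 : (1 - 1 / c) ^ (2 * n ^ 8) ≤ (1 / 2) ^ (n ^ 2) * (1 / 2) ^ (n ^ 2) := by
    rw [show 2 * n ^ 8 = n ^ 6 * (n ^ 2 + n ^ 2) by ring, pow_mul, ← pow_add]
    exact pow_le_pow_left₀ (pow_nonneg hγ _) h1 _
  have h3 : (1 / 2 : ℝ) ^ (n ^ 2) ≤ (1 / 2) ^ 2 :=
    pow_le_pow_of_le_one (by norm_num) (by norm_num) (by nlinarith)
  calc N * (1 - 1 / c) ^ (2 * n ^ 8) ≤ 2 ^ (n ^ 2) * ((1 / 2) ^ (n ^ 2) * (1 / 2) ^ (n ^ 2)) :=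
        mul_le_mul hN h2 (pow_nonneg hγ _) (by positivity)
    _ = (1 / 2) ^ (n ^ 2) := by rw [← mul_assoc, ← mul_pow]; norm_num
    _ ≤ 1 / 4 := by linarith

end Crest.Agent.H9Sw
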