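import Crest.Agent.H9.SwSplice

set_option autoImplicit false

namespace Crest.Agent.H9Sw

open Finset Matrix

variable {V : Type} [Fintype V] [DecidableEq V] {d : V → ℤ}

lemma fin3_cases : ∀ i j k l : Fin 3, i ≠ j → i ≠ k → j ≠ k → l = i ∨ l = j ∨ l = k := by decide
lemma fin3_next : ∀ i j k : Fin 3, i ≠ j → i ≠ k → j ≠ k →
    (j = i + 1 ∧ k = i + 2) ∨ (j = i + 2 ∧ k = i + 1) := by decide
lemma fin3_third : ∀ i j : Fin 3, i ≠ j → ∃ k, i ≠ k ∧ j ≠ k := by decide

lemma sum3 (F : Fin 3 → ℤ) {i j k : Fin 3} (h1 : i ≠ j) (h2 : i ≠ k) (h3 : j ≠ k) :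
    ∑ l, F l = F i + F j + F k := by
  rw [Fin.sum_univ_three]
  fin_cases i <;> fin_cases j <;> fin_cases k <;> simp at h1 h2 h3 ⊢ <;> ring

/-- three-row matrix of a triple of vertices -/
def xT (t : Fin 3 → V) (A : Gr d) : Option V → Fin 3 → Bool
  | some a, i => if ∃ l, a = t l then false else A.1 (t i) a
  | none, i => !A.1 (t (i + 1)) (t (i + 2))

lemma xT_none (t : Fin 3 → V) (A : Gr d) {i j k : Fin 3} (h1 : i ≠ j) (h2 : i ≠ k) (h3 : j ≠ k) :
    xT t A none i = !A.1 (t j) (t k) := by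
  rcases fin3_next i j k h1 h2 h3 with ⟨rfl, rfl⟩ | ⟨rfl, rfl⟩
  · rfl
  · rw [A.symm]; rfl

lemma xT_some (t : Fin 3 → V) (A : Gr d) {a : V} (h : ∀ l, a ≠ t l) (i : Fin 3) :
    xT t A (some a) i = A.1 (t i) a := by
  simp [xT, h]

lemma xT_some' (t : Fin 3 → V) (A : Gr d) (l i : Fin 3) : xT t A (some (t l)) i = false := by
  simp only [xT]; rw [if_pos ⟨l, rfl⟩]

/-- relation fixing everything outside the triple -/
def sT (t : Fin 3 → V) : Setoid (Gr d) where
  r A B := (∀ x y, (∀ l, x ≠ t l) → (∀ l, y ≠ t l) → A.1 x y = B.1 x y) ∧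
    ∀ c, ∑ i, χ (xT t A c i) = ∑ i, χ (xT t B c i)
  iseqv := ⟨fun _ => ⟨fun _ _ _ _ => rfl, fun _ => rfl⟩,
    fun h => ⟨fun x y a b => (h.1 x y a b).symm, fun a => (h.2 a).symm⟩,
    fun h h' => ⟨fun x y a b => (h.1 x y a b).trans (h'.1 x y a b),
      fun a => (h.2 a).trans (h'.2 a)⟩⟩

lemma R_iff_T {t : Fin 3 → V} (ht : Function.Injective t) {i j k : Fin 3} (h1 : i ≠ j) (h2 : i ≠ k)
    (h3 : j ≠ k) (A B : Gr d) :
    R (t j) (t k) A B ↔ sT t A B ∧ ∀ c, xT t A c i = xT t B c i := by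
  constructor
  · intro h
    have hrow : ∀ c, xT t A c i = xT t B c i := by
      rintro (_ | a)
      · rw [xT_none t A h1 h2 h3, xT_none t B h1 h2 h3, R_uv h]
      · by_cases p : ∃ l, a = t l
        · obtain ⟨l, rfl⟩ := p
          rw [xT_some', xT_some']
        · push Not at p
          rw [xT_some t A p, xT_some t B p, h.1 _ _ (ht.ne h1) (ht.ne h2) (p j) (p k)]
    refine ⟨⟨fun x y p q => h.1 x y (p j) (p k) (q j) (q k), fun c => ?_⟩, hrow⟩
    rw [sum3 _ h1 h2 h3, sum3 _ h1 h2 h3, hrow c, add_assoc, add_assoc, add_right_inj]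
    rcases c with _ | a
    · rw [xT_none t A h1.symm h3 h2.symm.symm, xT_none t B h1.symm h3 h2.symm.symm,
        xT_none t A h2.symm h3.symm h1, xT_none t B h2.symm h3.symm h1]
      have := h.2 (t i)
      simp only [χ_not, A.symm (t i), B.symm (t i)]
      linarith
    · by_cases p : ∃ l, a = t l
      · obtain ⟨l, rfl⟩ := p
        simp only [xT_some']
      · push Not at p
        simp only [xT_some t _ p, h.2 a]
  · rintro ⟨h, hrow⟩
    have e0 : A.1 (t j) (t k) = B.1 (t j) (t k) := by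
      have := hrow none
      rw [xT_none t A h1 h2 h3, xT_none t B h1 h2 h3] at this
      simpa using this
    have e1 : ∀ y, y ≠ t j → y ≠ t k → A.1 (t i) y = B.1 (t i) y := by
      intro y p q
      by_cases r : y = t i
      · rw [r, A.irr, B.irr]
      · have o : ∀ l, y ≠ t l := fun l => by
          rcases fin3_cases i j k l h1 h2 h3 with rfl | rfl | rfl <;> assumption
        have := hrow (some y)
        rwa [xT_some t A o, xT_some t B o] at this
    refine ⟨fun x y p1 p2 p3 p4 => ?_, fun a => ?_⟩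
    · by_cases r : x = t i
      · rw [r, e1 y p3 p4]
      by_cases r' : y = t i
      · rw [A.symm, B.symm, r', e1 x p1 p2]
      refine h.1 x y (fun l => ?_) (fun l => ?_) <;>
        rcases fin3_cases i j k l h1 h2 h3 with rfl | rfl | rfl <;> assumption
    · by_cases p : ∃ l, a = t l
      · obtain ⟨l, rfl⟩ := p
        rcases fin3_cases i j k l h1 h2 h3 with rfl | rfl | rfl
        · have := h.2 none
          rw [sum3 _ h1 h2 h3, sum3 _ h1 h2 h3, hrow, xT_none t A h1.symm h3 h2,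
            xT_none t B h1.symm h3 h2, xT_none t A h2.symm h3.symm h1,
            xT_none t B h2.symm h3.symm h1] at this
          simp only [χ_not, A.symm (t l), B.symm (t l)] at this
          linarith
        · rw [A.irr, B.irr, A.symm, B.symm, e0]
        · rw [A.irr, B.irr, e0]
      · push Not at p
        have := h.2 (some a)
        rw [sum3 _ h1 h2 h3, sum3 _ h1 h2 h3, hrow] at this
        simp only [xT_some t _ p] at this
        linarith

lemma xT_row {t : Fin 3 → V} (ht : Function.Injective t) (A : Gr d) (i : Fin 3) :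
    ∑ c, χ (xT t A c i) = d (t i) - 2 + ∑ l, χ (xT t A none l) := by
  have n1 : ∀ i : Fin 3, i ≠ i + 1 := by decide
  have n2 : ∀ i : Fin 3, i ≠ i + 2 := by decide
  have n3 : ∀ i : Fin 3, i + 1 ≠ i + 2 := by decide
  have h1 := n1 i
  have h2 := n2 i
  have h3 := n3 i
  generalize i + 1 = j at h1 h3
  generalize i + 2 = k at h2 h3
  rw [Fintype.sum_option, sum3 _ h1 h2 h3, xT_none t A h1.symm h3 h2, xT_none t A h2.symm h3.symm h1,
    ← A.deg (t i)]
  have : ∀ a, χ (A.1 (t i) a) = χ (xT t A (some a) i) +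
      (if a = t j then χ (A.1 (t i) (t j)) else 0) + (if a = t k then χ (A.1 (t i) (t k)) else 0) := by
    intro a
    by_cases p : ∃ l, a = t l
    · obtain ⟨l, rfl⟩ := p
      rcases fin3_cases i j k l h1 h2 h3 with rfl | rfl | rfl <;>
        simp [xT_some', A.irr, ht.ne h1, ht.ne h2, ht.ne h3, ht.ne h3.symm]
    · push Not at p
      simp [xT_some t A p, p j, p k]
  rw [Finset.sum_congr rfl fun a _ => this a]
  simp only [Finset.sum_add_distrib, Finset.sum_ite_eq', mem_univ, if_true, χ_not]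
  ring

lemma xT_act {t : Fin 3 → V} (ht : Function.Injective t) (A : Gr d) {i j k : Fin 3} (h1 : i ≠ j)
    (h2 : i ≠ k) (h3 : j ≠ k) {c : Option V} (h : xT t A c i ≠ xT t A c j) :
    c.getD (t k) ≠ t i ∧ c.getD (t k) ≠ t j ∧ xT t A c i = A.1 (t i) (c.getD (t k)) ∧
      xT t A c j = A.1 (t j) (c.getD (t k)) ∧ (t k = c.getD (t k) ↔ none = c) ∧
      ∀ e, (∀ l, e ≠ t l) → (e = c.getD (t k) ↔ some e = c) := by
  rcases c with _ | a
  · rw [xT_none t A h1 h2 h3, xT_none t A h1.symm h3 h2] at h ⊢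
    simp only [Option.getD_none]
    refine ⟨ht.ne h2.symm, ht.ne h3.symm, ?_, ?_, by simp, fun e he => by simp [he k]⟩ <;>
    · revert h
      cases A.1 (t j) (t k) <;> cases A.1 (t i) (t k) <;> simp
  · by_cases p : ∃ l, a = t l
    · obtain ⟨l, rfl⟩ := p
      simp [xT_some'] at h
    · push Not at p
      simp [xT_some t A p, p i, p j, (p k).symm]

/-- The three-row structure of a triple of vertices -/
def trip {t : Fin 3 → V} (ht : Function.Injective t) : Trip (Gr d) (Option V) where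
  s0 := sT t
  s i := R (t (i + 1)) (t (i + 2))
  x := xT t
  inj A B h e := by
    refine R_eq ((R_iff_T ht (i := 0) (j := 1) (k := 2) (by decide) (by decide) (by decide) A B).2
      ⟨h, fun c => e c 0⟩) fun a => ?_
    by_cases p : ∃ l, a = t l
    · obtain ⟨l, rfl⟩ := p
      rcases fin3_cases 0 1 2 l (by decide) (by decide) (by decide) with rfl | rfl | rfl
      · have := e none 2
        rw [xT_none t A (j := 1) (k := 0) (by decide) (by decide) (by decide),
          xT_none t B (j := 1) (k := 0) (by decide) (by decide) (by decide)] at this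
        simpa using this
      · rw [A.irr, B.irr]
      · have := e none 0
        rw [xT_none t A (j := 1) (k := 2) (by decide) (by decide) (by decide),
          xT_none t B (j := 1) (k := 2) (by decide) (by decide) (by decide)] at this
        simpa using this
    · push Not at p
      have := e (some a) 1
      rwa [xT_some t A p, xT_some t B p] at this
  col A B c h := h.2 c
  row A B i h := by rw [xT_row ht, xT_row ht, h.2]
  sw A i j a b a1 a2 b1 b2 := by
    have h1 : i ≠ j := fun e => by rw [e, a2] at a1; simp at a1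
    obtain ⟨k, h2, h3⟩ := fin3_third i j h1
    obtain ⟨p1, p2, p3, p4, p5, p6⟩ := xT_act ht A h1 h2 h3 (c := a) (by simp [a1, a2])
    obtain ⟨q1, q2, q3, q4, q5, q6⟩ := xT_act ht A h1 h2 h3 (c := b) (by simp [b1, b2])
    have act : Act (t i) (t j) (a.getD (t k)) (b.getD (t k)) A := by
      simp only [Act, mem_Wset, ← p3, ← p4, ← q3, ← q4, a1, a2, b1, b2]
      simp [p1, p2, q1, q2]
    refine ⟨sw (t i) (t j) (a.getD (t k)) (b.getD (t k)) A,
      ((R_iff_T ht h2.symm h3.symm h1 _ _).1 (sw_rel _ _ _ _ A)).1, ?_⟩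
    rintro (_ | e) l
    · rcases fin3_cases i j k l h1 h2 h3 with rfl | rfl | rfl
      · rw [xT_none t _ h1 h2 h3, xT_none t _ h1 h2 h3, sw_val act]
        simp only [flip, p5, q5, ht.ne h2.symm, ht.ne h3.symm, or_true, true_and, or_self,
          and_false, or_false, true_or, and_true]
        split_ifs <;> rfl
      · rw [xT_none t _ h1.symm h3 h2, xT_none t _ h1.symm h3 h2, sw_val act]
        simp only [flip, p5, q5, ht.ne h2.symm, ht.ne h3.symm, or_true, true_and, or_self,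
          and_false, or_false, true_or, and_true]
        split_ifs <;> rfl
      · rw [xT_none t _ h2.symm h3.symm h1, xT_none t _ h2.symm h3.symm h1, sw_val act]
        simp [flip, p1.symm, p2.symm, q1.symm, q2.symm, h2.symm, h3.symm]
    · by_cases p : ∃ l, e = t l
      · obtain ⟨l', rfl⟩ := p
        rw [xT_some', xT_some', if_neg]
        rintro ⟨r | r, -⟩
        · rw [← r, xT_some'] at a1; simp at a1
        · rw [← r, xT_some'] at b2; simp at b2
      · push Not at p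
        rw [xT_some t _ p, xT_some t _ p, sw_val act]
        simp only [flip, p6 e p, q6 e p, p i, p j, or_self, false_and, or_false, ht.eq_iff,
          and_comm]
  s_iff i A B := R_iff_T ht (by revert i; decide) (by revert i; decide) (by revert i; decide) A B

lemma triple_graph {u v z : V} (h1 : u ≠ v) (h2 : u ≠ z) (h3 : v ≠ z) (f : Gr d → ℝ) :
    0 ≤ ((1 - av (R u v)) *ᵥ f) ⬝ᵥ ((1 - av (R u z)) *ᵥ f) +
      ((1 - av (R v u)) *ᵥ f) ⬝ᵥ ((1 - av (R v z)) *ᵥ f) +
      ((1 - av (R z u)) *ᵥ f) ⬝ᵥ ((1 - av (R z v)) *ᵥ f) := by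
  have ht : Function.Injective ![u, v, z] := by
    intro i j
    fin_cases i <;> fin_cases j <;> simp [h1, h2, h3, h1.symm, h2.symm, h3.symm]
  have := (trip (d := d) ht).triple f
  change 0 ≤ ((1 - av (R v z)) *ᵥ f) ⬝ᵥ ((1 - av (R z u)) *ᵥ f) +
      ((1 - av (R v z)) *ᵥ f) ⬝ᵥ ((1 - av (R u v)) *ᵥ f) +
      ((1 - av (R z u)) *ᵥ f) ⬝ᵥ ((1 - av (R u v)) *ᵥ f) at this
  rw [R_comm v u, R_comm u z, R_comm z v, dotProduct_comm ((1 - av (R u v)) *ᵥ f),
    dotProduct_comm ((1 - av (R u v)) *ᵥ f), dotProduct_comm ((1 - av (R z u)) *ᵥ f)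
      ((1 - av (R v z)) *ᵥ f)]
  linarith

/-- the curveball generator -/
noncomputable def Hm (d : V → ℤ) : Matrix (Gr d) (Gr d) ℝ := ∑ u, ∑ v, (1 - av (R u v))

lemma dot_Hm (f : Gr d → ℝ) : f ⬝ᵥ (Hm d *ᵥ f) =
    ∑ u, ∑ v, ((1 - av (R u v)) *ᵥ f) ⬝ᵥ ((1 - av (R u v)) *ᵥ f) := by
  simp only [Hm, Matrix.sum_mulVec, dotProduct_sum]
  exact Finset.sum_congr rfl fun u _ => Finset.sum_congr rfl fun v _ =>
    dot_idem (one_sub_av_transpose _) (one_sub_av_idem _) f

lemma Hm_sq (f : Gr d → ℝ) : 2 * (f ⬝ᵥ (Hm d *ᵥ f)) ≤ (Hm d *ᵥ f) ⬝ᵥ (Hm d *ᵥ f) := by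
  rw [dot_Hm]
  have := bochner (fun u v w z => ((1 - av (R u v)) *ᵥ f) ⬝ᵥ ((1 - av (R w z)) *ᵥ f))
    (fun u v w z => by rw [R_comm u v]) (fun u v w z => dotProduct_comm _ _)
    (fun u w z => by
      have : (1 - av (R u u)) *ᵥ f = 0 := by
        funext x
        rw [Matrix.sub_mulVec, Pi.sub_apply, av_mulVec_of_const (fun y hy => by rw [R_self hy])]
        simp
      rw [this, zero_dotProduct])
    (fun u v z h1 h2 h3 => triple_graph h1 h2 h3 f) (disjoint_sum f)
  simp only [Hm, Matrix.sum_mulVec, dotProduct_sum, sum_dotProduct]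
  refine this.trans (le_of_eq ?_)
  exact Finset.sum_congr rfl fun u _ => Finset.sum_congr rfl fun v _ =>
    Finset.sum_congr rfl fun w _ => Finset.sum_congr rfl fun z _ => dotProduct_comm _ _

lemma Hm_gap (f : Gr d → ℝ) :
    2 * (((1 - av ⊤) *ᵥ f) ⬝ᵥ ((1 - av ⊤) *ᵥ f)) ≤ f ⬝ᵥ (Hm d *ᵥ f) := by
  have hT : (Hm d - (2 : ℝ) • (1 - av ⊤))ᵀ = Hm d - (2 : ℝ) • (1 - av ⊤) := by
    simp only [Matrix.transpose_sub, Matrix.transpose_smul, Hm, Matrix.transpose_sum, av_transpose,
      Matrix.transpose_one]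
  have := psd_of_eig hT (fun μ v hμ e => ?_) f
  · rw [Matrix.sub_mulVec, dotProduct_sub, Matrix.smul_mulVec, dotProduct_smul,
      dot_idem (one_sub_av_transpose _) (one_sub_av_idem _), smul_eq_mul] at this
    linarith
  · have p0 : av ⊤ *ᵥ v = 0 := by
      have h0 : ∀ s : Setoid (Gr d), av ⊤ * (1 - av s) = 0 := fun s => by
        rw [Matrix.mul_sub, av_mul_av_of_le (fun _ _ _ => trivial)]; simp
      have h1 : av ⊤ *ᵥ ((Hm d - (2 : ℝ) • (1 - av ⊤)) *ᵥ v) = 0 := by
        rw [Matrix.mulVec_mulVec, Matrix.mul_sub, Matrix.mul_smul, h0]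
        simp only [Hm, Finset.mul_sum, h0]
        simp
      rw [e, Matrix.mulVec_smul] at h1
      exact (smul_eq_zero.1 h1).resolve_left hμ.ne
    have hv : Hm d *ᵥ v = (2 + μ) • v := by
      rw [Matrix.sub_mulVec, Matrix.smul_mulVec, Matrix.sub_mulVec, p0, Matrix.one_mulVec,
        sub_zero] at e
      rw [add_smul, ← e]; abel
    have h1 := Hm_sq v
    have h2 : (Hm d *ᵥ v) ⬝ᵥ (Hm d *ᵥ v) = (2 + μ) * (v ⬝ᵥ (Hm d *ᵥ v)) := by
      nth_rewrite 1 [hv]
      rw [smul_dotProduct, smul_eq_mul]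
    have h3 : v ⬝ᵥ (Hm d *ᵥ v) ≤ 0 := by nlinarith
    rw [dot_Hm] at h3
    have h4 : ∀ a b, (1 - av (R a b)) *ᵥ v = 0 := by
      intro a b
      rw [← dotProduct_self_eq_zero]
      refine le_antisymm (le_trans ?_ h3) (dot_self_nonneg _)
      refine le_trans ?_ (Finset.single_le_sum (f := fun a => ∑ b,
        ((1 - av (R a b)) *ᵥ v) ⬝ᵥ ((1 - av (R a b)) *ᵥ v))
        (fun a _ => Finset.sum_nonneg fun b _ => dot_self_nonneg _) (mem_univ a))
      exact Finset.single_le_sum (f := fun b => ((1 - av (R a b)) *ᵥ v) ⬝ᵥ ((1 - av (R a b)) *ᵥ v))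
        (fun b _ => dot_self_nonneg _) (mem_univ b)
    have h5 : ∀ a b c e A, v (sw a b c e A) = v A := by
      intro a b c e A
      have k : ∀ B, v B = (av (R a b) *ᵥ v) B := fun B => by
        have := congrFun (h4 a b) B
        simpa [Matrix.sub_mulVec, sub_eq_zero] using this
      rw [k, k A, av_mulVec_congr v (sw_rel a b c e A)]
    funext x
    rw [← av_mulVec_of_const (s := ⊤) (f := v) (x := x) (fun y _ => conn h5 y x), p0]

theorem poincare (f : Gr d → ℝ) :
    16 * ((Fintype.card (Gr d) : ℝ) * ∑ A, f A ^ 2 - (∑ A, f A) ^ 2) ≤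
      Fintype.card (Gr d) * ∑ u, ∑ v, ∑ w, ∑ z, ∑ A, (f A - f (sw u v w z A)) ^ 2 := by
  have h1 := Hm_gap f
  have h2 : 2 * (f ⬝ᵥ (Hm d *ᵥ f)) ≤ ∑ u, ∑ v, ∑ w, ∑ z, Dt u v w z f := by
    rw [dot_Hm]
    simp only [Finset.mul_sum]
    exact Finset.sum_le_sum fun u _ => Finset.sum_le_sum fun v _ => h_le_D u v f
  have h3 : 4 * ∑ u, ∑ v, ∑ w, ∑ z, Dt u v w z f =
      ∑ u, ∑ v, ∑ w, ∑ z, ∑ A, (f A - f (sw u v w z A)) ^ 2 := by
    simp only [Finset.mul_sum, Dt, dotProduct, proj_mulVec]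
    refine Finset.sum_congr rfl fun u _ => Finset.sum_congr rfl fun v _ =>
      Finset.sum_congr rfl fun w _ => Finset.sum_congr rfl fun z _ =>
      Finset.sum_congr rfl fun A _ => by ring
  have h4 : (Fintype.card (Gr d) : ℝ) * (((1 - av ⊤) *ᵥ f) ⬝ᵥ ((1 - av ⊤) *ᵥ f)) =
      (Fintype.card (Gr d) : ℝ) * ∑ A, f A ^ 2 - (∑ A, f A) ^ 2 := by
    rw [← dot_idem (one_sub_av_transpose _) (one_sub_av_idem _)]
    have : ∀ x : Gr d, cls ⊤ x = univ := fun x => by ext y; simp
    simp only [dotProduct, Matrix.sub_mulVec, Matrix.one_mulVec, Pi.sub_apply, av_mulVec, this,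
      mul_sub, Finset.sum_sub_distrib, ← Finset.sum_mul, card_univ, sq]
    rcases isEmpty_or_nonempty (Gr d) with e | e
    · simp
    · have : (0 : ℝ) < Fintype.card (Gr d) := by exact_mod_cast Fintype.card_pos
      field_simp
  rw [← h4, ← h3]
  have : (0 : ℝ) ≤ Fintype.card (Gr d) := Nat.cast_nonneg _
  nlinarith

end Crest.Agent.H9Sw
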