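import Crest.Prelude.Def_SwitchChain
import Crest.Agent.H9.SwPoin
import Crest.Agent.H9.SwMix

set_option autoImplicit false

namespace Crest.Agent.H9Sw

open Finset Crest.SwitchChain

variable {n : ℕ}

/-- an edge from two distinct vertices -/
def mk (a b : Fin n) (h : a ≠ b) : Edge n := ⟨s(a, b), by simpa using h⟩

lemma edge_cases (e : Edge n) : ∃ a b h, e = mk a b h := by
  obtain ⟨e, he⟩ := e
  induction e using Sym2.ind with
  | _ a b => exact ⟨a, b, by simpa using he, rfl⟩

lemma mk_eq {a b c e : Fin n} {h : a ≠ b} {h' : c ≠ e} :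
    mk a b h = mk c e h' ↔ (a = c ∧ b = e) ∨ (a = e ∧ b = c) := by
  simp [mk]

@[simp] lemma mem_mk {a b v : Fin n} {h : a ≠ b} : v ∈ (mk a b h).1 ↔ v = a ∨ v = b := by
  simp [mk]

lemma mem_pm {a b c e : Fin n} (h1 : a ≠ b) (h2 : a ≠ c) (h3 : a ≠ e) (h4 : b ≠ c) (h5 : b ≠ e)
    (h6 : c ≠ e) {S : Finset (Fin n)} (hS : ∀ v, v ∈ S ↔ v = a ∨ v = b ∨ v = c ∨ v = e) :
    ({mk a b h1, mk c e h6} : Finset (Edge n)) ∈ pmSet S := by
  have hne : mk a b h1 ≠ mk c e h6 := by simp [mk_eq, h2, h3]
  simp only [pmSet, mem_filter, mem_powersetCard, subset_univ, true_and]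
  refine ⟨Finset.card_pair hne, ?_, ?_⟩
  · intro x hx v hv
    simp only [mem_insert, mem_singleton] at hx
    rw [hS]
    rcases hx with rfl | rfl <;> rw [mem_mk] at hv <;> tauto
  · intro v hv
    rw [Finset.card_filter, Finset.sum_pair hne]
    rw [hS] at hv
    rcases hv with rfl | rfl | rfl | rfl <;>
      simp [h2, h3, h4, h5, h2.symm, h3.symm, h4.symm, h5.symm]

lemma pm_of_mem {a b c e : Fin n} (h1 : a ≠ b) (h2 : a ≠ c) (h3 : a ≠ e) (h4 : b ≠ c) (h5 : b ≠ e)
    (h6 : c ≠ e) {S : Finset (Fin n)} (hc : c ∈ S) (he : e ∈ S) {F : Finset (Edge n)}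
    (hF : F ∈ pmSet S) (hab : mk a b h1 ∈ F) : F = {mk a b h1, mk c e h6} := by
  simp only [pmSet, mem_filter, mem_powersetCard, subset_univ, true_and] at hF
  obtain ⟨k1, -, k3⟩ := hF
  have ex : ∀ v ∈ S, ∃ x ∈ F, v ∈ x.1 := fun v hv => by
    obtain ⟨x, hx⟩ := Finset.card_pos.1 (by rw [k3 v hv]; exact one_pos)
    exact ⟨x, (mem_filter.1 hx).1, (mem_filter.1 hx).2⟩
  obtain ⟨x, x1, x2⟩ := ex c hc
  obtain ⟨y, y1, y2⟩ := ex e he
  have hx : mk a b h1 ≠ x := fun q => by
    rw [← q, mem_mk] at x2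
    rcases x2 with q | q
    · exact h2 q.symm
    · exact h4 q.symm
  have hFx : F = {mk a b h1, x} := by
    symm
    apply Finset.eq_of_subset_of_card_le
    · intro z hz
      simp only [mem_insert, mem_singleton] at hz
      rcases hz with rfl | rfl <;> assumption
    · rw [k1, Finset.card_pair hx]
  rw [hFx] at y1
  simp only [mem_insert, mem_singleton] at y1
  rcases y1 with rfl | rfl
  · rw [mem_mk] at y2
    rcases y2 with q | q
    · exact absurd q.symm h3
    · exact absurd q.symm h5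
  · rw [hFx]
    congr 2
    exact Subtype.ext ((Sym2.mem_and_mem_iff h6).1 ⟨x2, y2⟩)

lemma card_pm {S : Finset (Fin n)} (hS : S.card = 4) : (pmSet S).card = 3 := by
  obtain ⟨a, b, c, e, h1, h2, h3, h4, h5, h6, rfl⟩ := Finset.card_eq_four.1 hS
  rw [Finset.card_eq_three]
  refine ⟨{mk a b h1, mk c e h6}, {mk a c h2, mk b e h5}, {mk a e h3, mk b c h4}, ?_, ?_, ?_, ?_⟩
  · intro q
    have : mk a b h1 ∈ ({mk a c h2, mk b e h5} : Finset (Edge n)) := q ▸ mem_insert_self _ _
    simp [mk_eq, h1, h2, h3, h4] at this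
  · intro q
    have : mk a b h1 ∈ ({mk a e h3, mk b c h4} : Finset (Edge n)) := q ▸ mem_insert_self _ _
    simp [mk_eq, h1, h2, h3, h5] at this
  · intro q
    have : mk a c h2 ∈ ({mk a e h3, mk b c h4} : Finset (Edge n)) := q ▸ mem_insert_self _ _
    simp [mk_eq, h1, h2, h3, h6] at this
  · ext F
    simp only [mem_insert, mem_singleton]
    constructor
    · intro hF
      have hF' := hF
      simp only [pmSet, mem_filter, mem_powersetCard, subset_univ, true_and] at hF'
      obtain ⟨-, k2, k3⟩ := hF'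
      obtain ⟨x, hx⟩ := Finset.card_pos.1 (by rw [k3 a (by simp)]; exact one_pos)
      obtain ⟨x1, x2⟩ := mem_filter.1 hx
      obtain ⟨w, hw⟩ := Sym2.mem_iff_exists.1 x2
      have hwS := k2 x x1 w (by rw [hw]; simp)
      have haw : a ≠ w := fun q => x.2 (by rw [hw, q]; simp)
      have hx' : x = mk a w haw := Subtype.ext hw
      rw [hx'] at x1
      simp only [mem_insert, mem_singleton] at hwS
      rcases hwS with rfl | rfl | rfl | rfl
      · exact absurd rfl haw
      · exact Or.inl (pm_of_mem h1 h2 h3 h4 h5 h6 (by simp) (by simp) hF x1)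
      · exact Or.inr (Or.inl (pm_of_mem h2 h1 h3 h4.symm h6 h5 (by simp) (by simp) hF x1))
      · exact Or.inr (Or.inr (pm_of_mem h3 h1 h2 h5.symm h6.symm h4 (by simp) (by simp) hF x1))
    · rintro (rfl | rfl | rfl)
      · exact mem_pm h1 h2 h3 h4 h5 h6 (by simp)
      · exact mem_pm h2 h1 h3 h4.symm h6 h5 (by simp; tauto)
      · exact mem_pm h3 h1 h2 h5.symm h6.symm h4 (by simp; tauto)

lemma deg_pm {S : Finset (Fin n)} {F : Finset (Edge n)} (hF : F ∈ pmSet S) (v : Fin n) :
    deg F v = if v ∈ S then 1 else 0 := by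
  simp only [pmSet, mem_filter, mem_powersetCard, subset_univ, true_and] at hF
  obtain ⟨-, k2, k3⟩ := hF
  split_ifs with h
  · exact k3 v h
  · rw [deg, Finset.card_eq_zero, Finset.filter_eq_empty_iff]
    exact fun e he hv => h (k2 e he v hv)

lemma switch_mem {d : Fin n → ℕ} {S : Finset (Fin n)} {E F F' : Finset (Edge n)}
    (hE : E ∈ realizations d) (hF : F ∈ pmSet S) (hF' : F' ∈ pmSet S) :
    switchResult E F F' ∈ realizations d := by
  unfold switchResult
  split_ifs with h
  · simp only [realizations, mem_filter, mem_univ, true_and] at hE ⊢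
    intro v
    have e1 := deg_pm hF v
    have e2 := deg_pm hF' v
    have e3 := hE v
    simp only [deg] at e1 e2 e3 ⊢
    rw [Finset.filter_union, Finset.card_union_of_disjoint
      (Finset.disjoint_filter_filter (Finset.disjoint_of_subset_left Finset.sdiff_subset h.2.symm))]
    have : (E \ F).filter (fun e => v ∈ e.1) = E.filter (fun e => v ∈ e.1) \ F.filter (fun e => v ∈ e.1) := by
      ext x; simp only [mem_filter, mem_sdiff]; tauto
    rw [this, e2, ← e1, Finset.card_sdiff_add_card_eq_card (Finset.filter_subset_filter _ h.1), e3]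
  · exact hE

lemma switch_rev {E E' F F' : Finset (Edge n)} (hne : E ≠ E') (h : switchResult E F F' = E') :
    switchResult E' F' F = E := by
  unfold switchResult at h
  split_ifs at h with hc
  · subst h
    obtain ⟨h1, h2⟩ := hc
    unfold switchResult
    rw [if_pos]
    · ext x
      have a := @h1 x
      have b : x ∈ F' → x ∉ E := fun q => Finset.disjoint_left.1 h2 q
      simp only [mem_union, mem_sdiff]
      tauto
    · refine ⟨Finset.subset_union_right, Finset.disjoint_left.2 fun x hx => ?_⟩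
      have a := h1 hx
      have b : x ∈ F' → x ∉ E := fun q => Finset.disjoint_left.1 h2 q
      simp only [mem_union, mem_sdiff]
      tauto
  · exact absurd h hne

lemma kernel_symm (E E' : Finset (Edge n)) : kernel n E E' = kernel n E' E := by
  by_cases h : E = E'
  · rw [h]
  have : proposalCount E E' = proposalCount E' E := by
    unfold proposalCount
    refine Finset.sum_congr rfl fun S _ => ?_
    rw [Finset.sum_comm' (t' := pmSet S) (s' := fun F' => (pmSet S).erase F')
      (by intro x y; simp only [mem_erase]; tauto)]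
    refine Finset.sum_congr rfl fun F _ => Finset.sum_congr rfl fun F' _ => ?_
    congr 1
    exact propext ⟨switch_rev h, switch_rev (Ne.symm h)⟩
  simp only [kernel, this, eq_comm]

lemma kernel_sum {d : Fin n → ℕ} {E : Finset (Edge n)} (hE : E ∈ realizations d)
    (φ : Finset (Edge n) → ℝ) :
    ∑ E' ∈ realizations d, kernel n E E' * φ E' = φ E / 2 +
      (∑ S ∈ (univ : Finset (Fin n)).powersetCard 4, ∑ F ∈ pmSet S, ∑ F' ∈ (pmSet S).erase F,
        φ (switchResult E F F')) / (12 * (n.choose 4 : ℝ)) := by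
  simp only [kernel, add_mul, Finset.sum_add_distrib, ite_mul, zero_mul, Finset.sum_ite_eq, hE,
    if_true, div_mul_eq_mul_div, ← Finset.sum_div, one_mul]
  congr 2
  simp only [proposalCount, Nat.cast_sum, Finset.sum_mul]
  rw [Finset.sum_comm]
  refine Finset.sum_congr rfl fun S _ => ?_
  rw [Finset.sum_comm]
  refine Finset.sum_congr rfl fun F hF => ?_
  rw [Finset.sum_comm]
  refine Finset.sum_congr rfl fun F' hF' => ?_
  simp [switch_mem hE hF (mem_of_mem_erase hF')]

lemma kernel_row (hn : 4 ≤ n) {d : Fin n → ℕ} {E : Finset (Edge n)} (hE : E ∈ realizations d) :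
    ∑ E' ∈ realizations d, kernel n E E' = 1 := by
  have := kernel_sum hE (fun _ => 1)
  simp only [mul_one] at this
  rw [this, Finset.sum_congr rfl (g := fun _ => (6 : ℝ))]
  · have : (0 : ℝ) < n.choose 4 := by exact_mod_cast Nat.choose_pos hn
    simp only [sum_const, card_powersetCard, card_univ, Fintype.card_fin, nsmul_eq_mul]
    field_simp
    ring
  · intro S hS
    have h3 := card_pm (mem_powersetCard.1 hS).2
    rw [Finset.sum_congr rfl (g := fun _ => (2 : ℝ))]
    · simp [h3]; norm_num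
    · intro F hF
      simp [Finset.card_erase_of_mem hF, h3]

lemma kernel_lazy (E E' : Finset (Edge n)) : (if E = E' then 1 / 2 else 0) ≤ kernel n E E' := by
  simp only [kernel, le_add_iff_nonneg_right]
  positivity

lemma kernel_supp {d : Fin n → ℕ} {E : Finset (Edge n)} (hE : E ∈ realizations d)
    {E' : Finset (Edge n)} (hE' : E' ∉ realizations d) : kernel n E E' = 0 := by
  have : proposalCount E E' = 0 := by
    unfold proposalCount
    refine Finset.sum_eq_zero fun S _ => Finset.sum_eq_zero fun F hF =>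
      Finset.sum_eq_zero fun F' hF' => if_neg fun q => hE' ?_
    rw [← q]
    exact switch_mem hE hF (mem_of_mem_erase hF')
  simp only [kernel, this, if_neg (fun q : E = E' => hE' (q ▸ hE))]
  simp

/-- adjacency matrix -/
def adj (E : Finset (Edge n)) (a b : Fin n) : Bool := decide (∃ e ∈ E, e.1 = s(a, b))

lemma adj_mk {E : Finset (Edge n)} {a b : Fin n} (h : a ≠ b) : adj E a b = true ↔ mk a b h ∈ E := by
  simp only [adj, decide_eq_true_eq]
  constructor
  · rintro ⟨e, he, q⟩
    rwa [show mk a b h = e from Subtype.ext q.symm]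
  · exact fun q => ⟨_, q, rfl⟩

lemma adj_irr (E : Finset (Edge n)) (a : Fin n) : adj E a a = false := by
  simp only [adj, decide_eq_false_iff_not]
  rintro ⟨e, -, q⟩
  exact e.2 (by rw [q]; simp)

lemma adj_symm (E : Finset (Edge n)) (a b : Fin n) : adj E a b = adj E b a := by
  simp only [adj, Sym2.eq_swap]

lemma adj_deg (E : Finset (Edge n)) (v : Fin n) : ∑ b, χ (adj E v b) = deg E v := by
  simp only [χ, Finset.sum_boole, deg, Nat.cast_inj]
  have hne : ∀ b ∈ univ.filter (fun b => adj E v b = true), v ≠ b := fun b hb q => by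
    rw [mem_filter, ← q, adj_irr] at hb; simp at hb
  refine Finset.card_bij (fun b hb => mk v b (hne b hb)) ?_ ?_ ?_
  · intro b hb
    exact mem_filter.2 ⟨(adj_mk _).1 (mem_filter.1 hb).2, by simp⟩
  · intro b hb c hc q
    rcases mk_eq.1 q with q | q
    · exact q.2
    · exact absurd q.1 (hne c hc)
  · intro x hx
    obtain ⟨x1, x2⟩ := mem_filter.1 hx
    obtain ⟨w, hw⟩ := Sym2.mem_iff_exists.1 x2
    have haw : v ≠ w := fun q => x.2 (by rw [hw, q]; simp)
    have hx' : x = mk v w haw := Subtype.ext hw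
    exact ⟨w, mem_filter.2 ⟨mem_univ _, (adj_mk haw).2 (hx' ▸ x1)⟩, hx'.symm⟩

variable {d : Fin n → ℕ}

/-- edge set of a graph -/
def toE (A : Gr (fun v => (d v : ℤ))) : Finset (Edge n) :=
  univ.filter (fun e => Sym2.lift ⟨A.1, A.symm⟩ e.1 = true)

lemma mk_mem_toE {A : Gr (fun v => (d v : ℤ))} {a b : Fin n} {h : a ≠ b} :
    mk a b h ∈ toE A ↔ A.1 a b = true := by
  simp [toE, mk]

lemma adj_toE (A : Gr (fun v => (d v : ℤ))) (a b : Fin n) : adj (toE A) a b = A.1 a b := by
  by_cases h : a = b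
  · rw [h, adj_irr, A.irr]
  · exact Bool.eq_iff_iff.2 ((adj_mk h).trans mk_mem_toE)

lemma toE_mem (A : Gr (fun v => (d v : ℤ))) : toE A ∈ realizations d := by
  simp only [realizations, mem_filter, mem_univ, true_and]
  intro v
  have := adj_deg (toE A) v
  simp only [adj_toE, A.deg] at this
  exact_mod_cast this.symm

lemma sum_toE (φ : Finset (Edge n) → ℝ) :
    ∑ A : Gr (fun v => (d v : ℤ)), φ (toE A) = ∑ E ∈ realizations d, φ E := by
  refine Finset.sum_bij (fun A _ => toE A) (fun A _ => toE_mem A) ?_ ?_ (fun _ _ => rfl)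
  · intro A _ B _ h
    exact Gr.ext' fun a b => by rw [← adj_toE, ← adj_toE, h]
  · intro E hE
    simp only [realizations, mem_filter, mem_univ, true_and] at hE
    refine ⟨⟨adj E, adj_symm E, adj_irr E, fun a => by rw [adj_deg, hE]⟩, mem_univ _, ?_⟩
    ext e
    obtain ⟨a, b, h, rfl⟩ := edge_cases e
    rw [mk_mem_toE, adj_mk h]

lemma toE_sw {A : Gr (fun v => (d v : ℤ))} {u v a b : Fin n} (h : Act u v a b A)
    (h2 : u ≠ a) (h3 : u ≠ b) (h4 : v ≠ a) (h5 : v ≠ b) (hua : A.1 u a = true) :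
    toE (sw u v a b A) = switchResult (toE A) {mk u a h2, mk v b h5} {mk u b h3, mk v a h4} := by
  obtain ⟨v1, v2, v3⟩ := h.vals
  rw [hua] at v1 v2 v3
  have m1 : mk u a h2 ∈ toE A := mk_mem_toE.2 hua
  have m2 : mk v b h5 ∈ toE A := mk_mem_toE.2 v3
  have m3 : mk u b h3 ∉ toE A := by rw [mk_mem_toE, v2]; simp
  have m4 : mk v a h4 ∉ toE A := by rw [mk_mem_toE, v1]; simp
  rw [switchResult, if_pos ⟨by simp [Finset.insert_subset_iff, m1, m2], by simp [m3, m4]⟩]
  ext e
  obtain ⟨x, y, hxy, rfl⟩ := edge_cases e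
  rw [mk_mem_toE, sw_val h, flip]
  simp only [mem_union, mem_sdiff, mem_insert, mem_singleton, mk_mem_toE, mk_eq]
  obtain ⟨d1, d2, d3, d4, d5, d6⟩ := h.dist
  have w0 := (A.symm a u).trans hua
  have w1 := (A.symm a v).trans v1
  have w2 := (A.symm b u).trans v2
  have w3 := (A.symm b v).trans v3
  split_ifs with p
  · rcases p with ⟨rfl | rfl, rfl | rfl⟩ | ⟨rfl | rfl, rfl | rfl⟩ <;>
      simp [hua, v1, v2, v3, w0, w1, w2, w3, d1, d2, d3, d4, d5, d6, d1.symm, d2.symm,
        d3.symm, d4.symm, d5.symm, d6.symm]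
  · tauto

/-- Dirichlet energy on a four-set -/
noncomputable def energy (d : Fin n → ℕ) (f : Finset (Edge n) → ℝ) (S : Finset (Fin n)) : ℝ :=
  ∑ F ∈ pmSet S, ∑ F' ∈ (pmSet S).erase F, ∑ E ∈ realizations d,
    (f E - f (switchResult E F F')) ^ 2

lemma energy_nonneg (f : Finset (Edge n) → ℝ) (S : Finset (Fin n)) : 0 ≤ energy d f S :=
  Finset.sum_nonneg fun _ _ => Finset.sum_nonneg fun _ _ => Finset.sum_nonneg fun _ _ => sq_nonneg _

lemma tuple_le (f : Finset (Edge n) → ℝ) (u v a b : Fin n) :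
    ∑ A : Gr (fun v => (d v : ℤ)), (f (toE A) - f (toE (sw u v a b A))) ^ 2 ≤
      ∑ S ∈ (univ : Finset (Fin n)).powersetCard 4,
        if u ∈ S ∧ v ∈ S ∧ a ∈ S ∧ b ∈ S then energy d f S else 0 := by
  have nn : ∀ S ∈ (univ : Finset (Fin n)).powersetCard 4,
      0 ≤ if u ∈ S ∧ v ∈ S ∧ a ∈ S ∧ b ∈ S then energy d f S else 0 := fun S _ => by
    split_ifs
    · exact energy_nonneg f S
    · exact le_rfl
  by_cases hd : u ≠ v ∧ u ≠ a ∧ u ≠ b ∧ v ≠ a ∧ v ≠ b ∧ a ≠ b
  swap
  · rw [Finset.sum_eq_zero]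
    · exact Finset.sum_nonneg nn
    · intro A _
      rw [sw_id (fun q => hd q.dist)]; simp
  obtain ⟨d1, d2, d3, d4, d5, d6⟩ := hd
  have hS : ({u, v, a, b} : Finset (Fin n)) ∈ (univ : Finset (Fin n)).powersetCard 4 := by
    rw [mem_powersetCard]
    exact ⟨subset_univ _, Finset.card_eq_four.2 ⟨u, v, a, b, d1, d2, d3, d4, d5, d6, rfl⟩⟩
  refine le_trans ?_ (Finset.single_le_sum nn hS)
  rw [if_pos (by simp)]
  set F1 : Finset (Edge n) := {mk u a d2, mk v b d5} with hF1
  set F2 : Finset (Edge n) := {mk u b d3, mk v a d4} with hF2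
  have m1 : F1 ∈ pmSet ({u, v, a, b} : Finset (Fin n)) :=
    mem_pm d2 d1 d3 d4.symm d6 d5 (by simp; tauto)
  have m2 : F2 ∈ pmSet ({u, v, a, b} : Finset (Fin n)) :=
    mem_pm d3 d1 d2 d5.symm d6.symm d4 (by simp; tauto)
  have hne : F1 ≠ F2 := fun q => by
    have : mk u a d2 ∈ F2 := q ▸ mem_insert_self _ _
    simp [hF2, mk_eq, d1, d2, d3, d6] at this
  have nn2 : ∀ F F' : Finset (Edge n), 0 ≤ ∑ E ∈ realizations d,
      (f E - f (switchResult E F F')) ^ 2 := fun _ _ => Finset.sum_nonneg fun _ _ => sq_nonneg _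
  refine le_trans ?_ (Finset.add_le_sum (f := fun F => ∑ F' ∈ (pmSet {u, v, a, b}).erase F,
    ∑ E ∈ realizations d, (f E - f (switchResult E F F')) ^ 2)
    (fun F _ => Finset.sum_nonneg fun _ _ => nn2 _ _) m1 m2 hne)
  refine le_trans ?_ (add_le_add
    (Finset.single_le_sum (f := fun F' => ∑ E ∈ realizations d,
      (f E - f (switchResult E F1 F')) ^ 2) (fun F' _ => nn2 _ _) (mem_erase.2 ⟨hne.symm, m2⟩))
    (Finset.single_le_sum (f := fun F' => ∑ E ∈ realizations d,
      (f E - f (switchResult E F2 F')) ^ 2) (fun F' _ => nn2 _ _) (mem_erase.2 ⟨hne, m1⟩)))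
  rw [← sum_toE, ← sum_toE, ← Finset.sum_add_distrib]
  refine Finset.sum_le_sum fun A _ => ?_
  by_cases h : Act u v a b A
  · by_cases hua : A.1 u a = true
    · rw [toE_sw h d2 d3 d4 d5 hua]
      exact le_add_of_nonneg_right (sq_nonneg _)
    · have h' : Act u v b a A := ⟨h.2.1, h.1, h.2.2.symm⟩
      rw [show sw u v a b A = sw u v b a A from (john u v).τ_comm a b A,
        toE_sw h' d3 d2 d5 d4 (by rw [h.vals.2.1]; simpa using hua)]
      exact le_add_of_nonneg_left (sq_nonneg _)
  · rw [sw_id h]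
    simp only [sub_self, ne_eq, OfNat.ofNat_ne_zero, not_false_eq_true, zero_pow]
    positivity

lemma poincare' (hn : 4 ≤ n) (f : Finset (Edge n) → ℝ) :
    ((realizations d).card : ℝ) * (∑ G ∈ realizations d, f G ^ 2) - (∑ G ∈ realizations d, f G) ^ 2 ≤
      24 * (n : ℝ) ^ 2 * (n.choose 4 : ℝ) * (realizations d).card *
        ∑ G ∈ realizations d, f G * (f G - ∑ G' ∈ realizations d, kernel n G G' * f G') := by
  have h1 := poincare (d := fun v => (d v : ℤ)) (fun A => f (toE A))
  have hc : (Fintype.card (Gr (fun v => (d v : ℤ))) : ℝ) = (realizations d).card := by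
    have := sum_toE (d := d) (fun _ => 1)
    simpa using this
  rw [hc, sum_toE (fun E => f E ^ 2), sum_toE f] at h1
  have h2 : ∑ u, ∑ v, ∑ a, ∑ b, ∑ A : Gr (fun v => (d v : ℤ)),
      (f (toE A) - f (toE (sw u v a b A))) ^ 2 ≤
      256 * ∑ S ∈ (univ : Finset (Fin n)).powersetCard 4, energy d f S := by
    refine le_trans (Finset.sum_le_sum fun u _ => Finset.sum_le_sum fun v _ =>
      Finset.sum_le_sum fun a _ => Finset.sum_le_sum fun b _ => tuple_le f u v a b) (le_of_eq ?_)
    rw [Finset.sum_congr rfl fun u _ => Finset.sum_congr rfl fun v _ =>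
      Finset.sum_congr rfl fun a _ => Finset.sum_comm,
      Finset.sum_congr rfl fun u _ => Finset.sum_congr rfl fun v _ => Finset.sum_comm,
      Finset.sum_congr rfl fun u _ => Finset.sum_comm, Finset.sum_comm, Finset.mul_sum]
    refine Finset.sum_congr rfl fun S hS => ?_
    have := (mem_powersetCard.1 hS).2
    simp only [ite_and, Finset.sum_ite_irrel, Finset.sum_const_zero, Finset.sum_ite_mem, univ_inter,
      sum_const, this, nsmul_eq_mul]
    push_cast
    ring
  have hC : (0 : ℝ) < n.choose 4 := by exact_mod_cast Nat.choose_pos hn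
  have h3 : 24 * (n.choose 4 : ℝ) *
      ∑ G ∈ realizations d, f G * (f G - ∑ G' ∈ realizations d, kernel n G G' * f G') =
      ∑ S ∈ (univ : Finset (Fin n)).powersetCard 4, energy d f S := by
    have := dirichlet (realizations d) (kernel n) kernel_symm (fun x hx => kernel_row hn hx) f
    rw [Finset.sum_congr rfl fun x hx => kernel_sum hx (fun y => (f x - f y) ^ 2)] at this
    simp only [sub_self, ne_eq, OfNat.ofNat_ne_zero, not_false_eq_true, zero_pow, zero_div,
      zero_add, ← Finset.sum_div] at this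
    rw [eq_div_iff (by positivity), Finset.sum_comm] at this
    rw [show ∀ X : ℝ, 24 * (n.choose 4 : ℝ) * X = 2 * X * (12 * (n.choose 4 : ℝ)) from
      fun X => by ring, this]
    refine Finset.sum_congr rfl fun S _ => ?_
    rw [energy, Finset.sum_comm]
    exact Finset.sum_congr rfl fun F _ => Finset.sum_comm
  have h4 : 0 ≤ ∑ S ∈ (univ : Finset (Fin n)).powersetCard 4, energy d f S :=
    Finset.sum_nonneg fun S _ => energy_nonneg f S
  have hn' : (16 : ℝ) ≤ (n : ℝ) ^ 2 := by
    have : (4 : ℝ) ≤ n := by exact_mod_cast hn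
    nlinarith
  have hN : (0 : ℝ) ≤ (realizations d).card := Nat.cast_nonneg _
  rw [show ∀ X : ℝ, 24 * (n : ℝ) ^ 2 * (n.choose 4 : ℝ) * (realizations d).card * X =
    (n : ℝ) ^ 2 * ((realizations d).card * (24 * (n.choose 4 : ℝ) * X)) from fun X => by ring, h3]
  have h5 := mul_le_mul_of_nonneg_left h2 hN
  have h6 := mul_le_mul_of_nonneg_right hn' (mul_nonneg hN h4)
  linarith

lemma card_real_le : ((realizations d).card : ℝ) ≤ 2 ^ (n ^ 2) := by
  have h1 : (realizations d).card ≤ 2 ^ Fintype.card (Edge n) := by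
    rw [← Fintype.card_finset]
    exact Finset.card_le_univ _
  have h2 : Fintype.card (Edge n) ≤ n ^ 2 := by
    refine (Fintype.card_subtype_le _).trans ?_
    have := Fintype.card_le_of_surjective (fun p : Fin n × Fin n => s(p.1, p.2))
      (fun e => by induction e using Sym2.ind with | _ a b => exact ⟨(a, b), rfl⟩)
    simpa [sq] using this
  exact_mod_cast h1.trans (Nat.pow_le_pow_right (by norm_num) h2)

lemma mix_final (hn : 4 ≤ n) {G : Finset (Edge n)} (hG : G ∈ realizations d) :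
    tvDist (fun G' => (kernel n ^ (2 * n ^ 8)) G G') (unifOn (realizations d)) ≤ 1 / 4 := by
  have hn' : (4 : ℝ) ≤ n := by exact_mod_cast hn
  have hC : (1 : ℝ) ≤ n.choose 4 := by exact_mod_cast Nat.choose_pos hn
  have hc1 : (1 : ℝ) ≤ 24 * (n : ℝ) ^ 2 * (n.choose 4 : ℝ) := by nlinarith
  have hc2 : 24 * (n : ℝ) ^ 2 * (n.choose 4 : ℝ) ≤ (n : ℝ) ^ 6 := by
    have := Nat.choose_le_pow_div (α := ℝ) 4 n
    rw [le_div_iff₀ (by positivity)] at this
    norm_num [Nat.factorial] at this
    have h2 : (0 : ℝ) ≤ (n : ℝ) ^ 2 := by positivity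
    nlinarith
  have h := mixing (realizations d) (kernel n) kernel_symm (fun x hx => kernel_row hn hx)
    kernel_lazy (fun x hx y hy => kernel_supp hx hy) _ hc1 (poincare' hn) hG (2 * n ^ 8)
  have h2 := h.trans (numeric n hn _ _ card_real_le hc1 hc2)
  simp only [tvDist, unifOn]
  have h3 := abs_le_of_sq_le_sq' (b := 1 / 2) (h2.trans (by norm_num)) (by norm_num)
  linarith [h3.2]

end Crest.Agent.H9Sw
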