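import Crest.Agent.H9.SwJohn

set_option autoImplicit false

namespace Crest.Agent.H9Sw

open Finset Matrix

section
variable {Ω : Type} [Fintype Ω] [DecidableEq Ω]

lemma one_sub_av_transpose (s : Setoid Ω) : (1 - av s)ᵀ = 1 - av s := by
  simp [Matrix.transpose_sub, av_transpose]

lemma one_sub_av_idem (s : Setoid Ω) : (1 - av s) * (1 - av s) = 1 - av s := by
  simp [Matrix.mul_sub, Matrix.sub_mul, av_mul_self]

lemma quad {r1 r1' r2 r2' : Setoid Ω} (l1 : ∀ x y, r1' x y → r1 x y) (l2 : ∀ x y, r2' x y → r2 x y)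
    (c1 : av r1' * av r2 = av r2 * av r1') (c2 : av r2' * av r1 = av r1 * av r2')
    (c3 : av r1' * av r2' = av r2' * av r1') {τ : Ω → Ω} (hτ : ∀ x, τ (τ x) = x)
    (t1 : ∀ x, r1' x (τ x)) (t2 : ∀ x, r2' x (τ x)) (D : Ω → Prop) [DecidablePred D]
    (hD : ∀ x, ¬ D x → (∀ y, r1 x y → r1' x y) ∨ (∀ y, r2 x y → r2' x y)) (f : Ω → ℝ) :
    (proj τ *ᵥ f) ⬝ᵥ (proj τ *ᵥ f)
      - (∑ x, if D x then ((av r1' - av r1) *ᵥ f) x ^ 2 else 0) / 2
      - (∑ x, if D x then ((av r2' - av r2) *ᵥ f) x ^ 2 else 0) / 2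
      ≤ ((1 - av r1) *ᵥ f) ⬝ᵥ ((1 - av r2) *ᵥ f) := by
  have φs : ∀ s s' : Setoid Ω, (av s' - av s)ᵀ = av s' - av s := fun s s' => by
    simp [Matrix.transpose_sub, av_transpose]
  have φi : ∀ s s' : Setoid Ω, (∀ x y, s' x y → s x y) →
      (av s' - av s) * (av s' - av s) = av s' - av s := fun s s' l => by
    simp [Matrix.mul_sub, Matrix.sub_mul, av_mul_self, av_mul_av_of_le l, av_mul_av_of_le' l]
  have e1 : 1 - av r1 = (1 - av r1') + (av r1' - av r1) := by abel
  have e2 : 1 - av r2 = (1 - av r2') + (av r2' - av r2) := by abel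
  have a1 := dot_comm_idem_ge (π := proj τ) (one_sub_av_transpose r1') (one_sub_av_idem r1')
    (one_sub_av_transpose r2') (one_sub_av_idem r2')
    (by simp only [Matrix.mul_sub, Matrix.sub_mul, Matrix.one_mul, Matrix.mul_one, c3]; abel)
    (proj_transpose hτ) (proj_idem hτ)
    (by simp [Matrix.mul_sub, proj_mul_av t1]) (by simp [Matrix.mul_sub, proj_mul_av t2]) f
  have a2 := dot_comm_idem_nonneg (one_sub_av_transpose r1') (one_sub_av_idem r1')
    (φs r2 r2') (φi r2 r2' l2)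
    (by simp only [Matrix.mul_sub, Matrix.sub_mul, Matrix.one_mul, Matrix.mul_one, c3, c1]; abel) f
  have a3 := dot_comm_idem_nonneg (φs r1 r1') (φi r1 r1' l1) (one_sub_av_transpose r2')
    (one_sub_av_idem r2')
    (by simp only [Matrix.mul_sub, Matrix.sub_mul, Matrix.one_mul, Matrix.mul_one, c3, c2]; abel) f
  have a4 : - (∑ x, if D x then ((av r1' - av r1) *ᵥ f) x ^ 2 else 0) / 2
      - (∑ x, if D x then ((av r2' - av r2) *ᵥ f) x ^ 2 else 0) / 2 ≤
      ((av r1' - av r1) *ᵥ f) ⬝ᵥ ((av r2' - av r2) *ᵥ f) := by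
    simp only [dotProduct, Finset.sum_div, neg_div, ← Finset.sum_neg_distrib,
      ← Finset.sum_sub_distrib]
    refine Finset.sum_le_sum fun x _ => ?_
    split_ifs with h
    · nlinarith [sq_nonneg (((av r1' - av r1) *ᵥ f) x + ((av r2' - av r2) *ᵥ f) x)]
    · have key : ∀ s s' : Setoid Ω, (∀ x y, s' x y → s x y) → (∀ y, s x y → s' x y) →
          ((av s' - av s) *ᵥ f) x = 0 := by
        intro s s' l l'
        have : cls s' x = cls s x := by
          ext y; simp only [mem_cls]; exact ⟨l x y, l' y⟩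
        rw [Matrix.sub_mulVec, Pi.sub_apply, av_mulVec, av_mulVec, this, sub_self]
      rcases hD x h with q | q
      · rw [key r1 r1' l1 q]; simp
      · rw [key r2 r2' l2 q]; simp
  rw [e1, e2]
  simp only [Matrix.add_mulVec, dotProduct_add, add_dotProduct]
  linarith

end

lemma bochner {V : Type} [Fintype V] [DecidableEq V] (B : V → V → V → V → ℝ)
    (s1 : ∀ u v w z, B u v w z = B v u w z) (s2 : ∀ u v w z, B u v w z = B w z u v)
    (z1 : ∀ u w z, B u u w z = 0)
    (h3 : ∀ u v z, u ≠ v → u ≠ z → v ≠ z → 0 ≤ B u v u z + B v u v z + B z u z v)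
    (h4 : 0 ≤ ∑ u, ∑ v, ∑ w, ∑ z,
      if u ≠ v ∧ u ≠ w ∧ u ≠ z ∧ v ≠ w ∧ v ≠ z ∧ w ≠ z then B u v w z else 0) :
    2 * ∑ u, ∑ v, B u v u v ≤ ∑ u, ∑ v, ∑ w, ∑ z, B u v w z := by
  have s3 : ∀ u v w z, B u v w z = B u v z w := fun u v w z => by rw [s2, s1, s2]
  have z2 : ∀ u v w, B u v w w = 0 := fun u v w => by rw [s2, z1]
  set T : V → V → V → ℝ := fun u v z => if u ≠ v ∧ u ≠ z ∧ v ≠ z then B u v u z else 0 with hT
  have hT0 : 0 ≤ ∑ u, ∑ v, ∑ z, T u v z := by
    have e1 : ∑ u, ∑ v, ∑ z, T v u z = ∑ u, ∑ v, ∑ z, T u v z := Finset.sum_comm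
    have e2 : ∑ u, ∑ v, ∑ z, T z u v = ∑ u, ∑ v, ∑ z, T u v z := by
      rw [Finset.sum_congr rfl fun u _ => Finset.sum_comm, Finset.sum_comm]
    have e3 : 0 ≤ ∑ u, ∑ v, ∑ z, (T u v z + T v u z + T z u v) := by
      refine Finset.sum_nonneg fun u _ => Finset.sum_nonneg fun v _ => Finset.sum_nonneg fun z _ => ?_
      by_cases h : u ≠ v ∧ u ≠ z ∧ v ≠ z
      · simp only [hT]
        rw [if_pos h, if_pos ⟨h.1.symm, h.2.2, h.2.1⟩, if_pos ⟨h.2.1.symm, h.2.2.symm, h.1⟩]
        exact h3 u v z h.1 h.2.1 h.2.2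
      · simp only [hT]
        rw [if_neg h, if_neg (fun q => h ⟨q.1.symm, q.2.2, q.2.1⟩),
          if_neg (fun q => h ⟨q.2.2, q.1.symm, q.2.1.symm⟩)]
        simp
    simp only [Finset.sum_add_distrib, e1, e2] at e3
    linarith
  have pt : ∀ u v w z, B u v w z =
      (if w = u then (if z = v then B u v u v else 0) else 0) +
      (if w = v then (if z = u then B u v u v else 0) else 0) +
      (if w = u then T u v z else 0) + (if w = v then T v u z else 0) +
      (if z = u then T u v w else 0) + (if z = v then T v u w else 0) +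
      (if u ≠ v ∧ u ≠ w ∧ u ≠ z ∧ v ≠ w ∧ v ≠ z ∧ w ≠ z then B u v w z else 0) := by
    intro u v w z
    simp only [hT]
    by_cases p1 : u = v
    · subst p1; simp [z1]
    by_cases p2 : w = z
    · subst p2
      by_cases q1 : w = u
      · subst q1; simp [z2, p1]
      · by_cases q2 : w = v
        · subst q2; simp [z2, q1]
        · simp [z2, q1, q2]
    by_cases q1 : w = u
    · subst q1
      by_cases q2 : z = v
      · subst q2; simp [p1, Ne.symm p1]
      · simp [p1, p2, q2, Ne.symm p2, Ne.symm q2]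
    by_cases q2 : w = v
    · subst q2
      by_cases q3 : z = u
      · subst q3; simp [p1, q1, s3 z w w z]
      · simp [p1, p2, q1, q3, Ne.symm p2, Ne.symm q3, s1 u w w z]
    by_cases q3 : z = u
    · subst q3; simp [p1, q1, q2, Ne.symm q1, Ne.symm q2, s3 z v w z]
    by_cases q4 : z = v
    · subst q4
      simp only [p1, q1, q2, q3, Ne.symm q1, Ne.symm q2, if_false, if_true, ne_eq, not_false_eq_true,
        and_self, not_true_eq_false, false_and, and_false, zero_add, add_zero]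
      rw [s1, s3]
    · simp [p1, p2, q1, q2, q3, q4, Ne.symm q1, Ne.symm q2, Ne.symm q3, Ne.symm q4]
  rw [Finset.sum_congr rfl fun u _ => Finset.sum_congr rfl fun v _ =>
    Finset.sum_congr rfl fun w _ => Finset.sum_congr rfl fun z _ => pt u v w z]
  simp only [Finset.sum_add_distrib]
  have k1 : ∀ u v : V, ∑ w, ∑ z, (if w = u then (if z = v then B u v u v else 0) else 0) =
      B u v u v := fun u v => by simp
  have k2 : ∀ u v : V, ∑ w, ∑ z, (if w = v then (if z = u then B u v u v else 0) else 0) =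
      B u v u v := fun u v => by simp
  have k3 : ∀ u v : V, ∑ w, ∑ z, (if w = u then T u v z else 0) = ∑ z, T u v z := fun u v => by
    rw [Finset.sum_comm]; simp
  have k4 : ∀ u v : V, ∑ w, ∑ z, (if w = v then T v u z else 0) = ∑ z, T v u z := fun u v => by
    rw [Finset.sum_comm]; simp
  have k5 : ∀ u v : V, ∑ w, ∑ z, (if z = u then T u v w else 0) = ∑ z, T u v z := fun u v => by
    simp
  have k6 : ∀ u v : V, ∑ w, ∑ z, (if z = v then T v u w else 0) = ∑ z, T v u z := fun u v => by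
    simp
  have e1 : ∑ u, ∑ v, ∑ z, T v u z = ∑ u, ∑ v, ∑ z, T u v z := Finset.sum_comm
  simp only [k1, k2, k3, k5, e1]
  linarith

end Crest.Agent.H9Sw
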