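import Crest.Agent.H9.SwTrip

set_option autoImplicit false

namespace Crest.Agent.H9Sw

open Finset Matrix

namespace Trip

variable {Ω C : Type} [Fintype C] [DecidableEq C] (T : Trip Ω C)

open Classical in
/-- the switch as a function -/
noncomputable def σ (j k : Fin 3) (a b : C) (G : Ω) : Ω :=
  if h : T.x G a j = true ∧ T.x G a k = false ∧ T.x G b j = false ∧ T.x G b k = true then
    (T.sw G j k a b h.1 h.2.1 h.2.2.1 h.2.2.2).choose else G

lemma σ_spec {j k : Fin 3} {a b : C} {G : Ω}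
    (h : T.x G a j = true ∧ T.x G a k = false ∧ T.x G b j = false ∧ T.x G b k = true) :
    T.s0 G (T.σ j k a b G) ∧ ∀ c l, T.x (T.σ j k a b G) c l =
      if (c = a ∨ c = b) ∧ (l = j ∨ l = k) then !T.x G c l else T.x G c l := by
  unfold σ
  rw [dif_pos h]
  exact (T.sw G j k a b h.1 h.2.1 h.2.2.1 h.2.2.2).choose_spec

/-- moving from colour `k` to colour `j` -/
lemma move {i j k : Fin 3} (hij : i ≠ j) (hik : i ≠ k) (hjk : j ≠ k) {G : Ω} {a b : C}
    (ha : a ∈ T.tS G k) (hb : b ∈ T.uS G k) :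
    T.s i G (T.σ k j a b G) ∧ a ∈ T.tS (T.σ k j a b G) j ∧ b ∈ T.uS (T.σ k j a b G) j ∧
      T.σ j k a b (T.σ k j a b G) = G ∧
      (T.tS (T.σ k j a b G) j).card = (T.tS G j).card + 1 ∧
      (T.tS G k).card = (T.tS (T.σ k j a b G) k).card + 1 := by
  simp only [tS, uS, mem_filter, mem_univ, true_and] at ha hb
  have a2 : T.x G a j = false := dec6 _ j k hjk ha.1 ha.2
  have b2 : T.x G b j = true := dec7 _ j k hjk hb.1 hb.2
  have hab : a ≠ b := fun e => by rw [e, hb.1] at ha; simp at ha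
  obtain ⟨r, e⟩ := T.σ_spec (j := k) (k := j) (a := a) (b := b) (G := G) ⟨ha.2, a2, hb.2, b2⟩
  set G' := T.σ k j a b G with hG'
  have x1 : T.x G' a j = true := by simp [e, a2]
  have x2 : T.x G' a k = false := by simp [e, ha.2]
  have x3 : T.x G' b j = false := by simp [e, b2]
  have x4 : T.x G' b k = true := by simp [e, hb.2]
  obtain ⟨r', e'⟩ := T.σ_spec (j := j) (k := k) (a := a) (b := b) (G := G') ⟨x1, x2, x3, x4⟩
  refine ⟨?_, ?_, ?_, ?_, ?_, ?_⟩
  · rw [T.s_iff]
    exact ⟨r, fun c => by simp [e, hij, hik]⟩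
  · simp [tS, ← T.cs_eq r, ha.1, x1]
  · simp [uS, ← T.cs_eq r, hb.1, x3]
  · symm
    apply T.inj _ _ (T.s0.trans' r r')
    intro c l
    rw [e', e]
    by_cases p : (c = a ∨ c = b) ∧ (l = j ∨ l = k)
    · rw [if_pos p, if_pos ⟨p.1, p.2.symm⟩, Bool.not_not]
    · rw [if_neg p, if_neg (fun q => p ⟨q.1, q.2.symm⟩)]
  · rw [← Finset.card_insert_of_notMem (a := a) (by simp [tS, a2])]
    congr 1
    ext c
    simp only [tS, mem_filter, mem_univ, true_and, mem_insert, ← T.cs_eq r]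
    by_cases p : c = a
    · subst p; simp [ha.1, x1]
    · by_cases q : c = b
      · subst q; simp [hb.1, p]
      · simp [e, p, q]
  · rw [← Finset.card_insert_of_notMem (a := a) (by simp [tS, x2])]
    congr 1
    ext c
    simp only [tS, mem_filter, mem_univ, true_and, mem_insert, ← T.cs_eq r]
    by_cases p : c = a
    · subst p; simp [ha.1, ha.2]
    · by_cases q : c = b
      · subst q; simp [hb.1, p]
      · simp [e, p, q]

variable [Fintype Ω]

/-- level sets -/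
noncomputable def lev (i j : Fin 3) (G : Ω) (y : ℕ) : Finset Ω :=
  (cls (T.s i) G).filter (fun G' => (T.tS G' j).card = y)

lemma recur {i j k : Fin 3} (hij : i ≠ j) (hik : i ≠ k) (hjk : j ≠ k) (G : Ω) (y : ℕ) :
    ∑ G' ∈ T.lev i j G y, (T.tS G' k).card * (T.uS G' k).card =
      ∑ G' ∈ T.lev i j G (y + 1), (T.tS G' j).card * (T.uS G' j).card := by
  simp only [← Finset.card_product]
  rw [← Finset.card_sigma, ← Finset.card_sigma]
  refine Finset.card_bij' (fun p _ => ⟨T.σ k j p.2.1 p.2.2 p.1, p.2⟩)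
    (fun p _ => ⟨T.σ j k p.2.1 p.2.2 p.1, p.2⟩) ?_ ?_ ?_ ?_
  · rintro ⟨G', a, b⟩ hp
    simp only [mem_sigma, lev, mem_filter, mem_cls, mem_product] at hp ⊢
    obtain ⟨⟨h1, h2⟩, ha, hb⟩ := hp
    obtain ⟨m1, m2, m3, -, m5, -⟩ := T.move hij hik hjk ha hb
    exact ⟨⟨(T.s i).trans' h1 m1, by rw [m5, h2]⟩, m2, m3⟩
  · rintro ⟨G', a, b⟩ hp
    simp only [mem_sigma, lev, mem_filter, mem_cls, mem_product] at hp ⊢
    obtain ⟨⟨h1, h2⟩, ha, hb⟩ := hp
    obtain ⟨m1, m2, m3, -, -, m6⟩ := T.move hik hij hjk.symm ha hb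
    exact ⟨⟨(T.s i).trans' h1 m1, by omega⟩, m2, m3⟩
  · rintro ⟨G', a, b⟩ hp
    simp only [mem_sigma, lev, mem_filter, mem_cls, mem_product] at hp
    obtain ⟨⟨h1, h2⟩, ha, hb⟩ := hp
    obtain ⟨-, -, -, m4, -⟩ := T.move hij hik hjk ha hb
    simp only [m4]
  · rintro ⟨G', a, b⟩ hp
    simp only [mem_sigma, lev, mem_filter, mem_cls, mem_product] at hp
    obtain ⟨⟨h1, h2⟩, ha, hb⟩ := hp
    obtain ⟨-, -, -, m4, -⟩ := T.move hik hij hjk.symm ha hb
    simp only [m4]

lemma lev_val {i j k : Fin 3} (hij : i ≠ j) (hik : i ≠ k) (hjk : j ≠ k) {G0 G G' : Ω}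
    (h0 : T.s0 G0 G) {y : ℕ} (h : G' ∈ T.lev i j G y) :
    ((T.tS G' j).card : ℝ) = y ∧
    ((T.uS G' j).card : ℝ) = y - (((T.tS G0 j).card : ℝ) - (T.uS G0 j).card) ∧
    ((T.tS G' k).card : ℝ) = (univ.filter (fun c => T.cs G0 c = 1)).card - (T.tS G i).card - y ∧
    ((T.uS G' k).card : ℝ) = (univ.filter (fun c => T.cs G0 c = 1)).card - (T.tS G i).card - y -
      (((T.tS G0 k).card : ℝ) - (T.uS G0 k).card) := by
  simp only [lev, mem_filter, mem_cls] at h
  have r := T.s0.trans' h0 ((T.s_iff _ _ _).1 h.1).1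
  have e1 : ((T.tS G' j).card : ℝ) = y := by exact_mod_cast h.2
  have e2 := T.tu_eq r j
  have e3 := T.tu_eq r k
  have e4 := T.t_sum r hij hik hjk
  rw [← T.tS_eq h.1] at e4
  refine ⟨e1, ?_, ?_, ?_⟩ <;> linarith

lemma recur' {i j k : Fin 3} (hij : i ≠ j) (hik : i ≠ k) (hjk : j ≠ k) {G0 G : Ω}
    (h0 : T.s0 G0 G) (y : ℕ) :
    ((T.lev i j G (y + 1)).card : ℝ) *
        (((y : ℝ) + 1) * (y + 1 - (((T.tS G0 j).card : ℝ) - (T.uS G0 j).card))) =
      (T.lev i j G y).card *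
        ((((univ.filter (fun c => T.cs G0 c = 1)).card : ℝ) - (T.tS G i).card - y) *
          ((univ.filter (fun c => T.cs G0 c = 1)).card - (T.tS G i).card - y -
            (((T.tS G0 k).card : ℝ) - (T.uS G0 k).card))) := by
  have h := congrArg (Nat.cast (R := ℝ)) (T.recur hij hik hjk G y)
  simp only [Nat.cast_sum, Nat.cast_mul] at h
  rw [Finset.sum_congr rfl (fun G' hG' => by
      rw [(T.lev_val hij hik hjk h0 hG').2.2.1, (T.lev_val hij hik hjk h0 hG').2.2.2]),
    Finset.sum_congr (s₁ := T.lev i j G (y + 1)) rfl (fun G' hG' => by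
      rw [(T.lev_val hij hik hjk h0 hG').1, (T.lev_val hij hik hjk h0 hG').2.1])] at h
  simp only [sum_const, nsmul_eq_mul, Nat.cast_add, Nat.cast_one] at h
  exact h.symm

lemma cross {i j k : Fin 3} (hij : i ≠ j) (hik : i ≠ k) (hjk : j ≠ k) {G G' : Ω}
    (h : T.s0 G G') (hs : (T.tS G i).card ≤ (T.tS G' i).card) {x y : ℕ} (hxy : x ≤ y) :
    ((T.lev i j G x).card : ℝ) * (T.lev i j G' y).card ≤
      (T.lev i j G y).card * (T.lev i j G' x).card := by
  rcases (T.lev i j G x).eq_empty_or_nonempty with e | ⟨G1, h1⟩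
  · rw [e]; simp only [card_empty, Nat.cast_zero, zero_mul]; positivity
  rcases (T.lev i j G' y).eq_empty_or_nonempty with e | ⟨G2, h2⟩
  · rw [e]; simp only [card_empty, Nat.cast_zero, mul_zero]; positivity
  have v1 := (T.lev_val hij hik hjk (T.s0.refl' G) h1).2.1
  obtain ⟨-, -, v2, v3⟩ := T.lev_val hij hik hjk h h2
  have p1 : (0 : ℝ) ≤ (T.uS G1 j).card := Nat.cast_nonneg _
  have p2 : (0 : ℝ) ≤ (T.tS G2 k).card := Nat.cast_nonneg _
  have p3 : (0 : ℝ) ≤ (T.uS G2 k).card := Nat.cast_nonneg _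
  have hs' : ((T.tS G i).card : ℝ) ≤ (T.tS G' i).card := by exact_mod_cast hs
  refine cross_ineq (fun y => ((T.lev i j G y).card : ℝ)) (fun y => ((T.lev i j G' y).card : ℝ))
    _ _ _ (fun _ => Nat.cast_nonneg _) (fun _ => Nat.cast_nonneg _)
    (T.recur' hij hik hjk (T.s0.refl' G)) (T.recur' hij hik hjk h) hxy ?_ ?_
  · intro w hw _
    have : (x : ℝ) ≤ w := by exact_mod_cast hw
    have : (0 : ℝ) ≤ w := Nat.cast_nonneg _
    apply mul_pos <;> linarith
  · intro w _ hw
    have : (w : ℝ) ≤ y := by exact_mod_cast hw.le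
    refine ⟨mul_nonneg (by linarith) (by linarith), ?_⟩
    apply mul_le_mul <;> linarith

lemma mono {i j k : Fin 3} (hij : i ≠ j) (hik : i ≠ k) (hjk : j ≠ k) {G G' : Ω}
    (h : T.s0 G G') (hs : (T.tS G i).card ≤ (T.tS G' i).card) (ψ : Ω → ℝ)
    (hψ : ∀ G1 G2, T.s0 G1 G2 → (T.tS G1 j).card ≤ (T.tS G2 j).card → ψ G1 ≤ ψ G2) :
    (av (T.s i) *ᵥ ψ) G' ≤ (av (T.s i) *ᵥ ψ) G := by
  classical
  set φ : ℕ → ℝ := fun y =>
    if e : ∃ G1, T.s0 G G1 ∧ (T.tS G1 j).card = y then ψ e.choose else 0 with hφ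
  have hφ1 : ∀ G1, T.s0 G G1 → φ (T.tS G1 j).card = ψ G1 := by
    intro G1 r
    have e : ∃ G2, T.s0 G G2 ∧ (T.tS G2 j).card = (T.tS G1 j).card := ⟨G1, r, rfl⟩
    simp only [hφ, dif_pos e]
    have r' := T.s0.trans' (T.s0.symm' r) e.choose_spec.1
    exact le_antisymm (hψ _ _ (T.s0.symm' r') e.choose_spec.2.le) (hψ _ _ r' e.choose_spec.2.ge)
  set R := Finset.range (Fintype.card C + 1) with hR
  have hsum : ∀ G1, T.s0 G G1 → ∀ (F : ℕ → ℝ), ∑ G2 ∈ cls (T.s i) G1, F (T.tS G2 j).card =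
      ∑ y ∈ R, ((T.lev i j G1 y).card : ℝ) * F y := by
    intro G1 _ F
    rw [← Finset.sum_fiberwise_of_maps_to (t := R) (g := fun G2 => (T.tS G2 j).card)
      (fun G2 _ => by simp [hR, Finset.card_le_univ])]
    refine Finset.sum_congr rfl fun y _ => ?_
    rw [Finset.sum_congr rfl (g := fun _ => F y)]
    · simp [lev]
    · intro G2 h2
      rw [(mem_filter.1 h2).2]
  have hsψ : ∀ G1, T.s0 G G1 → ∑ G2 ∈ cls (T.s i) G1, ψ G2 =
      ∑ y ∈ R, ((T.lev i j G1 y).card : ℝ) * φ y := by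
    intro G1 r
    rw [← hsum G1 r φ]
    refine Finset.sum_congr rfl fun G2 h2 => ?_
    rw [hφ1 G2 (T.s0.trans' r ((T.s_iff _ _ _).1 (mem_cls.1 h2)).1)]
  have hc : ∀ G1, T.s0 G G1 → ((cls (T.s i) G1).card : ℝ) =
      ∑ y ∈ R, ((T.lev i j G1 y).card : ℝ) := by
    intro G1 r
    have := hsum G1 r (fun _ => 1)
    simpa using this
  rw [av_mulVec, av_mulVec, div_le_div_iff₀ (card_cls_pos _ _) (card_cls_pos _ _), hsψ G' h,
    hsψ G (T.s0.refl' G), hc G' h, hc G (T.s0.refl' G)]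
  apply cheb
  intro x y hxy
  have att : ∀ w, (∃ G1, T.s0 G G1 ∧ (T.tS G1 j).card = w) ∨
      (T.lev i j G w = ∅ ∧ T.lev i j G' w = ∅) := by
    intro w
    rw [or_iff_not_imp_left]
    intro hn
    push Not at hn
    constructor
    · refine Finset.eq_empty_of_forall_notMem fun G1 h1 => ?_
      simp only [lev, mem_filter, mem_cls] at h1
      exact hn G1 ((T.s_iff _ _ _).1 h1.1).1 h1.2
    · refine Finset.eq_empty_of_forall_notMem fun G1 h1 => ?_
      simp only [lev, mem_filter, mem_cls] at h1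
      exact hn G1 (T.s0.trans' h ((T.s_iff _ _ _).1 h1.1).1) h1.2
  rcases att x with ⟨G1, r1, e1⟩ | ⟨e1, e2⟩
  · rcases att y with ⟨G2, r2, e2⟩ | ⟨e2, e3⟩
    · apply mul_nonneg
      · rw [← e1, ← e2, hφ1 G1 r1, hφ1 G2 r2, sub_nonneg]
        exact hψ _ _ (T.s0.trans' (T.s0.symm' r1) r2) (by omega)
      · rw [sub_nonneg]
        exact T.cross hij hik hjk h hs hxy.le
    · simp [e2, e3]
  · simp [e1, e2]

lemma av_ρ (a b : C) (i : Fin 3) (F : Ω → ℝ) (G : Ω) :
    (av (T.s i) *ᵥ F) (T.ρ a b G) = (av (T.s i) *ᵥ (fun G => F (T.ρ a b G))) G := by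
  have key : ∀ F : Ω → ℝ, ∑ y ∈ cls (T.s i) (T.ρ a b G), F y = ∑ y ∈ cls (T.s i) G, F (T.ρ a b y) := by
    intro F
    refine Finset.sum_bij' (fun y _ => T.ρ a b y) (fun y _ => T.ρ a b y) ?_ ?_ ?_ ?_ ?_
    · intro y hy
      have := T.ρ_s (a := a) (b := b) (mem_cls.1 hy)
      rwa [T.ρ_invol, ← mem_cls] at this
    · intro y hy
      exact mem_cls.2 (T.ρ_s (mem_cls.1 hy))
    · intro y _; exact T.ρ_invol a b y
    · intro y _; exact T.ρ_invol a b y
    · intro y _; rw [T.ρ_invol]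
  have k1 := key (fun _ => 1)
  simp only [sum_const, nsmul_eq_mul, mul_one] at k1
  rw [av_mulVec, av_mulVec, key, k1]

lemma vanish (g : Fin 3 → Ω → ℝ) (κ : ℝ) (h1 : 1 < κ) (h2 : κ < 2)
    (hinv : ∀ i G G', T.s i G G' → g i G = g i G')
    (heq : ∀ i G, κ * g i G = (av (T.s i) *ᵥ (g (i + 1) + g (i + 2))) G) : ∀ i G, g i G = 0 := by
  classical
  have n1 : ∀ i : Fin 3, i ≠ i + 1 := by decide
  have n2 : ∀ i : Fin 3, i ≠ i + 2 := by decide
  have n3 : ∀ i : Fin 3, i + 1 ≠ i + 2 := by decide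
  -- step 1
  have s1 := contract (I := Fin 3 × C × C × Ω)
    (fun t => g t.1 t.2.2.2 - g t.1 (T.ρ t.2.1 t.2.2.1 t.2.2.2)) (fun _ => 1) (fun _ => zero_le_one)
    (fun _ h => absurd h one_ne_zero) κ h1 (by
      rintro D hD hb ⟨i, a, b, G⟩
      simp only [mul_one] at hb ⊢
      by_cases e : T.cs G a = T.cs G b
      swap
      · rw [T.ρ_id e]; simpa using hD
      by_cases e' : T.x G a i = T.x G b i
      · rw [← hinv i _ _ (T.ρ_s_self e')]; simpa using hD
      rw [mul_sub, heq, heq, T.av_ρ, ← Pi.sub_apply (av (T.s i) *ᵥ _), ← Matrix.mulVec_sub]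
      apply av_mulVec_le
      intro y hy
      have hy' := (T.s_iff _ _ _).1 hy
      have b1 := hb (i + 1, a, b, y)
      have b2 := hb (i + 2, a, b, y)
      simp only [Pi.sub_apply, Pi.add_apply] at b1 b2 ⊢
      rcases dec2 (T.x y a) (T.x y b) i (by
        have := e; rwa [T.cs_eq hy'.1, T.cs_eq hy'.1] at this) (by rwa [← hy'.2, ← hy'.2]) with q | q
      · rw [← hinv _ _ _ (T.ρ_s_self q)]; linarith
      · rw [← hinv _ _ _ (T.ρ_s_self q)]; linarith)
  have s1' : ∀ i a b G, g i (T.ρ a b G) = g i G := by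
    intro i a b G
    have p := s1 (i, a, b, G)
    have q := s1 (i, a, b, T.ρ a b G)
    simp only [T.ρ_invol] at p q
    linarith
  -- step 2
  have s2 := contract (I := Fin 3 × Ω × Ω)
    (fun t => if T.s0 t.2.1 t.2.2 then g t.1 t.2.1 - g t.1 t.2.2 else 0)
    (fun t => |((T.tS t.2.1 t.1).card : ℝ) - (T.tS t.2.2 t.1).card|) (fun _ => abs_nonneg _)
    (by
      rintro ⟨i, G, G'⟩ h
      simp only at h ⊢
      split_ifs with r
      · rw [abs_eq_zero, sub_eq_zero] at h
        rw [T.dep_t (hinv i) (s1' i) r (by exact_mod_cast h)]; simp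
      · exact le_rfl) κ h1 (by
      intro D hD hb
      have hb' : ∀ l G1 G2, T.s0 G1 G2 → (T.tS G1 l).card ≤ (T.tS G2 l).card →
          |g l G1 - g l G2| ≤ D * (((T.tS G2 l).card : ℝ) - (T.tS G1 l).card) := by
        intro l G1 G2 r hle
        have hle' : ((T.tS G1 l).card : ℝ) ≤ (T.tS G2 l).card := by exact_mod_cast hle
        have p := hb (l, G1, G2)
        have q := hb (l, G2, G1)
        simp only [if_pos r, if_pos (T.s0.symm' r)] at p q
        rw [abs_of_nonpos (by linarith)] at p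
        rw [abs_of_nonneg (by linarith)] at q
        rw [abs_le]; constructor <;> linarith
      have main : ∀ i G G', T.s0 G G' → (T.tS G i).card ≤ (T.tS G' i).card →
          |κ * (g i G - g i G')| ≤ D * (((T.tS G' i).card : ℝ) - (T.tS G i).card) := by
        intro i G G' r hle
        have tt : ∀ G1, T.s0 G G1 → (av (T.s i) *ᵥ (fun y => ((T.tS y (i + 1)).card : ℝ))) G1 +
            (av (T.s i) *ᵥ (fun y => ((T.tS y (i + 2)).card : ℝ))) G1 =
            (univ.filter (fun c => T.cs G c = 1)).card - (T.tS G1 i).card := by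
          intro G1 r1
          rw [← Pi.add_apply (av (T.s i) *ᵥ _), ← Matrix.mulVec_add, av_mulVec_of_const]
          · have := T.t_sum r1 (n1 i) (n2 i) (n3 i)
            simp only [Pi.add_apply]; linarith
          · intro y hy
            have p := T.t_sum r1 (n1 i) (n2 i) (n3 i)
            have q := T.t_sum (T.s0.trans' r1 ((T.s_iff _ _ _).1 hy).1) (n1 i) (n2 i) (n3 i)
            rw [← T.tS_eq hy] at q
            simp only [Pi.add_apply]; linarith
        have mm : ∀ (ε : ℝ), (ε = 1 ∨ ε = -1) → ∀ l l', i ≠ l → i ≠ l' → l ≠ l' →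
            D * (av (T.s i) *ᵥ (fun y => ((T.tS y l).card : ℝ))) G' + ε * (av (T.s i) *ᵥ g l) G' ≤
            D * (av (T.s i) *ᵥ (fun y => ((T.tS y l).card : ℝ))) G + ε * (av (T.s i) *ᵥ g l) G := by
          intro ε hε l l' a1 a2 a3
          have := T.mono a1 a2 a3 r hle (D • (fun y => ((T.tS y l).card : ℝ)) + ε • g l) (by
            intro G1 G2 r' hle'
            have := abs_le.1 (hb' l G1 G2 r' hle')
            simp only [Pi.add_apply, Pi.smul_apply, smul_eq_mul]
            rcases hε with rfl | rfl <;> linarith [this.1, this.2])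
          simpa only [Matrix.mulVec_add, Matrix.mulVec_smul, Pi.add_apply, Pi.smul_apply,
            smul_eq_mul] using this
        have m1 := mm 1 (Or.inl rfl) _ _ (n1 i) (n2 i) (n3 i)
        have m2 := mm 1 (Or.inl rfl) _ _ (n2 i) (n1 i) (n3 i).symm
        have m3 := mm (-1) (Or.inr rfl) _ _ (n1 i) (n2 i) (n3 i)
        have m4 := mm (-1) (Or.inr rfl) _ _ (n2 i) (n1 i) (n3 i).symm
        have t1 := congrArg (D * ·) (tt G (T.s0.refl' G))
        have t2 := congrArg (D * ·) (tt G' r)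
        have e1 := heq i G
        have e2 := heq i G'
        simp only [Matrix.mulVec_add, Pi.add_apply] at e1 e2
        simp only [mul_add, mul_sub] at t1 t2 ⊢
        rw [abs_le]; constructor <;> linarith
      rintro ⟨i, G, G'⟩
      simp only
      split_ifs with r
      · rcases le_total (T.tS G i).card (T.tS G' i).card with hle | hle
        · have hle' : ((T.tS G i).card : ℝ) ≤ (T.tS G' i).card := by exact_mod_cast hle
          rw [abs_of_nonpos (by linarith)]
          have := abs_le.1 (main i G G' r hle)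
          linarith [this.2]
        · have hle' : ((T.tS G' i).card : ℝ) ≤ (T.tS G i).card := by exact_mod_cast hle
          rw [abs_of_nonneg (by linarith)]
          have := abs_le.1 (main i G' G (T.s0.symm' r) hle)
          linarith [this.1]
      · simp only [mul_zero]; exact mul_nonneg hD (abs_nonneg _))
  have s2' : ∀ i G G', T.s0 G G' → g i G' = g i G := by
    intro i G G' r
    have p := s2 (i, G, G')
    have q := s2 (i, G', G)
    simp only [if_pos r, if_pos (T.s0.symm' r)] at p q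
    linarith
  have s3 : ∀ i G, κ * g i G = g (i + 1) G + g (i + 2) G := by
    intro i G
    rw [heq, av_mulVec_of_const]
    · rfl
    · intro y hy
      have r := ((T.s_iff _ _ _).1 hy).1
      simp only [Pi.add_apply, s2' _ _ _ r]
  intro i G
  have e0 : κ * g 0 G = g 1 G + g 2 G := s3 0 G
  have e1 : κ * g 1 G = g 2 G + g 0 G := s3 1 G
  have e2 : κ * g 2 G = g 0 G + g 1 G := s3 2 G
  have z : g 0 G + g 1 G + g 2 G = 0 := by
    have : (κ - 2) * (g 0 G + g 1 G + g 2 G) = 0 := by linarith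
    exact (mul_eq_zero.1 this).resolve_left (by linarith)
  have z' : ∀ c : ℝ, (κ + 1) * c = 0 → c = 0 := fun c h =>
    (mul_eq_zero.1 h).resolve_left (by linarith)
  fin_cases i
  · exact z' (g 0 G) (by linarith)
  · exact z' (g 1 G) (by linarith)
  · exact z' (g 2 G) (by linarith)

variable [DecidableEq Ω]

theorem triple (f : Ω → ℝ) :
    0 ≤ ((1 - av (T.s 0)) *ᵥ f) ⬝ᵥ ((1 - av (T.s 1)) *ᵥ f) +
      ((1 - av (T.s 0)) *ᵥ f) ⬝ᵥ ((1 - av (T.s 2)) *ᵥ f) +
      ((1 - av (T.s 1)) *ᵥ f) ⬝ᵥ ((1 - av (T.s 2)) *ᵥ f) := by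
  have hs : ∀ i, (1 - av (T.s i))ᵀ = 1 - av (T.s i) := fun i => by
    simp [Matrix.transpose_sub, av_transpose]
  have hi : ∀ i, (1 - av (T.s i)) * (1 - av (T.s i)) = 1 - av (T.s i) := fun i => by
    simp [Matrix.mul_sub, Matrix.sub_mul, av_mul_self]
  have hT : ((1 - av (T.s 0)) + (1 - av (T.s 1)) + (1 - av (T.s 2)))ᵀ =
      (1 - av (T.s 0)) + (1 - av (T.s 1)) + (1 - av (T.s 2)) := by
    simp only [Matrix.transpose_add, hs]
  have := spectral hT 1 (-1) 0 (fun μ v hv e => ?_) f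
  · simp only [Matrix.add_mulVec, dotProduct_add, add_dotProduct, dot_idem (hs _) (hi _) f] at this
    rw [dotProduct_comm ((1 - av (T.s 1)) *ᵥ f) ((1 - av (T.s 0)) *ᵥ f),
      dotProduct_comm ((1 - av (T.s 2)) *ᵥ f) ((1 - av (T.s 0)) *ᵥ f),
      dotProduct_comm ((1 - av (T.s 2)) *ᵥ f) ((1 - av (T.s 1)) *ᵥ f)] at this
    linarith
  · by_contra hc
    push Not at hc
    have m0 : 0 < μ := by nlinarith
    have m1 : μ < 1 := by nlinarith
    have e' : ∀ i : Fin 3, av (T.s i) *ᵥ v + av (T.s (i + 1)) *ᵥ v + av (T.s (i + 2)) *ᵥ v =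
        (3 - μ) • v := by
      have e0 : av (T.s 0) *ᵥ v + av (T.s 1) *ᵥ v + av (T.s 2) *ᵥ v = (3 - μ) • v := by
        simp only [Matrix.add_mulVec, Matrix.sub_mulVec, Matrix.one_mulVec] at e
        funext x
        have := congrFun e x
        simp only [Pi.add_apply, Pi.sub_apply, Pi.smul_apply, smul_eq_mul] at this ⊢
        linarith
      intro i
      rw [← e0]
      fin_cases i
      · rfl
      · change av (T.s 1) *ᵥ v + av (T.s 2) *ᵥ v + av (T.s 0) *ᵥ v = _; abel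
      · change av (T.s 2) *ᵥ v + av (T.s 0) *ᵥ v + av (T.s 1) *ᵥ v = _; abel
    have z := T.vanish (fun i => av (T.s i) *ᵥ v) (2 - μ) (by linarith) (by linarith)
      (fun i G G' r => av_mulVec_congr v r) (fun i G => by
        have h := congrFun (congrArg (av (T.s i) *ᵥ ·) (e' i)) G
        simp only [add_assoc, Matrix.mulVec_add (av (T.s i)) (av (T.s i) *ᵥ v), Matrix.mulVec_mulVec,
          av_mul_self, Matrix.mulVec_smul, Pi.add_apply, Pi.smul_apply, smul_eq_mul] at h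
        linarith)
    apply hv
    funext x
    have := congrFun (e' 0) x
    simp only [Pi.add_apply, z, Pi.smul_apply, smul_eq_mul, add_zero] at this
    exact (mul_eq_zero.1 this.symm).resolve_left (by linarith)

end Trip

end Crest.Agent.H9Sw
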