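import Crest.Agent.H9.SwJohn2
import Crest.Agent.H9.SwTrip2
import Crest.Agent.H9.SwQuad

set_option autoImplicit false

namespace Crest.Agent.H9Sw

open Finset Matrix

variable {V : Type} [Fintype V] [DecidableEq V]

/-- graphs with a given degree vector -/
def Gr (d : V → ℤ) : Type :=
  {A : V → V → Bool // (∀ a b, A a b = A b a) ∧ (∀ a, A a a = false) ∧ ∀ a, ∑ b, χ (A a b) = d a}

noncomputable instance (d : V → ℤ) : Fintype (Gr d) := by
  classical
  unfold Gr; infer_instance

instance (d : V → ℤ) : DecidableEq (Gr d) := by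
  unfold Gr; infer_instance

variable {d : V → ℤ}

omit [DecidableEq V] in
lemma Gr.symm (A : Gr d) (a b : V) : A.1 a b = A.1 b a := A.2.1 a b
omit [DecidableEq V] in
lemma Gr.irr (A : Gr d) (a : V) : A.1 a a = false := A.2.2.1 a
omit [DecidableEq V] in
lemma Gr.deg (A : Gr d) (a : V) : ∑ b, χ (A.1 a b) = d a := A.2.2.2 a
omit [DecidableEq V] in
lemma Gr.ext' {A B : Gr d} (h : ∀ a b, A.1 a b = B.1 a b) : A = B :=
  Subtype.ext (funext fun a => funext fun b => h a b)

lemma χ_inj {a b : Bool} (h : χ a = χ b) : a = b := by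
  revert a b; decide

lemma sum_two {F G : V → ℤ} {p q : V} (hpq : p ≠ q) (h : ∀ y, y ≠ p → y ≠ q → F y = G y)
    (h2 : F p + F q = G p + G q) : ∑ y, F y = ∑ y, G y := by
  have key : ∀ F : V → ℤ, ∑ y, F y = F p + F q + ∑ y ∈ (univ.erase p).erase q, F y := by
    intro F
    rw [← Finset.add_sum_erase _ _ (mem_univ p),
      ← Finset.add_sum_erase (univ.erase p) _ (a := q) (by simp [hpq.symm]), add_assoc]
  rw [key F, key G, h2]
  congr 1
  refine Finset.sum_congr rfl fun y hy => ?_
  simp only [mem_erase] at hy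
  exact h y hy.2.1 hy.1

/-- the trade relation -/
def R (u v : V) : Setoid (Gr d) where
  r A B := (∀ x y, x ≠ u → x ≠ v → y ≠ u → y ≠ v → A.1 x y = B.1 x y) ∧
    ∀ a, χ (A.1 u a) + χ (A.1 v a) = χ (B.1 u a) + χ (B.1 v a)
  iseqv := ⟨fun _ => ⟨fun _ _ _ _ _ _ => rfl, fun _ => rfl⟩,
    fun h => ⟨fun x y a b c e => (h.1 x y a b c e).symm, fun a => (h.2 a).symm⟩,
    fun h h' => ⟨fun x y a b c e => (h.1 x y a b c e).trans (h'.1 x y a b c e),
      fun a => (h.2 a).trans (h'.2 a)⟩⟩

omit [DecidableEq V] in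
lemma R_iff (u v : V) (A B : Gr d) : R u v A B ↔
    (∀ x y, x ≠ u → x ≠ v → y ≠ u → y ≠ v → A.1 x y = B.1 x y) ∧
    ∀ a, χ (A.1 u a) + χ (A.1 v a) = χ (B.1 u a) + χ (B.1 v a) := Iff.rfl

omit [DecidableEq V] in
lemma R_comm (u v : V) : (R u v : Setoid (Gr d)) = R v u := by
  ext A B
  simp only [R_iff]
  constructor
  · exact fun h => ⟨fun x y a b c e => h.1 x y b a e c, fun a => by linarith [h.2 a]⟩
  · exact fun h => ⟨fun x y a b c e => h.1 x y b a e c, fun a => by linarith [h.2 a]⟩

omit [DecidableEq V] in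
lemma R_uv {u v : V} {A B : Gr d} (h : R u v A B) : A.1 u v = B.1 u v := by
  have := h.2 v
  rw [A.irr, B.irr] at this
  exact χ_inj (by simpa using this)

/-- two graphs related by `R` agreeing on row `u` agree -/
lemma R_eq {u v : V} {A B : Gr d} (h : R u v A B) (hu : ∀ a, A.1 u a = B.1 u a) : A = B := by
  have hv : ∀ a, A.1 v a = B.1 v a := fun a => by
    have := h.2 a
    rw [hu a] at this
    exact χ_inj (by linarith)
  apply Gr.ext'
  intro x y
  by_cases p1 : x = u
  · rw [p1, hu]
  by_cases p2 : x = v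
  · rw [p2, hv]
  by_cases p3 : y = u
  · rw [A.symm, B.symm, p3, hu]
  by_cases p4 : y = v
  · rw [A.symm, B.symm, p4, hv]
  exact h.1 x y p1 p2 p3 p4

lemma R_self {u : V} {A B : Gr d} (h : R u u A B) : A = B :=
  R_eq h fun a => χ_inj (by linarith [h.2 a])

/-- the active columns -/
def Wset (u v : V) (A : Gr d) : Finset V :=
  univ.filter (fun a => a ≠ u ∧ a ≠ v ∧ A.1 u a ≠ A.1 v a)

lemma mem_Wset {u v a : V} {A : Gr d} : a ∈ Wset u v A ↔ a ≠ u ∧ a ≠ v ∧ A.1 u a ≠ A.1 v a := by
  simp [Wset]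

/-- a switch is possible -/
def Act (u v a b : V) (A : Gr d) : Prop := a ∈ Wset u v A ∧ b ∈ Wset u v A ∧ A.1 u a ≠ A.1 u b

instance (u v a b : V) (A : Gr d) : Decidable (Act u v a b A) := by unfold Act; infer_instance

lemma Act.dist {u v a b : V} {A : Gr d} (h : Act u v a b A) :
    u ≠ v ∧ u ≠ a ∧ u ≠ b ∧ v ≠ a ∧ v ≠ b ∧ a ≠ b := by
  obtain ⟨h1, h2, h3⟩ := h
  rw [mem_Wset] at h1 h2
  exact ⟨fun e => h1.2.2 (by rw [e]), h1.1.symm, h2.1.symm, h1.2.1.symm, h2.2.1.symm,
    fun e => h3 (by rw [e])⟩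

lemma Act.vals {u v a b : V} {A : Gr d} (h : Act u v a b A) :
    A.1 v a = !A.1 u a ∧ A.1 u b = !A.1 u a ∧ A.1 v b = A.1 u a := by
  obtain ⟨h1, h2, h3⟩ := h
  rw [mem_Wset] at h1 h2
  have k1 := h1.2.2
  have k2 := h2.2.2
  revert k1 k2 h3
  cases A.1 u a <;> cases A.1 u b <;> cases A.1 v a <;> cases A.1 v b <;> simp

lemma Act.symm {u v a b : V} {A : Gr d} (h : Act u v a b A) : Act a b u v A := by
  obtain ⟨d1, d2, d3, d4, d5, d6⟩ := h.dist
  obtain ⟨v1, v2, v3⟩ := h.vals
  simp only [Act, mem_Wset, A.symm a, A.symm b, v1, v2, v3]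
  simp [d2, d3, d4, d5]

/-- flipping four entries -/
def flip (u v a b : V) (A : V → V → Bool) (x y : V) : Bool :=
  if ((x = u ∨ x = v) ∧ (y = a ∨ y = b)) ∨ ((x = a ∨ x = b) ∧ (y = u ∨ y = v)) then !A x y
  else A x y

omit [Fintype V] in
lemma flip_symm (u v a b : V) (A : V → V → Bool) : flip u v a b A = flip a b u v A := by
  funext x y
  simp only [flip, or_comm]

lemma χ_not (a : Bool) : χ (!a) = 1 - χ a := by cases a <;> simp

lemma flip_deg {u v a b : V} {A : Gr d} (h : Act u v a b A) {x : V} (hx : x = u ∨ x = v) :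
    ∑ y, χ (flip u v a b A.1 x y) = d x := by
  obtain ⟨d1, d2, d3, d4, d5, d6⟩ := h.dist
  obtain ⟨v1, v2, v3⟩ := h.vals
  rw [← A.deg x]
  apply sum_two d6
  · intro y h1 h2
    rcases hx with rfl | rfl <;> simp [flip, h1, h2, d2, d3, d4, d5]
  · rcases hx with rfl | rfl <;> simp [flip, v1, v2, v3, χ_not]

lemma flip_ok {u v a b : V} {A : Gr d} (h : Act u v a b A) :
    (∀ x y, flip u v a b A.1 x y = flip u v a b A.1 y x) ∧ (∀ x, flip u v a b A.1 x x = false) ∧
      ∀ x, ∑ y, χ (flip u v a b A.1 x y) = d x := by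
  obtain ⟨d1, d2, d3, d4, d5, d6⟩ := h.dist
  refine ⟨fun x y => ?_, fun x => ?_, fun x => ?_⟩
  · simp only [flip, A.symm x y]
    congr 1
    apply propext; tauto
  · rw [flip, if_neg, A.irr]
    rintro (⟨p | p, q | q⟩ | ⟨p | p, q | q⟩) <;> subst p <;> simp_all
  · by_cases p : x = u ∨ x = v
    · exact flip_deg h p
    by_cases q : x = a ∨ x = b
    · rw [flip_symm]; exact flip_deg h.symm q
    · simp only [flip, p, q, false_and, or_self, if_false, A.deg]

/-- the switch -/
def sw (u v a b : V) (A : Gr d) : Gr d :=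
  if h : Act u v a b A then ⟨flip u v a b A.1, flip_ok h⟩ else A

lemma sw_val {u v a b : V} {A : Gr d} (h : Act u v a b A) : (sw u v a b A).1 = flip u v a b A.1 := by
  rw [sw, dif_pos h]

lemma sw_id {u v a b : V} {A : Gr d} (h : ¬ Act u v a b A) : sw u v a b A = A := by
  rw [sw, dif_neg h]

lemma sw_symm (u v a b : V) (A : Gr d) : sw u v a b A = sw a b u v A := by
  by_cases h : Act u v a b A
  · apply Subtype.ext
    rw [sw_val h, sw_val h.symm, flip_symm]
  · rw [sw_id h, sw_id (fun h' => h h'.symm)]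

lemma sw_rel (u v a b : V) (A : Gr d) : R u v A (sw u v a b A) := by
  by_cases h : Act u v a b A
  · obtain ⟨d1, d2, d3, d4, d5, d6⟩ := h.dist
    obtain ⟨v1, v2, v3⟩ := h.vals
    rw [R_iff, sw_val h]
    refine ⟨fun x y p1 p2 p3 p4 => by simp [flip, p1, p2, p3, p4], fun c => ?_⟩
    by_cases p : c = a
    · subst p; simp [flip, v1, χ_not]
    by_cases q : c = b
    · subst q; simp [flip, v2, v3, χ_not]
    · simp [flip, p, q, d2, d3, d4, d5]
  · rw [sw_id h]

lemma bool1 : ∀ a b c e : Bool, χ a + χ b = χ c + χ e → (a ≠ b ↔ c ≠ e) := by decide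
lemma bool2 : ∀ a b c e : Bool, χ a + χ b = χ c + χ e → a = b → a = c := by decide

lemma R_row_off {u v e : V} {A B : Gr d} (h : R u v A B) (he : e ∉ Wset u v A) :
    A.1 u e = B.1 u e := by
  rw [mem_Wset] at he
  by_cases p : e = u
  · rw [p, A.irr, B.irr]
  by_cases q : e = v
  · rw [q, R_uv h]
  exact bool2 _ _ _ _ (h.2 e) (by tauto)

/-- The Johnson structure of a trade -/
def john (u v : V) : John (Gr d) V where
  s := R u v
  W := Wset u v
  b A e := A.1 u e
  τ := sw u v
  W_eq A B h := by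
    ext a
    simp only [mem_Wset, bool1 _ _ _ _ (h.2 a)]
  τ_rel := sw_rel u v
  τ_b a c A e ha hc he := by
    by_cases h : Act u v a c A
    · obtain ⟨d1, d2, d3, d4, d5, d6⟩ := h.dist
      obtain ⟨v1, v2, v3⟩ := h.vals
      rw [sw_val h, Equiv.swap_apply_def]
      split_ifs with p q
      · subst p; simp [flip, v2]
      · subst q; simp [flip, v2]
      · simp [flip, p, q, d2, d3]
    · have : A.1 u a = A.1 u c := by
        by_contra q; exact h ⟨ha, hc, q⟩
      rw [sw_id h, Equiv.swap_apply_def]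
      split_ifs with p q
      · rw [p, this]
      · rw [q, this]
      · rfl
  τ_id a c A h := sw_id (fun q => by
    rcases h with h | h
    · exact h q.1
    · exact h q.2.1)
  inj A B h e := R_eq h fun a => by
    by_cases p : a ∈ Wset u v A
    · exact e a p
    · exact R_row_off h p
  cnt A B h := by
    have h1 := (A.deg u).trans (B.deg u).symm
    rw [← Finset.sum_add_sum_compl (Wset u v A), ← Finset.sum_add_sum_compl (Wset u v A),
      Finset.sum_congr rfl (s₁ := (Wset u v A)ᶜ) (g := fun b => χ (B.1 u b))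
        (fun e he => by rw [R_row_off h (Finset.mem_compl.1 he)]), add_left_inj] at h1
    simp only [χ, Finset.sum_boole] at h1
    exact_mod_cast h1

lemma sw_invol (u v a b : V) (A : Gr d) : sw u v a b (sw u v a b A) = A :=
  (john u v).τ_invol a b A

/-! ### connectivity -/

lemma conn_aux {f : Gr d → ℝ} (hf : ∀ u v a b A, f (sw u v a b A) = f A) (k : ℕ) :
    ∀ U : Finset V, Uᶜ.card = k → ∀ A B : Gr d, (∀ x ∈ U, ∀ y, A.1 x y = B.1 x y) → f A = f B := by
  induction k with
  | zero =>
    intro U hU A B h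
    rw [Finset.card_eq_zero, Finset.compl_eq_empty_iff] at hU
    rw [Gr.ext' (fun x y => h x (by rw [hU]; exact mem_univ x) y)]
  | succ k ih =>
    intro U hU
    obtain ⟨v, hv⟩ : Uᶜ.Nonempty := Finset.card_pos.1 (by omega)
    have hk : (insert v U)ᶜ.card = k := by
      rw [Finset.compl_insert, Finset.card_erase_of_mem hv, hU]; rfl
    rw [Finset.mem_compl] at hv
    -- one step
    have step : ∀ (A B : Gr d) (a b : V), (∀ x ∈ U, ∀ y, A.1 x y = B.1 x y) →
        A.1 v a = true → B.1 v a = false → A.1 v b = false → B.1 v b = true →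
        ∑ y ∈ Uᶜ, χ (A.1 a y) ≤ ∑ y ∈ Uᶜ, χ (A.1 b y) →
        ∃ A' : Gr d, f A' = f A ∧ (∀ x ∈ U, ∀ y, A'.1 x y = B.1 x y) ∧
          (univ.filter (fun y => A'.1 v y ≠ B.1 v y)).card <
            (univ.filter (fun y => A.1 v y ≠ B.1 v y)).card := by
      intro A B a b h a1 a2 b1 b2 hle
      have haU : a ∉ U := fun e => by
        have := h a e v
        rw [A.symm, B.symm, a1, a2] at this; simp at this
      have hbU : b ∉ U := fun e => by
        have := h b e v
        rw [A.symm, B.symm, b1, b2] at this; simp at this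
      have hva : v ≠ a := fun e => by rw [← e, A.irr] at a1; simp at a1
      have hvb : v ≠ b := fun e => by rw [← e, B.irr] at b2; simp at b2
      have hab : a ≠ b := fun e => by rw [e, b1] at a1; simp at a1
      obtain ⟨c, hcU, hca, c1, c2⟩ : ∃ c, c ∉ U ∧ c ≠ a ∧ A.1 b c = true ∧ A.1 a c = false := by
        by_contra hn
        push Not at hn
        have key : ∀ w : V, w ∉ U → ∀ F : V → ℤ, ∑ y ∈ Uᶜ, F y = F w + ∑ y ∈ Uᶜ.erase w, F y :=
          fun w hw F => (Finset.add_sum_erase _ _ (Finset.mem_compl.2 hw)).symm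
        have hlt : ∑ y ∈ Uᶜ, χ (A.1 b (Equiv.swap a b y)) < ∑ y ∈ Uᶜ, χ (A.1 a y) := by
          apply Finset.sum_lt_sum
          · intro y hy
            rw [Equiv.swap_apply_def]
            split_ifs with p q
            · rw [p, A.irr, A.irr]
            · rw [q, A.symm]
            · have := hn y (Finset.mem_compl.1 hy) p
              revert this
              cases A.1 b y <;> cases A.1 a y <;> simp
          · refine ⟨v, Finset.mem_compl.2 hv, ?_⟩
            rw [Equiv.swap_apply_of_ne_of_ne hva hvb, A.symm b, A.symm a, a1, b1]; simp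
        have e : ∑ y ∈ Uᶜ, χ (A.1 b (Equiv.swap a b y)) = ∑ y ∈ Uᶜ, χ (A.1 b y) := by
          refine Finset.sum_bijective (Equiv.swap a b) (Equiv.swap a b).bijective (fun y => ?_)
            (fun _ _ => rfl)
          rw [Equiv.swap_apply_def]
          split_ifs with p q
          · simp [p, haU, hbU]
          · simp [q, haU, hbU]
          · rfl
        linarith
      have hcb : c ≠ b := fun e => by rw [e, A.irr] at c1; simp at c1
      have hcv : c ≠ v := fun e => by rw [e, A.symm, b1] at c1; simp at c1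
      have act : Act a b v c A := by
        simp only [Act, mem_Wset, A.symm a v, A.symm b v, a1, b1, c1, c2]
        simp [hva, hvb, hca, hcb]
      refine ⟨sw a b v c A, hf _ _ _ _ _, fun x hx y => ?_, ?_⟩
      · rw [sw_val act, ← h x hx y, flip, if_neg]
        rintro (⟨p | p, -⟩ | ⟨p | p, -⟩) <;> subst p <;> contradiction
      · apply Finset.card_lt_card
        rw [Finset.ssubset_iff_of_subset]
        · refine ⟨a, by simp [a1, a2], ?_⟩
          simp [sw_val act, flip, a1, a2]
        · intro y hy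
          simp only [mem_filter, mem_univ, true_and, sw_val act] at hy ⊢
          by_cases p : y = a
          · simp [p, a1, a2]
          by_cases q : y = b
          · simp [q, b1, b2]
          simpa [flip, p, q, hva, hvb] using hy
    intro A B h
    generalize hm : (univ.filter (fun y => A.1 v y ≠ B.1 v y)).card = m
    induction m using Nat.strong_induction_on generalizing A B with
    | _ m ihm =>
      by_cases e : ∀ y, A.1 v y = B.1 v y
      · refine ih _ hk A B fun x hx y => ?_
        rcases Finset.mem_insert.1 hx with rfl | hx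
        · exact e y
        · exact h x hx y
      have hd := (A.deg v).trans (B.deg v).symm
      have ex : ∀ A B : Gr d, ¬ (∀ y, A.1 v y = B.1 v y) → ∃ a, A.1 v a = true ∧ B.1 v a = false := by
        intro A B e
        by_contra hn
        push Not at hn e
        obtain ⟨y, hy⟩ := e
        have := Finset.sum_lt_sum (s := univ) (f := fun y => χ (A.1 v y)) (g := fun y => χ (B.1 v y))
          (fun y _ => by
            have := hn y
            revert this
            cases A.1 v y <;> cases B.1 v y <;> simp)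
          ⟨y, mem_univ y, by
            have := hn y
            revert this hy
            cases A.1 v y <;> cases B.1 v y <;> simp⟩
        rw [A.deg, B.deg] at this
        exact lt_irrefl _ this
      obtain ⟨a, a1, a2⟩ := ex A B e
      obtain ⟨b, b2, b1⟩ := ex B A (fun q => e fun y => (q y).symm)
      have res : ∀ x, ∑ y ∈ Uᶜ, χ (A.1 x y) = ∑ y ∈ Uᶜ, χ (B.1 x y) := by
        intro x
        have h1 := (A.deg x).trans (B.deg x).symm
        rwa [← Finset.sum_add_sum_compl U, ← Finset.sum_add_sum_compl U,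
          Finset.sum_congr rfl (s₁ := U) (g := fun y => χ (B.1 x y))
            (fun y hy => by rw [A.symm, B.symm, h y hy]), add_right_inj] at h1
      rcases le_total (∑ y ∈ Uᶜ, χ (A.1 a y)) (∑ y ∈ Uᶜ, χ (A.1 b y)) with hle | hle
      · obtain ⟨A', e1, e2, e3⟩ := step A B a b h a1 a2 b1 b2 hle
        rw [← e1]
        exact ihm _ (hm ▸ e3) A' B e2 rfl
      · rw [res, res] at hle
        obtain ⟨B', e1, e2, e3⟩ := step B A b a (fun x hx y => (h x hx y).symm) b2 b1 a2 a1 hle
        rw [← e1]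
        refine ihm _ ?_ A B' (fun x hx y => (e2 x hx y).symm) rfl
        rw [← hm]
        simpa only [ne_comm] using e3

lemma conn {f : Gr d → ℝ} (hf : ∀ u v a b A, f (sw u v a b A) = f A) (A B : Gr d) : f A = f B :=
  conn_aux hf _ ∅ rfl A B (by simp)

end Crest.Agent.H9Sw
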