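import Crest.Agent.H9.SwAvg

set_option autoImplicit false

namespace Crest.Agent.H9Sw

open Finset Matrix

section Perm
variable {Ω : Type} [Fintype Ω] [DecidableEq Ω]

/-- antisymmetrisation under a map -/
noncomputable def proj (τ : Ω → Ω) : Matrix Ω Ω ℝ :=
  fun x y => ((if y = x then 1 else 0) - (if y = τ x then 1 else 0)) / 2

lemma proj_mulVec (τ : Ω → Ω) (f : Ω → ℝ) (x : Ω) :
    (proj τ *ᵥ f) x = (f x - f (τ x)) / 2 := by
  simp only [Matrix.mulVec, dotProduct, proj]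
  simp [div_mul_eq_mul_div, sub_mul, ← Finset.sum_div, Finset.sum_sub_distrib]

omit [Fintype Ω] in
lemma proj_transpose {τ : Ω → Ω} (h : ∀ x, τ (τ x) = x) : (proj τ)ᵀ = proj τ := by
  ext x y
  simp only [Matrix.transpose_apply, proj]
  have e1 : (x = y) ↔ (y = x) := eq_comm
  have e2 : (x = τ y) ↔ (y = τ x) := ⟨fun e => by rw [e, h], fun e => by rw [e, h]⟩
  simp only [e1, e2]

lemma proj_idem {τ : Ω → Ω} (h : ∀ x, τ (τ x) = x) : proj τ * proj τ = proj τ := by
  apply mat_ext_mulVec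
  intro f
  rw [← Matrix.mulVec_mulVec]
  funext x
  simp only [proj_mulVec, h]
  ring

lemma proj_mul_av {τ : Ω → Ω} {s : Setoid Ω} (h : ∀ x, s x (τ x)) : proj τ * av s = 0 := by
  apply mat_ext_mulVec
  intro f
  rw [← Matrix.mulVec_mulVec]
  funext x
  rw [proj_mulVec, av_mulVec_congr f (h x)]
  simp

lemma av_mul_proj {τ : Ω → Ω} {s : Setoid Ω} (hτ : ∀ x, τ (τ x) = x) (h : ∀ x, s x (τ x)) :
    av s * proj τ = 0 := by
  have := congrArg Matrix.transpose (proj_mul_av h)
  rwa [Matrix.transpose_mul, av_transpose, proj_transpose hτ, Matrix.transpose_zero] at this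

end Perm

/-- An abstract family of Johnson schemes. -/
structure John (Ω V : Type) [DecidableEq V] where
  s : Setoid Ω
  W : Ω → Finset V
  b : Ω → V → Bool
  τ : V → V → Ω → Ω
  W_eq : ∀ x y, s x y → W x = W y
  τ_rel : ∀ a c x, s x (τ a c x)
  τ_b : ∀ a c x e, a ∈ W x → c ∈ W x → e ∈ W x → b (τ a c x) e = b x (Equiv.swap a c e)
  τ_id : ∀ a c x, (a ∉ W x ∨ c ∉ W x) → τ a c x = x
  inj : ∀ x y, s x y → (∀ e ∈ W x, b x e = b y e) → x = y
  cnt : ∀ x y, s x y → ((W x).filter (fun e => b x e = true)).card =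
    ((W x).filter (fun e => b y e = true)).card

namespace John

variable {Ω V : Type} [Fintype Ω] [DecidableEq Ω] [Fintype V] [DecidableEq V] (J : John Ω V)

omit [Fintype Ω] [DecidableEq Ω] [Fintype V] in
lemma W_τ (a c : V) (x : Ω) : J.W (J.τ a c x) = J.W x := (J.W_eq _ _ (J.τ_rel a c x)).symm

omit [Fintype Ω] [DecidableEq Ω] [Fintype V] in
lemma swap_mem {S : Finset V} {a c e : V} (ha : a ∈ S) (hc : c ∈ S) (he : e ∈ S) :
    Equiv.swap a c e ∈ S := by
  rw [Equiv.swap_apply_def]; split_ifs <;> assumption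

omit [Fintype Ω] [DecidableEq Ω] [Fintype V] in
lemma τ_invol (a c : V) (x : Ω) : J.τ a c (J.τ a c x) = x := by
  by_cases h : a ∈ J.W x ∧ c ∈ J.W x
  · symm
    apply J.inj _ _ (J.s.trans' (J.τ_rel a c x) (J.τ_rel a c _))
    intro e he
    rw [J.τ_b a c _ e (by rw [W_τ]; exact h.1) (by rw [W_τ]; exact h.2) (by rw [W_τ]; exact he),
      J.τ_b a c x _ h.1 h.2 (swap_mem h.1 h.2 he), Equiv.swap_apply_self]
  · have h' : a ∉ J.W x ∨ c ∉ J.W x := by tauto
    rw [J.τ_id a c x h', J.τ_id a c x h']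

omit [Fintype Ω] [DecidableEq Ω] [Fintype V] in
lemma τ_comm (a c : V) (x : Ω) : J.τ a c x = J.τ c a x := by
  by_cases h : a ∈ J.W x ∧ c ∈ J.W x
  · apply J.inj _ _ (J.s.trans' (J.s.symm' (J.τ_rel a c x)) (J.τ_rel c a _))
    intro e he
    rw [W_τ] at he
    rw [J.τ_b a c _ e h.1 h.2 he, J.τ_b c a _ e h.2 h.1 he, Equiv.swap_comm]
  · rw [J.τ_id a c x (by tauto), J.τ_id c a x (by tauto)]

omit [Fintype Ω] [DecidableEq Ω] [Fintype V] in
lemma τ_same {a c : V} {x : Ω} (h : J.b x a = J.b x c) : J.τ a c x = x := by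
  by_cases hm : a ∈ J.W x ∧ c ∈ J.W x
  · symm
    apply J.inj _ _ (J.τ_rel a c x)
    intro e he
    rw [J.τ_b a c _ e hm.1 hm.2 he, Equiv.swap_apply_def]
    split_ifs with h1 h2
    · rw [h1, h]
    · rw [h2, h]
    · rfl
  · exact J.τ_id a c x (by tauto)

omit [Fintype Ω] [DecidableEq Ω] [Fintype V] in
lemma τ_conj {a a' : V} {x : Ω} (ha : a ∈ J.W x) (ha' : a' ∈ J.W x) (c d : V) :
    J.τ (Equiv.swap a a' c) (Equiv.swap a a' d) (J.τ a a' x) = J.τ a a' (J.τ c d x) := by
  have hn : ∀ e, e ∉ J.W x → Equiv.swap a a' e = e := fun e he =>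
    Equiv.swap_apply_of_ne_of_ne (fun h => he (h ▸ ha)) (fun h => he (h ▸ ha'))
  by_cases h : c ∈ J.W x ∧ d ∈ J.W x
  · have r1 := J.s.trans' (J.τ_rel a a' x) (J.τ_rel (Equiv.swap a a' c) (Equiv.swap a a' d) _)
    have r2 := J.s.trans' (J.τ_rel c d x) (J.τ_rel a a' _)
    apply J.inj _ _ (J.s.trans' (J.s.symm' r1) r2)
    intro e he
    rw [W_τ, W_τ] at he
    rw [J.τ_b _ _ _ e (by rw [W_τ]; exact swap_mem ha ha' h.1) (by rw [W_τ]; exact swap_mem ha ha' h.2)
        (by rw [W_τ]; exact he),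
      J.τ_b _ _ _ _ ha ha' (swap_mem (swap_mem ha ha' h.1) (swap_mem ha ha' h.2) he),
      J.τ_b a a' _ e (by rw [W_τ]; exact ha) (by rw [W_τ]; exact ha') (by rw [W_τ]; exact he),
      J.τ_b c d _ _ h.1 h.2 (swap_mem ha ha' he)]
    congr 1
    rw [Equiv.swap_apply_apply (Equiv.swap a a') c d]
    simp
  · have h' : c ∉ J.W x ∨ d ∉ J.W x := by tauto
    rw [J.τ_id c d x h', J.τ_id]
    rw [W_τ]
    rcases h' with h' | h'
    · left; rwa [hn c h']
    · right; rwa [hn d h']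

omit [Fintype Ω] [DecidableEq Ω] [Fintype V] in
lemma exists_pair {x y : Ω} (h : J.s x y) (hne : x ≠ y) :
    ∃ a ∈ J.W x, ∃ c ∈ J.W x, J.b x a = true ∧ J.b y a = false ∧ J.b x c = false ∧ J.b y c = true := by
  have hc := J.cnt x y h
  have key : (J.W x).filter (fun e => J.b x e = true) ≠ (J.W x).filter (fun e => J.b y e = true) := by
    intro e
    apply hne
    apply J.inj x y h
    intro a ha
    have := Finset.ext_iff.1 e a
    simp only [mem_filter, ha, true_and] at this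
    exact Bool.eq_iff_iff.2 this
  have k1 : ¬ (J.W x).filter (fun e => J.b x e = true) ⊆ (J.W x).filter (fun e => J.b y e = true) :=
    fun hs => key (Finset.eq_of_subset_of_card_le hs hc.ge)
  have k2 : ¬ (J.W x).filter (fun e => J.b y e = true) ⊆ (J.W x).filter (fun e => J.b x e = true) :=
    fun hs => key (Finset.eq_of_subset_of_card_le hs hc.le).symm
  obtain ⟨a, ha1, ha2⟩ := Finset.not_subset.1 k1
  obtain ⟨c, hc1, hc2⟩ := Finset.not_subset.1 k2
  simp only [mem_filter] at ha1 ha2 hc1 hc2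
  refine ⟨a, ha1.1, c, hc1.1, ha1.2, ?_, ?_, hc1.2⟩
  · simpa [ha1.1] using ha2
  · simpa [hc1.1] using hc2

omit [Fintype Ω] [DecidableEq Ω] [Fintype V] in
lemma conn {f : Ω → ℝ} (hf : ∀ a c x, f (J.τ a c x) = f x) {x y : Ω} (h : J.s x y) :
    f x = f y := by
  generalize hk : ((J.W x).filter (fun e => J.b x e ≠ J.b y e)).card = k
  induction k using Nat.strong_induction_on generalizing x with
  | _ k ih =>
    by_cases hne : x = y
    · rw [hne]
    obtain ⟨a, ha, c, hc, h1, h2, h3, h4⟩ := J.exists_pair h hne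
    rw [← hf a c x]
    refine ih _ ?_ (J.s.trans' (J.s.symm' (J.τ_rel a c x)) h) rfl
    rw [← hk, W_τ]
    apply Finset.card_lt_card
    rw [Finset.ssubset_iff_of_subset]
    · refine ⟨a, by simp [ha, h1, h2], ?_⟩
      simp [J.τ_b a c x a ha hc ha, h3, h2]
    · intro e he
      simp only [mem_filter] at he ⊢
      refine ⟨he.1, ?_⟩
      have := he.2
      rw [J.τ_b a c x e ha hc he.1, Equiv.swap_apply_def] at this
      split_ifs at this with e1 e2
      · subst e1; simp [h1, h2]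
      · subst e2; simp [h3, h4]
      · exact this

/-- the Laplacian -/
noncomputable def L : Matrix Ω Ω ℝ := ∑ a, ∑ c, proj (J.τ a c)

lemma L_mulVec (f : Ω → ℝ) (x : Ω) :
    (J.L *ᵥ f) x = ∑ a, ∑ c, (f x - f (J.τ a c x)) / 2 := by
  simp only [L, Matrix.sum_mulVec, Finset.sum_apply, proj_mulVec]

omit [Fintype Ω] in
lemma L_transpose : J.Lᵀ = J.L := by
  simp only [L, Matrix.transpose_sum, proj_transpose (J.τ_invol _ _)]

lemma dot_L (f : Ω → ℝ) :
    f ⬝ᵥ (J.L *ᵥ f) = ∑ a, ∑ c, (proj (J.τ a c) *ᵥ f) ⬝ᵥ (proj (J.τ a c) *ᵥ f) := by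
  simp only [L, Matrix.sum_mulVec, dotProduct_sum]
  refine Finset.sum_congr rfl fun a _ => Finset.sum_congr rfl fun c _ => ?_
  exact dot_idem (proj_transpose (J.τ_invol a c)) (proj_idem (J.τ_invol a c)) f

lemma curv {v : Ω → ℝ} {D : ℝ} (hD : ∀ x a c, v x - v (J.τ a c x) ≤ D) {x : Ω} {a a' : V}
    (hx : v x - v (J.τ a a' x) = D) (hpos : 0 < D) :
    ((J.W x).card : ℝ) * D ≤ (J.L *ᵥ v) x - (J.L *ᵥ v) (J.τ a a' x) := by
  have hne : J.τ a a' x ≠ x := fun e => by rw [e] at hx; linarith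
  have ha : a ∈ J.W x := by by_contra h; exact hne (J.τ_id _ _ _ (Or.inl h))
  have ha' : a' ∈ J.W x := by by_contra h; exact hne (J.τ_id _ _ _ (Or.inr h))
  have hb : J.b x a ≠ J.b x a' := fun e => hne (J.τ_same e)
  have haa : a ≠ a' := fun e => hb (by rw [e])
  set br : V → V → ℝ := fun c d => D - (v (J.τ c d x) - v (J.τ a a' (J.τ c d x))) with hbr
  have e1 : (J.L *ᵥ v) x - (J.L *ᵥ v) (J.τ a a' x) = ∑ c, ∑ d, br c d / 2 := by
    rw [L_mulVec, L_mulVec, ← Equiv.sum_comp (Equiv.swap a a')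
      (fun c => ∑ d, (v (J.τ a a' x) - v (J.τ c d (J.τ a a' x))) / 2), ← Finset.sum_sub_distrib]
    refine Finset.sum_congr rfl fun c _ => ?_
    rw [← Equiv.sum_comp (Equiv.swap a a')
      (fun d => (v (J.τ a a' x) - v (J.τ (Equiv.swap a a' c) d (J.τ a a' x))) / 2),
      ← Finset.sum_sub_distrib]
    refine Finset.sum_congr rfl fun d _ => ?_
    rw [J.τ_conj ha ha', hbr, ← hx]
    ring
  have brsym : ∀ c d, br c d = br d c := fun c d => by simp only [hbr, J.τ_comm c d]
  have F1 : ∀ c d, 0 ≤ br c d := fun c d => by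
    have := hD (J.τ c d x) a a'
    simp only [hbr]; linarith
  have F2 : ∀ c d, c ∈ J.W x → d ∈ J.W x →
      J.b x (Equiv.swap c d a) = J.b x (Equiv.swap c d a') → br c d = D := by
    intro c d hc hd e
    have : J.τ a a' (J.τ c d x) = J.τ c d x := by
      apply J.τ_same
      rw [J.τ_b _ _ _ _ hc hd ha, J.τ_b _ _ _ _ hc hd ha', e]
    simp only [hbr, this]; ring
  have F3 : br a a' = 2 * D := by
    simp only [hbr, J.τ_invol]; linarith
  set G : V → V → ℝ := fun c d => (if d = a' ∧ c ∈ J.W x ∧ J.b x c = J.b x a then 1 else 0) +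
    (if d = a ∧ c ∈ J.W x ∧ J.b x c = J.b x a' then 1 else 0) with hG
  have H0 : ∀ c d, G c d = 0 ∨ (G c d = 1 ∧ D ≤ br c d ∧ ((d = a' ∧ c ≠ a') ∨ (d = a ∧ c ≠ a))) := by
    intro c d
    by_cases p1 : d = a' ∧ c ∈ J.W x ∧ J.b x c = J.b x a
    · right
      obtain ⟨rfl, hc, hbc⟩ := p1
      have hcd : c ≠ d := fun e => hb (by rw [← hbc, e])
      refine ⟨by simp [hG, hc, hbc, haa.symm], ?_, Or.inl ⟨rfl, hcd⟩⟩
      by_cases hca : c = a
      · rw [hca, F3]; linarith
      · refine (F2 c d hc ha' ?_).ge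
        rw [Equiv.swap_apply_of_ne_of_ne (Ne.symm hca) haa, Equiv.swap_apply_right, hbc]
    · by_cases p2 : d = a ∧ c ∈ J.W x ∧ J.b x c = J.b x a'
      · right
        obtain ⟨rfl, hc, hbc⟩ := p2
        have hcd : c ≠ d := fun e => hb (by rw [← hbc, e])
        refine ⟨by simp [hG, hc, hbc, haa], ?_, Or.inr ⟨rfl, hcd⟩⟩
        by_cases hca : c = a'
        · rw [hca, brsym, F3]; linarith
        · refine (F2 c d hc ha ?_).ge
          rw [Equiv.swap_apply_of_ne_of_ne (Ne.symm hca) haa.symm, Equiv.swap_apply_right, hbc]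
      · left; simp only [hG, if_neg p1, if_neg p2, add_zero]
  have key : ∀ c d, D * (G c d + G d c) ≤ br c d := by
    intro c d
    rcases H0 c d with h1 | ⟨h1, h1', h1''⟩
    · rcases H0 d c with h2 | ⟨h2, h2', -⟩
      · rw [h1, h2]; simpa using F1 c d
      · rw [h1, h2, brsym]; simpa using h2'
    · rcases H0 d c with h2 | ⟨h2, h2', h2''⟩
      · rw [h1, h2]; simpa using h1'
      · rw [h1, h2]
        rcases h1'' with ⟨p, q⟩ | ⟨p, q⟩ <;> rcases h2'' with ⟨p', q'⟩ | ⟨p', q'⟩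
        · exact absurd p' q
        · rw [p, p', F3]; linarith
        · rw [p, p', brsym, F3]; linarith
        · exact absurd p' q
  have sG : ∑ c, ∑ d, G c d = (J.W x).card := by
    have : ∀ c, ∑ d, G c d = if c ∈ J.W x then 1 else 0 := by
      intro c
      simp only [hG, Finset.sum_add_distrib, ite_and, Finset.sum_ite_eq', mem_univ, if_true]
      by_cases hc : c ∈ J.W x
      · simp only [hc, if_true]
        revert hb
        cases J.b x c <;> cases J.b x a <;> cases J.b x a' <;> simp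
      · simp [hc]
    simp [this]
  rw [e1]
  have : ∑ c, ∑ d, D * (G c d + G d c) / 2 = (J.W x).card * D := by
    simp only [mul_add, add_div, Finset.sum_add_distrib]
    rw [Finset.sum_comm (f := fun c d => D * G d c / 2)]
    simp only [← Finset.sum_div, ← Finset.mul_sum, sG]
    ring
  rw [← this]
  refine Finset.sum_le_sum fun c _ => Finset.sum_le_sum fun d _ => ?_
  linarith [key c d]

/-- spectral gap of the Johnson graphs -/
lemma J1 (f : Ω → ℝ) :
    ∑ x, ((J.W x).card : ℝ) * (f x - (av J.s *ᵥ f) x) ^ 2 ≤ f ⬝ᵥ (J.L *ᵥ f) := by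
  set h : Matrix Ω Ω ℝ := 1 - av J.s with hh
  set M : Matrix Ω Ω ℝ := Matrix.diagonal (fun x => ((J.W x).card : ℝ)) with hM
  have hsym : hᵀ = h := by simp [hh, Matrix.transpose_sub, av_transpose]
  have hT : (J.L - h * M * h)ᵀ = J.L - h * M * h := by
    simp [Matrix.transpose_sub, Matrix.transpose_mul, L_transpose, hsym, hM, Matrix.mul_assoc]
  have hPL : av J.s * J.L = 0 := by
    simp only [L, Finset.mul_sum, av_mul_proj (J.τ_invol _ _) (J.τ_rel _ _), Finset.sum_const_zero]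
  have hPh : av J.s * h = 0 := by rw [hh, Matrix.mul_sub, av_mul_self]; simp
  have := psd_of_eig hT (fun μ v hμ e => ?_) f
  · rw [Matrix.sub_mulVec, dotProduct_sub, ← Matrix.mulVec_mulVec, ← Matrix.mulVec_mulVec,
      ← dot_symm hsym] at this
    have e2 : (h *ᵥ f) ⬝ᵥ (M *ᵥ (h *ᵥ f)) =
        ∑ x, ((J.W x).card : ℝ) * (f x - (av J.s *ᵥ f) x) ^ 2 := by
      simp only [dotProduct, hM, Matrix.mulVec_diagonal, hh, Matrix.sub_mulVec, Matrix.one_mulVec,
        Pi.sub_apply]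
      exact Finset.sum_congr rfl fun x _ => by ring
    linarith
  · have p0 : av J.s *ᵥ v = 0 := by
      have h1 : av J.s *ᵥ ((J.L - h * M * h) *ᵥ v) = 0 := by
        rw [Matrix.mulVec_mulVec, Matrix.mul_sub, hPL, ← Matrix.mul_assoc, ← Matrix.mul_assoc, hPh]
        simp
      rw [e, Matrix.mulVec_smul] at h1
      exact (smul_eq_zero.1 h1).resolve_left hμ.ne
    have hv : h *ᵥ v = v := by rw [hh, Matrix.sub_mulVec, p0]; simp
    have hL : ∀ x, (J.L *ᵥ v) x = ((J.W x).card + μ) * v x := by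
      intro x
      have h1 := congrFun e x
      rw [Matrix.sub_mulVec, ← Matrix.mulVec_mulVec, ← Matrix.mulVec_mulVec, hv, hh,
        Matrix.sub_mulVec, Matrix.one_mulVec] at h1
      have h2 : (av J.s *ᵥ (M *ᵥ v)) x = 0 := by
        rw [av_mulVec_congr_fun (g := ((J.W x).card : ℝ) • v), Matrix.mulVec_smul, p0]
        · simp
        · intro y hy
          simp [hM, Matrix.mulVec_diagonal, J.W_eq x y hy]
      simp only [Pi.sub_apply, hM, Matrix.mulVec_diagonal, Pi.smul_apply, smul_eq_mul] at h1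
      linarith
    have hinv : ∀ x a c, v x - v (J.τ a c x) ≤ 0 := by
      intro x a c
      have : Nonempty (Ω × V × V) := ⟨(x, a, c)⟩
      obtain ⟨⟨y, p, q⟩, hm⟩ :=
        Finite.exists_max (fun t : Ω × V × V => v t.1 - v (J.τ t.2.1 t.2.2 t.1))
      refine (hm (x, a, c)).trans ?_
      by_contra hpos
      push Not at hpos
      have h3 := J.curv (fun x a c => hm (x, a, c)) rfl hpos
      rw [hL, hL, W_τ] at h3
      simp only at hpos h3
      nlinarith
    have hinv' : ∀ a c x, v (J.τ a c x) = v x := by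
      intro a c x
      have h1 := hinv x a c
      have h2 := hinv (J.τ a c x) a c
      rw [J.τ_invol] at h2
      linarith
    funext x
    rw [← av_mulVec_of_const (s := J.s) (f := v) (x := x) (fun y hy => (J.conn hinv' hy).symm), p0]

lemma J3 (f : Ω → ℝ) :
    2 * (((1 - av J.s) *ᵥ f) ⬝ᵥ ((1 - av J.s) *ᵥ f)) ≤ f ⬝ᵥ (J.L *ᵥ f) := by
  refine le_trans ?_ (J.J1 f)
  simp only [dotProduct, Finset.mul_sum, Matrix.sub_mulVec, Matrix.one_mulVec, Pi.sub_apply]
  refine Finset.sum_le_sum fun x _ => ?_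
  by_cases hm : 2 ≤ (J.W x).card
  · have : (2 : ℝ) ≤ (J.W x).card := by exact_mod_cast hm
    nlinarith [sq_nonneg (f x - (av J.s *ᵥ f) x)]
  · have : (av J.s *ᵥ f) x = f x := by
      apply av_mulVec_of_const
      intro y hy
      by_cases e : x = y
      · rw [e]
      · exfalso
        obtain ⟨a, ha, c, hc, h1, -, h3, -⟩ := J.exists_pair hy e
        apply hm
        rw [Nat.succ_le_iff, Finset.one_lt_card]
        exact ⟨a, ha, c, hc, fun e => by rw [e, h3] at h1; simp at h1⟩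
    rw [this]; simp

end John

end Crest.Agent.H9Sw
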