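import Crest.Agent.H9.SwJohn

set_option autoImplicit false

namespace Crest.Agent.H9Sw

open Finset Matrix

lemma gram {Ω V : Type} [DecidableEq V] (U : Finset Ω) (W : Finset V) (σ : V → Ω → ℝ)
    (κ δ Δ : ℝ) (hδ : 0 < δ) (hW : W.Nonempty)
    (hG : ∀ w ∈ W, ∀ z ∈ W, ∑ y ∈ U, σ w y * σ z y = κ + if w = z then 2 * δ else 0)
    (hΔ : ∀ y ∈ U, ∑ z ∈ W, σ z y = Δ) (F : Ω → ℝ) :
    ∑ z ∈ W, (∑ y ∈ U, F y * σ z y) ^ 2 ≤
      Δ ^ 2 / W.card * (∑ y ∈ U, F y) ^ 2 + 2 * δ * ∑ y ∈ U, F y ^ 2 := by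
  have hm : (0 : ℝ) < W.card := by exact_mod_cast hW.card_pos
  set c : V → ℝ := fun z => ∑ y ∈ U, F y * σ z y with hc
  set S : ℝ := Δ * ∑ y ∈ U, F y with hS
  have hSc : ∑ z ∈ W, c z = S := by
    simp only [hc, hS]
    rw [Finset.sum_comm, Finset.mul_sum]
    refine Finset.sum_congr rfl fun y hy => ?_
    rw [← Finset.mul_sum, hΔ y hy, mul_comm]
  set e : V → ℝ := fun z => c z - S / W.card with he
  have he0 : ∑ z ∈ W, e z = 0 := by
    simp only [he, Finset.sum_sub_distrib, hSc, sum_const, nsmul_eq_mul]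
    field_simp
    ring
  have he1 : ∑ z ∈ W, e z * c z = ∑ z ∈ W, e z ^ 2 := by
    have : ∀ z, e z * c z = e z ^ 2 + S / W.card * e z := fun z => by simp only [he]; ring
    simp only [this, Finset.sum_add_distrib, ← Finset.mul_sum, he0]; ring
  have he2 : ∑ z ∈ W, c z ^ 2 = S ^ 2 / W.card + ∑ z ∈ W, e z ^ 2 := by
    have : ∀ z, c z ^ 2 = e z ^ 2 + 2 * (S / W.card) * e z + (S / W.card) ^ 2 := fun z => by
      simp only [he]; ring
    simp only [this, Finset.sum_add_distrib, ← Finset.mul_sum, he0, sum_const, nsmul_eq_mul]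
    field_simp
    ring
  set E : Ω → ℝ := fun y => ∑ z ∈ W, e z * σ z y with hE
  have hFE : ∑ y ∈ U, F y * E y = ∑ z ∈ W, e z ^ 2 := by
    rw [← he1]
    simp only [hE, hc, Finset.mul_sum]
    rw [Finset.sum_comm]
    refine Finset.sum_congr rfl fun z _ => Finset.sum_congr rfl fun y _ => by ring
  have hEE : ∑ y ∈ U, E y ^ 2 = 2 * δ * ∑ z ∈ W, e z ^ 2 := by
    have h1 : ∀ y, E y ^ 2 = ∑ w ∈ W, ∑ z ∈ W, e w * e z * (σ w y * σ z y) := fun y => by
      simp only [hE, sq, Finset.sum_mul_sum]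
      refine Finset.sum_congr rfl fun w _ => Finset.sum_congr rfl fun z _ => by ring
    simp only [h1]
    rw [Finset.sum_comm]
    have h2 : ∀ w ∈ W, ∑ y ∈ U, ∑ z ∈ W, e w * e z * (σ w y * σ z y) = 2 * δ * e w ^ 2 := by
      intro w hw
      rw [Finset.sum_comm]
      have h3 : ∀ z ∈ W, ∑ y ∈ U, e w * e z * (σ w y * σ z y) =
          e w * κ * e z + if w = z then 2 * δ * e w ^ 2 else 0 := by
        intro z hz
        rw [← Finset.mul_sum, hG w hw z hz]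
        split_ifs with h
        · subst h; ring
        · ring
      rw [Finset.sum_congr rfl h3, Finset.sum_add_distrib, ← Finset.mul_sum, he0,
        Finset.sum_ite_eq, if_pos hw]
      ring
    rw [Finset.sum_congr rfl h2, Finset.mul_sum]
  have h0 : 0 ≤ ∑ y ∈ U, (2 * δ * F y - E y) ^ 2 := Finset.sum_nonneg fun _ _ => sq_nonneg _
  have h1 : ∑ y ∈ U, (2 * δ * F y - E y) ^ 2 =
      4 * δ ^ 2 * ∑ y ∈ U, F y ^ 2 - 4 * δ * ∑ y ∈ U, F y * E y + ∑ y ∈ U, E y ^ 2 := by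
    simp only [Finset.mul_sum, ← Finset.sum_sub_distrib, ← Finset.sum_add_distrib]
    exact Finset.sum_congr rfl fun y _ => by ring
  rw [h1, hFE, hEE] at h0
  have h2 : ∑ z ∈ W, e z ^ 2 ≤ 2 * δ * ∑ y ∈ U, F y ^ 2 := by
    have : 2 * δ * ∑ z ∈ W, e z ^ 2 ≤ 2 * δ * (2 * δ * ∑ y ∈ U, F y ^ 2) := by nlinarith
    exact le_of_mul_le_mul_left this (by linarith)
  have h3 : S ^ 2 / W.card = Δ ^ 2 / W.card * (∑ y ∈ U, F y) ^ 2 := by rw [hS]; ring
  change ∑ z ∈ W, c z ^ 2 ≤ _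
  linarith

lemma gram2 {Ω V : Type} [DecidableEq V] (U : Finset Ω) (W : Finset V) (σ : V → Ω → ℝ)
    (κ δ Δ : ℝ) (hδ : 0 < δ) (hW : W.Nonempty)
    (hG : ∀ w ∈ W, ∀ z ∈ W, ∑ y ∈ U, σ w y * σ z y = κ + if w = z then 2 * δ else 0)
    (hΔ : ∀ y ∈ U, ∑ z ∈ W, σ z y = Δ) (hΔm : Δ ^ 2 ≤ (W.card : ℝ) ^ 2)
    (hσ : ∀ w y, σ w y ^ 2 = 1) (g : Ω → ℝ) (hg : ∑ y ∈ U, g y = 0) :
    ∑ w ∈ W, ∑ z ∈ W, (∑ y ∈ U, g y * σ w y * σ z y) ^ 2 ≤
      4 * δ * W.card * ∑ y ∈ U, g y ^ 2 := by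
  have hm : (0 : ℝ) < W.card := by exact_mod_cast hW.card_pos
  have h1 := gram U W σ κ δ Δ hδ hW hG hΔ g
  rw [hg] at h1
  have h2 : ∀ w ∈ W, ∑ z ∈ W, (∑ y ∈ U, g y * σ w y * σ z y) ^ 2 ≤
      W.card * (∑ y ∈ U, g y * σ w y) ^ 2 + 2 * δ * ∑ y ∈ U, g y ^ 2 := by
    intro w _
    have := gram U W σ κ δ Δ hδ hW hG hΔ (fun y => g y * σ w y)
    simp only [mul_pow, hσ, mul_one] at this
    refine this.trans ?_
    have : Δ ^ 2 / W.card ≤ W.card := by rw [div_le_iff₀ hm]; nlinarith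
    have := mul_le_mul_of_nonneg_right this (sq_nonneg (∑ y ∈ U, g y * σ w y))
    linarith
  refine (Finset.sum_le_sum h2).trans ?_
  rw [Finset.sum_add_distrib, ← Finset.mul_sum]
  simp only [sum_const, nsmul_eq_mul]
  have := mul_le_mul_of_nonneg_left h1 hm.le
  nlinarith

namespace John

variable {Ω V : Type} [Fintype Ω] [DecidableEq Ω] [Fintype V] [DecidableEq V] (J : John Ω V)

/-- discordant states -/
noncomputable def Dset (x : Ω) (w z : V) : Finset Ω :=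
  (cls J.s x).filter (fun y => J.b y w ≠ J.b y z)

omit [DecidableEq Ω] [Fintype V] in
lemma Dset_comm (x : Ω) (w z : V) : J.Dset x w z = J.Dset x z w := by
  simp only [Dset, ne_comm]

omit [DecidableEq Ω] [Fintype V] in
lemma card_Dset_right (x : Ω) {w z z' : V} (hw : w ∈ J.W x) (hz : z ∈ J.W x) (hz' : z' ∈ J.W x)
    (h1 : w ≠ z) (h2 : w ≠ z') : (J.Dset x w z).card = (J.Dset x w z').card := by
  have key : ∀ {z z' : V}, z ∈ J.W x → z' ∈ J.W x → w ≠ z → w ≠ z' → ∀ y ∈ J.Dset x w z,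
      J.τ z z' y ∈ J.Dset x w z' := by
    intro z z' hz hz' h1 h2 y hy
    simp only [Dset, mem_filter, mem_cls] at hy ⊢
    have e := J.W_eq _ _ hy.1
    refine ⟨J.s.trans' hy.1 (J.τ_rel _ _ _), ?_⟩
    rw [J.τ_b _ _ _ _ (e ▸ hz) (e ▸ hz') (e ▸ hw), J.τ_b _ _ _ _ (e ▸ hz) (e ▸ hz') (e ▸ hz'),
      Equiv.swap_apply_of_ne_of_ne h1 h2, Equiv.swap_apply_right]
    exact hy.2
  refine Finset.card_bij' (fun y _ => J.τ z z' y) (fun y _ => J.τ z' z y) (key hz hz' h1 h2)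
    (key hz' hz h2 h1) ?_ ?_
  · intro y _; rw [J.τ_comm z' z, J.τ_invol]
  · intro y _; rw [J.τ_comm z' z, J.τ_invol]

omit [DecidableEq Ω] [Fintype V] in
lemma card_Dset_eq (x : Ω) {w z w' z' : V} (hw : w ∈ J.W x) (hz : z ∈ J.W x) (hw' : w' ∈ J.W x)
    (hz' : z' ∈ J.W x) (h1 : w ≠ z) (h2 : w' ≠ z') :
    (J.Dset x w z).card = (J.Dset x w' z').card := by
  by_cases h : w = w'
  · subst h; exact J.card_Dset_right x hw hz hz' h1 h2
  · rw [J.card_Dset_right x hw hz hw' h1 h, J.Dset_comm,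
      J.card_Dset_right x hw' hw hz' (Ne.symm h) h2]

omit [DecidableEq Ω] [Fintype V] in
lemma J2cls (x : Ω) (g : Ω → ℝ) (hg : ∑ y ∈ cls J.s x, g y = 0) :
    ∑ w ∈ J.W x, ∑ z ∈ J.W x, (∑ y ∈ J.Dset x w z, g y) ^ 2 / (J.Dset x w z).card ≤
      (J.W x).card * ∑ y ∈ cls J.s x, g y ^ 2 := by
  by_cases hex : ∃ w ∈ J.W x, ∃ z ∈ J.W x, (J.Dset x w z).Nonempty
  swap
  · push Not at hex
    rw [Finset.sum_eq_zero]
    · exact mul_nonneg (Nat.cast_nonneg _) (Finset.sum_nonneg fun _ _ => sq_nonneg _)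
    · intro w hw
      refine Finset.sum_eq_zero fun z hz => ?_
      simp [hex w hw z hz]
  obtain ⟨w0, hw0, z0, hz0, hne⟩ := hex
  have hDself : ∀ w, J.Dset x w w = ∅ := fun w => by simp [Dset]
  have hwz0 : w0 ≠ z0 := fun e => by rw [e, hDself] at hne; simp at hne
  set δ : ℝ := ((J.Dset x w0 z0).card : ℝ) with hδ
  have hδpos : 0 < δ := by rw [hδ]; exact_mod_cast hne.card_pos
  have hδeq : ∀ w ∈ J.W x, ∀ z ∈ J.W x, w ≠ z → ((J.Dset x w z).card : ℝ) = δ := by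
    intro w hw z hz h
    rw [hδ, J.card_Dset_eq x hw hz hw0 hz0 h hwz0]
  set σ : V → Ω → ℝ := fun w y => if J.b y w = true then 1 else -1 with hσ
  have hσσ : ∀ w z y, σ w y * σ z y = 1 - 2 * (if J.b y w ≠ J.b y z then 1 else 0) := by
    intro w z y
    simp only [hσ]
    cases J.b y w <;> cases J.b y z <;> norm_num
  have hsum : ∀ (F : Ω → ℝ) w z, ∑ y ∈ cls J.s x, F y * σ w y * σ z y =
      ∑ y ∈ cls J.s x, F y - 2 * ∑ y ∈ J.Dset x w z, F y := by
    intro F w z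
    simp only [mul_assoc, hσσ, Dset, Finset.sum_filter, Finset.mul_sum, ← Finset.sum_sub_distrib]
    refine Finset.sum_congr rfl fun y _ => ?_
    split_ifs <;> ring
  have hσW : ∀ y, ∑ z ∈ J.W x, σ z y =
      2 * (((J.W x).filter (fun e => J.b y e = true)).card : ℝ) - (J.W x).card := by
    intro y
    have : ∀ z, σ z y = 2 * (if J.b y z = true then 1 else 0) - 1 := fun z => by
      simp only [hσ]; split_ifs <;> norm_num
    simp only [this, Finset.sum_sub_distrib, ← Finset.mul_sum]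
    simp
  have h := gram2 (cls J.s x) (J.W x) σ ((cls J.s x).card - 2 * δ) δ
    (2 * (((J.W x).filter (fun e => J.b x e = true)).card : ℝ) - (J.W x).card) hδpos ⟨w0, hw0⟩
    (fun w hw z hz => ?_) (fun y hy => ?_) ?_ (fun w y => ?_) g hg
  · have h2 : ∀ w ∈ J.W x, ∀ z ∈ J.W x, (∑ y ∈ J.Dset x w z, g y) ^ 2 / (J.Dset x w z).card =
        (∑ y ∈ cls J.s x, g y * σ w y * σ z y) ^ 2 / (4 * δ) := by
      intro w hw z hz
      rw [hsum, hg]
      by_cases e : w = z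
      · simp [e, hDself]
      · rw [hδeq w hw z hz e]; field_simp; ring
    rw [Finset.sum_congr rfl fun w hw => Finset.sum_congr rfl fun z hz => h2 w hw z hz]
    simp only [← Finset.sum_div]
    rw [div_le_iff₀ (by linarith)]
    linarith
  · have := hsum (fun _ => 1) w z
    simp only [one_mul, sum_const, nsmul_eq_mul, mul_one] at this
    rw [this]
    split_ifs with e
    · simp [e, hDself]
    · rw [hδeq w hw z hz e]; ring
  · rw [hσW, J.cnt x y (mem_cls.1 hy)]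
  · have h1 : (((J.W x).filter (fun e => J.b x e = true)).card : ℝ) ≤ (J.W x).card := by
      exact_mod_cast Finset.card_filter_le _ _
    have h2 : (0 : ℝ) ≤ (((J.W x).filter (fun e => J.b x e = true)).card : ℝ) := Nat.cast_nonneg _
    nlinarith
  · simp only [hσ]; split_ifs <;> norm_num

lemma J2 (p : V → V → Ω → Prop) (s' : V → V → Setoid Ω)
    (hs' : ∀ w z x y, s' w z x y ↔ J.s x y ∧ (p w z x ↔ p w z y))
    (hp : ∀ w z x, w ∈ J.W x → z ∈ J.W x → (p w z x ↔ J.b x w ≠ J.b x z)) (f : Ω → ℝ) :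
    ∑ w, ∑ z, ∑ x, (if w ∈ J.W x ∧ z ∈ J.W x ∧ J.b x w ≠ J.b x z then
        ((av (s' w z) - av J.s) *ᵥ f) x ^ 2 else 0) ≤ f ⬝ᵥ (J.L *ᵥ f) := by
  refine le_trans ?_ (J.J1 f)
  rw [Finset.sum_congr rfl fun w _ => Finset.sum_comm, Finset.sum_comm]
  apply sum_le_sum_of_cls J.s
  intro x
  set g : Ω → ℝ := fun y => f y - (av J.s *ᵥ f) y with hg
  have h1 := J.J2cls x g (sum_cls_sub_av J.s f x)
  have h2 : ∑ y ∈ cls J.s x, ((J.W y).card : ℝ) * (f y - (av J.s *ᵥ f) y) ^ 2 =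
      (J.W x).card * ∑ y ∈ cls J.s x, g y ^ 2 := by
    rw [Finset.mul_sum]
    refine Finset.sum_congr rfl fun y hy => ?_
    rw [J.W_eq x y (mem_cls.1 hy)]
  rw [h2]
  refine le_trans (le_of_eq ?_) h1
  rw [Finset.sum_comm, ← Finset.sum_subset (Finset.subset_univ (J.W x))]
  swap
  · intro w _ hw
    refine Finset.sum_eq_zero fun y hy => Finset.sum_eq_zero fun z _ => ?_
    rw [if_neg]
    rw [← J.W_eq x y (mem_cls.1 hy)]
    tauto
  refine Finset.sum_congr rfl fun w hw => ?_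
  rw [Finset.sum_comm, ← Finset.sum_subset (Finset.subset_univ (J.W x))]
  swap
  · intro z _ hz
    refine Finset.sum_eq_zero fun y hy => ?_
    rw [if_neg]
    rw [← J.W_eq x y (mem_cls.1 hy)]
    tauto
  refine Finset.sum_congr rfl fun z hz => ?_
  have h3 : ∀ y ∈ cls J.s x, (if w ∈ J.W y ∧ z ∈ J.W y ∧ J.b y w ≠ J.b y z then
        ((av (s' w z) - av J.s) *ᵥ f) y ^ 2 else 0) =
      if J.b y w ≠ J.b y z then ((∑ y ∈ J.Dset x w z, g y) / (J.Dset x w z).card) ^ 2 else 0 := by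
    intro y hy
    have hy' := mem_cls.1 hy
    have e := J.W_eq x y hy'
    by_cases hb : J.b y w ≠ J.b y z
    · rw [if_pos ⟨e ▸ hw, e ▸ hz, hb⟩, if_pos hb]
      congr 1
      have hc : cls (s' w z) y = J.Dset x w z := by
        ext y'
        simp only [mem_cls, Dset, mem_filter, hs']
        constructor
        · rintro ⟨a1, a2⟩
          have a3 := J.s.trans' hy' a1
          have e' := J.W_eq x y' a3
          exact ⟨a3, (hp w z y' (e' ▸ hw) (e' ▸ hz)).1 (a2.1 ((hp w z y (e ▸ hw) (e ▸ hz)).2 hb))⟩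
        · rintro ⟨a1, a2⟩
          have e' := J.W_eq x y' a1
          exact ⟨J.s.trans' (J.s.symm' hy') a1, by
            rw [hp w z y' (e' ▸ hw) (e' ▸ hz), hp w z y (e ▸ hw) (e ▸ hz)]; tauto⟩
      have hpos := card_cls_pos (s' w z) y
      rw [Matrix.sub_mulVec, Pi.sub_apply, av_mulVec (s' w z), hc]
      rw [hc] at hpos
      have h4 : ∑ y' ∈ J.Dset x w z, g y' =
          ∑ y' ∈ J.Dset x w z, f y' - (J.Dset x w z).card * (av J.s *ᵥ f) y := by
        simp only [hg, Finset.sum_sub_distrib]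
        congr 1
        rw [Finset.sum_congr rfl (g := fun _ => (av J.s *ᵥ f) y)]
        · simp
        · intro y' hy''
          simp only [Dset, mem_filter, mem_cls] at hy''
          exact av_mulVec_congr f (J.s.trans' (J.s.symm' hy''.1) hy')
      rw [h4]
      field_simp
    · rw [if_neg (by tauto), if_neg hb]
  rw [Finset.sum_congr rfl h3, ← Finset.sum_filter]
  change ∑ y ∈ J.Dset x w z, _ = _
  simp only [sum_const, nsmul_eq_mul]
  by_cases h0 : ((J.Dset x w z).card : ℝ) = 0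
  · simp [h0]
  · field_simp

end John

end Crest.Agent.H9Sw
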