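import Crest.Agent.H9.SwGraph

set_option autoImplicit false

namespace Crest.Agent.H9Sw

open Finset Matrix

variable {V : Type} [Fintype V] [DecidableEq V] {d : V → ℤ}

/-- equal row sums of the block -/
def pp (u v w z : V) (A : Gr d) : Prop :=
  χ (A.1 u w) + χ (A.1 u z) = χ (A.1 v w) + χ (A.1 v z)

/-- refined trade relation -/
def R' (u v w z : V) : Setoid (Gr d) where
  r A B := R u v A B ∧ (pp u v w z A ↔ pp u v w z B)
  iseqv := ⟨fun A => ⟨(R u v).refl' A, Iff.rfl⟩, fun h => ⟨(R u v).symm' h.1, h.2.symm⟩,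
    fun h h' => ⟨(R u v).trans' h.1 h'.1, h.2.trans h'.2⟩⟩

omit [DecidableEq V] in
lemma R'_iff (u v w z : V) (A B : Gr d) :
    R' u v w z A B ↔ R u v A B ∧ (pp u v w z A ↔ pp u v w z B) := Iff.rfl

/-- outside vertices -/
def Out (u v w z x : V) : Prop := x ≠ u ∧ x ≠ v ∧ x ≠ w ∧ x ≠ z

instance (u v w z x : V) : Decidable (Out u v w z x) := by unfold Out; infer_instance

/-- joint relation -/
def κp (u v w z : V) : Setoid (Gr d) where
  r A B := (∀ x y, Out u v w z x → Out u v w z y → A.1 x y = B.1 x y) ∧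
    (∀ a, Out u v w z a → χ (A.1 u a) + χ (A.1 v a) = χ (B.1 u a) + χ (B.1 v a)) ∧
    (∀ a, Out u v w z a → χ (A.1 w a) + χ (A.1 z a) = χ (B.1 w a) + χ (B.1 z a)) ∧
    A.1 u v = B.1 u v ∧ A.1 w z = B.1 w z ∧
    χ (A.1 u w) + χ (A.1 u z) + (χ (A.1 v w) + χ (A.1 v z)) =
      χ (B.1 u w) + χ (B.1 u z) + (χ (B.1 v w) + χ (B.1 v z)) ∧
    (pp u v w z A ↔ pp u v w z B)
  iseqv := ⟨fun _ => ⟨fun _ _ _ _ => rfl, fun _ _ => rfl, fun _ _ => rfl, rfl, rfl, rfl, Iff.rfl⟩,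
    fun ⟨a, b, c, e, f, g, h⟩ => ⟨fun x y p q => (a x y p q).symm, fun x p => (b x p).symm,
      fun x p => (c x p).symm, e.symm, f.symm, g.symm, h.symm⟩,
    fun ⟨a, b, c, e, f, g, h⟩ ⟨a', b', c', e', f', g', h'⟩ =>
      ⟨fun x y p q => (a x y p q).trans (a' x y p q), fun x p => (b x p).trans (b' x p),
      fun x p => (c x p).trans (c' x p), e.trans e', f.trans f', g.trans g', h.trans h'⟩⟩

omit [DecidableEq V] in
lemma κp_iff (u v w z : V) (A B : Gr d) : κp u v w z A B ↔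
    (∀ x y, Out u v w z x → Out u v w z y → A.1 x y = B.1 x y) ∧
    (∀ a, Out u v w z a → χ (A.1 u a) + χ (A.1 v a) = χ (B.1 u a) + χ (B.1 v a)) ∧
    (∀ a, Out u v w z a → χ (A.1 w a) + χ (A.1 z a) = χ (B.1 w a) + χ (B.1 z a)) ∧
    A.1 u v = B.1 u v ∧ A.1 w z = B.1 w z ∧
    χ (A.1 u w) + χ (A.1 u z) + (χ (A.1 v w) + χ (A.1 v z)) =
      χ (B.1 u w) + χ (B.1 u z) + (χ (B.1 v w) + χ (B.1 v z)) ∧
    (pp u v w z A ↔ pp u v w z B) := Iff.rfl

/-- pairwise distinct -/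
def Dist (u v w z : V) : Prop := u ≠ v ∧ u ≠ w ∧ u ≠ z ∧ v ≠ w ∧ v ≠ z ∧ w ≠ z

omit [Fintype V] [DecidableEq V] in
lemma Dist.symm {u v w z : V} (h : Dist u v w z) : Dist w z u v :=
  ⟨h.2.2.2.2.2, h.2.1.symm, h.2.2.2.1.symm, h.2.2.1.symm, h.2.2.2.2.1.symm, h.1⟩

omit [DecidableEq V] in
lemma R_pp {u v w z : V} {A B : Gr d} (h : R w z A B) : pp u v w z A ↔ pp u v w z B := by
  have h1 := h.2 u
  have h2 := h.2 v
  rw [A.symm w, A.symm z, B.symm w, B.symm z] at h1 h2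
  simp only [pp, h1, h2]

omit [DecidableEq V] in
lemma R'_le_κp {u v w z : V} (hd : Dist u v w z) (A B : Gr d) (h : R' u v w z A B) :
    κp u v w z A B := by
  obtain ⟨d1, d2, d3, d4, d5, d6⟩ := hd
  obtain ⟨h1, h2⟩ := h
  refine ⟨fun x y p q => h1.1 x y p.1 p.2.1 q.1 q.2.1, fun a _ => h1.2 a, fun a p => ?_, R_uv h1,
    h1.1 w z d2.symm d4.symm d3.symm d5.symm, ?_, h2⟩
  · rw [h1.1 w a d2.symm d4.symm p.1 p.2.1, h1.1 z a d3.symm d5.symm p.1 p.2.1]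
  · linarith [h1.2 w, h1.2 z]

omit [DecidableEq V] in
lemma R_le_κp {u v w z : V} (hd : Dist u v w z) (A B : Gr d) (h : R w z A B) :
    κp u v w z A B := by
  obtain ⟨d1, d2, d3, d4, d5, d6⟩ := hd
  refine ⟨fun x y p q => h.1 x y p.2.2.1 p.2.2.2 q.2.2.1 q.2.2.2, fun a p => ?_, fun a _ => h.2 a,
    h.1 u v d2 d3 d4 d5, R_uv h, ?_, R_pp h⟩
  · rw [h.1 u a d2 d3 p.2.2.1 p.2.2.2, h.1 v a d4 d5 p.2.2.1 p.2.2.2]
  · have h1 := h.2 u
    have h2 := h.2 v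
    rw [A.symm w, A.symm z, B.symm w, B.symm z] at h1 h2
    linarith

/-- raw splice -/
def spf (u v w z : V) (A B : V → V → Bool) (x y : V) : Bool :=
  if ((x = u ∨ x = v) ∧ Out u v w z y) ∨ ((y = u ∨ y = v) ∧ Out u v w z x) then B x y
  else if χ (A u w) + χ (A u z) = χ (B u w) + χ (B u z) then A x y
  else A (Equiv.swap u v x) (Equiv.swap u v y)

lemma bool3 : ∀ a b c e a' b' c' e' : Bool,
    χ a + χ b + (χ c + χ e) = χ a' + χ b' + (χ c' + χ e') →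
    (χ a + χ b = χ c + χ e ↔ χ a' + χ b' = χ c' + χ e') → ¬ χ a + χ b = χ a' + χ b' →
    χ c + χ e = χ a' + χ b' := by decide

section
variable {u v w z : V} (hd : Dist u v w z) {A B : Gr d} (h : κp u v w z A B)

omit [Fintype V] in
lemma spf_off (A B : V → V → Bool) {x y : V} (p1 : x ≠ u) (p2 : x ≠ v) (p3 : y ≠ u) (p4 : y ≠ v) :
    spf u v w z A B x y = A x y := by
  simp [spf, p1, p2, p3, p4, Equiv.swap_apply_of_ne_of_ne]

lemma spf_symm (A B : Gr d) (x y : V) : spf u v w z A.1 B.1 x y = spf u v w z A.1 B.1 y x := by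
  simp only [spf, or_comm (a := (x = u ∨ x = v) ∧ Out u v w z y), A.symm x y, B.symm x y,
    A.symm (Equiv.swap u v x)]

lemma spf_irr (A B : Gr d) (x : V) : spf u v w z A.1 B.1 x x = false := by
  simp [spf, A.irr, B.irr]

include hd h

lemma spf_col (a : V) : χ (spf u v w z A.1 B.1 u a) + χ (spf u v w z A.1 B.1 v a) =
    χ (A.1 u a) + χ (A.1 v a) := by
  obtain ⟨d1, d2, d3, d4, d5, d6⟩ := hd
  by_cases p : Out u v w z a
  · simp only [spf, p, true_or, or_true, and_self, if_true]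
    exact (h.2.1 a p).symm
  have o1 : ¬ Out u v w z u := fun q => q.1 rfl
  have o2 : ¬ Out u v w z v := fun q => q.2.1 rfl
  simp only [spf, p, o1, o2, and_false, or_self, if_false, Equiv.swap_apply_left,
    Equiv.swap_apply_right]
  split_ifs with q
  · rfl
  · rw [Equiv.swap_apply_def]
    split_ifs with q1 q2
    · rw [q1, A.irr, A.irr, A.symm]
    · rw [q2, A.irr, A.irr, A.symm]
    · rw [add_comm]

lemma spf_off' {x y : V} (p1 : x ≠ w) (p2 : x ≠ z) (p3 : y ≠ w) (p4 : y ≠ z) :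
    spf u v w z A.1 B.1 x y = B.1 x y := by
  have e : ∀ x y, (x = u ∨ x = v) → (y = u ∨ y = v) → A.1 x y = B.1 x y ∧
      A.1 (Equiv.swap u v x) (Equiv.swap u v y) = B.1 x y := by
    have e1 := h.2.2.2.1
    have e2 : A.1 v u = B.1 u v := by rw [A.symm, e1]
    have e3 : B.1 v u = B.1 u v := B.symm _ _
    rintro x y (rfl | rfl) (rfl | rfl) <;> simp [A.irr, B.irr, e1, e2, e3]
  by_cases q1 : x = u ∨ x = v
  · by_cases q2 : y = u ∨ y = v
    · simp only [spf, (e x y q1 q2).1, (e x y q1 q2).2, ite_self]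
    · rw [spf, if_pos (Or.inl ⟨q1, fun q => q2 (Or.inl q), fun q => q2 (Or.inr q), p3, p4⟩)]
  · have ox : Out u v w z x := ⟨fun q => q1 (Or.inl q), fun q => q1 (Or.inr q), p1, p2⟩
    by_cases q2 : y = u ∨ y = v
    · rw [spf, if_pos (Or.inr ⟨q2, ox⟩)]
    · have oy : Out u v w z y := ⟨fun q => q2 (Or.inl q), fun q => q2 (Or.inr q), p3, p4⟩
      rw [spf_off _ _ ox.1 ox.2.1 oy.1 oy.2.1, h.1 x y ox oy]

lemma spf_block : χ (spf u v w z A.1 B.1 u w) + χ (spf u v w z A.1 B.1 u z) =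
    χ (B.1 u w) + χ (B.1 u z) ∧ χ (spf u v w z A.1 B.1 v w) + χ (spf u v w z A.1 B.1 v z) =
    χ (B.1 v w) + χ (B.1 v z) := by
  have c1 := spf_col hd h w
  have c2 := spf_col hd h z
  have t := h.2.2.2.2.2.1
  suffices s : χ (spf u v w z A.1 B.1 u w) + χ (spf u v w z A.1 B.1 u z) =
    χ (B.1 u w) + χ (B.1 u z) from ⟨s, by linarith⟩
  obtain ⟨d1, d2, d3, d4, d5, d6⟩ := hd
  have o1 : ¬ Out u v w z u := fun q => q.1 rfl
  have o3 : ¬ Out u v w z w := fun q => q.2.2.1 rfl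
  have o4 : ¬ Out u v w z z := fun q => q.2.2.2 rfl
  simp only [spf, o1, o3, o4, and_false, or_self, if_false, Equiv.swap_apply_left,
    Equiv.swap_apply_of_ne_of_ne d2.symm d4.symm, Equiv.swap_apply_of_ne_of_ne d3.symm d5.symm]
  split_ifs with q
  · exact q
  · exact bool3 _ _ _ _ _ _ _ _ t h.2.2.2.2.2.2 q

lemma spf_row (a : V) : χ (spf u v w z A.1 B.1 w a) + χ (spf u v w z A.1 B.1 z a) =
    χ (B.1 w a) + χ (B.1 z a) := by
  obtain ⟨b1, b2⟩ := spf_block hd h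
  obtain ⟨d1, d2, d3, d4, d5, d6⟩ := hd
  by_cases p1 : a = u
  · rw [p1, spf_symm, spf_symm A B z, B.symm w, B.symm z, b1]
  by_cases p2 : a = v
  · rw [p2, spf_symm, spf_symm A B z, B.symm w, B.symm z, b2]
  rw [spf_off _ _ d2.symm d4.symm p1 p2, spf_off _ _ d3.symm d5.symm p1 p2]
  by_cases p3 : a = w
  · rw [p3, A.irr, B.irr, A.symm, B.symm, h.2.2.2.2.1]
  by_cases p4 : a = z
  · rw [p4, A.irr, B.irr, h.2.2.2.2.1]
  exact h.2.2.1 a ⟨p1, p2, p3, p4⟩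

lemma spf_ok : (∀ x y, spf u v w z A.1 B.1 x y = spf u v w z A.1 B.1 y x) ∧
    (∀ x, spf u v w z A.1 B.1 x x = false) ∧ ∀ x, ∑ y, χ (spf u v w z A.1 B.1 x y) = d x := by
  refine ⟨spf_symm A B, spf_irr A B, fun x => ?_⟩
  by_cases p : x = u ∨ x = v
  · have p1 : x ≠ w := by
      rcases p with rfl | rfl
      · exact hd.2.1
      · exact hd.2.2.2.1
    have p2 : x ≠ z := by
      rcases p with rfl | rfl
      · exact hd.2.2.1
      · exact hd.2.2.2.2.1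
    rw [← B.deg x]
    apply sum_two hd.2.2.2.2.2
    · intro y q1 q2; rw [spf_off' hd h p1 p2 q1 q2]
    · rw [spf_symm A B x, spf_symm A B x, B.symm x, B.symm x, spf_row hd h]
  · push Not at p
    rw [← A.deg x]
    apply sum_two hd.1
    · intro y q1 q2; rw [spf_off _ _ p.1 p.2 q1 q2]
    · rw [spf_symm A B x, spf_symm A B x, A.symm x, A.symm x, spf_col hd h]

end

open Classical in
/-- the splice -/
noncomputable def sp {u v w z : V} (hd : Dist u v w z) (A B : Gr d) : Gr d :=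
  if h : κp u v w z A B then ⟨spf u v w z A.1 B.1, spf_ok hd h⟩ else A

lemma sp_val {u v w z : V} (hd : Dist u v w z) {A B : Gr d} (h : κp u v w z A B) :
    (sp hd A B).1 = spf u v w z A.1 B.1 := by
  rw [sp, dif_pos h]

lemma sp_rel {u v w z : V} (hd : Dist u v w z) {A B : Gr d} (h : κp u v w z A B) :
    R' u v w z A (sp hd A B) ∧ R w z B (sp hd A B) := by
  have r2 : R w z B (sp hd A B) := by
    rw [R_iff, sp_val hd h]
    exact ⟨fun x y p1 p2 p3 p4 => (spf_off' hd h p1 p2 p3 p4).symm, fun a => (spf_row hd h a).symm⟩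
  refine ⟨⟨?_, h.2.2.2.2.2.2.trans (R_pp r2)⟩, r2⟩
  rw [R_iff, sp_val hd h]
  exact ⟨fun x y p1 p2 p3 p4 => (spf_off _ _ p1 p2 p3 p4).symm, fun a => (spf_col hd h a).symm⟩

lemma sp_sp {u v w z : V} (hd : Dist u v w z) {A B : Gr d} (h : κp u v w z A B) :
    sp hd (sp hd A B) (sp hd B A) = A := by
  have h' := (κp u v w z).symm' h
  have hk : κp u v w z (sp hd A B) (sp hd B A) :=
    (κp u v w z).trans' ((κp u v w z).symm' (R'_le_κp hd _ _ (sp_rel hd h).1))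
      (R_le_κp hd _ _ (sp_rel hd h').2)
  apply Gr.ext'
  intro x y
  rw [sp_val hd hk, sp_val hd h, sp_val hd h', spf, (spf_block hd h).1, (spf_block hd h').1]
  have so : ∀ x, Out u v w z (Equiv.swap u v x) ↔ Out u v w z x := by
    intro x
    rw [Equiv.swap_apply_def]
    split_ifs with p q
    · simp [Out, p]
    · simp [Out, q]
    · rfl
  have su : ∀ x, (Equiv.swap u v x = u ∨ Equiv.swap u v x = v) ↔ (x = u ∨ x = v) := by
    intro x
    rw [Equiv.swap_apply_def]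
    split_ifs with p q
    · simp [p]
    · simp [q]
    · rfl
  split_ifs with p q
  · rw [spf, if_pos p]
  · rw [spf, if_neg p, if_pos q.symm]
  · rw [spf, if_neg (by rwa [so, so, su, su]), if_neg (fun e => q e.symm), Equiv.swap_apply_self,
      Equiv.swap_apply_self]

lemma comm1 {u v w z : V} (hd : Dist u v w z) :
    av (R' u v w z : Setoid (Gr d)) * av (R w z) = av (R w z) * av (R' u v w z) :=
  splice_comm (R'_le_κp hd) (R_le_κp hd) (sp hd)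
    (fun _ _ h => ⟨(sp_rel hd h).1, (sp_rel hd h).2, sp_sp hd h⟩)

lemma comm2 {u v w z : V} (hd : Dist u v w z) :
    av (R' u v w z : Setoid (Gr d)) * av (R' w z u v) = av (R' w z u v) * av (R' u v w z) := by
  let κ : Setoid (Gr d) :=
    { r := fun A B => κp u v w z A B ∧ (pp w z u v A ↔ pp w z u v B)
      iseqv := ⟨fun A => ⟨(κp u v w z).refl' A, Iff.rfl⟩,
        fun h => ⟨(κp u v w z).symm' h.1, h.2.symm⟩,
        fun h h' => ⟨(κp u v w z).trans' h.1 h'.1, h.2.trans h'.2⟩⟩ }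
  exact splice_comm (κ := κ) (fun A B h => ⟨R'_le_κp hd A B h, R_pp h.1⟩)
    (fun A B h => ⟨R_le_κp hd A B h.1, h.2⟩) (sp hd)
    (fun _ _ h => ⟨(sp_rel hd h.1).1,
      ⟨(sp_rel hd h.1).2, h.2.symm.trans (R_pp (sp_rel hd h.1).1.1)⟩, sp_sp hd h.1⟩)

lemma sw_rel' (u v w z : V) (A : Gr d) : R' u v w z A (sw u v w z A) :=
  ⟨sw_rel u v w z A, by rw [sw_symm]; exact R_pp (sw_rel w z u v A)⟩

lemma bool4 : ∀ a b c e : Bool, ¬ (a ≠ c ∧ b ≠ e ∧ a ≠ b) →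
    (∀ a' b' c' e' : Bool, χ a + χ c = χ a' + χ c' → χ b + χ e = χ b' + χ e' →
      (χ a + χ b = χ c + χ e ↔ χ a' + χ b' = χ c' + χ e')) ∨
    (∀ a' b' c' e' : Bool, χ a + χ b = χ a' + χ b' → χ c + χ e = χ c' + χ e' →
      (χ a + χ c = χ b + χ e ↔ χ a' + χ c' = χ b' + χ e')) := by decide

/-- defect term -/
noncomputable def Nt (u v w z : V) (f : Gr d → ℝ) : ℝ :=
  ∑ x, if Act u v w z x then ((av (R' u v w z) - av (R u v)) *ᵥ f) x ^ 2 else 0

/-- Dirichlet term -/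
noncomputable def Dt (u v w z : V) (f : Gr d → ℝ) : ℝ :=
  (proj (sw u v w z) *ᵥ f) ⬝ᵥ (proj (sw u v w z) *ᵥ f)

lemma quad_graph {u v w z : V} (hd : Dist u v w z) (f : Gr d → ℝ) :
    Dt u v w z f - Nt u v w z f / 2 - Nt w z u v f / 2 ≤
      ((1 - av (R u v)) *ᵥ f) ⬝ᵥ ((1 - av (R w z)) *ᵥ f) := by
  have := quad (r1 := R u v) (r1' := R' u v w z) (r2 := R w z) (r2' := R' w z u v)
    (fun _ _ h => h.1) (fun _ _ h => h.1) (comm1 hd) (comm1 hd.symm) (comm2 hd)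
    (sw_invol u v w z) (sw_rel' u v w z) (fun x => by rw [sw_symm]; exact sw_rel' w z u v x)
    (Act u v w z) (fun A hA => ?_) f
  · have e : ∀ x : Gr d, Act w z u v x ↔ Act u v w z x := fun x => ⟨Act.symm, Act.symm⟩
    simpa only [Dt, Nt, e] using this
  · obtain ⟨d1, d2, d3, d4, d5, d6⟩ := hd
    rcases bool4 (A.1 u w) (A.1 u z) (A.1 v w) (A.1 v z) (fun q => hA
      ⟨mem_Wset.2 ⟨d2.symm, d4.symm, q.1⟩, mem_Wset.2 ⟨d3.symm, d5.symm, q.2.1⟩, q.2.2⟩) with q | q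
    · exact Or.inl fun B hB => ⟨hB, q _ _ _ _ (hB.2 w) (hB.2 z)⟩
    · refine Or.inr fun B hB => ⟨hB, ?_⟩
      have h1 := hB.2 u
      have h2 := hB.2 v
      simp only [pp, A.symm w, A.symm z, B.symm w, B.symm z] at h1 h2 ⊢
      exact q _ _ _ _ h1 h2

lemma bool5 : ∀ a b c e : Bool, a ≠ c → b ≠ e → (χ a + χ b = χ c + χ e ↔ a ≠ b) := by decide

lemma N_le_D (u v : V) (f : Gr d → ℝ) : ∑ w, ∑ z, Nt u v w z f ≤ ∑ w, ∑ z, Dt u v w z f := by
  have := (john u v).J2 (pp u v) (R' u v) (fun _ _ _ _ => Iff.rfl)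
    (fun w z A hw hz => bool5 _ _ _ _ (mem_Wset.1 hw).2.2 (mem_Wset.1 hz).2.2) f
  rw [John.dot_L] at this
  convert this using 6 <;> rfl

lemma h_le_D (u v : V) (f : Gr d → ℝ) :
    2 * (((1 - av (R u v)) *ᵥ f) ⬝ᵥ ((1 - av (R u v)) *ᵥ f)) ≤ ∑ w, ∑ z, Dt u v w z f := by
  have := (john u v).J3 f
  rwa [John.dot_L] at this

lemma disjoint_sum (f : Gr d → ℝ) : 0 ≤ ∑ u, ∑ v, ∑ w, ∑ z,
    if u ≠ v ∧ u ≠ w ∧ u ≠ z ∧ v ≠ w ∧ v ≠ z ∧ w ≠ z then
      ((1 - av (R u v)) *ᵥ f) ⬝ᵥ ((1 - av (R w z)) *ᵥ f) else 0 := by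
  have h1 : ∑ u, ∑ v, ∑ w, ∑ z, (Dt u v w z f - Nt u v w z f / 2 - Nt w z u v f / 2) ≤
      ∑ u, ∑ v, ∑ w, ∑ z, if u ≠ v ∧ u ≠ w ∧ u ≠ z ∧ v ≠ w ∧ v ≠ z ∧ w ≠ z then
        ((1 - av (R u v)) *ᵥ f) ⬝ᵥ ((1 - av (R w z)) *ᵥ f) else 0 := by
    refine Finset.sum_le_sum fun u _ => Finset.sum_le_sum fun v _ => Finset.sum_le_sum fun w _ =>
      Finset.sum_le_sum fun z _ => ?_
    split_ifs with h
    · exact quad_graph h f
    · have n1 : ∀ A : Gr d, ¬ Act u v w z A := fun A q => h q.dist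
      have n2 : ∀ A : Gr d, ¬ Act w z u v A := fun A q => n1 A q.symm
      simp [Dt, Nt, n1, n2, dotProduct, proj_mulVec, sw_id]
  refine le_trans ?_ h1
  simp only [Finset.sum_sub_distrib, ← Finset.sum_div]
  have h2 : ∑ u, ∑ v, ∑ w, ∑ z, Nt w z u v f = ∑ u, ∑ v, ∑ w, ∑ z, Nt u v w z f := by
    rw [Finset.sum_congr rfl fun u _ => Finset.sum_comm, Finset.sum_comm]
    refine Finset.sum_congr rfl fun w _ => ?_
    rw [Finset.sum_congr rfl fun u _ => Finset.sum_comm, Finset.sum_comm]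
  have h3 : ∑ u, ∑ v, ∑ w, ∑ z, Nt u v w z f ≤ ∑ u, ∑ v, ∑ w, ∑ z, Dt u v w z f :=
    Finset.sum_le_sum fun u _ => Finset.sum_le_sum fun v _ => N_le_D u v f
  linarith

end Crest.Agent.H9Sw
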