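import Crest.Agent.H9.SwAvg

set_option autoImplicit false

namespace Crest.Agent.H9Sw

open Finset Matrix

/-- indicator of a Boolean -/
def χ (b : Bool) : ℤ := if b then 1 else 0

@[simp] lemma χ_true : χ true = 1 := rfl
@[simp] lemma χ_false : χ false = 0 := rfl

lemma cross_ineq (N N' A B B' : ℕ → ℝ) (hN : ∀ w, 0 ≤ N w) (hN' : ∀ w, 0 ≤ N' w)
    (r : ∀ w, N (w + 1) * A w = N w * B w) (r' : ∀ w, N' (w + 1) * A w = N' w * B' w)
    {x y : ℕ} (hxy : x ≤ y) (hA : ∀ w, x ≤ w → w < y → 0 < A w)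
    (hB : ∀ w, x ≤ w → w < y → 0 ≤ B' w ∧ B' w ≤ B w) : N x * N' y ≤ N y * N' x := by
  have key : ∀ w, x ≤ w → w ≤ y → N x * N' w ≤ N w * N' x := by
    intro w hw
    induction w, hw using Nat.le_induction with
    | base => intro _; exact le_rfl
    | succ w hw ih =>
      intro h
      have ih' := ih (by omega)
      have a := hA w hw (by omega)
      obtain ⟨b1, b2⟩ := hB w hw (by omega)
      refine le_of_mul_le_mul_right ?_ a
      calc N x * N' (w + 1) * A w = N x * N' w * B' w := by rw [mul_assoc, r', mul_assoc]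
        _ ≤ N w * N' x * B' w := mul_le_mul_of_nonneg_right ih' b1
        _ ≤ N w * N' x * B w := mul_le_mul_of_nonneg_left b2 (mul_nonneg (hN w) (hN' x))
        _ = N (w + 1) * N' x * A w := by
          rw [mul_right_comm, ← r, mul_right_comm]
  exact key y hxy le_rfl

lemma cheb (R : Finset ℕ) (N N' φ : ℕ → ℝ)
    (h : ∀ x y, x < y → 0 ≤ (φ y - φ x) * (N y * N' x - N x * N' y)) :
    (∑ y ∈ R, N' y * φ y) * (∑ y ∈ R, N y) ≤ (∑ y ∈ R, N y * φ y) * (∑ y ∈ R, N' y) := by
  have h1 : 0 ≤ ∑ x ∈ R, ∑ y ∈ R, (φ y - φ x) * (N y * N' x - N x * N' y) := by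
    refine Finset.sum_nonneg fun x _ => Finset.sum_nonneg fun y _ => ?_
    rcases lt_trichotomy x y with e | e | e
    · exact h x y e
    · subst e; simp
    · have := h y x e
      nlinarith
  have h2 : ∑ x ∈ R, ∑ y ∈ R, (φ y - φ x) * (N y * N' x - N x * N' y) =
      (∑ y ∈ R, N' y) * (∑ y ∈ R, N y * φ y) - (∑ y ∈ R, N y) * (∑ y ∈ R, N' y * φ y)
      - (∑ y ∈ R, N' y * φ y) * (∑ y ∈ R, N y) + (∑ y ∈ R, N y * φ y) * (∑ y ∈ R, N' y) := by
    simp only [Finset.sum_mul_sum, ← Finset.sum_sub_distrib, ← Finset.sum_add_distrib]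
    exact Finset.sum_congr rfl fun x _ => Finset.sum_congr rfl fun y _ => by ring
  rw [h2] at h1
  nlinarith

/-- An abstract family of three-row binary matrices with fixed margins. -/
structure Trip (Ω C : Type) [Fintype C] [DecidableEq C] where
  s0 : Setoid Ω
  s : Fin 3 → Setoid Ω
  x : Ω → C → Fin 3 → Bool
  inj : ∀ G G', s0 G G' → (∀ c i, x G c i = x G' c i) → G = G'
  col : ∀ G G' c, s0 G G' → ∑ i, χ (x G c i) = ∑ i, χ (x G' c i)
  row : ∀ G G' i, s0 G G' → ∑ c, χ (x G c i) = ∑ c, χ (x G' c i)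
  sw : ∀ G i j a b, x G a i = true → x G a j = false → x G b i = false → x G b j = true →
    ∃ G', s0 G G' ∧ ∀ c l, x G' c l = if (c = a ∨ c = b) ∧ (l = i ∨ l = j) then !x G c l else x G c l
  s_iff : ∀ i G G', s i G G' ↔ s0 G G' ∧ ∀ c, x G c i = x G' c i

lemma dec1 : ∀ p q : Fin 3 → Bool, ∑ i, χ (p i) = ∑ i, χ (q i) → (∀ l, p l = q l) ∨
    ∃ i j, p i = true ∧ p j = false ∧ q i = false ∧ q j = true ∧
      ∀ l, (l = i ∨ l = j) ∨ p l = q l := by decide

lemma dec2 : ∀ (p q : Fin 3 → Bool) (i : Fin 3), ∑ i, χ (p i) = ∑ i, χ (q i) → p i ≠ q i →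
    p (i + 1) = q (i + 1) ∨ p (i + 2) = q (i + 2) := by decide

lemma dec3 : ∀ (p : Fin 3 → Bool) (i : Fin 3), χ (p i) =
    (if ∑ i, χ (p i) = 1 ∧ p i = true then 1 else 0) -
      (if ∑ i, χ (p i) = 2 ∧ p i = false then 1 else 0) +
      (if 2 ≤ ∑ i, χ (p i) then 1 else 0) := by decide

lemma dec4 : ∀ (p q : Fin 3 → Bool) (i : Fin 3), ∑ i, χ (p i) = ∑ i, χ (q i) → p i ≠ q i →
    ∑ i, χ (p i) = 1 ∨ ∑ i, χ (p i) = 2 := by decide

lemma dec5 : ∀ (p : Fin 3 → Bool) (i j k : Fin 3), i ≠ j → i ≠ k → j ≠ k →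
    (if ∑ i, χ (p i) = 1 ∧ p i = true then 1 else 0) +
    (if ∑ i, χ (p i) = 1 ∧ p j = true then 1 else 0) +
    (if ∑ i, χ (p i) = 1 ∧ p k = true then 1 else 0) =
    (if ∑ i, χ (p i) = 1 then 1 else 0 : ℕ) := by decide

lemma dec6 : ∀ (p : Fin 3 → Bool) (j k : Fin 3), j ≠ k → ∑ i, χ (p i) = 1 → p k = true →
    p j = false := by decide

lemma dec7 : ∀ (p : Fin 3 → Bool) (j k : Fin 3), j ≠ k → ∑ i, χ (p i) = 2 → p k = false →
    p j = true := by decide

namespace Trip

variable {Ω C : Type} [Fintype C] [DecidableEq C] (T : Trip Ω C)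

/-- column sum -/
def cs (G : Ω) (c : C) : ℤ := ∑ i, χ (T.x G c i)

lemma cs_eq {G G' : Ω} (h : T.s0 G G') (c : C) : T.cs G c = T.cs G' c := T.col G G' c h

/-- sum-one columns with a one in row `i` -/
def tS (G : Ω) (i : Fin 3) : Finset C := univ.filter (fun c => T.cs G c = 1 ∧ T.x G c i = true)

/-- sum-two columns with a zero in row `i` -/
def uS (G : Ω) (i : Fin 3) : Finset C := univ.filter (fun c => T.cs G c = 2 ∧ T.x G c i = false)

lemma exists_swap (a b : C) (G : Ω) (h : T.cs G a = T.cs G b) :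
    ∃ G', T.s0 G G' ∧ ∀ c l, T.x G' c l = T.x G (Equiv.swap a b c) l := by
  rcases dec1 _ _ h with e | ⟨i, j, h1, h2, h3, h4, h5⟩
  · refine ⟨G, T.s0.refl' G, fun c l => ?_⟩
    rw [Equiv.swap_apply_def]
    split_ifs with p q
    · rw [p, e]
    · rw [q, e]
    · rfl
  · obtain ⟨G', r, e⟩ := T.sw G i j a b h1 h2 h3 h4
    refine ⟨G', r, fun c l => ?_⟩
    rw [e, Equiv.swap_apply_def]
    by_cases p : c = a
    · subst p
      simp only [true_or, true_and, if_true]
      rcases h5 l with (q | q) | q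
      · subst q; simp [h1, h3]
      · subst q; simp [h2, h4]
      · split_ifs with q'
        · rcases q' with q' | q' <;> subst q' <;> simp_all
        · exact q
    · by_cases p' : c = b
      · subst p'
        simp only [or_true, true_and, if_neg p, if_true]
        rcases h5 l with (q | q) | q
        · subst q; simp [h1, h3]
        · subst q; simp [h2, h4]
        · split_ifs with q'
          · rcases q' with q' | q' <;> subst q' <;> simp_all
          · exact q.symm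
      · simp [p, p']

open Classical in
/-- column transposition -/
noncomputable def ρ (a b : C) (G : Ω) : Ω :=
  if h : T.cs G a = T.cs G b then (T.exists_swap a b G h).choose else G

lemma ρ_rel (a b : C) (G : Ω) : T.s0 G (T.ρ a b G) := by
  unfold ρ
  split_ifs with h
  · exact (T.exists_swap a b G h).choose_spec.1
  · exact T.s0.refl' G

lemma ρ_x {a b : C} {G : Ω} (h : T.cs G a = T.cs G b) (c : C) (l : Fin 3) :
    T.x (T.ρ a b G) c l = T.x G (Equiv.swap a b c) l := by
  unfold ρ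
  rw [dif_pos h]
  exact (T.exists_swap a b G h).choose_spec.2 c l

lemma ρ_id {a b : C} {G : Ω} (h : ¬ T.cs G a = T.cs G b) : T.ρ a b G = G := by
  unfold ρ
  rw [dif_neg h]

lemma ρ_invol (a b : C) (G : Ω) : T.ρ a b (T.ρ a b G) = G := by
  by_cases h : T.cs G a = T.cs G b
  · symm
    apply T.inj _ _ (T.s0.trans' (T.ρ_rel a b G) (T.ρ_rel a b _))
    intro c i
    rw [T.ρ_x (by rw [← T.cs_eq (T.ρ_rel a b G), ← T.cs_eq (T.ρ_rel a b G), h]), T.ρ_x h,
      Equiv.swap_apply_self]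
  · rw [T.ρ_id h, T.ρ_id h]

lemma ρ_s {a b : C} {i : Fin 3} {G G' : Ω} (h : T.s i G G') :
    T.s i (T.ρ a b G) (T.ρ a b G') := by
  have h' := (T.s_iff _ _ _).1 h
  by_cases e : T.cs G a = T.cs G b
  · rw [T.s_iff]
    refine ⟨T.s0.trans' (T.s0.symm' (T.ρ_rel a b G)) (T.s0.trans' h'.1 (T.ρ_rel a b G')), fun c => ?_⟩
    rw [T.ρ_x e, T.ρ_x (by rw [← T.cs_eq h'.1, ← T.cs_eq h'.1, e]), h'.2]
  · rw [T.ρ_id e, T.ρ_id (by rw [← T.cs_eq h'.1, ← T.cs_eq h'.1]; exact e)]
    exact h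

lemma ρ_s_self {a b : C} {i : Fin 3} {G : Ω} (h : T.x G a i = T.x G b i) :
    T.s i G (T.ρ a b G) := by
  by_cases e : T.cs G a = T.cs G b
  · rw [T.s_iff]
    refine ⟨T.ρ_rel a b G, fun c => ?_⟩
    rw [T.ρ_x e, Equiv.swap_apply_def]
    split_ifs with p q
    · rw [p, h]
    · rw [q, h]
    · rfl
  · rw [T.ρ_id e]

lemma row_eq (G : Ω) (i : Fin 3) : ∑ c, χ (T.x G c i) =
    ((T.tS G i).card : ℤ) - (T.uS G i).card + (univ.filter (fun c => 2 ≤ T.cs G c)).card := by
  simp only [tS, uS, Finset.card_filter, Nat.cast_sum, ← Finset.sum_sub_distrib,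
    ← Finset.sum_add_distrib]
  refine Finset.sum_congr rfl fun c _ => ?_
  have := dec3 (T.x G c) i
  simp only [cs]
  rw [this]
  push_cast
  rfl

lemma tu_eq {G G' : Ω} (h : T.s0 G G') (i : Fin 3) :
    ((T.tS G i).card : ℝ) - (T.uS G i).card = ((T.tS G' i).card : ℝ) - (T.uS G' i).card := by
  have h1 := T.row G G' i h
  rw [row_eq, row_eq] at h1
  simp only [T.cs_eq h] at h1
  have h2 : ((T.tS G i).card : ℤ) - (T.uS G i).card = ((T.tS G' i).card : ℤ) - (T.uS G' i).card := by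
    linarith
  exact_mod_cast h2

lemma t_sum {G G' : Ω} (h : T.s0 G G') {i j k : Fin 3} (h1 : i ≠ j) (h2 : i ≠ k) (h3 : j ≠ k) :
    ((T.tS G' i).card : ℝ) + (T.tS G' j).card + (T.tS G' k).card =
      (univ.filter (fun c => T.cs G c = 1)).card := by
  have : (T.tS G' i).card + (T.tS G' j).card + (T.tS G' k).card =
      (univ.filter (fun c => T.cs G c = 1)).card := by
    simp only [tS, Finset.card_filter, ← Finset.sum_add_distrib, T.cs_eq h]
    exact Finset.sum_congr rfl fun c _ => dec5 (T.x G' c) i j k h1 h2 h3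
  exact_mod_cast this

lemma tS_eq {G G' : Ω} {i : Fin 3} (h : T.s i G G') : T.tS G i = T.tS G' i := by
  have h' := (T.s_iff _ _ _).1 h
  simp only [tS, T.cs_eq h'.1, h'.2]

lemma exists_pair {G G' : Ω} {i : Fin 3} (h : T.s0 G G') (ht : (T.tS G i).card = (T.tS G' i).card)
    {c : C} (hc : T.x G c i ≠ T.x G' c i) :
    ∃ a b, T.cs G a = T.cs G b ∧ T.x G a i = true ∧ T.x G' a i = false ∧ T.x G b i = false ∧
      T.x G' b i = true := by
  have gen : ∀ X Y : Finset C, X.card = Y.card → X ≠ Y → ∃ a b, a ∈ X ∧ a ∉ Y ∧ b ∈ Y ∧ b ∉ X := by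
    intro X Y e n
    have k1 : ¬ X ⊆ Y := fun hs => n (Finset.eq_of_subset_of_card_le hs e.ge)
    have k2 : ¬ Y ⊆ X := fun hs => n (Finset.eq_of_subset_of_card_le hs e.le).symm
    obtain ⟨a, ha1, ha2⟩ := Finset.not_subset.1 k1
    obtain ⟨b, hb1, hb2⟩ := Finset.not_subset.1 k2
    exact ⟨a, b, ha1, ha2, hb1, hb2⟩
  have hu : (T.uS G i).card = (T.uS G' i).card := by
    have := T.tu_eq h i
    rw [ht] at this
    have h2 : ((T.uS G i).card : ℝ) = (T.uS G' i).card := by linarith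
    exact_mod_cast h2
  rcases dec4 _ _ i (T.col G G' c h) hc with e | e
  · obtain ⟨a, b, a1, a2, b1, b2⟩ := gen _ _ ht (fun e' => by
      have := Finset.ext_iff.1 e' c
      simp only [tS, mem_filter, mem_univ, true_and, ← T.cs_eq h] at this
      simp only [cs, e, true_and] at this
      exact hc (Bool.eq_iff_iff.2 this))
    simp only [tS, mem_filter, mem_univ, true_and, ← T.cs_eq h] at a1 a2 b1 b2
    refine ⟨a, b, by rw [a1.1, b1.1], a1.2, ?_, ?_, b1.2⟩
    · simpa [a1.1] using a2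
    · simpa [b1.1] using b2
  · obtain ⟨a, b, a1, a2, b1, b2⟩ := gen _ _ hu (fun e' => by
      have := Finset.ext_iff.1 e' c
      simp only [uS, mem_filter, mem_univ, true_and, ← T.cs_eq h] at this
      simp only [cs, e, true_and] at this
      revert this hc
      cases T.x G c i <;> cases T.x G' c i <;> simp)
    simp only [uS, mem_filter, mem_univ, true_and, ← T.cs_eq h] at a1 a2 b1 b2
    refine ⟨b, a, by rw [a1.1, b1.1], ?_, b1.2, a1.2, ?_⟩
    · simpa [b1.1] using b2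
    · simpa [a1.1] using a2

lemma dep_t {i : Fin 3} {g : Ω → ℝ} (hinv : ∀ G G', T.s i G G' → g G = g G')
    (hρ : ∀ a b G, g (T.ρ a b G) = g G) {G G' : Ω} (h : T.s0 G G')
    (ht : (T.tS G i).card = (T.tS G' i).card) : g G = g G' := by
  generalize hk : (univ.filter (fun c => T.x G c i ≠ T.x G' c i)).card = k
  induction k using Nat.strong_induction_on generalizing G with
  | _ k ih =>
    by_cases hne : ∀ c, T.x G c i = T.x G' c i
    · exact hinv _ _ ((T.s_iff _ _ _).2 ⟨h, hne⟩)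
    push Not at hne
    obtain ⟨c, hc⟩ := hne
    obtain ⟨a, b, e, h1, h2, h3, h4⟩ := T.exists_pair h ht hc
    rw [← hρ a b G]
    refine ih _ ?_ (T.s0.trans' (T.s0.symm' (T.ρ_rel a b G)) h) ?_ rfl
    · rw [← hk]
      apply Finset.card_lt_card
      rw [Finset.ssubset_iff_of_subset]
      · refine ⟨a, by simp [h1, h2], ?_⟩
        simp [T.ρ_x e, h3, h2]
      · intro c' he
        simp only [mem_filter, mem_univ, true_and] at he ⊢
        rw [T.ρ_x e, Equiv.swap_apply_def] at he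
        split_ifs at he with e1 e2
        · subst e1; simp [h1, h2]
        · subst e2; simp [h3, h4]
        · exact he
    · rw [← ht]
      refine Finset.card_bijective (Equiv.swap a b) (Equiv.swap a b).bijective fun c' => ?_
      simp only [tS, mem_filter, mem_univ, true_and, T.ρ_x e, ← T.cs_eq (T.ρ_rel a b G)]
      have : T.cs G (Equiv.swap a b c') = T.cs G c' := by
        rw [Equiv.swap_apply_def]
        split_ifs with p q
        · rw [p, e]
        · rw [q, e]
        · rfl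
      rw [this]

end Trip

end Crest.Agent.H9Sw
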